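import Mathlib

/-!
Iterated ultrafilter limits of bounded functions of increasing tuples.
-/

namespace P125F
open Filter Topology

/-- limit of a real function along the hyperfilter -/
noncomputable def uLim (h : ℕ → ℝ) : ℝ :=
  Classical.epsilon (fun x => Tendsto h (hyperfilter ℕ : Filter ℕ) (𝓝 x))

theorem uLim_spec (h : ℕ → ℝ) (B : ℝ) (hB : ∀ t, |h t| ≤ B) :
    Tendsto h (hyperfilter ℕ : Filter ℕ) (𝓝 (uLim h)) := by
  have h1 : ∃ x, Tendsto h (hyperfilter ℕ : Filter ℕ) (𝓝 x) := by
    have hc : IsCompact (Set.Icc (-B) B) := isCompact_Icc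
    obtain ⟨x, _, hx⟩ := hc.ultrafilter_le_nhds ((hyperfilter ℕ).map h) (by
      rw [le_principal_iff]
      exact Filter.mem_map.2 (Filter.univ_mem' fun t => abs_le.1 (hB t)))
    exact ⟨x, hx⟩
  exact Classical.epsilon_spec h1

theorem uLim_eq (h : ℕ → ℝ) (x : ℝ) (hx : Tendsto h (hyperfilter ℕ : Filter ℕ) (𝓝 x)) :
    uLim h = x :=
  tendsto_nhds_unique (Classical.epsilon_spec
    (p := fun x => Tendsto h (hyperfilter ℕ : Filter ℕ) (𝓝 x)) ⟨x, hx⟩) hx

theorem uLim_const (x : ℝ) : uLim (fun _ => x) = x := uLim_eq _ _ tendsto_const_nhds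

theorem uLim_bdd (h : ℕ → ℝ) (B : ℝ) (hB : ∀ t, |h t| ≤ B) : |uLim h| ≤ B :=
  le_of_tendsto (uLim_spec h B hB).abs (Filter.Eventually.of_forall hB)

/-- iterated limit, first coordinate outermost -/
noncomputable def IL : (K : ℕ) → ((Fin K → ℕ) → ℝ) → ℝ
  | 0, g => g (fun i => i.elim0)
  | K + 1, g => uLim (fun t => IL K (fun Φ => g (Fin.cons t Φ)))

theorem IL_bdd (K : ℕ) (g : (Fin K → ℕ) → ℝ) (B : ℝ) (hB : ∀ Φ, |g Φ| ≤ B) : |IL K g| ≤ B := by
  induction K with
  | zero => exact hB _
  | succ K ih => exact uLim_bdd _ _ fun t => ih _ fun Φ => hB _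

theorem IL_const (K : ℕ) (c : ℝ) : IL K (fun _ => c) = c := by
  induction K with
  | zero => rfl
  | succ K ih =>
    show uLim (fun t => IL K (fun _ => c)) = c
    rw [ih, uLim_const]

theorem IL_add (K : ℕ) (g g' : (Fin K → ℕ) → ℝ) (B : ℝ) (hB : ∀ Φ, |g Φ| ≤ B)
    (hB' : ∀ Φ, |g' Φ| ≤ B) : IL K (fun Φ => g Φ + g' Φ) = IL K g + IL K g' := by
  induction K with
  | zero => rfl
  | succ K ih =>
    show uLim (fun t => IL K (fun Φ => g (Fin.cons t Φ) + g' (Fin.cons t Φ))) = _
    apply uLim_eq
    have h1 : (fun t => IL K (fun Φ => g (Fin.cons t Φ) + g' (Fin.cons t Φ)))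
        = fun t => IL K (fun Φ => g (Fin.cons t Φ)) + IL K (fun Φ => g' (Fin.cons t Φ)) := by
      funext t
      exact ih _ _ (fun Φ => hB _) (fun Φ => hB' _)
    rw [h1]
    exact (uLim_spec _ B fun t => IL_bdd K _ B fun Φ => hB _).add
      (uLim_spec _ B fun t => IL_bdd K _ B fun Φ => hB' _)

theorem IL_neg (K : ℕ) (g : (Fin K → ℕ) → ℝ) (B : ℝ) (hB : ∀ Φ, |g Φ| ≤ B) :
    IL K (fun Φ => - g Φ) = - IL K g := by
  have h1 := IL_add K g (fun Φ => - g Φ) B hB (fun Φ => by rw [abs_neg]; exact hB Φ)
  have h2 : (fun Φ => g Φ + - g Φ) = fun _ : Fin K → ℕ => (0 : ℝ) := by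
    funext Φ; exact add_neg_cancel _
  rw [h2, IL_const] at h1
  linarith

theorem IL_sum {ι : Type} (s : Finset ι) (K : ℕ) (g : ι → (Fin K → ℕ) → ℝ) (B : ℝ)
    (hB0 : 0 ≤ B) (hB : ∀ i Φ, |g i Φ| ≤ B) :
    IL K (fun Φ => ∑ i ∈ s, g i Φ) = ∑ i ∈ s, IL K (g i) := by
  classical
  induction s using Finset.induction_on with
  | empty => simp only [Finset.sum_empty]; exact IL_const K 0
  | insert a s ha ih =>
    rw [Finset.sum_insert ha, ← ih]
    have h1 : (fun Φ => ∑ i ∈ insert a s, g i Φ) = fun Φ => g a Φ + ∑ i ∈ s, g i Φ := by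
      funext Φ; rw [Finset.sum_insert ha]
    rw [h1]
    refine IL_add K _ _ (B + s.card * B) (fun Φ => ?_) (fun Φ => ?_)
    · have := hB a Φ
      have h2 : 0 ≤ (s.card : ℝ) * B := by positivity
      linarith
    · have h3 : |∑ i ∈ s, g i Φ| ≤ ∑ i ∈ s, |g i Φ| := Finset.abs_sum_le_sum_abs _ _
      have h4 : ∑ i ∈ s, |g i Φ| ≤ ∑ i ∈ s, B := Finset.sum_le_sum fun i _ => hB i Φ
      rw [Finset.sum_const, nsmul_eq_mul] at h4
      linarith

theorem IL_ge (K : ℕ) (g : (Fin K → ℕ) → ℝ) (B : ℝ) (hB : ∀ Φ, |g Φ| ≤ B) (c : ℝ) (m : ℕ)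
    (hg : ∀ Φ : Fin K → ℕ, StrictMono Φ → (∀ i, m < Φ i) → c ≤ g Φ) : c ≤ IL K g := by
  induction K generalizing m with
  | zero => exact hg _ (fun i => i.elim0) (fun i => i.elim0)
  | succ K ih =>
    show c ≤ uLim (fun t => IL K (fun Φ => g (Fin.cons t Φ)))
    refine ge_of_tendsto (uLim_spec _ B fun t => IL_bdd K _ B fun Φ => hB _) ?_
    have h1 : ∀ᶠ t in (hyperfilter ℕ : Filter ℕ), m < t := by
      have h2 : ∀ᶠ t in (cofinite : Filter ℕ), m < t := by
        rw [Nat.cofinite_eq_atTop]
        exact Filter.eventually_gt_atTop m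
      exact hyperfilter_le_cofinite h2
    filter_upwards [h1] with t ht
    refine ih (fun Φ => g (Fin.cons t Φ)) (fun Φ => hB _) t ?_
    intro Φ hΦ hm
    refine hg _ ?_ ?_
    · intro i j hij
      induction i using Fin.cases with
      | zero =>
        induction j using Fin.cases with
        | zero => exact absurd hij (lt_irrefl _)
        | succ j => exact hm j
      | succ i =>
        induction j using Fin.cases with
        | zero => exact absurd hij (Fin.not_lt_zero _)
        | succ j => exact hΦ (Fin.succ_lt_succ_iff.1 hij)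
    · intro i
      induction i using Fin.cases with
      | zero => exact ht
      | succ j => exact ht.trans (hm j)

theorem IL_comp (K : ℕ) : ∀ (r : ℕ) (α : Fin r → Fin K) (_ : StrictMono α)
    (F : (Fin r → ℕ) → ℝ), IL K (fun Φ => F (fun i => Φ (α i))) = IL r F := by
  induction K with
  | zero =>
    intro r α hα F
    cases r with
    | zero => exact congrArg F (funext fun i => i.elim0)
    | succ r => exact (α 0).elim0
  | succ K ih =>
    intro r α hα F
    cases r with
    | zero =>
      have h1 : (fun Φ : Fin (K + 1) → ℕ => F (fun i => Φ (α i)))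
          = fun _ => F (fun i => i.elim0) := by
        funext Φ
        exact congrArg F (funext fun i => i.elim0)
      rw [h1, IL_const]
      rfl
    | succ r =>
      by_cases h0 : α 0 = 0
      · have hpos : ∀ i : Fin r, α i.succ ≠ 0 := by
          intro i h
          have := hα (Fin.succ_pos i)
          rw [h, h0] at this
          exact lt_irrefl _ this
        have hα' : StrictMono (fun i : Fin r => (α i.succ).pred (hpos i)) := by
          intro i j hij
          exact Fin.pred_lt_pred_iff.2 (hα (Fin.succ_lt_succ_iff.2 hij))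
        show uLim (fun t => IL K (fun Φ => F (fun i => (Fin.cons t Φ : Fin (K + 1) → ℕ) (α i))))
          = uLim (fun t => IL r (fun u => F (Fin.cons t u)))
        congr 1
        funext t
        rw [← ih r _ hα' (fun u => F (Fin.cons t u))]
        congr 1
        funext Φ
        congr 1
        funext i
        induction i using Fin.cases with
        | zero => rw [h0]; rfl
        | succ i =>
          rw [Fin.cons_succ]
          conv_lhs => rw [← Fin.succ_pred (α i.succ) (hpos i)]
          rw [Fin.cons_succ]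
      · have hpos : ∀ i : Fin (r + 1), α i ≠ 0 := by
          intro i h
          have h1 : α 0 ≤ α i := hα.monotone (Fin.zero_le i)
          rw [h] at h1
          exact h0 (Fin.le_zero_iff.1 h1)
        have hα' : StrictMono (fun i : Fin (r + 1) => (α i).pred (hpos i)) := by
          intro i j hij
          exact Fin.pred_lt_pred_iff.2 (hα hij)
        show uLim (fun t => IL K (fun Φ => F (fun i => (Fin.cons t Φ : Fin (K + 1) → ℕ) (α i))))
          = IL (r + 1) F
        have h1 : ∀ t : ℕ, IL K (fun Φ => F (fun i => (Fin.cons t Φ : Fin (K + 1) → ℕ) (α i)))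
            = IL (r + 1) F := by
          intro t
          rw [← ih (r + 1) _ hα' F]
          congr 1
          funext Φ
          congr 1
          funext i
          conv_lhs => rw [← Fin.succ_pred (α i) (hpos i)]
          rw [Fin.cons_succ]
        simp only [h1]
        exact uLim_const _

end P125F
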