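import Vale.Agent.P125F.Defs
import Vale.Agent.P125F.Il15

/-! [A1] the spreading seminorm by iterated ultrafilter limits -/

namespace P125F
open Finset Filter Topology

section A1
variable {X : Type} [NormedAddCommGroup X] [NormedSpace ℝ X]

/-- iterated limit along a list -/
noncomputable def a1F (Λ : ℕ → (ℕ →₀ ℝ) →ₗ[ℝ] X) : List ℝ → (ℕ →₀ ℝ) → ℝ
  | [], w => uLim (fun N => ‖Λ N w‖)
  | a :: l, w => uLim (fun t => a1F Λ l (w + Finsupp.single t a))

variable {Λ : ℕ → (ℕ →₀ ℝ) →ₗ[ℝ] X}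

theorem a1_single (hΛ : ∀ N t, ‖Λ N (Finsupp.single t 1)‖ ≤ 1) (N t : ℕ) (a : ℝ) :
    ‖Λ N (Finsupp.single t a)‖ ≤ |a| := by
  have h1 : Finsupp.single t a = a • (Finsupp.single t (1 : ℝ)) := by
    rw [Finsupp.smul_single, smul_eq_mul, mul_one]
  rw [h1, map_smul, norm_smul, Real.norm_eq_abs]
  have := mul_le_mul_of_nonneg_left (hΛ N t) (abs_nonneg a)
  linarith

theorem a1_ex (hΛ : ∀ N t, ‖Λ N (Finsupp.single t 1)‖ ≤ 1) (w : ℕ →₀ ℝ) :
    ∃ B : ℝ, ∀ N, ‖Λ N w‖ ≤ B := by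
  induction w using Finsupp.induction_linear with
  | zero => exact ⟨0, fun N => by simp⟩
  | add f g hf hg =>
    obtain ⟨B, hB⟩ := hf
    obtain ⟨B', hB'⟩ := hg
    refine ⟨B + B', fun N => ?_⟩
    rw [map_add]
    exact le_trans (norm_add_le _ _) (add_le_add (hB N) (hB' N))
  | single t a => exact ⟨|a|, fun N => a1_single hΛ N t a⟩

theorem a1_bdd (hΛ : ∀ N t, ‖Λ N (Finsupp.single t 1)‖ ≤ 1) (l : List ℝ) :
    ∀ (w : ℕ →₀ ℝ) (B : ℝ), (∀ N, ‖Λ N w‖ ≤ B) →
      |a1F Λ l w| ≤ B + (l.map (fun a => |a|)).sum := by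
  induction l with
  | nil =>
    intro w B hB
    simp only [List.map_nil, List.sum_nil, add_zero]
    exact uLim_bdd _ B fun N => by rw [abs_of_nonneg (norm_nonneg _)]; exact hB N
  | cons a l ih =>
    intro w B hB
    refine uLim_bdd _ _ fun t => ?_
    have h1 : ∀ N, ‖Λ N (w + Finsupp.single t a)‖ ≤ B + |a| := by
      intro N
      rw [map_add]
      exact le_trans (norm_add_le _ _) (add_le_add (hB N) (a1_single hΛ N t a))
    have := ih (w + Finsupp.single t a) (B + |a|) h1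
    rw [List.map_cons, List.sum_cons]
    linarith

/-- the defining limit, inner step -/
theorem a1_lim (hΛ : ∀ N t, ‖Λ N (Finsupp.single t 1)‖ ≤ 1) (a : ℝ) (l : List ℝ) (w : ℕ →₀ ℝ) :
    Tendsto (fun t => a1F Λ l (w + Finsupp.single t a)) (hyperfilter ℕ : Filter ℕ)
      (𝓝 (a1F Λ (a :: l) w)) := by
  obtain ⟨B, hB⟩ := a1_ex hΛ w
  refine uLim_spec _ (B + |a| + (l.map (fun a => |a|)).sum) fun t => ?_
  refine a1_bdd hΛ l _ _ fun N => ?_
  rw [map_add]
  exact le_trans (norm_add_le _ _) (add_le_add (hB N) (a1_single hΛ N t a))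

theorem a1_lim0 (hΛ : ∀ N t, ‖Λ N (Finsupp.single t 1)‖ ≤ 1) (w : ℕ →₀ ℝ) :
    Tendsto (fun N => ‖Λ N w‖) (hyperfilter ℕ : Filter ℕ) (𝓝 (a1F Λ [] w)) := by
  obtain ⟨B, hB⟩ := a1_ex hΛ w
  exact uLim_spec _ B fun N => by rw [abs_of_nonneg (norm_nonneg _)]; exact hB N

theorem a1_tri (hΛ : ∀ N t, ‖Λ N (Finsupp.single t 1)‖ ≤ 1) (l : List ℝ) :
    ∀ (l' : List ℝ) (w w' : ℕ →₀ ℝ), l.length = l'.length →
      a1F Λ (List.zipWith (· + ·) l l') (w + w') ≤ a1F Λ l w + a1F Λ l' w' := by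
  induction l with
  | nil =>
    intro l' w w' hl
    cases l' with
    | nil =>
      refine le_of_tendsto_of_tendsto' (a1_lim0 hΛ (w + w'))
        ((a1_lim0 hΛ w).add (a1_lim0 hΛ w')) fun N => ?_
      rw [map_add]
      exact norm_add_le _ _
    | cons b l' => simp at hl
  | cons a l ih =>
    intro l' w w' hl
    cases l' with
    | nil => simp at hl
    | cons b l' =>
      rw [List.zipWith_cons_cons]
      refine le_of_tendsto_of_tendsto' (a1_lim hΛ (a + b) _ (w + w'))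
        ((a1_lim hΛ a l w).add (a1_lim hΛ b l' w')) fun t => ?_
      have h1 : w + w' + Finsupp.single t (a + b)
          = (w + Finsupp.single t a) + (w' + Finsupp.single t b) := by
        rw [Finsupp.single_add]; abel
      rw [h1]
      exact ih l' _ _ (by simpa using hl)

theorem a1_smul (hΛ : ∀ N t, ‖Λ N (Finsupp.single t 1)‖ ≤ 1) (k : ℝ) (l : List ℝ) :
    ∀ (w : ℕ →₀ ℝ), a1F Λ (l.map (k * ·)) (k • w) = |k| * a1F Λ l w := by
  induction l with
  | nil =>
    intro w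
    refine tendsto_nhds_unique (a1_lim0 hΛ (k • w)) ?_
    have h1 := (a1_lim0 hΛ w).const_mul |k|
    refine h1.congr fun N => ?_
    rw [map_smul, norm_smul, Real.norm_eq_abs]
  | cons a l ih =>
    intro w
    refine tendsto_nhds_unique (a1_lim hΛ (k * a) _ (k • w)) ?_
    have h1 := (a1_lim hΛ a l w).const_mul |k|
    refine h1.congr fun t => ?_
    rw [← ih]
    congr 1
    rw [smul_add, Finsupp.smul_single, smul_eq_mul]

theorem a1_zero (l₁ l₂ : List ℝ) :
    ∀ (w : ℕ →₀ ℝ), a1F Λ (l₁ ++ 0 :: l₂) w = a1F Λ (l₁ ++ l₂) w := by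
  induction l₁ with
  | nil =>
    intro w
    show uLim (fun t => a1F Λ l₂ (w + Finsupp.single t 0)) = a1F Λ l₂ w
    simp only [Finsupp.single_zero, add_zero]
    exact uLim_const _
  | cons a l₁ ih =>
    intro w
    show uLim (fun t => a1F Λ (l₁ ++ 0 :: l₂) (w + Finsupp.single t a))
      = uLim (fun t => a1F Λ (l₁ ++ l₂) (w + Finsupp.single t a))
    congr 1
    funext t
    exact ih _

/-- tail functional -/
noncomputable def a1T (i : ℕ) : (ℕ →₀ ℝ) →ₗ[ℝ] ℝ :=
  Finsupp.linearCombination ℝ (fun j => if i ≤ j then (1 : ℝ) else 0)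

theorem a1_low (hΛ : ∀ N t, ‖Λ N (Finsupp.single t 1)‖ ≤ 1) {θ : ℝ} (i : ℕ)
    (hT : ∀ w : ℕ →₀ ℝ, ∀ᶠ N in (hyperfilter ℕ : Filter ℕ), θ * |a1T i w| ≤ ‖Λ N w‖)
    (l : List ℝ) : ∀ (w : ℕ →₀ ℝ), θ * |a1T i w + l.sum| ≤ a1F Λ l w := by
  induction l with
  | nil =>
    intro w
    rw [List.sum_nil, add_zero]
    exact ge_of_tendsto (a1_lim0 hΛ w) (hT w)
  | cons a l ih =>
    intro w
    refine ge_of_tendsto (a1_lim hΛ a l w) ?_
    have h1 : ∀ᶠ t in (hyperfilter ℕ : Filter ℕ), i ≤ t := by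
      have h2 : ∀ᶠ t in (cofinite : Filter ℕ), i ≤ t := by
        rw [Nat.cofinite_eq_atTop]
        exact Filter.eventually_ge_atTop i
      exact hyperfilter_le_cofinite h2
    filter_upwards [h1] with t ht
    have h3 := ih (w + Finsupp.single t a)
    have h4 : a1T i (w + Finsupp.single t a) = a1T i w + a := by
      rw [map_add]
      congr 1
      unfold a1T
      rw [Finsupp.linearCombination_single, if_pos ht, smul_eq_mul, mul_one]
    rw [h4] at h3
    rw [List.sum_cons, ← add_assoc]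
    exact h3

theorem a1_T_zero (w : ℕ →₀ ℝ) : ∃ i, a1T i w = 0 := by
  refine ⟨w.support.sup id + 1, ?_⟩
  unfold a1T
  rw [Finsupp.linearCombination_apply]
  unfold Finsupp.sum
  refine Finset.sum_eq_zero fun j hj => ?_
  have h1 : j ≤ w.support.sup id := Finset.le_sup (f := id) hj
  show w j • (if w.support.sup id + 1 ≤ j then (1 : ℝ) else 0) = 0
  rw [if_neg (by omega), smul_zero]

theorem a1_low' (hΛ : ∀ N t, ‖Λ N (Finsupp.single t 1)‖ ≤ 1) {θ : ℝ}
    (hT : ∀ (i : ℕ) (w : ℕ →₀ ℝ), ∀ᶠ N in (hyperfilter ℕ : Filter ℕ),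
      θ * |a1T i w| ≤ ‖Λ N w‖)
    (l₂ l₁ : List ℝ) : ∀ (w : ℕ →₀ ℝ), θ * |l₂.sum| ≤ a1F Λ (l₁ ++ l₂) w := by
  induction l₁ with
  | nil =>
    intro w
    obtain ⟨i, hi⟩ := a1_T_zero w
    have := a1_low hΛ i (hT i) l₂ w
    rw [hi, zero_add] at this
    exact this
  | cons a l₁ ih =>
    intro w
    exact ge_of_tendsto (a1_lim hΛ a (l₁ ++ l₂) w) (Filter.Eventually.of_forall fun t => ih _)

theorem a1_approx (hΛ : ∀ N t, ‖Λ N (Finsupp.single t 1)‖ ≤ 1) (m : ℕ) :
    ∀ {ι : Type} (I : Finset ι) (W : ι → (ℕ →₀ ℝ)) (a : ι → Fin m → ℝ) (δ : ℝ), 0 < δ →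
      ∃ t : Fin m → ℕ, ∀ i ∈ I,
        |a1F Λ [] (W i + ∑ j, Finsupp.single (t j) (a i j)) - a1F Λ (List.ofFn (a i)) (W i)|
          ≤ δ := by
  induction m with
  | zero =>
    intro ι I W a δ hδ
    refine ⟨fun j => j.elim0, fun i _ => ?_⟩
    simp only [Finset.univ_eq_empty, Finset.sum_empty, add_zero, List.ofFn_zero, sub_self,
      abs_zero]
    exact hδ.le
  | succ m ih =>
    intro ι I W a δ hδ
    have h1 : ∀ᶠ t in (hyperfilter ℕ : Filter ℕ), ∀ i ∈ I,
        |a1F Λ (List.ofFn (fun j : Fin m => a i j.succ)) (W i + Finsupp.single t (a i 0))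
          - a1F Λ (List.ofFn (a i)) (W i)| ≤ δ / 2 := by
      rw [Filter.eventually_all_finset]
      intro i _
      have h2 := a1_lim hΛ (a i 0) (List.ofFn (fun j : Fin m => a i j.succ)) (W i)
      have h3 : a i 0 :: List.ofFn (fun j : Fin m => a i j.succ) = List.ofFn (a i) := by
        rw [List.ofFn_succ]
      rw [h3] at h2
      have h4 := (Metric.tendsto_nhds.mp h2) (δ / 2) (by linarith)
      filter_upwards [h4] with t ht
      rw [Real.dist_eq] at ht
      exact ht.le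
    obtain ⟨t0, ht0⟩ := h1.exists
    obtain ⟨t, ht⟩ := ih I (fun i => W i + Finsupp.single t0 (a i 0))
      (fun i j => a i j.succ) (δ / 2) (by linarith)
    refine ⟨Fin.cons t0 t, fun i hi => ?_⟩
    have h5 := ht0 i hi
    have h6 := ht i hi
    have h7 : W i + ∑ j, Finsupp.single ((Fin.cons t0 t : Fin (m + 1) → ℕ) j) (a i j)
        = W i + Finsupp.single t0 (a i 0) + ∑ j : Fin m, Finsupp.single (t j) (a i j.succ) := by
      rw [Fin.sum_univ_succ, Fin.cons_zero, add_assoc]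
      simp only [Fin.cons_succ]
    rw [h7]
    have h8 := abs_sub_le
      (a1F Λ [] (W i + Finsupp.single t0 (a i 0) + ∑ j : Fin m, Finsupp.single (t j) (a i j.succ)))
      (a1F Λ (List.ofFn (fun j : Fin m => a i j.succ)) (W i + Finsupp.single t0 (a i 0)))
      (a1F Λ (List.ofFn (a i)) (W i))
    linarith

end A1

theorem spread5 {X : Type} [NormedAddCommGroup X] [NormedSpace ℝ X] {θ : ℝ} (hθ : 0 < θ)
    (hJ : ∀ N, HasJames X θ N) :
    ∃ S : List ℝ → ℝ, Spr S θ ∧ ∀ (m : ℕ) (A : Finset (Fin m → ℝ)) (δ : ℝ), 0 < δ →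
      ∃ y : Fin m → X, ∀ a ∈ A, |‖∑ j, a j • y j‖ - S (List.ofFn a)| ≤ δ := by
  choose x f hx hf hxf using hJ
  set xx : ℕ → ℕ → X := fun N j => if h : j < N then x N ⟨j, h⟩ else 0 with hxx
  set Λ : ℕ → (ℕ →₀ ℝ) →ₗ[ℝ] X := fun N => Finsupp.linearCombination ℝ (xx N) with hΛdef
  have hsing : ∀ N t (a : ℝ), Λ N (Finsupp.single t a) = a • xx N t := by
    intro N t a
    simp only [hΛdef]
    rw [Finsupp.linearCombination_single]
  have hΛ : ∀ N t, ‖Λ N (Finsupp.single t 1)‖ ≤ 1 := by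
    intro N t
    rw [hsing, one_smul]
    simp only [hxx]
    split_ifs with h
    · exact hx N _
    · simp
  have hT : ∀ (i : ℕ) (w : ℕ →₀ ℝ), ∀ᶠ N in (hyperfilter ℕ : Filter ℕ),
      θ * |a1T i w| ≤ ‖Λ N w‖ := by
    intro i w
    have h2 : ∀ᶠ N in (cofinite : Filter ℕ), i + w.support.sup id < N := by
      rw [Nat.cofinite_eq_atTop]
      exact Filter.eventually_gt_atTop _
    filter_upwards [hyperfilter_le_cofinite h2] with N hN
    have hiN : i < N := by omega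
    have h3 : f N ⟨i, hiN⟩ (Λ N w) = θ * a1T i w := by
      simp only [hΛdef]
      unfold a1T
      rw [Finsupp.linearCombination_apply, Finsupp.linearCombination_apply]
      unfold Finsupp.sum
      rw [map_sum, Finset.mul_sum]
      refine Finset.sum_congr rfl fun j hj => ?_
      have h4 : j ≤ w.support.sup id := Finset.le_sup (f := id) hj
      have hjN : j < N := by omega
      simp only [hxx]
      rw [dif_pos hjN, map_smul, hxf]
      simp only [Fin.mk_le_mk, smul_eq_mul]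
      split_ifs <;> ring
    have h5 : |f N ⟨i, hiN⟩ (Λ N w)| ≤ 1 * ‖Λ N w‖ := by
      rw [← Real.norm_eq_abs]
      exact le_trans ((f N ⟨i, hiN⟩).le_opNorm _)
        (mul_le_mul_of_nonneg_right (hf N _) (norm_nonneg _))
    rw [h3, abs_mul, abs_of_pos hθ, one_mul] at h5
    exact h5
  refine ⟨fun l => a1F Λ l 0, ⟨?_, ?_, ?_, ?_, ?_⟩, ?_⟩
  · intro l l' hl
    have := a1_tri hΛ l l' 0 0 hl
    rw [add_zero] at this
    exact this
  · intro k l
    have := a1_smul hΛ k l 0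
    rw [smul_zero] at this
    exact this
  · intro l₁ l₂
    exact a1_zero l₁ l₂ 0
  · intro l₁ l₂
    exact a1_low' hΛ hT l₂ l₁ 0
  · intro l
    have := a1_bdd hΛ l 0 0 (fun N => by simp)
    rw [zero_add] at this
    exact le_trans (le_abs_self _) this
  · intro m A δ hδ
    obtain ⟨t, ht⟩ := a1_approx hΛ m A (fun _ => 0) (fun a => a) (δ / 2) (by linarith)
    have h1 : ∀ᶠ N in (hyperfilter ℕ : Filter ℕ), ∀ a ∈ A,
        |‖Λ N (∑ j, Finsupp.single (t j) (a j))‖
          - a1F Λ [] (∑ j, Finsupp.single (t j) (a j))| ≤ δ / 2 := by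
      rw [Filter.eventually_all_finset]
      intro a _
      have h4 := (Metric.tendsto_nhds.mp
        (a1_lim0 hΛ (∑ j, Finsupp.single (t j) (a j)))) (δ / 2) (by linarith)
      filter_upwards [h4] with N hN
      rw [Real.dist_eq] at hN
      exact hN.le
    obtain ⟨N, hN⟩ := h1.exists
    refine ⟨fun j => xx N (t j), fun a ha => ?_⟩
    have h5 := hN a ha
    have h6 := ht a ha
    rw [zero_add] at h6
    have h7 : Λ N (∑ j, Finsupp.single (t j) (a j)) = ∑ j, a j • xx N (t j) := by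
      rw [map_sum]
      exact Finset.sum_congr rfl fun j _ => hsing N (t j) (a j)
    rw [h7] at h5
    have h8 := abs_sub_le (‖∑ j, a j • xx N (t j)‖)
      (a1F Λ [] (∑ j, Finsupp.single (t j) (a j))) (a1F Λ (List.ofFn a) 0)
    linarith

end P125F
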