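import Vale.Agent.P125F.Defs

/-! # A2, first half: the seminorm on finitely supported sequences of a spreading list seminorm -/

namespace P125F

open Finset

theorem h13_zr {S : List ℝ → ℝ} {θ : ℝ} (hS : Spr S θ) (Z : List ℝ) :
    ∀ (pre post : List ℝ), (∀ x ∈ Z, x = 0) → S (pre ++ (Z ++ post)) = S (pre ++ post) := by
  induction Z with
  | nil => intro pre post _; rfl
  | cons z Z ih =>
    intro pre post h
    have hz : z = 0 := h z (by simp)
    subst hz
    rw [List.cons_append, hS.zero]
    exact ih pre post (fun x hx => h x (by simp [hx]))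

theorem h13_ext {S : List ℝ → ℝ} {θ : ℝ} (hS : Spr S θ) (v : ℕ → ℝ) {n m : ℕ} (hnm : n ≤ m)
    (h : ∀ j, n ≤ j → v j = 0) : S ((List.range m).map v) = S ((List.range n).map v) := by
  obtain ⟨k, rfl⟩ := Nat.exists_eq_add_of_le hnm
  rw [List.range_add, List.map_append]
  have := h13_zr hS ((List.map (fun x => n + x) (List.range k)).map v) ((List.range n).map v) []
    (by
      intro x hx
      simp only [List.map_map, List.mem_map, Function.comp] at hx
      obtain ⟨a, _, rfl⟩ := hx
      exact h _ (by omega))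
  simpa using this

theorem h13_sum (f : ℕ → ℝ) (n : ℕ) : ((List.range n).map f).sum = ∑ i ∈ range n, f i := by
  induction n with
  | zero => simp
  | succ n ih => rw [List.range_succ, List.map_append, List.sum_append, ih, sum_range_succ]; simp

/-- a bound of the support -/
def h13_bd (v : ℕ →₀ ℝ) : ℕ := v.support.sup id + 1

theorem h13_bd_spec (v : ℕ →₀ ℝ) (j : ℕ) (h : h13_bd v ≤ j) : v j = 0 := by
  by_contra hc
  have h1 : j ∈ v.support := Finsupp.mem_support_iff.2 hc
  have h2 : j ≤ v.support.sup id := Finset.le_sup (f := id) h1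
  unfold h13_bd at h
  omega

theorem h13_eq {S : List ℝ → ℝ} {θ : ℝ} (hS : Spr S θ) (v : ℕ →₀ ℝ) (n : ℕ)
    (h : ∀ j, n ≤ j → v j = 0) :
    S ((List.range (h13_bd v)).map v) = S ((List.range n).map v) := by
  rcases le_total n (h13_bd v) with h1 | h1
  · exact h13_ext hS v h1 h
  · exact (h13_ext hS v h1 (h13_bd_spec v)).symm

theorem h13_map {S : List ℝ → ℝ} {θ : ℝ} (hS : Spr S θ) (g : ℕ → ℕ) (hg : StrictMono g)
    (v w : ℕ → ℝ) (h1 : ∀ j, w (g j) = v j) (h2 : ∀ i, (∀ j, g j ≠ i) → w i = 0) (n : ℕ) :
    ∀ post : List ℝ, S ((List.range (g n)).map w ++ post) = S ((List.range n).map v ++ post) := by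
  induction n with
  | zero =>
    intro post
    have := h13_zr hS ((List.range (g 0)).map w) [] post (by
      intro x hx
      simp only [List.mem_map, List.mem_range] at hx
      obtain ⟨a, ha, rfl⟩ := hx
      apply h2
      intro j hj
      have := hg.monotone (Nat.zero_le j)
      omega)
    simpa using this
  | succ n ih =>
    intro post
    have hlt : g n < g (n + 1) := hg (Nat.lt_succ_self n)
    obtain ⟨k, hk⟩ : ∃ k, g (n + 1) = g n + (1 + k) := ⟨g (n + 1) - g n - 1, by omega⟩
    rw [hk, List.range_add, List.map_append, List.range_add, List.map_append, List.map_append]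
    have e1 : List.map w (List.map (fun x => g n + x) (List.range 1)) = [v n] := by
      simp [h1]
    rw [e1, List.append_assoc, List.append_assoc]
    have e2 := h13_zr hS (List.map w (List.map (fun x => g n + x)
      (List.map (fun x => 1 + x) (List.range k)))) ((List.range (g n)).map w ++ [v n]) post (by
      intro x hx
      simp only [List.mem_map, List.mem_range, List.map_map, Function.comp] at hx
      obtain ⟨a, ha, rfl⟩ := hx
      apply h2
      intro j hj
      rcases Nat.lt_or_ge j (n + 1) with h | h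
      · have := hg.monotone (Nat.lt_succ_iff.1 h); omega
      · have := hg.monotone h; omega)
    rw [List.append_assoc] at e2
    rw [e2, List.append_assoc, ih ([v n] ++ post), List.range_succ, List.map_append,
      List.append_assoc]
    rfl

theorem h1_3 {S : List ℝ → ℝ} {θ : ℝ} (hS : Spr S θ) :
    ∃ N1 : Seminorm ℝ (ℕ →₀ ℝ),
      (∀ (v : ℕ →₀ ℝ) (n : ℕ), (∀ j, n ≤ j → v j = 0) → N1 v = S ((List.range n).map v)) ∧
      (∀ g : ℕ → ℕ, StrictMono g → ∀ v, N1 (Finsupp.mapDomain g v) = N1 v) ∧
      (∀ j, N1 (Finsupp.single j 1) ≤ 1) ∧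
      (∀ (v : ℕ →₀ ℝ) (i : ℕ), θ * |∑ j ∈ v.support.filter (i ≤ ·), v j| ≤ N1 v) := by
  obtain ⟨N0, hN0⟩ : ∃ N0 : (ℕ →₀ ℝ) → ℝ, N0 = fun v => S ((List.range (h13_bd v)).map v) :=
    ⟨_, rfl⟩
  have heq : ∀ (v : ℕ →₀ ℝ) (n : ℕ), (∀ j, n ≤ j → v j = 0) →
      N0 v = S ((List.range n).map v) := by
    intro v n h
    rw [hN0]
    exact h13_eq hS v n h
  have hadd : ∀ v w, N0 (v + w) ≤ N0 v + N0 w := by
    intro v w
    set n := max (h13_bd v) (h13_bd w) with hn
    have hv : ∀ j, n ≤ j → v j = 0 := fun j hj => h13_bd_spec v j (le_trans (le_max_left _ _) hj)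
    have hw : ∀ j, n ≤ j → w j = 0 := fun j hj => h13_bd_spec w j (le_trans (le_max_right _ _) hj)
    rw [heq v n hv, heq w n hw, heq (v + w) n (fun j hj => by simp [hv j hj, hw j hj])]
    have e : (List.range n).map (⇑(v + w))
        = List.zipWith (· + ·) ((List.range n).map v) ((List.range n).map w) := by
      apply List.ext_getElem
      · simp
      · intro i h1 h2; simp
    rw [e]
    exact hS.tri _ _ (by simp)
  have hsmul : ∀ (a : ℝ) v, N0 (a • v) = ‖a‖ * N0 v := by
    intro a v
    rw [heq v (h13_bd v) (h13_bd_spec v), heq (a • v) (h13_bd v)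
      (fun j hj => by simp [h13_bd_spec v j hj]), Real.norm_eq_abs, ← hS.smul]
    congr 1
    rw [List.map_map]
    rfl
  refine ⟨Seminorm.of N0 hadd hsmul, heq, ?_, ?_, ?_⟩
  · intro g hg v
    show N0 (Finsupp.mapDomain g v) = N0 v
    have h := h13_map hS g hg v (Finsupp.mapDomain g v)
      (fun j => Finsupp.mapDomain_apply hg.injective v j)
      (fun i hi => Finsupp.mapDomain_notin_range v i (by
        rintro ⟨j, hj⟩; exact hi j hj)) (h13_bd v) []
    rw [List.append_nil, List.append_nil] at h
    rw [heq v _ (h13_bd_spec v), ← h]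
    apply heq
    intro i hi
    by_cases hr : i ∈ Set.range g
    · obtain ⟨j, rfl⟩ := hr
      rw [Finsupp.mapDomain_apply hg.injective]
      exact h13_bd_spec v j (hg.le_iff_le.1 hi)
    · exact Finsupp.mapDomain_notin_range v i hr
  · intro j
    show N0 (Finsupp.single j 1) ≤ 1
    rw [heq _ (j + 1) (fun i hi => by rw [Finsupp.single_apply, if_neg (by omega)])]
    refine (hS.up _).trans ?_
    rw [List.map_map, h13_sum]
    have : ∀ i ∈ range (j + 1), ((fun a => |a|) ∘ ⇑(Finsupp.single j (1:ℝ))) i
        = if j = i then 1 else 0 := by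
      intro i _
      simp only [Function.comp, Finsupp.single_apply]
      split_ifs <;> simp
    rw [Finset.sum_congr rfl this, Finset.sum_ite_eq]
    simp
  · intro v i
    show _ ≤ N0 v
    obtain ⟨k, hk⟩ : ∃ k, k = h13_bd v := ⟨_, rfl⟩
    rw [heq v (i + k) (fun j hj => h13_bd_spec v j (by omega)), List.range_add, List.map_append]
    refine le_trans (le_of_eq ?_) (hS.low _ _)
    congr 2
    rw [List.map_map, h13_sum]
    have e1 : ∑ x ∈ range k, (⇑v ∘ fun x => i + x) x = ∑ j ∈ Finset.Ico i (i + k), v j := by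
      rw [Finset.sum_Ico_eq_sum_range]
      simp
    rw [e1]
    apply Finset.sum_subset
    · intro j hj
      rw [mem_filter, Finsupp.mem_support_iff] at hj
      rw [Finset.mem_Ico]
      refine ⟨hj.2, ?_⟩
      by_contra hc
      exact hj.1 (h13_bd_spec v j (by omega))
    · intro j hj hnj
      rw [Finset.mem_Ico] at hj
      rw [mem_filter, Finsupp.mem_support_iff] at hnj
      by_contra hc
      exact hnj ⟨hc, hj.1⟩

end P125F
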