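import Vale.Agent.P125F.Defs

/-! # P125F [A2] avg, by helper19 -/

namespace P125F
namespace A2h19
open Finset P125S

variable {S : List ℝ → ℝ} {θ : ℝ}

theorem nonneg (hθ : 0 < θ) (hS : Spr S θ) (l : List ℝ) : 0 ≤ S l := by
  have := hS.low l []
  simpa using this

theorem zeros (hS : Spr S θ) (l₁ l₂ : List ℝ) (k : ℕ) :
    S (l₁ ++ (List.replicate k 0 ++ l₂)) = S (l₁ ++ l₂) := by
  induction k with
  | zero => simp
  | succ k ih =>
    rw [List.replicate_succ, List.cons_append, hS.zero]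
    exact ih

theorem zip_app {l₁ l₁' l₂ l₂' : List ℝ} (h : l₁.length = l₁'.length) :
    List.zipWith (· + ·) (l₁ ++ l₂) (l₁' ++ l₂')
      = List.zipWith (· + ·) l₁ l₁' ++ List.zipWith (· + ·) l₂ l₂' :=
  List.zipWith_append h

theorem zip_rep (k : ℕ) (a b : ℝ) :
    List.zipWith (· + ·) (List.replicate k a) (List.replicate k b) = List.replicate k (a + b) := by
  simp

theorem zip_map (K : ℝ) (l : List ℝ) :
    List.zipWith (· + ·) (l.map (K * ·)) l = l.map ((K + 1) * ·) := by
  induction l with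
  | nil => rfl
  | cons a l ih =>
    simp only [List.map_cons, List.zipWith_cons_cons, ih]
    congr 1; ring

/-- a run of length `K L` has at most the value of the run of length `L` -/
theorem run_aux (hS : Spr S θ) (l₁ l₂ : List ℝ) (L : ℕ) (x : ℝ) (K : ℕ) :
    S (l₁.map ((K : ℝ) * ·) ++ (List.replicate (K * L) x ++ l₂.map ((K : ℝ) * ·)))
      ≤ K * S (l₁ ++ (List.replicate L x ++ l₂)) := by
  induction K with
  | zero =>
    have h1 := hS.smul 0 (l₁ ++ l₂)
    simp only [abs_zero, zero_mul, List.map_append] at h1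
    simp only [Nat.cast_zero, zero_mul, List.replicate_zero, List.nil_append]
    exact h1.le
  | succ K ih =>
    have e1 : S (l₁.map ((K : ℝ) * ·) ++ (List.replicate (K * L) x ++ l₂.map ((K : ℝ) * ·)))
        = S (l₁.map ((K : ℝ) * ·) ++ (List.replicate (K * L) x ++ (List.replicate L 0 ++
          l₂.map ((K : ℝ) * ·)))) := by
      have := zeros hS (l₁.map ((K : ℝ) * ·) ++ List.replicate (K * L) x)
        (l₂.map ((K : ℝ) * ·)) L
      simp only [List.append_assoc] at this
      exact this.symm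
    have e2 : S (l₁ ++ (List.replicate L x ++ l₂))
        = S (l₁ ++ (List.replicate (K * L) 0 ++ (List.replicate L x ++ l₂))) :=
      (zeros hS l₁ (List.replicate L x ++ l₂) (K * L)).symm
    have e3 : List.zipWith (· + ·) (l₁.map ((K : ℝ) * ·) ++ (List.replicate (K * L) x ++
          (List.replicate L 0 ++ l₂.map ((K : ℝ) * ·))))
          (l₁ ++ (List.replicate (K * L) 0 ++ (List.replicate L x ++ l₂)))
        = l₁.map (((K + 1 : ℕ) : ℝ) * ·) ++ (List.replicate ((K + 1) * L) x ++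
          l₂.map (((K + 1 : ℕ) : ℝ) * ·)) := by
      rw [zip_app (by simp), zip_app (by simp), zip_app (by simp), zip_rep, zip_rep, zip_map,
        zip_map, Nat.succ_mul, List.replicate_add]
      simp only [add_zero, zero_add, List.append_assoc, Nat.cast_add, Nat.cast_one,
        Nat.succ_eq_add_one]
    rw [← e3]
    refine (hS.tri _ _ (by simp)).trans ?_
    rw [← e1, ← e2]
    push_cast
    linarith

theorem map_inv (K : ℕ) (hK : 0 < K) (l : List ℝ) :
    (l.map ((K : ℝ) * ·)).map ((K : ℝ)⁻¹ * ·) = l := by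
  have hKr : (K : ℝ) ≠ 0 := by positivity
  rw [List.map_map]
  conv_rhs => rw [← List.map_id l]
  congr 1
  funext a
  simp only [Function.comp, id]
  rw [← mul_assoc, inv_mul_cancel₀ hKr, one_mul]

theorem run_le (hS : Spr S θ) (l₁ l₂ : List ℝ) (L : ℕ) (x : ℝ) (K : ℕ) (hK : 0 < K) :
    S (l₁ ++ (List.replicate (K * L) ((K : ℝ)⁻¹ * x) ++ l₂))
      ≤ S (l₁ ++ (List.replicate L x ++ l₂)) := by
  have hKr : (0 : ℝ) < K := by exact_mod_cast hK
  have h1 := run_aux hS l₁ l₂ L x K
  have h2 := hS.smul ((K : ℝ)⁻¹)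
    (l₁.map ((K : ℝ) * ·) ++ (List.replicate (K * L) x ++ l₂.map ((K : ℝ) * ·)))
  rw [List.map_append, List.map_append, map_inv K hK, map_inv K hK, List.map_replicate] at h2
  rw [h2, abs_of_pos (inv_pos.2 hKr)]
  calc (K : ℝ)⁻¹ * _ ≤ (K : ℝ)⁻¹ * (K * S (l₁ ++ (List.replicate L x ++ l₂))) :=
        mul_le_mul_of_nonneg_left h1 (inv_pos.2 hKr).le
    _ = _ := by rw [← mul_assoc, inv_mul_cancel₀ hKr.ne', one_mul]

theorem blow_cons (L : ℕ) (a : ℤ) (l : List ℤ) :
    blow L (a :: l) = List.replicate L ((a : ℝ) / L) ++ blow L l := by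
  simp [blow]

theorem blow_app (L : ℕ) (l l' : List ℤ) : blow L (l ++ l') = blow L l ++ blow L l' := by
  simp [blow]

theorem blow_nil (L : ℕ) : blow L [] = [] := by simp [blow]

/-- lengthening all runs of the middle part -/
theorem blow_le (hS : Spr S θ) (L K : ℕ) (hK : 0 < K) : ∀ (l : List ℤ) (l₁ l₂ : List ℝ),
    S (l₁ ++ (blow (K * L) l ++ l₂)) ≤ S (l₁ ++ (blow L l ++ l₂))
  | [], l₁, l₂ => by simp [blow_nil]
  | a :: l, l₁, l₂ => by
    rw [blow_cons, blow_cons]
    have h1 := blow_le hS L K hK l (l₁ ++ List.replicate (K * L) ((a : ℝ) / ((K * L : ℕ) : ℝ))) l₂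
    have h2 := run_le hS l₁ (blow L l ++ l₂) L ((a : ℝ) / L) K hK
    have e : (K : ℝ)⁻¹ * ((a : ℝ) / L) = (a : ℝ) / ((K * L : ℕ) : ℝ) := by
      push_cast
      rw [div_eq_mul_inv, div_eq_mul_inv, mul_inv]; ring
    rw [e] at h2
    simp only [List.append_assoc] at h1 h2 ⊢
    exact h1.trans h2

theorem merge_aux (hS : Spr S θ) (l₁ l₂ : List ℝ) (L : ℕ) (a b : ℝ) (K : ℕ) :
    S (l₁.map (((K + 1 : ℕ) : ℝ) * ·) ++ (List.replicate L a ++ (List.replicate (K * L) (a + b) ++
      (List.replicate L b ++ l₂.map (((K + 1 : ℕ) : ℝ) * ·)))))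
      ≤ (K + 1 : ℕ) * S (l₁ ++ (List.replicate L a ++ (List.replicate L b ++ l₂))) := by
  induction K with
  | zero => simp
  | succ K ih =>
    have e1 : S (l₁.map (((K + 1 : ℕ) : ℝ) * ·) ++ (List.replicate L a ++
        (List.replicate (K * L) (a + b) ++ (List.replicate L b ++
          l₂.map (((K + 1 : ℕ) : ℝ) * ·)))))
        = S (l₁.map (((K + 1 : ℕ) : ℝ) * ·) ++ (List.replicate L a ++
        (List.replicate (K * L) (a + b) ++ (List.replicate L b ++ (List.replicate L 0 ++
          l₂.map (((K + 1 : ℕ) : ℝ) * ·)))))) := by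
      have := zeros hS (l₁.map (((K + 1 : ℕ) : ℝ) * ·) ++ (List.replicate L a ++
        (List.replicate (K * L) (a + b) ++ List.replicate L b)))
        (l₂.map (((K + 1 : ℕ) : ℝ) * ·)) L
      simp only [List.append_assoc] at this
      exact this.symm
    have e2 : S (l₁ ++ (List.replicate L a ++ (List.replicate L b ++ l₂)))
        = S (l₁ ++ (List.replicate L 0 ++ (List.replicate (K * L) 0 ++ (List.replicate L a ++
          (List.replicate L b ++ l₂))))) := by
      rw [zeros hS l₁ _ L, zeros hS l₁ _ (K * L)]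
    have e3 : List.zipWith (· + ·) (l₁.map (((K + 1 : ℕ) : ℝ) * ·) ++ (List.replicate L a ++
        (List.replicate (K * L) (a + b) ++ (List.replicate L b ++ (List.replicate L 0 ++
          l₂.map (((K + 1 : ℕ) : ℝ) * ·))))))
          (l₁ ++ (List.replicate L 0 ++ (List.replicate (K * L) 0 ++ (List.replicate L a ++
          (List.replicate L b ++ l₂)))))
        = l₁.map (((K + 1 + 1 : ℕ) : ℝ) * ·) ++ (List.replicate L a ++
          (List.replicate ((K + 1) * L) (a + b) ++ (List.replicate L b ++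
          l₂.map (((K + 1 + 1 : ℕ) : ℝ) * ·)))) := by
      rw [zip_app (by simp), zip_app (by simp), zip_app (by simp), zip_app (by simp),
        zip_app (by simp), zip_rep, zip_rep, zip_rep, zip_rep, zip_map, zip_map,
        Nat.succ_mul K L, List.replicate_add, add_comm b a]
      simp only [add_zero, zero_add, List.append_assoc, Nat.cast_add, Nat.cast_one,
        Nat.succ_eq_add_one]
    rw [← e3]
    refine (hS.tri _ _ (by simp)).trans ?_
    rw [← e1, ← e2]
    push_cast at ih ⊢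
    linarith


theorem abs_sum_rep (L : ℕ) (b : ℝ) :
    ((List.replicate L b).map (fun a => |a|)).sum = L * |b| := by
  simp

theorem add_corr (hS : Spr S θ) (l₁ l₂ : List ℝ) (L : ℕ) (a b : ℝ) (K : ℕ) :
    S (l₁ ++ (List.replicate ((K + 1) * L) (a + b) ++ l₂))
      ≤ S (l₁ ++ (List.replicate L a ++ (List.replicate (K * L) (a + b) ++
      (List.replicate L b ++ l₂)))) + 2 * L * |b| := by
  have e0 : S (l₁ ++ (List.replicate ((K + 1) * L) (a + b) ++ l₂))
      = S (l₁ ++ (List.replicate L (a + b) ++ (List.replicate (K * L) (a + b) ++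
      (List.replicate L 0 ++ l₂)))) := by
    have := zeros hS (l₁ ++ (List.replicate L (a + b) ++ List.replicate (K * L) (a + b))) l₂ L
    simp only [List.append_assoc] at this
    rw [this, add_mul, one_mul, add_comm (K * L) L, List.replicate_add]
    simp only [List.append_assoc]
  have e1 : List.zipWith (· + ·)
      (l₁ ++ (List.replicate L a ++ (List.replicate (K * L) (a + b) ++
      (List.replicate L b ++ l₂))))
      (List.replicate l₁.length 0 ++ (List.replicate L b ++ (List.replicate (K * L) 0 ++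
      (List.replicate L (-b) ++ List.replicate l₂.length 0))))
      = (l₁ ++ (List.replicate L (a + b) ++ (List.replicate (K * L) (a + b) ++
      (List.replicate L 0 ++ l₂)))) := by
    have hz : ∀ l : List ℝ, List.zipWith (· + ·) l (List.replicate l.length 0) = l := by
      intro l
      induction l with
      | nil => rfl
      | cons c l ih =>
        rw [List.length_cons, List.replicate_succ, List.zipWith_cons_cons, ih, add_zero]
    rw [zip_app (by simp), zip_app (by simp), zip_app (by simp), zip_app (by simp),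
      zip_rep, zip_rep, zip_rep, hz, hz, add_zero, add_neg_cancel]
  rw [e0, ← e1]
  refine (hS.tri _ _ (by simp)).trans ?_
  have h2 := hS.up (List.replicate l₁.length 0 ++ (List.replicate L b ++
      (List.replicate (K * L) 0 ++
      (List.replicate L (-b) ++ List.replicate l₂.length 0))))
  simp only [List.map_append, List.sum_append, abs_sum_rep, abs_zero, mul_zero, abs_neg] at h2
  linarith

theorem merge_le (hS : Spr S θ) (l₁ l₂ : List ℝ) (L : ℕ) (a b : ℝ) (K : ℕ) :
    S (l₁ ++ (List.replicate ((K + 1) * L) (((K + 1 : ℕ) : ℝ)⁻¹ * (a + b)) ++ l₂))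
      ≤ S (l₁ ++ (List.replicate L a ++ (List.replicate L b ++ l₂)))
        + ((K + 1 : ℕ) : ℝ)⁻¹ * (2 * L * |b|) := by
  have hKr : (0 : ℝ) < ((K + 1 : ℕ) : ℝ) := by positivity
  have h1 := merge_aux hS l₁ l₂ L a b K
  have h3 := add_corr hS (l₁.map (((K + 1 : ℕ) : ℝ) * ·)) (l₂.map (((K + 1 : ℕ) : ℝ) * ·)) L a b K
  have h2 := hS.smul (((K + 1 : ℕ) : ℝ)⁻¹)
    (l₁.map (((K + 1 : ℕ) : ℝ) * ·) ++ (List.replicate ((K + 1) * L) (a + b) ++
      l₂.map (((K + 1 : ℕ) : ℝ) * ·)))
  rw [List.map_append, List.map_append, map_inv (K + 1) (Nat.succ_pos K),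
    map_inv (K + 1) (Nat.succ_pos K), List.map_replicate] at h2
  rw [h2, abs_of_pos (inv_pos.2 hKr)]
  calc ((K + 1 : ℕ) : ℝ)⁻¹ * _ ≤ ((K + 1 : ℕ) : ℝ)⁻¹ *
        ((K + 1 : ℕ) * S (l₁ ++ (List.replicate L a ++ (List.replicate L b ++ l₂)))
          + 2 * L * |b|) :=
        mul_le_mul_of_nonneg_left (h3.trans (by linarith)) (inv_pos.2 hKr).le
    _ = _ := by rw [mul_add, ← mul_assoc, inv_mul_cancel₀ hKr.ne', one_mul]

/-- the averaged value -/
noncomputable def NN (S : List ℝ → ℝ) (l : List ℤ) : ℝ := ⨅ L : ℕ, S (blow (L + 1) l)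

theorem NN_le (hθ : 0 < θ) (hS : Spr S θ) (l : List ℤ) (L : ℕ) (hL : 0 < L) :
    NN S l ≤ S (blow L l) := by
  obtain ⟨k, rfl⟩ : ∃ k, L = k + 1 := ⟨L - 1, by omega⟩
  exact ciInf_le ⟨0, by rintro _ ⟨i, rfl⟩; exact nonneg hθ hS _⟩ k

theorem le_NN (l : List ℤ) (c : ℝ) (h : ∀ L : ℕ, 0 < L → c ≤ S (blow L l)) :
    c ≤ NN S l := le_ciInf fun L => h (L + 1) (Nat.succ_pos L)

theorem blow_le' (hS : Spr S θ) (L K : ℕ) (hK : 0 < K) (l : List ℤ) :
    S (blow (K * L) l) ≤ S (blow L l) := by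
  have := blow_le hS L K hK l [] []
  simpa using this

theorem blow_zip (L : ℕ) : ∀ l l' : List ℤ, l.length = l'.length →
    blow L (List.zipWith (· + ·) l l') = List.zipWith (· + ·) (blow L l) (blow L l')
  | [], [], _ => by simp [blow_nil]
  | [], _ :: _, h => by simp at h
  | _ :: _, [], h => by simp at h
  | a :: l, b :: l', h => by
    rw [List.zipWith_cons_cons, blow_cons, blow_cons, blow_cons, zip_app (by simp), zip_rep,
      blow_zip L l l' (by simpa using h)]
    congr 2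
    push_cast; ring

theorem blow_len (L : ℕ) : ∀ l : List ℤ, (blow L l).length = l.length * L
  | [] => by simp [blow_nil]
  | a :: l => by
    rw [blow_cons, List.length_append, List.length_replicate, blow_len L l, List.length_cons]
    ring

theorem blow_map (L : ℕ) (k : ℤ) : ∀ l : List ℤ,
    blow L (l.map (k * ·)) = (blow L l).map ((k : ℝ) * ·)
  | [] => by simp [blow_nil]
  | a :: l => by
    rw [List.map_cons, blow_cons, blow_cons, List.map_append, List.map_replicate,
      blow_map L k l]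
    congr 2
    push_cast; ring

theorem blow_sum (L : ℕ) (hL : 0 < L) : ∀ l : List ℤ, (blow L l).sum = ((l.sum : ℤ) : ℝ)
  | [] => by simp [blow_nil]
  | a :: l => by
    rw [blow_cons, List.sum_append, List.sum_replicate, blow_sum L hL l, List.sum_cons,
      nsmul_eq_mul]
    have : (L : ℝ) ≠ 0 := by positivity
    push_cast
    field_simp


/-- prefix and suffix lengthening around a fixed middle -/
theorem around (hS : Spr S θ) (L K : ℕ) (hK : 0 < K) (l₁ l₂ : List ℤ) (m : List ℝ) :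
    S (blow (K * L) l₁ ++ (m ++ blow (K * L) l₂)) ≤ S (blow L l₁ ++ (m ++ blow L l₂)) := by
  have h1 := blow_le hS L K hK l₁ [] (m ++ blow (K * L) l₂)
  have h2 := blow_le hS L K hK l₂ (blow L l₁ ++ m) []
  simp only [List.nil_append, List.append_nil, List.append_assoc] at h1 h2
  exact h1.trans h2

theorem NN_merge (hθ : 0 < θ) (hS : Spr S θ) (l₁ : List ℤ) (a b : ℤ) (l₂ : List ℤ) :
    NN S (l₁ ++ (a + b) :: l₂) ≤ NN S (l₁ ++ a :: b :: l₂) := by
  refine le_NN _ _ fun L hL => ?_
  have hLr : (0 : ℝ) < L := by exact_mod_cast hL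
  have key : ∀ K : ℕ, NN S (l₁ ++ (a + b) :: l₂) ≤ S (blow L (l₁ ++ a :: b :: l₂))
      + ((K + 1 : ℕ) : ℝ)⁻¹ * (2 * L * |(b : ℝ) / L|) := by
    intro K
    refine (NN_le hθ hS _ ((K + 1) * L) (Nat.mul_pos (Nat.succ_pos K) hL)).trans ?_
    rw [blow_app, blow_cons]
    refine (around hS L (K + 1) (Nat.succ_pos K) l₁ l₂ _).trans ?_
    have h1 := merge_le hS (blow L l₁) (blow L l₂) L ((a : ℝ) / L) ((b : ℝ) / L) K
    rw [blow_app, blow_cons, blow_cons]
    refine le_trans (le_of_eq ?_) h1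
    congr 4
    push_cast
    field_simp
  have ht : Filter.Tendsto (fun K : ℕ => S (blow L (l₁ ++ a :: b :: l₂))
      + ((K + 1 : ℕ) : ℝ)⁻¹ * (2 * L * |(b : ℝ) / L|)) Filter.atTop
      (nhds (S (blow L (l₁ ++ a :: b :: l₂)) + 0 * (2 * L * |(b : ℝ) / L|))) := by
    refine tendsto_const_nhds.add (Filter.Tendsto.mul_const _ ?_)
    have := tendsto_one_div_add_atTop_nhds_zero_nat (𝕜 := ℝ)
    refine this.congr fun K => ?_
    push_cast
    rw [one_div]
  rw [zero_mul, add_zero] at ht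
  exact ge_of_tendsto' ht key

theorem NN_split (hθ : 0 < θ) (hS : Spr S θ) (l₁ : List ℤ) (a b : ℤ) (l₂ : List ℤ)
    (hab : 0 ≤ a * b) :
    NN S (l₁ ++ a :: b :: l₂) ≤ NN S (l₁ ++ (a + b) :: l₂) := by
  refine le_NN _ _ fun L hL => ?_
  have hLr : (0 : ℝ) < L := by exact_mod_cast hL
  by_cases ha : a = 0
  · subst ha
    refine (NN_le hθ hS _ L hL).trans (le_of_eq ?_)
    rw [blow_app, blow_cons, blow_cons, blow_app, blow_cons, Int.cast_zero, zero_div, zero_add]
    exact zeros hS _ _ L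
  by_cases hb : b = 0
  · subst hb
    refine (NN_le hθ hS _ L hL).trans (le_of_eq ?_)
    rw [blow_app, blow_cons, blow_cons, blow_app, blow_cons, Int.cast_zero, zero_div, add_zero]
    have := zeros hS (blow L l₁ ++ List.replicate L ((a : ℝ) / L)) (blow L l₂) L
    simpa only [List.append_assoc] using this
  -- both nonzero
  obtain ⟨σ, hσ, α, β, hα, hβ, rfl, rfl⟩ : ∃ σ : ℤ, (σ = 1 ∨ σ = -1) ∧ ∃ α β : ℕ, 0 < α ∧ 0 < β ∧
      a = σ * α ∧ b = σ * β := by
    rcases lt_or_gt_of_ne ha with h | h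
    · have hb' : b < 0 := by
        rcases lt_or_gt_of_ne hb with h' | h'
        · exact h'
        · nlinarith
      exact ⟨-1, Or.inr rfl, a.natAbs, b.natAbs, by omega, by omega, by omega, by omega⟩
    · have hb' : 0 < b := by
        rcases lt_or_gt_of_ne hb with h' | h'
        · nlinarith
        · exact h'
      exact ⟨1, Or.inl rfl, a.natAbs, b.natAbs, by omega, by omega, by omega, by omega⟩
  have hs : 0 < α + β := by omega
  have hαr : (0 : ℝ) < α := by exact_mod_cast hα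
  have hβr : (0 : ℝ) < β := by exact_mod_cast hβ
  -- the common run length
  refine (NN_le hθ hS _ (((α + β) * (α * β)) * L)
    (Nat.mul_pos (Nat.mul_pos hs (Nat.mul_pos hα hβ)) hL)).trans ?_
  rw [blow_app, blow_cons, blow_cons]
  have h1 := around hS L ((α + β) * (α * β)) (Nat.mul_pos hs (Nat.mul_pos hα hβ)) l₁ l₂
    (List.replicate ((α + β) * (α * β) * L)
      (((σ * α : ℤ) : ℝ) / (((α + β) * (α * β) * L : ℕ) : ℝ)) ++
     List.replicate ((α + β) * (α * β) * L)
      (((σ * β : ℤ) : ℝ) / (((α + β) * (α * β) * L : ℕ) : ℝ)))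
  simp only [List.append_assoc] at h1
  refine h1.trans ?_
  -- shorten the two runs
  have h2 := run_le hS (blow L l₁) (List.replicate ((α + β) * (α * β) * L)
      (((σ * β : ℤ) : ℝ) / (((α + β) * (α * β) * L : ℕ) : ℝ)) ++ blow L l₂)
      (α * L) ((σ : ℝ) / L) ((α + β) * β) (Nat.mul_pos hs hβ)
  have e2 : (α + β) * β * (α * L) = (α + β) * (α * β) * L := by ring
  have e2' : ((((α + β) * β : ℕ) : ℝ))⁻¹ * ((σ : ℝ) / L)
      = ((σ * α : ℤ) : ℝ) / (((α + β) * (α * β) * L : ℕ) : ℝ) := by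
    push_cast
    field_simp
  rw [e2, e2'] at h2
  refine h2.trans ?_
  have h3 := run_le hS (blow L l₁ ++ List.replicate (α * L) ((σ : ℝ) / L)) (blow L l₂)
      (β * L) ((σ : ℝ) / L) ((α + β) * α) (Nat.mul_pos hs hα)
  have e3 : (α + β) * α * (β * L) = (α + β) * (α * β) * L := by ring
  have e3' : ((((α + β) * α : ℕ) : ℝ))⁻¹ * ((σ : ℝ) / L)
      = ((σ * β : ℤ) : ℝ) / (((α + β) * (α * β) * L : ℕ) : ℝ) := by
    push_cast
    field_simp
  rw [e3, e3'] at h3
  simp only [List.append_assoc] at h3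
  refine h3.trans ?_
  -- the two runs together
  have h4 := run_le hS (blow L l₁) (blow L l₂) L
    (((σ * α + σ * β : ℤ) : ℝ) / L) (α + β) hs
  have e4 : (((α + β : ℕ) : ℝ))⁻¹ * (((σ * α + σ * β : ℤ) : ℝ) / L) = (σ : ℝ) / L := by
    push_cast
    field_simp
  rw [e4, add_mul α β L, List.replicate_add] at h4
  simp only [List.append_assoc] at h4
  rw [blow_app, blow_cons]
  exact h4

/-- [A2] -/
theorem avg {S : List ℝ → ℝ} {θ : ℝ} (hθ : 0 < θ) (hS : Spr S θ) :
    ∃ N : List ℤ → ℝ, Sem N θ ∧ ∀ (A : Finset (List ℤ)) (δ : ℝ), 0 < δ →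
      ∃ L : ℕ, 0 < L ∧ ∀ l ∈ A, |S (blow L l) - N l| ≤ δ := by
  refine ⟨NN S, ⟨?_, ?_, NN_merge hθ hS, NN_split hθ hS, ?_⟩, ?_⟩
  · intro l l' hl
    have key : ∀ i j : ℕ, NN S (List.zipWith (· + ·) l l')
        ≤ S (blow (i + 1) l) + S (blow (j + 1) l') := by
      intro i j
      refine (NN_le hθ hS _ ((i + 1) * (j + 1)) (by positivity)).trans ?_
      rw [blow_zip _ _ _ hl]
      refine (hS.tri _ _ (by rw [blow_len, blow_len, hl])).trans ?_
      have h1 := blow_le' hS (j + 1) (i + 1) (Nat.succ_pos i) l'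
      have h2 := blow_le' hS (i + 1) (j + 1) (Nat.succ_pos j) l
      rw [mul_comm (j + 1) (i + 1)] at h2
      linarith
    have h1 : ∀ j : ℕ, NN S (List.zipWith (· + ·) l l') - S (blow (j + 1) l') ≤ NN S l :=
      fun j => le_ciInf fun i => by linarith [key i j]
    have h2 : NN S (List.zipWith (· + ·) l l') - NN S l ≤ NN S l' :=
      le_ciInf fun j => by linarith [h1 j]
    linarith
  · intro k l
    unfold NN
    rw [Real.mul_iInf_of_nonneg (abs_nonneg _)]
    congr 1
    funext L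
    rw [blow_map, hS.smul]
  · intro l₁ l₂
    refine le_NN _ _ fun L hL => ?_
    rw [blow_app, ← blow_sum L hL l₂]
    exact hS.low _ _
  · intro A δ hδ
    have hex : ∀ l : List ℤ, ∃ L : ℕ, S (blow (L + 1) l) < NN S l + δ :=
      fun l => exists_lt_of_ciInf_lt (by unfold NN; linarith)
    choose F hF using hex
    refine ⟨∏ l ∈ A, (F l + 1), Finset.prod_pos fun l _ => Nat.succ_pos _, fun l hl => ?_⟩
    obtain ⟨K, hK⟩ : (F l + 1) ∣ ∏ l ∈ A, (F l + 1) := Finset.dvd_prod_of_mem _ hl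
    have hpos : 0 < ∏ l ∈ A, (F l + 1) := Finset.prod_pos fun l _ => Nat.succ_pos _
    have hK0 : 0 < K := by
      rcases Nat.eq_zero_or_pos K with h | h
      · rw [h] at hK; omega
      · exact h
    have h1 := NN_le hθ hS l _ hpos
    have h2 := blow_le' hS (F l + 1) K hK0 l
    rw [mul_comm K, ← hK] at h2
    have h3 := hF l
    rw [abs_of_nonneg (by linarith)]
    linarith

end A2h19
end P125F

namespace P125F

/-- [A2], statement of the skeleton -/
theorem avg_helper19 {S : List ℝ → ℝ} {θ : ℝ} (hθ : 0 < θ) (hS : Spr S θ) :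
    ∃ N : List ℤ → ℝ, Sem N θ ∧ ∀ (A : Finset (List ℤ)) (δ : ℝ), 0 < δ →
      ∃ L : ℕ, 0 < L ∧ ∀ l ∈ A, |S (blow L l) - N l| ≤ δ :=
  A2h19.avg hθ hS

end P125F
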