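import Vale.Agent.P125F.Defs

/-! [A2] the averaged seminorm -/

namespace P125F
open List

section A2

theorem a2_zwrep (n : ℕ) (a b : ℝ) :
    List.zipWith (· + ·) (replicate n a) (replicate n b) = replicate n (a + b) := by
  induction n with
  | zero => rfl
  | succ n ih => rw [replicate_succ, replicate_succ, replicate_succ, List.zipWith_cons_cons, ih]

theorem a2_zwmap (t : ℝ) (l : List ℝ) :
    List.zipWith (· + ·) (l.map (t * ·)) l = l.map ((t + 1) * ·) := by
  induction l with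
  | nil => rfl
  | cons a l ih =>
    rw [map_cons, map_cons, List.zipWith_cons_cons, ih]
    congr 1
    ring

theorem a2_zwmap' (t : ℝ) (l : List ℝ) :
    List.zipWith (· + ·) (l.map ((t + 1) * ·)) (l.map ((-1) * ·)) = l.map (t * ·) := by
  induction l with
  | nil => rfl
  | cons a l ih =>
    rw [map_cons, map_cons, map_cons, List.zipWith_cons_cons, ih]
    congr 1
    ring

theorem a2_zwapp (l₁ l₂ m₁ m₂ : List ℝ) (h : l₁.length = m₁.length) :
    List.zipWith (· + ·) (l₁ ++ l₂) (m₁ ++ m₂)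
      = List.zipWith (· + ·) l₁ m₁ ++ List.zipWith (· + ·) l₂ m₂ := by
  induction l₁ generalizing m₁ with
  | nil =>
    cases m₁ with
    | nil => rfl
    | cons b m => simp at h
  | cons a l ih =>
    cases m₁ with
    | nil => simp at h
    | cons b m =>
      rw [cons_append, cons_append, List.zipWith_cons_cons, List.zipWith_cons_cons, ih m
        (by simpa using h), cons_append]

variable {S : List ℝ → ℝ} {θ : ℝ}

theorem a2_zeros (hS : Spr S θ) (l₁ l₂ : List ℝ) (k : ℕ) :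
    S (l₁ ++ (replicate k 0 ++ l₂)) = S (l₁ ++ l₂) := by
  induction k with
  | zero => rfl
  | succ k ih => rw [replicate_succ, cons_append, hS.zero, ih]

theorem a2_map0 (hS : Spr S θ) (l : List ℝ) : S (l.map ((0 : ℝ) * ·)) = 0 := by
  rw [hS.smul]; simp

/-- sum of `T` shifted copies -/
theorem a2_ref0 (hS : Spr S θ) (l₁ l₂ : List ℝ) (J : ℕ) (c : ℝ) (T : ℕ) :
    S (l₁.map ((T : ℝ) * ·) ++ (replicate (J * T) c ++ l₂.map ((T : ℝ) * ·)))
      ≤ T * S (l₁ ++ (replicate J c ++ l₂)) := by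
  induction T with
  | zero =>
    have h1 : l₁.map (((0 : ℕ) : ℝ) * ·) ++ (replicate (J * 0) c ++ l₂.map (((0 : ℕ) : ℝ) * ·))
        = (l₁ ++ l₂).map ((0 : ℝ) * ·) := by
      rw [map_append]; simp
    rw [h1, a2_map0 hS]
    simp
  | succ T ih =>
    have h1 : l₁.map (((T + 1 : ℕ) : ℝ) * ·)
        ++ (replicate (J * (T + 1)) c ++ l₂.map (((T + 1 : ℕ) : ℝ) * ·))
        = List.zipWith (· + ·)
          (l₁.map ((T : ℝ) * ·) ++ (replicate (J * T) c ++ (replicate J 0 ++ l₂.map ((T : ℝ) * ·))))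
          (l₁ ++ (replicate (J * T) 0 ++ (replicate J c ++ l₂))) := by
      rw [a2_zwapp _ _ _ _ (by simp), a2_zwapp _ _ _ _ (by simp), a2_zwapp _ _ _ _ (by simp),
        a2_zwrep, a2_zwrep, a2_zwmap, a2_zwmap, add_zero, zero_add, Nat.mul_succ, replicate_add,
        append_assoc]
      push_cast
      rfl
    rw [h1]
    refine le_trans (hS.tri _ _ (by simp)) ?_
    have h2 : S (l₁.map ((T : ℝ) * ·) ++ (replicate (J * T) c
        ++ (replicate J 0 ++ l₂.map ((T : ℝ) * ·))))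
        = S (l₁.map ((T : ℝ) * ·) ++ (replicate (J * T) c ++ l₂.map ((T : ℝ) * ·))) := by
      have := a2_zeros hS (l₁.map ((T : ℝ) * ·) ++ replicate (J * T) c) (l₂.map ((T : ℝ) * ·)) J
      rw [append_assoc, append_assoc] at this
      exact this
    rw [h2, a2_zeros hS]
    push_cast
    linarith

/-- refining one run -/
theorem a2_ref (hS : Spr S θ) (l₁ l₂ : List ℝ) (J : ℕ) (c : ℝ) (T : ℕ) (hT : 0 < T) :
    S (l₁ ++ (replicate (J * T) (c / T) ++ l₂)) ≤ S (l₁ ++ (replicate J c ++ l₂)) := by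
  have hT' : (0 : ℝ) < T := by exact_mod_cast hT
  have h1 := a2_ref0 hS l₁ l₂ J c T
  have h2 : (l₁ ++ (replicate (J * T) (c / T) ++ l₂)).map ((T : ℝ) * ·)
      = l₁.map ((T : ℝ) * ·) ++ (replicate (J * T) c ++ l₂.map ((T : ℝ) * ·)) := by
    rw [map_append, map_append, map_replicate]
    congr 3
    field_simp
  rw [← h2, hS.smul, abs_of_pos hT'] at h1
  exact le_of_mul_le_mul_left h1 hT'

/-- real blow up -/
noncomputable def a2b (L : ℕ) (l : List ℝ) : List ℝ :=
  (l.map (fun z : ℝ => replicate L (z / (L : ℝ)))).flatten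

theorem a2b_cons (L : ℕ) (a : ℝ) (l : List ℝ) :
    a2b L (a :: l) = replicate L (a / (L : ℝ)) ++ a2b L l := by
  unfold a2b
  rw [map_cons, flatten_cons]

theorem a2b_app (L : ℕ) (l l' : List ℝ) : a2b L (l ++ l') = a2b L l ++ a2b L l' := by
  unfold a2b
  rw [map_append, flatten_append]

/-- runs with individual lengths -/
noncomputable def a2r (v : List (ℝ × ℕ)) : List ℝ :=
  (v.map (fun z : ℝ × ℕ => replicate z.2 (z.1 / (z.2 : ℝ)))).flatten

theorem a2r_cons (z : ℝ × ℕ) (v : List (ℝ × ℕ)) :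
    a2r (z :: v) = replicate z.2 (z.1 / (z.2 : ℝ)) ++ a2r v := by
  unfold a2r
  rw [map_cons, flatten_cons]

theorem a2_G0 (hS : Spr S θ) (L : ℕ) (hL : 0 < L) (v : List (ℝ × ℕ))
    (hv : ∀ z ∈ v, 0 < z.2 ∧ z.2 ∣ L) : ∀ l₁ : List ℝ,
    S (l₁ ++ a2b L (v.map Prod.fst)) ≤ S (l₁ ++ a2r v) := by
  induction v with
  | nil => intro l₁; simp [a2b, a2r]
  | cons z v ih =>
    intro l₁
    obtain ⟨hz, T, hT⟩ := hv z (List.mem_cons_self)
    have hT0 : 0 < T := by
      rcases Nat.eq_zero_or_pos T with h | h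
      · subst h; simp at hT; omega
      · exact h
    rw [map_cons, a2b_cons, a2r_cons, ← append_assoc]
    refine le_trans (ih (fun z' hz' => hv z' (List.mem_cons_of_mem _ hz')) _) ?_
    rw [append_assoc]
    have h1 : z.1 / (L : ℝ) = (z.1 / (z.2 : ℝ)) / (T : ℝ) := by
      rw [hT]; push_cast; rw [div_div]
    rw [h1, hT]
    exact a2_ref hS l₁ (a2r v) z.2 _ T hT0

theorem a2_mono (hS : Spr S θ) (l : List ℝ) (L T : ℕ) (hL : 0 < L) (hT : 0 < T) :
    S (a2b (L * T) l) ≤ S (a2b L l) := by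
  have h := a2_G0 hS (L * T) (Nat.mul_pos hL hT) (l.map (fun a => (a, L)))
    (by
      intro z hz
      rw [List.mem_map] at hz
      obtain ⟨a, _, rfl⟩ := hz
      exact ⟨hL, Nat.dvd_mul_right L T⟩) []
  have h1 : (l.map (fun a => (a, L))).map Prod.fst = l := by
    rw [List.map_map]
    conv_rhs => rw [← List.map_id l]
    rfl
  have h2 : a2r (l.map (fun a => (a, L))) = a2b L l := by
    unfold a2r a2b
    rw [List.map_map]
    rfl
  rw [h1, h2, nil_append, nil_append] at h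
  exact h

/-- the averaged seminorm on real lists -/
noncomputable def a2N (S : List ℝ → ℝ) (l : List ℝ) : ℝ := ⨅ L : ℕ, S (a2b (L + 1) l)

theorem a2_nonneg (hS : Spr S θ) (hθ : 0 < θ) (l : List ℝ) : 0 ≤ S l := by
  have := hS.low [] l
  rw [nil_append] at this
  exact le_trans (mul_nonneg hθ.le (abs_nonneg _)) this

theorem a2_le (hS : Spr S θ) (hθ : 0 < θ) (l : List ℝ) (L : ℕ) (hL : 0 < L) :
    a2N S l ≤ S (a2b L l) := by
  have h1 : BddBelow (Set.range fun L : ℕ => S (a2b (L + 1) l)) :=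
    ⟨0, by rintro _ ⟨L, rfl⟩; exact a2_nonneg hS hθ _⟩
  have := ciInf_le h1 (L - 1)
  have h2 : L - 1 + 1 = L := by omega
  rw [h2] at this
  exact this

theorem a2_ge (l : List ℝ) (B : ℝ) (h : ∀ L : ℕ, 0 < L → B ≤ S (a2b L l)) : B ≤ a2N S l :=
  le_ciInf fun L => h (L + 1) (Nat.succ_pos L)

theorem a2_ex (l : List ℝ) (ε : ℝ) (hε : 0 < ε) : ∃ L : ℕ, 0 < L ∧ S (a2b L l) < a2N S l + ε := by
  obtain ⟨L, hL⟩ := exists_lt_of_ciInf_lt (lt_add_of_pos_right (a2N S l) hε)
  exact ⟨L + 1, Nat.succ_pos L, hL⟩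

theorem a2_G (hS : Spr S θ) (hθ : 0 < θ) (v : List (ℝ × ℕ)) (hv : ∀ z ∈ v, 0 < z.2) :
    a2N S (v.map Prod.fst) ≤ S (a2r v) := by
  have hL : 0 < (v.map Prod.snd).prod := by
    apply List.prod_pos
    intro a ha
    rw [List.mem_map] at ha
    obtain ⟨z, hz, rfl⟩ := ha
    exact hv z hz
  have h := a2_G0 hS _ hL v (fun z hz => ⟨hv z hz, List.dvd_prod (List.mem_map_of_mem hz)⟩) []
  rw [nil_append, nil_append] at h
  exact le_trans (a2_le hS hθ _ _ hL) h

theorem a2b_zw (L : ℕ) (l l' : List ℝ) (h : l.length = l'.length) :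
    a2b L (List.zipWith (· + ·) l l') = List.zipWith (· + ·) (a2b L l) (a2b L l') := by
  induction l generalizing l' with
  | nil =>
    cases l' with
    | nil => simp [a2b]
    | cons b l' => simp at h
  | cons a l ih =>
    cases l' with
    | nil => simp at h
    | cons b l' =>
      rw [List.zipWith_cons_cons, a2b_cons, a2b_cons, a2b_cons, a2_zwapp _ _ _ _ (by simp),
        a2_zwrep, ih l' (by simpa using h), add_div]

theorem a2b_len (L : ℕ) (l : List ℝ) : (a2b L l).length = l.length * L := by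
  induction l with
  | nil => simp [a2b]
  | cons a l ih => rw [a2b_cons, length_append, ih, length_replicate, length_cons]; ring

theorem a2_tri (hS : Spr S θ) (hθ : 0 < θ) (l l' : List ℝ) (h : l.length = l'.length) :
    a2N S (List.zipWith (· + ·) l l') ≤ a2N S l + a2N S l' := by
  refine le_of_forall_pos_le_add fun ε hε => ?_
  obtain ⟨L, hL, h1⟩ := a2_ex (S := S) l (ε / 2) (by linarith)
  obtain ⟨L', hL', h2⟩ := a2_ex (S := S) l' (ε / 2) (by linarith)
  have h3 := a2_le hS hθ (List.zipWith (· + ·) l l') (L * L') (Nat.mul_pos hL hL')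
  rw [a2b_zw _ _ _ h] at h3
  have h4 := hS.tri (a2b (L * L') l) (a2b (L * L') l') (by rw [a2b_len, a2b_len, h])
  have h5 := a2_mono hS l L L' hL hL'
  have h6 := a2_mono hS l' L' L hL' hL
  rw [mul_comm] at h6
  linarith

theorem a2b_smul (L : ℕ) (k : ℝ) (l : List ℝ) : a2b L (l.map (k * ·)) = (a2b L l).map (k * ·) := by
  induction l with
  | nil => simp [a2b]
  | cons a l ih =>
    rw [map_cons, a2b_cons, a2b_cons, map_append, ih, map_replicate, mul_div_assoc]

theorem a2_smul (hS : Spr S θ) (k : ℝ) (l : List ℝ) :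
    a2N S (l.map (k * ·)) = |k| * a2N S l := by
  unfold a2N
  rw [Real.mul_iInf_of_nonneg (abs_nonneg k)]
  congr 1
  funext L
  rw [a2b_smul, hS.smul]

theorem a2b_sum (L : ℕ) (hL : 0 < L) (l : List ℝ) : (a2b L l).sum = l.sum := by
  have hL' : (0 : ℝ) < L := by exact_mod_cast hL
  induction l with
  | nil => simp [a2b]
  | cons a l ih =>
    rw [a2b_cons, sum_append, ih, sum_replicate, sum_cons, nsmul_eq_mul]
    field_simp

theorem a2_low (hS : Spr S θ) (l₁ l₂ : List ℝ) : θ * |l₂.sum| ≤ a2N S (l₁ ++ l₂) := by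
  refine a2_ge _ _ fun L hL => ?_
  rw [a2b_app]
  have := hS.low (a2b L l₁) (a2b L l₂)
  rw [a2b_sum L hL] at this
  exact this

theorem a2r_app (v v' : List (ℝ × ℕ)) : a2r (v ++ v') = a2r v ++ a2r v' := by
  unfold a2r
  rw [map_append, flatten_append]

theorem a2r_const (L : ℕ) (l : List ℝ) : a2r (l.map (fun a => (a, L))) = a2b L l := by
  unfold a2r a2b
  rw [List.map_map]
  rfl

theorem a2_fst (L : ℕ) (l : List ℝ) : (l.map (fun a => (a, L))).map Prod.fst = l := by
  rw [List.map_map]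
  conv_rhs => rw [← List.map_id l]
  rfl

/-- general form of G: outer runs of length `L`, middle runs arbitrary -/
theorem a2_G2 (hS : Spr S θ) (hθ : 0 < θ) (L : ℕ) (hL : 0 < L) (l₁ l₂ : List ℝ)
    (v : List (ℝ × ℕ)) (hv : ∀ z ∈ v, 0 < z.2) :
    a2N S (l₁ ++ (v.map Prod.fst ++ l₂)) ≤ S (a2b L l₁ ++ (a2r v ++ a2b L l₂)) := by
  have h := a2_G hS hθ (l₁.map (fun a => (a, L)) ++ (v ++ l₂.map (fun a => (a, L)))) (by
    intro z hz
    rw [List.mem_append, List.mem_append, List.mem_map, List.mem_map] at hz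
    rcases hz with ⟨a, _, rfl⟩ | hz | ⟨a, _, rfl⟩
    · exact hL
    · exact hv z hz
    · exact hL)
  rw [map_append, map_append, a2_fst, a2_fst, a2r_app, a2r_app, a2r_const, a2r_const] at h
  exact h

theorem a2_split (hS : Spr S θ) (hθ : 0 < θ) (l₁ l₂ : List ℝ) (a b : ℤ) (hab : 0 ≤ a * b) :
    a2N S (l₁ ++ (a : ℝ) :: (b : ℝ) :: l₂) ≤ a2N S (l₁ ++ ((a : ℝ) + b) :: l₂) := by
  refine a2_ge _ _ fun L hL => ?_
  have hL' : (0 : ℝ) < L := by exact_mod_cast hL
  by_cases ha : a = 0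
  · subst ha
    have h1 := a2_le hS hθ (l₁ ++ ((0 : ℤ) : ℝ) :: (b : ℝ) :: l₂) L hL
    refine le_trans h1 (le_of_eq ?_)
    rw [a2b_app, a2b_app, a2b_cons, Int.cast_zero, zero_div, zero_add]
    exact a2_zeros hS _ _ _
  by_cases hb : b = 0
  · subst hb
    have h1 := a2_le hS hθ (l₁ ++ (a : ℝ) :: ((0 : ℤ) : ℝ) :: l₂) L hL
    refine le_trans h1 (le_of_eq ?_)
    rw [a2b_app, a2b_app, a2b_cons, a2b_cons, a2b_cons, Int.cast_zero, zero_div, add_zero]
    have := a2_zeros hS (a2b L l₁ ++ replicate L ((a : ℝ) / L)) (a2b L l₂) L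
    rw [append_assoc, append_assoc] at this
    exact this
  have hA : 0 < a.natAbs := Int.natAbs_pos.mpr ha
  have hB : 0 < b.natAbs := Int.natAbs_pos.mpr hb
  have hq : 0 < a.natAbs + b.natAbs := by omega
  have h1 := a2_mono hS (l₁ ++ ((a : ℝ) + b) :: l₂) L (a.natAbs + b.natAbs) hL hq
  refine le_trans ?_ h1
  have h2 := a2_G2 hS hθ (L * (a.natAbs + b.natAbs)) (Nat.mul_pos hL hq) l₁ l₂
    [((a : ℝ), L * a.natAbs), ((b : ℝ), L * b.natAbs)] (by
      intro z hz
      simp only [List.mem_cons, List.not_mem_nil, or_false] at hz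
      rcases hz with rfl | rfl
      · exact Nat.mul_pos hL hA
      · exact Nat.mul_pos hL hB)
  refine le_trans (le_of_eq ?_) (le_trans h2 (le_of_eq ?_))
  · rfl
  · have hsg : ∃ s : ℝ, (a : ℝ) = s * (a.natAbs : ℝ) ∧ (b : ℝ) = s * (b.natAbs : ℝ) := by
      rcases lt_or_gt_of_ne ha with h | h
      · have hb' : b < 0 := by
          rcases lt_or_gt_of_ne hb with h' | h'
          · exact h'
          · have := mul_neg_of_neg_of_pos h h'
            omega
        refine ⟨-1, ?_, ?_⟩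
        · have : (a.natAbs : ℤ) = -a := by omega
          have h3 : ((a.natAbs : ℤ) : ℝ) = -(a : ℝ) := by rw [this]; push_cast; ring
          have h4 : ((a.natAbs : ℤ) : ℝ) = (a.natAbs : ℝ) := Int.cast_natCast _
          rw [← h4, h3]; ring
        · have : (b.natAbs : ℤ) = -b := by omega
          have h3 : ((b.natAbs : ℤ) : ℝ) = -(b : ℝ) := by rw [this]; push_cast; ring
          have h4 : ((b.natAbs : ℤ) : ℝ) = (b.natAbs : ℝ) := Int.cast_natCast _
          rw [← h4, h3]; ring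
      · have hb' : 0 < b := by
          rcases lt_or_gt_of_ne hb with h' | h'
          · have := mul_neg_of_pos_of_neg h h'
            omega
          · exact h'
        refine ⟨1, ?_, ?_⟩
        · have : (a.natAbs : ℤ) = a := by omega
          have h4 : ((a.natAbs : ℤ) : ℝ) = (a.natAbs : ℝ) := Int.cast_natCast _
          rw [← h4, this]; ring
        · have : (b.natAbs : ℤ) = b := by omega
          have h4 : ((b.natAbs : ℤ) : ℝ) = (b.natAbs : ℝ) := Int.cast_natCast _
          rw [← h4, this]; ring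
    obtain ⟨s, hsa, hsb⟩ := hsg
    have hA' : (0 : ℝ) < (a.natAbs : ℝ) := by exact_mod_cast hA
    have hB' : (0 : ℝ) < (b.natAbs : ℝ) := by exact_mod_cast hB
    have e1 : (a : ℝ) / ((L * a.natAbs : ℕ) : ℝ) = s / L := by
      rw [hsa]; push_cast; field_simp
    have e2 : (b : ℝ) / ((L * b.natAbs : ℕ) : ℝ) = s / L := by
      rw [hsb]; push_cast; field_simp
    have e3 : ((a : ℝ) + b) / ((L * (a.natAbs + b.natAbs) : ℕ) : ℝ) = s / L := by
      have : (0 : ℝ) < (a.natAbs : ℝ) + (b.natAbs : ℝ) := by linarith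
      rw [hsa, hsb, ← mul_add]; push_cast; field_simp
    rw [a2b_app, a2b_cons, a2r_cons, a2r_cons]
    simp only [e1, e2, e3]
    have e4 : a2r [] = [] := rfl
    rw [e4, append_nil, ← replicate_add, ← Nat.mul_add]

theorem a2_W (hS : Spr S θ) (l₁ l₂ : List ℝ) (L : ℕ) (c c' : ℝ) (t : ℕ) :
    S (l₁.map (((t : ℝ) + 1) * ·) ++ (replicate L c ++ (replicate (L * t) (c + c')
        ++ (replicate L c' ++ l₂.map (((t : ℝ) + 1) * ·)))))
      ≤ ((t : ℝ) + 1) * S (l₁ ++ (replicate L c ++ (replicate L c' ++ l₂))) := by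
  induction t with
  | zero =>
    have e1 : ∀ l : List ℝ, l.map ((((0 : ℕ) : ℝ) + 1) * ·) = l := by
      intro l
      conv_rhs => rw [← List.map_id l]
      congr 1
      funext x
      simp
    rw [e1, e1]
    simp
  | succ t ih =>
    have h1 : l₁.map ((((t + 1 : ℕ) : ℝ) + 1) * ·) ++ (replicate L c
          ++ (replicate (L * (t + 1)) (c + c')
          ++ (replicate L c' ++ l₂.map ((((t + 1 : ℕ) : ℝ) + 1) * ·))))
        = List.zipWith (· + ·)
          (l₁.map (((t : ℝ) + 1) * ·) ++ (replicate L c ++ (replicate (L * t) (c + c')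
            ++ (replicate L c' ++ (replicate L 0 ++ l₂.map (((t : ℝ) + 1) * ·))))))
          (l₁ ++ (replicate L 0 ++ (replicate (L * t) 0
            ++ (replicate L c ++ (replicate L c' ++ l₂))))) := by
      rw [a2_zwapp _ _ _ _ (by simp), a2_zwapp _ _ _ _ (by simp), a2_zwapp _ _ _ _ (by simp),
        a2_zwapp _ _ _ _ (by simp), a2_zwapp _ _ _ _ (by simp),
        a2_zwrep, a2_zwrep, a2_zwrep, a2_zwrep, a2_zwmap, a2_zwmap, add_zero, add_zero, zero_add,
        Nat.mul_succ, replicate_add, append_assoc, add_comm c' c]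
      push_cast
      rfl
    rw [h1]
    refine le_trans (hS.tri _ _ (by simp)) ?_
    have h2 : S (l₁.map (((t : ℝ) + 1) * ·) ++ (replicate L c ++ (replicate (L * t) (c + c')
            ++ (replicate L c' ++ (replicate L 0 ++ l₂.map (((t : ℝ) + 1) * ·))))))
        = S (l₁.map (((t : ℝ) + 1) * ·) ++ (replicate L c ++ (replicate (L * t) (c + c')
            ++ (replicate L c' ++ l₂.map (((t : ℝ) + 1) * ·))))) := by
      have := a2_zeros hS (l₁.map (((t : ℝ) + 1) * ·) ++ (replicate L c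
        ++ (replicate (L * t) (c + c') ++ replicate L c'))) (l₂.map (((t : ℝ) + 1) * ·)) L
      simp only [append_assoc] at this
      exact this
    rw [h2, a2_zeros hS, a2_zeros hS]
    push_cast
    linarith

theorem a2_merge (hS : Spr S θ) (hθ : 0 < θ) (l₁ l₂ : List ℝ) (a b : ℝ) :
    a2N S (l₁ ++ (a + b) :: l₂) ≤ a2N S (l₁ ++ a :: b :: l₂) := by
  refine a2_ge _ _ fun L hL => ?_
  have hL' : (0 : ℝ) < L := by exact_mod_cast hL
  rw [a2b_app, a2b_cons, a2b_cons]
  set B := S (a2b L l₁ ++ (replicate L (a / (L : ℝ)) ++ (replicate L (b / (L : ℝ)) ++ a2b L l₂)))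
    with hB
  have key : ∀ t : ℕ, 0 < t → (t : ℝ) * a2N S (l₁ ++ (a + b) :: l₂) ≤ ((t : ℝ) + 2) * B := by
    intro t ht
    have ht' : (0 : ℝ) < t := by exact_mod_cast ht
    set m₁ := a2b L l₁ with hm₁
    set m₂ := a2b L l₂ with hm₂
    set c := a / (L : ℝ) with hc
    set c' := b / (L : ℝ) with hc'
    have hW := a2_W hS m₁ m₂ L c c' t
    have hE : S ((m₁ ++ (replicate L c ++ (replicate (L * t) 0 ++ (replicate L c' ++ m₂)))).map
        ((-1) * ·)) = B := by
      rw [hS.smul]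
      have := a2_zeros hS (m₁ ++ replicate L c) (replicate L c' ++ m₂) (L * t)
      simp only [append_assoc] at this
      rw [this, hB]
      simp
    have hY : List.zipWith (· + ·)
        (m₁.map (((t : ℝ) + 1) * ·) ++ (replicate L c ++ (replicate (L * t) (c + c')
        ++ (replicate L c' ++ m₂.map (((t : ℝ) + 1) * ·)))))
        ((m₁ ++ (replicate L c ++ (replicate (L * t) 0 ++ (replicate L c' ++ m₂)))).map
        ((-1) * ·))
        = m₁.map ((t : ℝ) * ·) ++ (replicate L 0 ++ (replicate (L * t) (c + c')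
          ++ (replicate L 0 ++ m₂.map ((t : ℝ) * ·)))) := by
      simp only [map_append, map_replicate]
      rw [a2_zwapp _ _ _ _ (by simp), a2_zwapp _ _ _ _ (by simp), a2_zwapp _ _ _ _ (by simp),
        a2_zwapp _ _ _ _ (by simp), a2_zwrep, a2_zwrep, a2_zwrep, a2_zwmap', a2_zwmap']
      have e1 : c + -1 * c = 0 := by ring
      have e2 : c' + -1 * c' = 0 := by ring
      have e3 : c + c' + -1 * 0 = c + c' := by ring
      rw [e1, e2, e3]
    have h1 := hS.tri (m₁.map (((t : ℝ) + 1) * ·) ++ (replicate L c ++ (replicate (L * t) (c + c')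
        ++ (replicate L c' ++ m₂.map (((t : ℝ) + 1) * ·)))))
        ((m₁ ++ (replicate L c ++ (replicate (L * t) 0 ++ (replicate L c' ++ m₂)))).map
        ((-1) * ·)) (by simp)
    rw [hY, hE, a2_zeros hS] at h1
    have h2 := a2_zeros hS (m₁.map ((t : ℝ) * ·) ++ replicate (L * t) (c + c'))
      (m₂.map ((t : ℝ) * ·)) L
    simp only [append_assoc] at h2
    rw [h2] at h1
    have h3 := a2_G2 hS hθ L hL l₁ l₂ [(a + b, L * t)] (by
      intro z hz
      simp only [List.mem_cons, List.not_mem_nil, or_false] at hz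
      rw [hz]
      exact Nat.mul_pos hL ht)
    have h4 : a2r [(a + b, L * t)] = replicate (L * t) ((c + c') / t) := by
      rw [a2r_cons]
      have e4 : a2r [] = [] := rfl
      rw [e4, append_nil]
      congr 1
      rw [hc, hc']
      push_cast
      field_simp
    rw [h4] at h3
    have h5 : (m₁ ++ (replicate (L * t) ((c + c') / t) ++ m₂)).map ((t : ℝ) * ·)
        = m₁.map ((t : ℝ) * ·) ++ (replicate (L * t) (c + c') ++ m₂.map ((t : ℝ) * ·)) := by
      rw [map_append, map_append, map_replicate]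
      congr 3
      field_simp
    rw [← h5, hS.smul, abs_of_pos ht'] at h1
    have h6 : a2N S (l₁ ++ (a + b) :: l₂) ≤ S (m₁ ++ (replicate (L * t) ((c + c') / t) ++ m₂)) := h3
    have h7 := mul_le_mul_of_nonneg_left h6 ht'.le
    linarith
  by_contra hcon
  rw [not_le] at hcon
  set x := a2N S (l₁ ++ (a + b) :: l₂) with hx
  have hd : 0 < x - B := by linarith
  obtain ⟨t, ht⟩ := exists_nat_gt (2 * B / (x - B))
  have hB0 : 0 ≤ B := a2_nonneg hS hθ _
  have ht0 : (0 : ℝ) < t := lt_of_le_of_lt (by positivity) ht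
  have ht1 : 0 < t := by exact_mod_cast ht0
  have h8 := key t ht1
  rw [div_lt_iff₀ hd] at ht
  nlinarith

end A2

theorem a2_blow (L : ℕ) (l : List ℤ) :
    blow L l = a2b L (l.map (fun z : ℤ => (z : ℝ))) := by
  unfold blow a2b
  rw [List.flatMap_def]
  congr 1
  induction l with
  | nil => rfl
  | cons x l ih =>
    rw [List.map_cons, List.map_cons, ← ih]
    rfl

theorem avg5 {S : List ℝ → ℝ} {θ : ℝ} (hθ : 0 < θ) (hS : Spr S θ) :
    ∃ N : List ℤ → ℝ, Sem N θ ∧ ∀ (A : Finset (List ℤ)) (δ : ℝ), 0 < δ →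
      ∃ L : ℕ, 0 < L ∧ ∀ l ∈ A, |S (blow L l) - N l| ≤ δ := by
  classical
  refine ⟨fun l => a2N S (l.map (fun z : ℤ => (z : ℝ))), ⟨?_, ?_, ?_, ?_, ?_⟩, ?_⟩
  · intro l l' h
    have h1 : (List.zipWith (· + ·) l l').map (fun z : ℤ => (z : ℝ))
        = List.zipWith (· + ·) (l.map (fun z : ℤ => (z : ℝ))) (l'.map (fun z : ℤ => (z : ℝ))) := by
      rw [List.map_zipWith, List.zipWith_map]
      congr 1
      funext a b
      push_cast
      rfl
    show a2N S ((List.zipWith (· + ·) l l').map (fun z : ℤ => (z : ℝ))) ≤ _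
    rw [h1]
    exact a2_tri hS hθ _ _ (by simpa using h)
  · intro k l
    have h1 : (l.map (k * ·)).map (fun z : ℤ => (z : ℝ))
        = (l.map (fun z : ℤ => (z : ℝ))).map ((k : ℝ) * ·) := by
      rw [List.map_map, List.map_map]
      congr 1
      funext a
      simp
    show a2N S ((l.map (k * ·)).map (fun z : ℤ => (z : ℝ))) = _
    rw [h1]
    exact a2_smul hS _ _
  · intro l₁ a b l₂
    show a2N S ((l₁ ++ (a + b) :: l₂).map (fun z : ℤ => (z : ℝ)))
      ≤ a2N S ((l₁ ++ a :: b :: l₂).map (fun z : ℤ => (z : ℝ)))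
    simp only [List.map_append, List.map_cons, Int.cast_add]
    exact a2_merge hS hθ _ _ _ _
  · intro l₁ a b l₂ hab
    show a2N S ((l₁ ++ a :: b :: l₂).map (fun z : ℤ => (z : ℝ)))
      ≤ a2N S ((l₁ ++ (a + b) :: l₂).map (fun z : ℤ => (z : ℝ)))
    simp only [List.map_append, List.map_cons, Int.cast_add]
    exact a2_split hS hθ _ _ a b hab
  · intro l₁ l₂
    have h1 : ((l₂.sum : ℤ) : ℝ) = (l₂.map (fun z : ℤ => (z : ℝ))).sum := by
      induction l₂ with
      | nil => simp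
      | cons x l ih => rw [List.sum_cons, List.map_cons, List.sum_cons, ← ih]; push_cast; ring
    show θ * |((l₂.sum : ℤ) : ℝ)| ≤ a2N S ((l₁ ++ l₂).map (fun z : ℤ => (z : ℝ)))
    rw [h1, List.map_append]
    exact a2_low hS _ _
  · intro A δ hδ
    have hex : ∀ l : List ℤ, ∃ L : ℕ, 0 < L ∧
        S (a2b L (l.map (fun z : ℤ => (z : ℝ)))) < a2N S (l.map (fun z : ℤ => (z : ℝ))) + δ :=
      fun l => a2_ex _ δ hδ
    choose Lf hLf0 hLf using hex
    refine ⟨∏ l ∈ A, Lf l, Finset.prod_pos fun l _ => hLf0 l, fun l hl => ?_⟩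
    obtain ⟨T, hT⟩ := Finset.dvd_prod_of_mem Lf hl
    have hpos : 0 < ∏ l ∈ A, Lf l := Finset.prod_pos fun l _ => hLf0 l
    have hT0 : 0 < T := by
      rcases Nat.eq_zero_or_pos T with h | h
      · rw [h, Nat.mul_zero] at hT; omega
      · exact h
    rw [a2_blow]
    show |S (a2b (∏ l ∈ A, Lf l) (l.map (fun z : ℤ => (z : ℝ))))
      - a2N S (l.map (fun z : ℤ => (z : ℝ)))| ≤ δ
    have h1 := a2_le hS hθ (l.map (fun z : ℤ => (z : ℝ))) _ hpos
    have h2 := a2_mono hS (l.map (fun z : ℤ => (z : ℝ))) (Lf l) T (hLf0 l) hT0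
    rw [← hT] at h2
    have h3 := hLf l
    rw [abs_le]
    constructor <;> linarith

end P125F
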