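import Vale.Agent.P125F.Merge10

/-! A2, analytic core: limit seminorm with blow-up invariance -/

namespace P125F

open Finset Filter Topology

theorem m10_LA_LA (L k : ℕ) (hL : 1 ≤ L) (hk : 1 ≤ k) (v : ℕ →₀ ℝ) :
    m10LA L (fun l => l) (m10LA k (fun l => l) v) = m10LA (L * k) (fun l => l) v := by
  have h : (m10LA L (fun l => l)).comp (m10LA k (fun l => l)) = m10LA (L * k) (fun l => l) := by
    apply Finsupp.lhom_ext
    intro l a
    rw [LinearMap.comp_apply, m10LA_single, m10LA_single, map_smul, m10_A_mul L k hL hk]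
    congr 1
    show m10LA L (fun l => l) (m10A k l) = _
    conv_lhs => rw [m10A]
    rw [map_smul, map_sum]
    congr 1
    refine sum_congr rfl fun i _ => ?_
    rw [m10LA_single, one_smul]
  exact LinearMap.congr_fun h v

theorem core10 (N1 : Seminorm ℝ (ℕ →₀ ℝ))
    (hs : ∀ g : ℕ → ℕ, StrictMono g → ∀ v, N1 (Finsupp.mapDomain g v) = N1 v)
    (h1 : ∀ j, N1 (Finsupp.single j 1) ≤ 1) (θ : ℝ)
    (ht : ∀ (v : ℕ →₀ ℝ) (i : ℕ), θ * |∑ j ∈ v.support.filter (i ≤ ·), v j| ≤ N1 v) :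
    ∃ N : Seminorm ℝ (ℕ →₀ ℝ),
      (∀ (v : ℕ →₀ ℝ) (i : ℕ), θ * |∑ j ∈ v.support.filter (i ≤ ·), v j| ≤ N v) ∧
      (∀ g : ℕ → ℕ, Monotone g → ∀ v, N (Finsupp.mapDomain g v) ≤ N v) ∧
      (∀ v, Tendsto (fun k => N1 (m10LA (Nat.factorial k) (fun l => l) v)) atTop (𝓝 (N v))) ∧
      (∀ k, 1 ≤ k → ∀ v, N (m10LA k (fun l => l) v) = N v) := by
  set F : ℕ → (ℕ →₀ ℝ) → ℝ := fun k v => N1 (m10LA (Nat.factorial k) (fun l => l) v) with hF
  have hfac : ∀ k, 1 ≤ Nat.factorial k := fun k => Nat.factorial_pos k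
  have hanti : ∀ v, Antitone (fun k => F k v) := by
    intro v
    apply antitone_nat_of_succ_le
    intro k
    show N1 (m10LA (Nat.factorial (k + 1)) (fun l => l) v)
      ≤ N1 (m10LA (Nat.factorial k) (fun l => l) v)
    rw [Nat.factorial_succ, Nat.mul_comm]
    exact m10_mul_le N1 hs _ _ (hfac k) (by omega) v
  have hbdd : ∀ v, BddBelow (Set.range fun k => F k v) := by
    intro v
    refine ⟨0, ?_⟩
    rintro _ ⟨k, rfl⟩
    exact apply_nonneg N1 _
  set f : (ℕ →₀ ℝ) → ℝ := fun v => ⨅ k, F k v with hf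
  have hlim : ∀ v, Tendsto (fun k => F k v) atTop (𝓝 (f v)) := fun v =>
    tendsto_atTop_ciInf (hanti v) (hbdd v)
  have hadd : ∀ x y, f (x + y) ≤ f x + f y := by
    intro x y
    refine le_of_tendsto_of_tendsto' (hlim (x + y)) ((hlim x).add (hlim y)) fun k => ?_
    show N1 _ ≤ N1 _ + N1 _
    rw [map_add]
    exact map_add_le_add N1 _ _
  have hsmul : ∀ (a : ℝ) (x : ℕ →₀ ℝ), f (a • x) = ‖a‖ * f x := by
    intro a x
    refine tendsto_nhds_unique (hlim (a • x)) ?_
    have h2 := (hlim x).const_mul ‖a‖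
    refine h2.congr fun k => ?_
    show ‖a‖ * N1 _ = N1 _
    rw [map_smul, map_smul_eq_mul]
  have hFle : ∀ (L : ℕ), 1 ≤ L → ∀ v, f v ≤ N1 (m10LA L (fun l => l) v) := by
    intro L hL v
    refine le_trans (ciInf_le (hbdd v) L) ?_
    show N1 (m10LA (Nat.factorial L) (fun l => l) v) ≤ _
    have h3 : Nat.factorial L = L * Nat.factorial (L - 1) := by
      rw [Nat.mul_factorial_pred (by omega)]
    rw [h3]
    exact m10_mul_le N1 hs _ _ hL (hfac _) v
  refine ⟨Seminorm.of f hadd hsmul, ?_, ?_, hlim, ?_⟩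
  · intro v i
    show _ ≤ f v
    refine ge_of_tendsto' (hlim v) fun k => ?_
    show _ ≤ N1 _
    have h4 := ht (m10LA (Nat.factorial k) (fun l => l) v) (i * Nat.factorial k)
    rw [← m10tail_eq, m10tail_LA _ (hfac k), m10tail_eq] at h4
    exact h4
  · intro g hg v
    show f _ ≤ f v
    refine ge_of_tendsto' (hlim v) fun k => ?_
    have hc : Tendsto (fun R : ℕ => N1 (m10LA (Nat.factorial k) (fun l => l) v)
        + (∑ l ∈ v.support, |v l| * (2 * (l : ℝ))) / ((R + 1 : ℕ) : ℝ)) atTop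
        (𝓝 (N1 (m10LA (Nat.factorial k) (fun l => l) v) + 0)) := by
      refine Tendsto.const_add _ ?_
      exact (tendsto_const_div_atTop_nhds_zero_nat
        (∑ l ∈ v.support, |v l| * (2 * (l : ℝ)))).comp (tendsto_add_atTop_nat 1)
    rw [add_zero] at hc
    refine ge_of_tendsto' hc fun R => ?_
    exact le_trans (hFle (Nat.factorial k * (R + 1)) (Nat.mul_pos (hfac k) (by omega)) _)
      (m10_mono N1 hs h1 _ (R + 1) (hfac k) (by omega) g hg v)
  · intro k hk v
    show f _ = f _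
    apply le_antisymm
    · refine le_of_tendsto_of_tendsto' (hlim _) (hlim v) fun j => ?_
      show N1 _ ≤ N1 _
      rw [m10_LA_LA _ k (hfac j) hk]
      exact m10_mul_le N1 hs _ _ (hfac j) hk v
    · refine ge_of_tendsto' (hlim (m10LA k (fun l => l) v)) fun j => ?_
      show f v ≤ N1 _
      rw [m10_LA_LA _ k (hfac j) hk]
      exact hFle _ (Nat.mul_pos (hfac j) (by omega)) v

end P125F
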