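import Vale.Agent.P125F.GV_helper4

/-! # [A2] wrap-up: the averaged seminorm from the three local facts -/

namespace P125F
open Finset P125S

theorem w4_append (L : ℕ) (l l' : List ℤ) : blow L (l ++ l') = blow L l ++ blow L l' := by
  simp [blow4]

theorem w4_len (L : ℕ) (l : List ℤ) : (blow L l).length = L * l.length := by
  induction l with
  | nil => simp [blow4]
  | cons a l ih =>
    have : blow L (a :: l) = List.replicate L ((a : ℝ) / L) ++ blow L l := by simp [blow4]
    rw [this, List.length_append, ih, List.length_replicate, List.length_cons]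
    ring

theorem w4_zip (L : ℕ) (l l' : List ℤ) (h : l.length = l'.length) :
    blow L (List.zipWith (· + ·) l l') = List.zipWith (· + ·) (blow L l) (blow L l') := by
  induction l generalizing l' with
  | nil =>
    cases l' with
    | nil => simp [blow4]
    | cons b l' => simp at h
  | cons a l ih =>
    cases l' with
    | nil => simp at h
    | cons b l' =>
      have h' : l.length = l'.length := by simpa using h
      have e1 : blow L (a :: l) = List.replicate L ((a : ℝ) / L) ++ blow L l := by simp [blow4]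
      have e2 : blow L (b :: l') = List.replicate L ((b : ℝ) / L) ++ blow L l' := by simp [blow4]
      have e3 : List.zipWith (· + ·) (a :: l) (b :: l') = (a + b) :: List.zipWith (· + ·) l l' := rfl
      have e4 : blow L ((a + b) :: List.zipWith (· + ·) l l')
          = List.replicate L (((a + b : ℤ) : ℝ) / L) ++ blow L (List.zipWith (· + ·) l l') := by
        simp [blow4]
      rw [e3, e4, e1, e2, ih l' h', List.zipWith_append (by simp), List.zipWith_replicate]
      congr 2
      · simp
      · push_cast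
        ring

theorem w4_smul (L : ℕ) (k : ℤ) (l : List ℤ) :
    blow L (l.map (k * ·)) = (blow L l).map ((k : ℝ) * ·) := by
  induction l with
  | nil => simp [blow4]
  | cons a l ih =>
    have e1 : blow L (a :: l) = List.replicate L ((a : ℝ) / L) ++ blow L l := by simp [blow4]
    have e2 : blow L ((a :: l).map (k * ·))
        = List.replicate L (((k * a : ℤ) : ℝ) / L) ++ blow L (l.map (k * ·)) := by simp [blow4]
    rw [e2, e1, ih, List.map_append, List.map_replicate]
    congr 2
    push_cast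
    ring

theorem w4_sum (L : ℕ) (hL : 0 < L) (l : List ℤ) : (blow L l).sum = ((l.sum : ℤ) : ℝ) := by
  induction l with
  | nil => simp [blow4]
  | cons a l ih =>
    have e1 : blow L (a :: l) = List.replicate L ((a : ℝ) / L) ++ blow L l := by simp [blow4]
    have hL' : (L : ℝ) ≠ 0 := by positivity
    rw [e1, List.sum_append, ih, List.sum_replicate, List.sum_cons, nsmul_eq_mul]
    push_cast
    field_simp

theorem avg_wrap4 {S : List ℝ → ℝ} {θ : ℝ} (hθ : 0 < θ) (hS : Spr S θ)
    (hR : ∀ (L T : ℕ) (l : List ℤ), 0 < L → 0 < T → S (blow (L * T) l) ≤ S (blow L l))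
    (hM : ∀ (l₁ : List ℤ) (a b : ℤ) (l₂ : List ℤ) (L T : ℕ), 0 < L → 0 < T →
      S (blow (L * T) (l₁ ++ (a + b) :: l₂)) ≤ S (blow L (l₁ ++ a :: b :: l₂)) + 2 * |(b : ℝ)| / T)
    (hSp : ∀ (l₁ : List ℤ) (a b : ℤ) (l₂ : List ℤ), 0 ≤ a * b → ∃ q r : ℕ, 0 < q ∧ 0 < r ∧
      ∀ L : ℕ, 0 < L → S (blow (q * L) (l₁ ++ a :: b :: l₂)) ≤ S (blow (r * L) (l₁ ++ (a + b) :: l₂))) :
    ∃ N : List ℤ → ℝ, Sem N θ ∧ ∀ (A : Finset (List ℤ)) (δ : ℝ), 0 < δ →
      ∃ L : ℕ, 0 < L ∧ ∀ l ∈ A, |S (blow L l) - N l| ≤ δ := by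
  set d : List ℤ → ℕ → ℝ := fun l k => S (blow (Nat.factorial k) l) with hd
  have hpos : ∀ l : List ℝ, 0 ≤ S l := by
    intro l
    have := hS.low l []
    simpa using this
  have hanti : ∀ l, Antitone (d l) := by
    intro l
    apply antitone_nat_of_succ_le
    intro k
    rw [hd]
    dsimp only
    rw [Nat.factorial_succ, mul_comm]
    exact hR _ _ l (Nat.factorial_pos k) (Nat.succ_pos k)
  have hbdd : ∀ l, BddBelow (Set.range (d l)) := fun l =>
    ⟨0, by rintro _ ⟨k, rfl⟩; exact hpos _⟩
  set N : List ℤ → ℝ := fun l => ⨅ k, d l k with hN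
  have hlim : ∀ l, Filter.Tendsto (d l) Filter.atTop (nhds (N l)) := fun l =>
    tendsto_atTop_ciInf (hanti l) (hbdd l)
  have hle : ∀ (l : List ℤ) (L : ℕ), 0 < L → N l ≤ S (blow L l) := by
    intro l L hL
    obtain ⟨T, hT⟩ := Nat.dvd_factorial hL le_rfl
    have hT0 : 0 < T := by
      rcases Nat.eq_zero_or_pos T with h | h
      · rw [h, mul_zero] at hT
        exact absurd hT (Nat.factorial_ne_zero L)
      · exact h
    have h1 : N l ≤ d l L := ciInf_le (hbdd l) L
    refine h1.trans ?_
    rw [hd]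
    dsimp only
    rw [hT]
    exact hR L T l hL hT0
  have hge : ∀ (l : List ℤ) (c : ℝ), (∀ L : ℕ, 0 < L → c ≤ S (blow L l)) → c ≤ N l := by
    intro l c h
    exact le_ciInf fun k => h _ (Nat.factorial_pos k)
  refine ⟨N, ⟨?_, ?_, ?_, ?_, ?_⟩, ?_⟩
  · intro l l' hl
    have h1 := (hlim l).add (hlim l')
    refine le_of_tendsto_of_tendsto (hlim (List.zipWith (· + ·) l l')) h1 ?_
    filter_upwards with k
    rw [hd]
    dsimp only
    rw [w4_zip _ l l' hl]
    exact hS.tri _ _ (by rw [w4_len, w4_len, hl])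
  · intro k l
    have h1 := (hlim l).const_mul |(k : ℝ)|
    refine tendsto_nhds_unique (hlim (l.map (k * ·))) ?_
    refine h1.congr fun j => ?_
    rw [hd]
    dsimp only
    rw [w4_smul, hS.smul]
  · intro l₁ a b l₂
    apply hge
    intro L hL
    have h1 : ∀ T : ℕ, 0 < T → N (l₁ ++ (a + b) :: l₂)
        ≤ S (blow L (l₁ ++ a :: b :: l₂)) + 2 * |(b : ℝ)| / T := fun T hT =>
      (hle _ (L * T) (Nat.mul_pos hL hT)).trans (hM l₁ a b l₂ L T hL hT)
    have h2 : Filter.Tendsto (fun T : ℕ => S (blow L (l₁ ++ a :: b :: l₂)) + 2 * |(b : ℝ)| / T)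
        Filter.atTop (nhds (S (blow L (l₁ ++ a :: b :: l₂)) + 0)) :=
      tendsto_const_nhds.add (tendsto_const_div_atTop_nhds_zero_nat _)
    rw [add_zero] at h2
    refine ge_of_tendsto h2 ?_
    filter_upwards [Filter.eventually_gt_atTop 0] with T hT
    exact h1 T hT
  · intro l₁ a b l₂ hab
    obtain ⟨q, r, hq, hr, h⟩ := hSp l₁ a b l₂ hab
    apply hge
    intro L hL
    calc N (l₁ ++ a :: b :: l₂) ≤ S (blow (q * L) (l₁ ++ a :: b :: l₂)) :=
          hle _ _ (Nat.mul_pos hq hL)
      _ ≤ S (blow (r * L) (l₁ ++ (a + b) :: l₂)) := h L hL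
      _ ≤ S (blow L (l₁ ++ (a + b) :: l₂)) := by
          rw [mul_comm r L]
          exact hR L r _ hL hr
  · intro l₁ l₂
    apply hge
    intro L hL
    rw [w4_append]
    have := hS.low (blow L l₁) (blow L l₂)
    rwa [w4_sum L hL] at this
  · intro A δ hδ
    have h1 : ∀ l ∈ A, ∀ᶠ k in Filter.atTop, |d l k - N l| ≤ δ := by
      intro l _
      have h2 := (hlim l).sub_const (N l)
      rw [sub_self] at h2
      have h3 := h2.abs
      rw [abs_zero] at h3
      filter_upwards [h3.eventually (gt_mem_nhds hδ)] with k hk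
      exact hk.le
    have h2 := (Filter.eventually_all_finset A).mpr h1
    obtain ⟨k, hk⟩ := h2.exists
    exact ⟨Nat.factorial k, Nat.factorial_pos k, fun l hl => hk l hl⟩

end P125F
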