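import Vale.Agent.P125F.FIN_helper18

/-! # Zeros do not matter: the pattern of an alternating tuple (piece B0) -/

namespace P125F
open Finset P125S

theorem b018_zero_right {N : List ℤ → ℝ} {θ : ℝ} (hN : Sem N θ) (l₁ : List ℤ) (a : ℤ)
    (l₂ : List ℤ) : N (l₁ ++ a :: 0 :: l₂) = N (l₁ ++ a :: l₂) := by
  have h1 := hN.merge l₁ a 0 l₂
  have h2 := hN.split l₁ a 0 l₂ (by simp)
  rw [add_zero] at h1 h2
  exact le_antisymm h2 h1

theorem b018_zero_left {N : List ℤ → ℝ} {θ : ℝ} (hN : Sem N θ) (l₁ : List ℤ) (a : ℤ)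
    (l₂ : List ℤ) : N (l₁ ++ 0 :: a :: l₂) = N (l₁ ++ a :: l₂) := by
  have h1 := hN.merge l₁ 0 a l₂
  have h2 := hN.split l₁ 0 a l₂ (by simp)
  rw [zero_add] at h1 h2
  exact le_antisymm h2 h1

theorem b018_zero {N : List ℤ → ℝ} {θ : ℝ} (hN : Sem N θ) (l₁ l₂ : List ℤ) :
    N (l₁ ++ 0 :: l₂) = N (l₁ ++ l₂) := by
  cases l₂ with
  | cons b l₂ => exact b018_zero_left hN l₁ b l₂
  | nil =>
    rcases List.eq_nil_or_concat l₁ with h | ⟨l, a, h⟩
    · subst h
      have h1 := hN.smul 0 []
      have h2 := hN.smul 0 [0]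
      simp at h1 h2
      simpa using h2.trans h1.symm
    · subst h
      have h1 := b018_zero_right hN l a []
      simpa using h1

theorem b018_filter {N : List ℤ → ℝ} {θ : ℝ} (hN : Sem N θ) (l : List ℤ) :
    ∀ l₁ : List ℤ, N (l₁ ++ l) = N (l₁ ++ l.filter (fun a => decide (a ≠ 0))) := by
  induction l with
  | nil => intro l₁; rfl
  | cons a l ih =>
    intro l₁
    by_cases h : a = 0
    · subst h
      rw [b018_zero hN, ih l₁]
      simp
    · have h1 := ih (l₁ ++ [a])
      rw [List.filter_cons_of_pos (by simpa using h)]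
      simpa using h1

theorem b018_list {k m : ℕ} (t : Fin k ↪o Fin m) (v : Fin k → ℤ) (hv : ∀ l, v l ≠ 0) :
    (List.ofFn (fun j : Fin m => ∑ l : Fin k, if t l = j then v l else 0)).filter
      (fun a => decide (a ≠ 0)) = List.ofFn v := by
  have hval : ∀ l, (∑ l' : Fin k, if t l' = t l then v l' else 0) = v l := by
    intro l
    rw [sum_eq_single l]
    · rw [if_pos rfl]
    · intro b _ hb
      rw [if_neg]
      exact fun h => hb (t.injective h)
    · exact fun h => absurd (mem_univ _) h
  rw [List.ofFn_eq_map, List.ofFn_eq_map, List.filter_map]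
  have h1 : (List.finRange m).filter ((fun a => decide (a ≠ 0)) ∘
      (fun j : Fin m => ∑ l : Fin k, if t l = j then v l else 0))
      = (List.finRange k).map t := by
    refine List.Perm.eq_of_pairwise (le := (· < ·)) (fun a b _ _ h1 h2 => absurd h1 (not_lt.2 h2.le))
      ((List.pairwise_lt_finRange m).filter _) ?_ ?_
    · rw [List.pairwise_map]
      exact (List.pairwise_lt_finRange k).imp fun h => t.strictMono h
    · rw [List.perm_ext_iff_of_nodup ((List.nodup_finRange m).filter _)
        ((List.nodup_finRange k).map t.injective)]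
      intro j
      rw [List.mem_filter, List.mem_map]
      simp only [List.mem_finRange, true_and, Function.comp, decide_eq_true_eq]
      constructor
      · intro h
        by_contra hcon
        push Not at hcon
        exact h (sum_eq_zero fun l _ => if_neg (hcon l))
      · rintro ⟨l, rfl⟩
        rw [hval]
        exact hv l
  rw [h1, List.map_map]
  exact List.map_congr_left fun l _ => hval l

theorem b018_alt (M : ℕ) : List.ofFn (fun l : Fin (2 * M) => (-1 : ℤ) ^ (l : ℕ)) = alt M := by
  induction M with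
  | zero => rfl
  | succ M ih =>
    rw [fin18_alt_succ, ← ih]
    have h : 2 * (M + 1) = 2 * M + 1 + 1 := by ring
    rw [List.ofFn_congr h, List.ofFn_succ, List.ofFn_succ]
    congr 1
    congr 1
    congr 1
    funext l
    simp [pow_succ]

theorem alt_pattern18 {N : List ℤ → ℝ} {θ : ℝ} (hN : Sem N θ) (M m : ℕ)
    (t : Fin (2 * M) ↪o Fin m) :
    N (List.ofFn (fun j : Fin m => ∑ l : Fin (2 * M), if t l = j then (-1 : ℤ) ^ (l : ℕ) else 0))
      = N (alt M) := by
  have h1 := b018_filter hN (List.ofFn (fun j : Fin m =>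
    ∑ l : Fin (2 * M), if t l = j then (-1 : ℤ) ^ (l : ℕ) else 0)) []
  rw [List.nil_append, List.nil_append, b018_list t _ (fun l => pow_ne_zero _ (by norm_num)),
    b018_alt] at h1
  exact h1

end P125F
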