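import Vale.Agent.P125F.Defs

/-! # Piece B: merging and alternating patterns -/

namespace P125F
open Finset P125S

section B25
variable {N : List ℤ → ℝ} {θ : ℝ}

theorem b25_nil (hN : Sem N θ) : N [] = 0 := by
  have h := hN.smul 0 []
  simpa using h

theorem b25_zero1 (hN : Sem N θ) : N [0] = 0 := by
  have h := hN.smul 0 [0]
  simpa using h

/-- zeros do not matter -/
theorem b25_zero (hN : Sem N θ) (l₁ l₂ : List ℤ) : N (l₁ ++ 0 :: l₂) = N (l₁ ++ l₂) := by
  rcases l₂ with _ | ⟨b, l₂⟩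
  · rcases List.eq_nil_or_concat l₁ with h | ⟨l₁', a, h⟩
    · subst h
      simp only [List.nil_append]
      rw [b25_zero1 hN, b25_nil hN]
    · subst h
      simp only [List.concat_eq_append, List.append_assoc, List.singleton_append,
        List.append_nil]
      refine le_antisymm ?_ ?_
      · have := hN.split l₁' a 0 [] (by simp)
        simpa using this
      · have := hN.merge l₁' a 0 []
        simpa using this
  · refine le_antisymm ?_ ?_
    · have := hN.split l₁ 0 b l₂ (by simp)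
      simpa using this
    · have := hN.merge l₁ 0 b l₂
      simpa using this

theorem b25_mergeList (hN : Sem N θ) (b : List ℤ) :
    ∀ l₁ l₂ : List ℤ, N (l₁ ++ b.sum :: l₂) ≤ N (l₁ ++ (b ++ l₂)) := by
  induction b with
  | nil =>
    intro l₁ l₂
    rw [List.sum_nil, b25_zero hN, List.nil_append]
  | cons a b ih =>
    intro l₁ l₂
    rw [List.sum_cons]
    refine (hN.merge l₁ a b.sum l₂).trans ?_
    have h := ih (l₁ ++ [a]) l₂
    simpa [List.append_assoc] using h

/-- `k` copies of `a, -a` -/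
def pat (a : ℤ) (k : ℕ) : List ℤ := (List.replicate k [a, -a]).flatten

theorem pat_succ (a : ℤ) (k : ℕ) : pat a (k + 1) = a :: -a :: pat a k := by
  unfold pat
  rw [List.replicate_succ, List.flatten_cons]
  rfl

theorem alt_eq_pat (k : ℕ) : alt k = pat 1 k := rfl

theorem pat_map (a : ℤ) (k : ℕ) : pat a k = (alt k).map (a * ·) := by
  induction k with
  | zero => simp [pat, alt]
  | succ k ih =>
    rw [pat_succ, ih, alt_eq_pat, alt_eq_pat, pat_succ]
    simp

theorem pat_shift (a : ℤ) (k : ℕ) : a :: (pat (-a) k ++ [-a]) = pat a (k + 1) := by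
  induction k with
  | zero => simp [pat]
  | succ k ih =>
    rw [pat_succ (-a) k, pat_succ a (k + 1), ← ih]
    simp

theorem b25_blocks (hN : Sem N θ) (n : ℤ) (bs : List (List ℤ × List ℤ)) :
    (∀ c ∈ bs, c.1.sum = n ∧ c.2.sum = -n) → ∀ l₁ l₂ : List ℤ,
      N (l₁ ++ (pat n bs.length ++ l₂))
        ≤ N (l₁ ++ ((bs.map (fun c => c.1 ++ c.2)).flatten ++ l₂)) := by
  induction bs with
  | nil =>
    intro _ l₁ l₂
    simp [pat]
  | cons c bs ih =>
    intro hc l₁ l₂
    obtain ⟨h1, h2⟩ := hc c List.mem_cons_self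
    have hc' : ∀ c ∈ bs, c.1.sum = n ∧ c.2.sum = -n := fun c' h => hc c' (List.mem_cons_of_mem _ h)
    have s1 := ih hc' (l₁ ++ c.1 ++ c.2) l₂
    have s2 := b25_mergeList hN c.2 (l₁ ++ c.1) (pat n bs.length ++ l₂)
    have s3 := b25_mergeList hN c.1 l₁ (c.2.sum :: (pat n bs.length ++ l₂))
    rw [h1, h2] at s3
    rw [h2] at s2
    simp only [List.length_cons, pat_succ, List.map_cons, List.flatten_cons, List.append_assoc,
      List.cons_append] at s1 s2 s3 ⊢
    exact s3.trans (s2.trans s1)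

/-- shrinking one pair -/
theorem b25_pair (hN : Sem N θ) (x y : ℤ) (hxy : 0 ≤ x * y) (l₁ l₂ : List ℤ) :
    N (l₁ ++ x :: -x :: l₂) ≤ N (l₁ ++ (x + y) :: -(x + y) :: l₂) := by
  have h1 : N (l₁ ++ x :: -x :: l₂) = N (l₁ ++ x :: 0 :: -x :: l₂) := by
    have := b25_zero hN (l₁ ++ [x]) (-x :: l₂)
    simpa [List.append_assoc] using this.symm
  have h2 : N (l₁ ++ x :: 0 :: -x :: l₂) ≤ N (l₁ ++ x :: y :: -y :: -x :: l₂) := by
    have := hN.merge (l₁ ++ [x]) y (-y) (-x :: l₂)
    simpa [List.append_assoc] using this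
  have h3 : N (l₁ ++ x :: y :: -y :: -x :: l₂) ≤ N (l₁ ++ x :: y :: (-(x + y)) :: l₂) := by
    have := hN.split (l₁ ++ [x, y]) (-y) (-x) l₂ (by nlinarith)
    have e : -y + -x = -(x + y) := by ring
    rw [e] at this
    simpa [List.append_assoc] using this
  have h4 := hN.split l₁ x y (-(x + y) :: l₂) hxy
  linarith

theorem b25_pat (hN : Sem N θ) (x y : ℤ) (hxy : 0 ≤ x * y) (k : ℕ) :
    ∀ l₁ l₂ : List ℤ, N (l₁ ++ (pat x k ++ l₂)) ≤ N (l₁ ++ (pat (x + y) k ++ l₂)) := by
  induction k with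
  | zero => intro l₁ l₂; simp [pat]
  | succ k ih =>
    intro l₁ l₂
    rw [pat_succ, pat_succ]
    have h1 := b25_pair hN x y hxy l₁ (pat x k ++ l₂)
    have h2 := ih (l₁ ++ [x + y, -(x + y)]) l₂
    simp only [List.append_assoc, List.cons_append, List.nil_append] at h1 h2 ⊢
    exact h1.trans h2

theorem b25_nn (hN : Sem N θ) (hθ : True) (k : ℕ) : 0 ≤ N (alt k) := by
  have h := hN.low [] (alt k)
  have h2 : ((alt k).sum : ℤ) = 0 := by
    rw [alt_eq_pat]
    induction k with
    | zero => simp [pat]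
    | succ k ih =>
      rw [pat_succ]
      have h0 := hN.low [] (alt k)
      rw [List.sum_cons, List.sum_cons]
      have := ih (by simpa using h0)
      omega
  rw [h2] at h
  simpa using h

theorem b25_alt_mono (hN : Sem N θ) {k l : ℕ} (h : k ≤ l) : N (alt k) ≤ N (alt l) := by
  refine monotone_nat_of_le_succ (f := fun k => N (alt k)) (fun k => ?_) h
  show N (alt k) ≤ N (alt (k + 1))
  rw [alt_eq_pat, alt_eq_pat, pat_succ]
  have h1 := hN.merge [] 1 (-1) (pat 1 k)
  have h2 := b25_zero hN [] (pat 1 k)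
  simp only [List.nil_append] at h1 h2
  have e : (1 : ℤ) + -1 = 0 := by norm_num
  rw [e, h2] at h1
  exact h1

theorem b25_zeros_right (hN : Sem N θ) (l : List ℤ) (k : ℕ) :
    N (l ++ List.replicate k 0) = N l := by
  induction k with
  | zero => simp
  | succ k ih =>
    rw [List.replicate_succ, b25_zero hN, ih]

theorem b25_zeros_left (hN : Sem N θ) (l : List ℤ) (k : ℕ) :
    N (List.replicate k 0 ++ l) = N l := by
  induction k with
  | zero => simp
  | succ k ih =>
    rw [List.replicate_succ, List.cons_append]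
    have := b25_zero hN [] (List.replicate k 0 ++ l)
    simp only [List.nil_append] at this
    rw [this, ih]

theorem zip_left (l : List ℤ) : List.zipWith (· + ·) l (List.replicate l.length 0) = l := by
  induction l with
  | nil => rfl
  | cons a l ih =>
    rw [List.length_cons, List.replicate_succ, List.zipWith_cons_cons, ih]
    simp

theorem zip_right (l : List ℤ) : List.zipWith (· + ·) (List.replicate l.length 0) l = l := by
  induction l with
  | nil => rfl
  | cons a l ih =>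
    rw [List.length_cons, List.replicate_succ, List.zipWith_cons_cons, ih]
    simp

theorem b25_append (hN : Sem N θ) (l l' : List ℤ) : N (l ++ l') ≤ N l + N l' := by
  have h := hN.tri (l ++ List.replicate l'.length 0) (List.replicate l.length 0 ++ l')
    (by simp)
  rw [List.zipWith_append (by simp), zip_left, zip_right, b25_zeros_right hN,
    b25_zeros_left hN] at h
  exact h

theorem pat_add (a : ℤ) (i j : ℕ) : pat a (i + j) = pat a i ++ pat a j := by
  unfold pat
  rw [List.replicate_add, List.flatten_append]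

theorem b25_alt_half (hN : Sem N θ) {M m : ℕ} (h : M ≤ 2 * m) : N (alt M) ≤ 2 * N (alt m) := by
  have h1 := b25_alt_mono hN h
  have h2 := b25_append hN (alt m) (alt m)
  have h3 : alt m ++ alt m = alt (2 * m) := by
    rw [alt_eq_pat, alt_eq_pat, two_mul, pat_add]
  rw [h3] at h2
  linarith

theorem b25_smul_pat (hN : Sem N θ) (a : ℤ) (k : ℕ) : N (pat a k) = |(a : ℝ)| * N (alt k) := by
  rw [pat_map, hN.smul]

theorem good_low_helper25 (hN : Sem N θ) (n m M : ℕ) (hm : 1 ≤ m)
    (hM : M ≤ 2 * m) (l : List ℤ) (hl : Good n m l) :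
    (n : ℝ) / 4 * N (alt M) ≤ N l := by
  obtain ⟨np, nm, hn, b₀, bs, b₁, hlen, hb₀, hbs, hb₁, rfl⟩ := hl
  -- V
  have hV : N ((-(nm : ℤ)) :: (pat (n : ℤ) m ++ [(nm : ℤ)]))
      ≤ N (b₀ ++ (bs.map (fun c => c.1 ++ c.2)).flatten ++ b₁) := by
    have s1 := b25_mergeList hN b₀ [] (pat (n : ℤ) m ++ [(nm : ℤ)])
    have s2 := b25_blocks hN (n : ℤ) bs hbs b₀ [(nm : ℤ)]
    have s3 := b25_mergeList hN b₁ (b₀ ++ (bs.map (fun c => c.1 ++ c.2)).flatten) []
    rw [hb₀] at s1
    rw [hb₁] at s3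
    rw [hlen] at s2
    simp only [List.nil_append, List.append_nil, List.append_assoc] at s1 s2 s3 ⊢
    exact s1.trans (s2.trans s3)
  have hnn := b25_nn hN trivial m
  have hnZ : (n : ℤ) = (nm : ℤ) + (np : ℤ) := by omega
  have hnR : (n : ℝ) = (nm : ℝ) + (np : ℝ) := by exact_mod_cast hnZ
  -- first bound
  have hA : (nm : ℝ) * N (alt (m + 1)) ≤ N ((-(nm : ℤ)) :: (pat (n : ℤ) m ++ [(nm : ℤ)])) := by
    have t1 := b25_pat hN (nm : ℤ) (np : ℤ) (by positivity) m [-(nm : ℤ)] [(nm : ℤ)]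
    rw [← hnZ] at t1
    have t2 := pat_shift (-(nm : ℤ)) m
    rw [neg_neg] at t2
    have t3 := b25_smul_pat hN (-(nm : ℤ)) (m + 1)
    rw [← t2] at t3
    have t4 : |((-(nm : ℤ) : ℤ) : ℝ)| = (nm : ℝ) := by
      push_cast
      rw [abs_neg, abs_of_nonneg (Nat.cast_nonneg _)]
    rw [t4] at t3
    rw [← t3]
    simpa using t1
  -- second bound
  have hB : (np : ℝ) * N (alt m) ≤ N ((-(nm : ℤ)) :: (pat (n : ℤ) m ++ [(nm : ℤ)])) := by
    obtain ⟨k, rfl⟩ : ∃ k, m = k + 1 := ⟨m - 1, by omega⟩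
    have t0 := pat_shift (n : ℤ) k
    rw [← t0]
    -- merge first two
    have u1 := hN.merge [] (-(nm : ℤ)) (n : ℤ) (pat (-(n : ℤ)) k ++ [-(n : ℤ), (nm : ℤ)])
    have u2 := hN.merge ([(np : ℤ)] ++ pat (-(n : ℤ)) k) (-(n : ℤ)) (nm : ℤ) []
    have e1 : -(nm : ℤ) + (n : ℤ) = (np : ℤ) := by omega
    have e2 : -(n : ℤ) + (nm : ℤ) = -(np : ℤ) := by omega
    rw [e1] at u1
    rw [e2] at u2
    have u3 := b25_pat hN (-(np : ℤ)) (-(nm : ℤ)) (by
      have : (0 : ℤ) ≤ (np : ℤ) * (nm : ℤ) := by positivity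
      linarith [neg_mul_neg (np : ℤ) (nm : ℤ)]) k [(np : ℤ)] [-(np : ℤ)]
    have e3 : -(np : ℤ) + -(nm : ℤ) = -(n : ℤ) := by omega
    rw [e3] at u3
    have t2 := pat_shift (np : ℤ) k
    have t3 := b25_smul_pat hN (np : ℤ) (k + 1)
    rw [← t2] at t3
    have t4 : |(((np : ℤ) : ℤ) : ℝ)| = (np : ℝ) := by
      push_cast
      rw [abs_of_nonneg (Nat.cast_nonneg _)]
    rw [t4] at t3
    rw [← t3]
    simp only [List.nil_append, List.cons_append, List.append_assoc, List.append_nil]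
      at u1 u2 u3 ⊢
    exact u3.trans (u2.trans u1)
  have h5 := b25_alt_mono hN (Nat.le_succ m)
  have h6 : (nm : ℝ) * N (alt m) ≤ (nm : ℝ) * N (alt (m + 1)) :=
    mul_le_mul_of_nonneg_left h5 (Nat.cast_nonneg _)
  have h7 : (n : ℝ) / 2 * N (alt m) ≤ N ((-(nm : ℤ)) :: (pat (n : ℤ) m ++ [(nm : ℤ)])) := by
    rw [hnR]
    linarith
  have h8 := b25_alt_half hN hM
  have h9 : (n : ℝ) / 4 * N (alt M) ≤ (n : ℝ) / 4 * (2 * N (alt m)) :=
    mul_le_mul_of_nonneg_left h8 (by positivity)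
  linarith

end B25

end P125F
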