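import Vale.Agent.P125F.Edge

/-! # [CH] the chain inequality from JC, PW, CMB, LAB -/

namespace P125F
open Finset P125S

theorem comp_inv (d M m : ℕ) (Φ Ψ : Fin ((M + 1) * (2 * d)) ↪o Fin m) (e : Mv d)
    (h : Comp d M m Φ Ψ e) : Comp d M m Ψ Φ (!e.1, e.2.2, e.2.1) := by
  unfold Comp at h ⊢
  simpa using h.symm

theorem comp_inv_iff (d M m : ℕ) (Φ Ψ : Fin ((M + 1) * (2 * d)) ↪o Fin m) (e : Mv d) :
    Comp d M m Ψ Φ (!e.1, e.2.2, e.2.1) ↔ Comp d M m Φ Ψ e := by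
  constructor
  · intro h
    have := comp_inv d M m Ψ Φ _ h
    simpa using this
  · exact comp_inv d M m Φ Ψ e

theorem sg_not (s : Bool) (l : ℕ) : sg (!s) l = -sg s l := by
  cases s <;> simp [sg]

theorem inc_anti (d M m : ℕ) (Φ Ψ : Fin ((M + 1) * (2 * d)) ↪o Fin m) (e : Mv d) (k : Fin m) :
    inc d M m Ψ Φ (!e.1, e.2.2, e.2.1) k = -inc d M m Φ Ψ e k := by
  classical
  unfold inc
  by_cases h : Comp d M m Φ Ψ e
  · have h' := comp_inv d M m Φ Ψ e h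
    rw [if_pos h, if_pos h']
    have hc : ∀ l, Ψ (edge d M (!e.1) e.2.2 l) = Φ (edge d M e.1 e.2.1 l) := by
      intro l
      have := congrArg (fun f => f l) h
      simpa using this.symm
    rw [← Finset.sum_neg_distrib]
    refine Finset.sum_congr rfl fun l _ => ?_
    show (if Ψ (edge d M (!e.1) e.2.2 l) = k then sg (!e.1) l else 0) = _
    rw [hc l, sg_not]
    split_ifs <;> simp
  · have h' : ¬ Comp d M m Ψ Φ (!e.1, e.2.2, e.2.1) := fun h' => h ((comp_inv_iff d M m Φ Ψ e).1 h')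
    rw [if_neg h, if_neg h']
    simp

theorem abs_sg (s : Bool) (l : ℕ) : |sg s l| = 1 := by
  unfold sg
  split_ifs <;> simp [abs_neg, abs_pow]

theorem abs_inc_le (d M m : ℕ) (Φ Ψ : Fin ((M + 1) * (2 * d)) ↪o Fin m) (e : Mv d) (k : Fin m) :
    |inc d M m Φ Ψ e k| ≤ 1 := by
  classical
  unfold inc
  split_ifs with h
  · refine (Finset.abs_sum_le_sum_abs _ _).trans ?_
    have h1 : ∀ l : Fin (2 * M), |(if Φ (edge d M e.1 e.2.1 l) = k then sg e.1 l else 0 : ℤ)|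
        = if Φ (edge d M e.1 e.2.1 l) = k then 1 else 0 := by
      intro l
      split_ifs
      · exact abs_sg _ _
      · simp
    rw [Finset.sum_congr rfl fun l _ => h1 l, Finset.sum_boole]
    norm_cast
    rw [Finset.card_le_one]
    intro a ha b hb
    have ha' := (Finset.mem_filter.1 ha).2
    have hb' := (Finset.mem_filter.1 hb).2
    exact (edge d M e.1 e.2.1).injective (Φ.injective (ha'.trans hb'.symm))
  · simp

/-- increments of compatible moves are alternating patterns up to sign -/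
theorem inc_comp (d M m : ℕ) (Φ Ψ : Fin ((M + 1) * (2 * d)) ↪o Fin m) (e : Mv d)
    (h : Comp d M m Φ Ψ e) (k : Fin m) :
    inc d M m Φ Ψ e k = (if e.1 then 1 else -1) *
      ∑ l : Fin (2 * M), if ((edge d M e.1 e.2.1).trans Φ) l = k then (-1 : ℤ) ^ (l : ℕ) else 0 := by
  classical
  unfold inc
  rw [if_pos h, Finset.mul_sum]
  refine Finset.sum_congr rfl fun l _ => ?_
  show (if Φ (edge d M e.1 e.2.1 l) = k then sg e.1 l else 0) =
    _ * (if Φ (edge d M e.1 e.2.1 l) = k then (-1 : ℤ) ^ (l : ℕ) else 0)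
  unfold sg
  by_cases he : e.1 = true
  · simp [he]
  · have he' : e.1 = false := by simpa using he
    simp [he']

theorem pw_nonneg {V E : Type} [Fintype V] [Fintype E] (L : LChain V E) {n : ℕ}
    (ω : Fin (n + 1) → V) (η : Fin n → E) : 0 ≤ L.pw ω η :=
  mul_nonneg (L.w_nonneg _)
    (Finset.prod_nonneg fun i _ => div_nonneg (L.J_nonneg _ _ _) (L.w_nonneg _))

theorem pw_ne {V E : Type} [Fintype V] [Fintype E] (L : LChain V E) {n : ℕ}
    (ω : Fin (n + 1) → V) (η : Fin n → E) (h : L.pw ω η ≠ 0) (i : Fin n) :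
    L.J (ω i.castSucc) (ω i.succ) (η i) ≠ 0 := by
  intro h0
  apply h
  unfold LChain.pw
  rw [Finset.prod_eq_zero (Finset.mem_univ i) (by rw [h0, zero_div]), mul_zero]

/-- [CH] chain inequality, from JC, PW, CMB, LAB. -/
theorem chain_ineq_of
    (hJC : ∀ (d M : ℕ) (_ : 1 ≤ d) {ε : ℝ} (_ : 0 < ε),
      ∃ (m : ℕ) (L : LChain (Fin ((M + 1) * (2 * d)) ↪o Fin m) (Mv d)),
        (∀ e, L.inv e = (!e.1, e.2.2, e.2.1)) ∧
        (∀ Φ Ψ e, L.J Φ Ψ e ≠ 0 → Comp d M m Φ Ψ e) ∧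
        (1 - ε ≤ ∑ Φ, ∑ Ψ, ∑ e, L.J Φ Ψ e) ∧
        (∀ Φ (j : Fin d), ∑ Ψ, ∑ e, (if e.2.1 = j then L.J Φ Ψ e else 0) ≤ L.w Φ / d))
    (hPW : ∀ {V : Type} [Fintype V] (d : ℕ) (_ : 1 ≤ d) {ε : ℝ} (_ : 0 ≤ ε)
      (L : LChain V (Mv d)) (_ : 1 - ε ≤ ∑ x, ∑ y, ∑ e, L.J x y e)
      (_ : ∀ x (j : Fin d), ∑ y, ∑ e : Mv d, (if e.2.1 = j then L.J x y e else 0) ≤ L.w x / d)
      (n : ℕ),
      1 - n * ε - n / d ≤ ∑ ω : Fin (n + 1) → V, ∑ η : Fin n → Mv d,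
        (if ∀ i j : Fin n, (j : ℕ) = i + 1 → (η j).2.1 ≠ (η i).2.2 then L.pw ω η else 0))
    (hCMB : ∀ (d M m n : ℕ) (_ : 1 ≤ n) (_ : 2 * n + 3 ≤ M)
      (ω : Fin (n + 1) → (Fin ((M + 1) * (2 * d)) ↪o Fin m)) (η : Fin n → Mv d)
      (_ : ∀ i, Comp d M m (ω i.castSucc) (ω i.succ) (η i))
      (_ : ∀ i j : Fin n, (j : ℕ) = i + 1 → (η j).2.1 ≠ (η i).2.2),
      Good n (M - 2 * n - 2) (List.ofFn (fun k : Fin m =>
        ∑ i : Fin n, inc d M m (ω i.castSucc) (ω i.succ) (η i) k)))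
    (hLAB : ∀ {X : Type} [NormedAddCommGroup X] [NormedSpace ℝ X] {p K : ℝ} (_ : 0 < p)
      (_ : 0 < K) (_ : MarkovType X p K) {V E : Type} [Fintype V] [Fintype E] [DecidableEq V] [DecidableEq E]
      (L : LChain V E) {m : ℕ} (g : V → V → E → Fin m → ℤ)
      (_ : ∀ x y e j, g y x (L.inv e) j = -g x y e j) (y : Fin m → X) (n : ℕ) (_ : 1 ≤ n),
      ∑ ω : Fin (n + 1) → V, ∑ η : Fin n → E, L.pw ω η *
          ‖∑ j, ((∑ i : Fin n, g (ω i.castSucc) (ω i.succ) (η i) j : ℤ) : ℝ) • y j‖ ^ p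
        ≤ K ^ p * n * ∑ x, ∑ x', ∑ e, L.J x x' e * ‖∑ j, (g x x' e j : ℝ) • y j‖ ^ p)
    (n M : ℕ) (hn : 1 ≤ n) (hM : 2 * n + 3 ≤ M) :
    ∃ m : ℕ, ∀ (X : Type) [NormedAddCommGroup X] [NormedSpace ℝ X] (p K : ℝ), 0 < p → 0 < K →
      MarkovType X p K → ∀ (y : Fin m → X) (A B : ℝ), 0 ≤ A → 0 ≤ B →
      (∀ t : Fin (2 * M) ↪o Fin m,
        ‖∑ j, ((∑ l : Fin (2 * M), if t l = j then (-1 : ℤ) ^ (l : ℕ) else 0 : ℤ) : ℝ) • y j‖ ≤ A) →
      (∀ a : Fin m → ℤ, (∀ j, |a j| ≤ (n : ℤ)) → Good n (M - 2 * n - 2) (List.ofFn a) →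
        B ≤ ‖∑ j, (a j : ℝ) • y j‖) →
      B ^ p / 2 ≤ K ^ p * n * A ^ p := by
  classical
  have hn0 : (0 : ℝ) < n := by exact_mod_cast hn
  obtain ⟨d, hd⟩ : ∃ d, d = 4 * n := ⟨_, rfl⟩
  obtain ⟨m, L, hinv, hcomp, hdef, hcol⟩ :=
    hJC d M (by omega) (ε := 1 / (4 * (n : ℝ))) (by positivity)
  refine ⟨m, ?_⟩
  intro X _ _ p K hp hK0 hX y A B hA hB hlow hgood
  have hlab := hLAB hp hK0 hX L (inc d M m) (fun Φ Ψ e j => by rw [hinv]; exact inc_anti d M m Φ Ψ e j)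
    y n hn
  have hpw := hPW d (by omega) (ε := 1 / (4 * (n : ℝ))) (by positivity) L hdef hcol n
  have hhalf : (1 : ℝ) - n * (1 / (4 * (n : ℝ))) - n / ((d : ℕ) : ℝ) = 1 / 2 := by
    rw [hd]; push_cast; field_simp; norm_num
  rw [hhalf] at hpw
  -- right side
  have hR : ∑ x, ∑ x', ∑ e, L.J x x' e * ‖∑ j, (inc d M m x x' e j : ℝ) • y j‖ ^ p ≤ A ^ p := by
    have h1 : ∀ x x' e, L.J x x' e * ‖∑ j, (inc d M m x x' e j : ℝ) • y j‖ ^ p
        ≤ L.J x x' e * A ^ p := by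
      intro x x' e
      by_cases hJ : L.J x x' e = 0
      · rw [hJ]; simp
      · have hc := hcomp x x' e hJ
        refine mul_le_mul_of_nonneg_left ?_ (L.J_nonneg _ _ _)
        refine Real.rpow_le_rpow (norm_nonneg _) ?_ hp.le
        have h2 : ∑ j, (inc d M m x x' e j : ℝ) • y j = ((if e.1 then 1 else -1 : ℤ) : ℝ) •
            ∑ j, ((∑ l : Fin (2 * M), if ((edge d M e.1 e.2.1).trans x) l = j
              then (-1 : ℤ) ^ (l : ℕ) else 0 : ℤ) : ℝ) • y j := by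
          rw [Finset.smul_sum]
          refine Finset.sum_congr rfl fun j _ => ?_
          rw [inc_comp d M m x x' e hc j, Int.cast_mul, mul_smul]
        rw [h2, norm_smul]
        have h3 : ‖((if e.1 then 1 else -1 : ℤ) : ℝ)‖ = 1 := by
          split_ifs <;> simp
        rw [h3, one_mul]
        exact hlow _
    calc ∑ x, ∑ x', ∑ e, L.J x x' e * ‖∑ j, (inc d M m x x' e j : ℝ) • y j‖ ^ p
        ≤ ∑ x, ∑ x', ∑ e, L.J x x' e * A ^ p :=
          Finset.sum_le_sum fun x _ => Finset.sum_le_sum fun x' _ =>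
            Finset.sum_le_sum fun e _ => h1 x x' e
      _ = (∑ x, ∑ x', ∑ e, L.J x x' e) * A ^ p := by
          simp only [Finset.sum_mul]
      _ ≤ 1 * A ^ p := by
          refine mul_le_mul_of_nonneg_right ?_ (Real.rpow_nonneg hA p)
          rw [← L.w_sum]
          exact Finset.sum_le_sum fun x _ => L.sub x
      _ = A ^ p := one_mul _
  -- left side
  have hL : B ^ p * (1 / 2) ≤ ∑ ω : Fin (n + 1) → (Fin ((M + 1) * (2 * d)) ↪o Fin m),
      ∑ η : Fin n → Mv d, L.pw ω η *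
        ‖∑ j, ((∑ i : Fin n, inc d M m (ω i.castSucc) (ω i.succ) (η i) j : ℤ) : ℝ) • y j‖ ^ p := by
    refine (mul_le_mul_of_nonneg_left hpw (Real.rpow_nonneg hB p)).trans ?_
    rw [Finset.mul_sum]
    refine Finset.sum_le_sum fun ω _ => ?_
    rw [Finset.mul_sum]
    refine Finset.sum_le_sum fun η _ => ?_
    by_cases hnb : ∀ i j : Fin n, (j : ℕ) = i + 1 → (η j).2.1 ≠ (η i).2.2
    · rw [if_pos hnb]
      by_cases h0 : L.pw ω η = 0
      · rw [h0]; simp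
      · rw [mul_comm]
        refine mul_le_mul_of_nonneg_left ?_ (pw_nonneg L ω η)
        refine Real.rpow_le_rpow hB ?_ hp.le
        have hc : ∀ i, Comp d M m (ω i.castSucc) (ω i.succ) (η i) :=
          fun i => hcomp _ _ _ (pw_ne L ω η h0 i)
        refine hgood (fun j => ∑ i : Fin n, inc d M m (ω i.castSucc) (ω i.succ) (η i) j) ?_
          (hCMB d M m n hn hM ω η hc hnb)
        intro j
        refine (Finset.abs_sum_le_sum_abs _ _).trans ?_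
        refine (Finset.sum_le_sum fun i _ =>
          abs_inc_le d M m (ω i.castSucc) (ω i.succ) (η i) j).trans ?_
        simp
    · rw [if_neg hnb, mul_zero]
      exact mul_nonneg (pw_nonneg L ω η) (Real.rpow_nonneg (norm_nonneg _) p)
  calc B ^ p / 2 = B ^ p * (1 / 2) := by ring
    _ ≤ _ := hL
    _ ≤ _ := hlab
    _ ≤ K ^ p * n * A ^ p :=
        mul_le_mul_of_nonneg_left hR (mul_nonneg (Real.rpow_nonneg hK0.le p) hn0.le)

end P125F
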