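import Mathlib

/-! COMB: path analysis (helper9) -/

namespace P125F.Comb9

open Finset Classical

def Pp (d i j : ℕ) : ℕ := i * (2 * d) + 2 * j
def Qp (d i j : ℕ) : ℕ := i * (2 * d) + 2 * j + 1

/-- strictly increasing on the positions -/
def Incr (d M : ℕ) (Φ : ℕ → ℕ) : Prop := ∀ a b, a < b → b < (M + 1) * (2 * d) → Φ a < Φ b

def Step (d M : ℕ) (Φ Φ' : ℕ → ℕ) (s : Bool) (j J : ℕ) : Prop :=
  ∀ i, 1 ≤ i → i ≤ M →
    (s = true → Φ' (Qp d (i - 1) J) = Φ (Pp d i j) ∧ Φ' (Pp d i J) = Φ (Qp d i j)) ∧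
    (s = false → Φ' (Pp d i J) = Φ (Qp d (i - 1) j) ∧ Φ' (Qp d i J) = Φ (Pp d i j))

/-- prefix function of the increment -/
noncomputable def gfun (d M : ℕ) (Φ : ℕ → ℕ) (s : Bool) (j : ℕ) (x : ℕ) : ℤ :=
  if s = true then
    (if ∃ i, 1 ≤ i ∧ i ≤ M ∧ Φ (Pp d i j) ≤ x ∧ x < Φ (Qp d i j) then 1 else 0)
  else
    (if ∃ i, 1 ≤ i ∧ i ≤ M ∧ Φ (Qp d (i - 1) j) ≤ x ∧ x < Φ (Pp d i j) then -1 else 0)

def Inv (d : ℕ) (Φ : ℕ → ℕ) (J : ℕ) (F : ℕ → ℤ) (a b : ℤ) (lo hi : ℕ) : Prop :=
  ∀ i, lo ≤ i → i ≤ hi →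
    (∀ x, Φ (Qp d i J) ≤ x → x < Φ (Pp d (i + 1) J) → F x = b) ∧
    (∃ x, Φ (Pp d i J) ≤ x ∧ x < Φ (Qp d i J) ∧ F x = -a)

theorem lt_cell {d M i : ℕ} (hi : i ≤ M) {c : ℕ} (hc : c < 2 * d) :
    i * (2 * d) + c < (M + 1) * (2 * d) := by
  have : i * (2 * d) ≤ M * (2 * d) := Nat.mul_le_mul_right _ hi
  have h2 : (M + 1) * (2 * d) = M * (2 * d) + 2 * d := by ring
  omega

theorem ltP {d M i j : ℕ} (hi : i ≤ M) (hj : j < d) : Pp d i j < (M + 1) * (2 * d) := by
  have := lt_cell (d := d) (M := M) hi (c := 2 * j) (by omega)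
  unfold Pp; omega

theorem ltQ {d M i j : ℕ} (hi : i ≤ M) (hj : j < d) : Qp d i j < (M + 1) * (2 * d) := by
  have := lt_cell (d := d) (M := M) hi (c := 2 * j + 1) (by omega)
  unfold Qp; omega

theorem le_of_incr {d M : ℕ} {Φ : ℕ → ℕ} (h : Incr d M Φ) {a b : ℕ} (hab : a ≤ b)
    (hb : b < (M + 1) * (2 * d)) : Φ a ≤ Φ b := by
  rcases Nat.lt_or_ge a b with h1 | h1
  · exact (h a b h1 hb).le
  · have : a = b := le_antisymm hab h1
    rw [this]

theorem step_true {d M : ℕ} {Φ Φ' : ℕ → ℕ} {j J J' : ℕ} (hj : j < d) (hJ : J < d)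
    (hne : j ≠ J) (hΦ : Incr d M Φ) (hs : Step d M Φ Φ' true j J') {F : ℕ → ℤ} {a b : ℤ}
    {lo hi : ℕ} (hlo : 1 ≤ lo) (hhi : hi + 1 ≤ M) (hI : Inv d Φ J F a b lo hi) :
    Inv d Φ' J' (fun x => F x + gfun d M Φ true j x) a (b + 1) (lo + 1) (hi - 1) := by
  intro i h1 h2
  have hi1 : i + 1 ≤ hi := by omega
  have e1 := (hs (i + 1) (by omega) (by omega)).1 rfl
  have e0 := (hs i (by omega) (by omega)).1 rfl
  simp only [Nat.add_sub_cancel] at e1
  have hmul : (i + 1) * (2 * d) = i * (2 * d) + 2 * d := by ring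
  have hmul2 : (i + 1 + 1) * (2 * d) = i * (2 * d) + 2 * d + 2 * d := by ring
  refine ⟨?_, ?_⟩
  · intro x hx1 hx2
    rw [e1.1] at hx1
    rw [e1.2] at hx2
    have hg : gfun d M Φ true j x = 1 := by
      unfold gfun
      rw [if_pos rfl, if_pos ⟨i + 1, by omega, by omega, hx1, hx2⟩]
    show F x + gfun d M Φ true j x = b + 1
    rw [hg]
    congr 1
    rcases Nat.lt_or_gt_of_ne hne with h | h
    · -- j < J : window index i
      refine (hI i (by omega) (by omega)).1 x ?_ ?_
      · refine le_trans (le_of_incr hΦ (b := Pp d (i + 1) j) ?_ ?_) hx1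
        · unfold Pp Qp; omega
        · first | exact ltQ (by omega) (by omega) | exact ltP (by omega) (by omega)
      · refine lt_of_lt_of_le hx2 (le_of_incr hΦ ?_ ?_)
        · unfold Pp Qp; omega
        · first | exact ltQ (by omega) (by omega) | exact ltP (by omega) (by omega)
    · refine (hI (i + 1) (by omega) (by omega)).1 x ?_ ?_
      · refine le_trans (le_of_incr hΦ (b := Pp d (i + 1) j) ?_ ?_) hx1
        · unfold Pp Qp; omega
        · first | exact ltQ (by omega) (by omega) | exact ltP (by omega) (by omega)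
      · refine lt_of_lt_of_le hx2 (le_of_incr hΦ ?_ ?_)
        · unfold Pp Qp; omega
        · first | exact ltQ (by omega) (by omega) | exact ltP (by omega) (by omega)
  · have key : ∀ x, Φ (Qp d i j) ≤ x → x < Φ (Pp d (i + 1) j) → gfun d M Φ true j x = 0 := by
      intro x hx1 hx2
      unfold gfun
      rw [if_pos rfl, if_neg]
      rintro ⟨i', g1, g2, g3, g4⟩
      rcases Nat.lt_or_ge i i' with h | h
      · have : Φ (Pp d (i + 1) j) ≤ Φ (Pp d i' j) := by
          refine le_of_incr hΦ ?_ (ltP g2 (by omega))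
          have : (i + 1) * (2 * d) ≤ i' * (2 * d) := Nat.mul_le_mul_right _ h
          unfold Pp; omega
        omega
      · have : Φ (Qp d i' j) ≤ Φ (Qp d i j) := by
          refine le_of_incr hΦ ?_ ?_
          · have : i' * (2 * d) ≤ i * (2 * d) := Nat.mul_le_mul_right _ h
            unfold Qp; omega
          · have := lt_cell (d := d) (M := M) (i := i) (by omega) (c := 2 * j + 1) (by omega)
            unfold Qp; omega
        omega
    rw [e0.2, e1.1]
    rcases Nat.lt_or_gt_of_ne hne with h | h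
    · obtain ⟨x, x1, x2, x3⟩ := (hI i (by omega) (by omega)).2
      have y1 : Φ (Qp d i j) ≤ x := by
        refine le_trans (le_of_incr hΦ ?_ ?_) x1
        · unfold Pp Qp; omega
        · first | exact ltQ (by omega) (by omega) | exact ltP (by omega) (by omega)
      have y2 : x < Φ (Pp d (i + 1) j) := by
        refine lt_of_lt_of_le x2 (le_of_incr hΦ ?_ ?_)
        · unfold Pp Qp; omega
        · first | exact ltQ (by omega) (by omega) | exact ltP (by omega) (by omega)
      exact ⟨x, y1, y2, by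
        show F x + gfun d M Φ true j x = -a
        rw [key x y1 y2, x3, add_zero]⟩
    · obtain ⟨x, x1, x2, x3⟩ := (hI (i + 1) (by omega) (by omega)).2
      have y1 : Φ (Qp d i j) ≤ x := by
        refine le_trans (le_of_incr hΦ ?_ ?_) x1
        · unfold Pp Qp; omega
        · first | exact ltQ (by omega) (by omega) | exact ltP (by omega) (by omega)
      have y2 : x < Φ (Pp d (i + 1) j) := by
        refine lt_of_lt_of_le x2 (le_of_incr hΦ ?_ ?_)
        · unfold Pp Qp; omega
        · first | exact ltQ (by omega) (by omega) | exact ltP (by omega) (by omega)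
      exact ⟨x, y1, y2, by
        show F x + gfun d M Φ true j x = -a
        rw [key x y1 y2, x3, add_zero]⟩

theorem step_false {d M : ℕ} {Φ Φ' : ℕ → ℕ} {j J J' : ℕ} (hj : j < d) (hJ : J < d)
    (hne : j ≠ J) (hΦ : Incr d M Φ) (hs : Step d M Φ Φ' false j J') {F : ℕ → ℤ} {a b : ℤ}
    {lo hi : ℕ} (hlo : 1 ≤ lo) (hhi : hi + 1 ≤ M) (hI : Inv d Φ J F a b lo hi) :
    Inv d Φ' J' (fun x => F x + gfun d M Φ false j x) (a + 1) b (lo + 1) (hi - 1) := by
  intro i h1 h2
  obtain ⟨k, rfl⟩ : ∃ k, i = k + 1 := ⟨i - 1, by omega⟩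
  have e1 := (hs (k + 1 + 1) (by omega) (by omega)).2 rfl
  have e0 := (hs (k + 1) (by omega) (by omega)).2 rfl
  simp only [Nat.add_sub_cancel] at e1 e0
  have hmul : (k + 1) * (2 * d) = k * (2 * d) + 2 * d := by ring
  have hmul2 : (k + 1 + 1) * (2 * d) = k * (2 * d) + 2 * d + 2 * d := by ring
  refine ⟨?_, ?_⟩
  · intro x hx1 hx2
    rw [e0.2] at hx1
    rw [e1.1] at hx2
    have hg : gfun d M Φ false j x = 0 := by
      unfold gfun
      rw [if_neg (by decide), if_neg]
      rintro ⟨i', g1, g2, g3, g4⟩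
      rcases Nat.lt_or_ge (k + 1) i' with h | h
      · have : Φ (Qp d (k + 1) j) ≤ Φ (Qp d (i' - 1) j) := by
          refine le_of_incr hΦ ?_ (by first | exact ltQ (by omega) (by omega) | exact ltP (by omega) (by omega))
          have : (k + 1) * (2 * d) ≤ (i' - 1) * (2 * d) := Nat.mul_le_mul_right _ (by omega)
          unfold Qp; omega
        omega
      · have : Φ (Pp d i' j) ≤ Φ (Pp d (k + 1) j) := by
          refine le_of_incr hΦ ?_ (by first | exact ltQ (by omega) (by omega) | exact ltP (by omega) (by omega))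
          have : i' * (2 * d) ≤ (k + 1) * (2 * d) := Nat.mul_le_mul_right _ h
          unfold Pp; omega
        omega
    show F x + gfun d M Φ false j x = b
    rw [hg, add_zero]
    rcases Nat.lt_or_gt_of_ne hne with h | h
    · refine (hI k (by omega) (by omega)).1 x ?_ ?_
      · refine le_trans (le_of_incr hΦ (b := Pp d (k + 1) j) ?_ ?_) hx1
        · unfold Pp Qp; omega
        · first | exact ltQ (by omega) (by omega) | exact ltP (by omega) (by omega)
      · refine lt_of_lt_of_le hx2 (le_of_incr hΦ ?_ ?_)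
        · unfold Pp Qp; omega
        · first | exact ltQ (by omega) (by omega) | exact ltP (by omega) (by omega)
    · refine (hI (k + 1) (by omega) (by omega)).1 x ?_ ?_
      · refine le_trans (le_of_incr hΦ (b := Pp d (k + 1) j) ?_ ?_) hx1
        · unfold Pp Qp; omega
        · first | exact ltQ (by omega) (by omega) | exact ltP (by omega) (by omega)
      · refine lt_of_lt_of_le hx2 (le_of_incr hΦ ?_ ?_)
        · unfold Pp Qp; omega
        · first | exact ltQ (by omega) (by omega) | exact ltP (by omega) (by omega)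
  · have key : ∀ x, Φ (Qp d k j) ≤ x → x < Φ (Pp d (k + 1) j) →
        gfun d M Φ false j x = -1 := by
      intro x hx1 hx2
      unfold gfun
      rw [if_neg (by decide), if_pos ⟨k + 1, by omega, by omega, by simpa using hx1, hx2⟩]
    rw [e0.1, e0.2]
    rcases Nat.lt_or_gt_of_ne hne with h | h
    · obtain ⟨x, x1, x2, x3⟩ := (hI k (by omega) (by omega)).2
      have y1 : Φ (Qp d k j) ≤ x := by
        refine le_trans (le_of_incr hΦ ?_ ?_) x1
        · unfold Pp Qp; omega
        · first | exact ltQ (by omega) (by omega) | exact ltP (by omega) (by omega)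
      have y2 : x < Φ (Pp d (k + 1) j) := by
        refine lt_of_lt_of_le x2 (le_of_incr hΦ ?_ ?_)
        · unfold Pp Qp; omega
        · first | exact ltQ (by omega) (by omega) | exact ltP (by omega) (by omega)
      exact ⟨x, y1, y2, by
        show F x + gfun d M Φ false j x = -(a + 1)
        rw [key x y1 y2, x3]; ring⟩
    · obtain ⟨x, x1, x2, x3⟩ := (hI (k + 1) (by omega) (by omega)).2
      have y1 : Φ (Qp d k j) ≤ x := by
        refine le_trans (le_of_incr hΦ ?_ ?_) x1
        · unfold Pp Qp; omega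
        · first | exact ltQ (by omega) (by omega) | exact ltP (by omega) (by omega)
      have y2 : x < Φ (Pp d (k + 1) j) := by
        refine lt_of_lt_of_le x2 (le_of_incr hΦ ?_ ?_)
        · unfold Pp Qp; omega
        · first | exact ltQ (by omega) (by omega) | exact ltP (by omega) (by omega)
      exact ⟨x, y1, y2, by
        show F x + gfun d M Φ false j x = -(a + 1)
        rw [key x y1 y2, x3]; ring⟩

/-- `n` steps -/
theorem inv_iter {d M n : ℕ} (hd : 2 ≤ d) (Φ : ℕ → ℕ → ℕ) (s : ℕ → Bool) (j J : ℕ → ℕ)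
    (hj : ∀ t, t < n → j t < d) (hJ : ∀ t, t < n → J t < d)
    (hΦ : ∀ t, t ≤ n → Incr d M (Φ t))
    (hs : ∀ t, t < n → Step d M (Φ t) (Φ (t + 1)) (s t) (j t) (J t))
    (hne : ∀ t, t + 1 < n → j (t + 1) ≠ J t) (hM : 2 * n + 2 ≤ M) :
    ∀ t, t ≤ n → ∃ a b Jt : ℕ, a + b = t ∧ Jt < d ∧ (t < n → j t ≠ Jt) ∧
      Inv d (Φ t) Jt (fun x => ∑ k ∈ range t, gfun d M (Φ k) (s k) (j k) x) a b (1 + t)
        (M - 1 - t) := by
  intro t
  induction t with
  | zero =>
    intro _
    obtain ⟨J0, hJ0, hJn⟩ : ∃ J0, J0 < d ∧ j 0 ≠ J0 := by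
      by_cases h : j 0 = 0
      · exact ⟨1, by omega, by omega⟩
      · exact ⟨0, by omega, h⟩
    refine ⟨0, 0, J0, rfl, hJ0, fun _ => hJn, ?_⟩
    intro i h1 h2
    refine ⟨fun x _ _ => by simp, ?_⟩
    refine ⟨Φ 0 (Pp d i J0), le_refl _, ?_, by simp⟩
    refine hΦ 0 (Nat.zero_le _) _ _ (by unfold Pp Qp; omega) ?_
    first | exact ltQ (by omega) (by omega) | exact ltP (by omega) (by omega)
  | succ t ih =>
    intro ht
    obtain ⟨a, b, Jt, hab, hJt, hjn, hI⟩ := ih (by omega)
    have hjt := hjn (by omega)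
    have hst := hs t (by omega)
    cases hsb : s t with
    | true =>
      rw [hsb] at hst
      have h := step_true (hj t (by omega)) hJt hjt (hΦ t (by omega)) hst
        (lo := 1 + t) (hi := M - 1 - t) (by omega) (by omega) hI
      refine ⟨a, b + 1, J t, by omega, hJ t (by omega), fun h' => hne t h', ?_⟩
      have e1 : 1 + (t + 1) = 1 + t + 1 := by omega
      have e2 : M - 1 - (t + 1) = M - 1 - t - 1 := by omega
      rw [e1, e2]
      have e3 : (fun x => ∑ k ∈ range (t + 1), gfun d M (Φ k) (s k) (j k) x) =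
          (fun x => (fun x => ∑ k ∈ range t, gfun d M (Φ k) (s k) (j k) x) x
            + gfun d M (Φ t) true (j t) x) := by
        funext x
        rw [sum_range_succ, hsb]
      rw [e3]
      push_cast
      exact h
    | false =>
      rw [hsb] at hst
      have h := step_false (hj t (by omega)) hJt hjt (hΦ t (by omega)) hst
        (lo := 1 + t) (hi := M - 1 - t) (by omega) (by omega) hI
      refine ⟨a + 1, b, J t, by omega, hJ t (by omega), fun h' => hne t h', ?_⟩
      have e1 : 1 + (t + 1) = 1 + t + 1 := by omega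
      have e2 : M - 1 - (t + 1) = M - 1 - t - 1 := by omega
      rw [e1, e2]
      have e3 : (fun x => ∑ k ∈ range (t + 1), gfun d M (Φ k) (s k) (j k) x) =
          (fun x => (fun x => ∑ k ∈ range t, gfun d M (Φ k) (s k) (j k) x) x
            + gfun d M (Φ t) false (j t) x) := by
        funext x
        rw [sum_range_succ, hsb]
      rw [e3]
      push_cast
      exact h

/-- COMB: alternating points of the prefix function after `n` steps -/
theorem comb {d M n : ℕ} (hd : 2 ≤ d) (Φ : ℕ → ℕ → ℕ) (s : ℕ → Bool) (j J : ℕ → ℕ)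
    (hj : ∀ t, t < n → j t < d) (hJ : ∀ t, t < n → J t < d)
    (hΦ : ∀ t, t ≤ n → Incr d M (Φ t))
    (hs : ∀ t, t < n → Step d M (Φ t) (Φ (t + 1)) (s t) (j t) (J t))
    (hne : ∀ t, t + 1 < n → j (t + 1) ≠ J t) (m : ℕ) (hm : 2 * n + 2 + m ≤ M) :
    ∃ a b : ℕ, a + b = n ∧ ∃ z : ℕ → ℕ, (∀ k, k < 2 * m → z k < z (k + 1)) ∧
      (∀ k, k ≤ m → ∑ t ∈ range n, gfun d M (Φ t) (s t) (j t) (z (2 * k)) = -(a : ℤ)) ∧
      (∀ k, k < m → ∑ t ∈ range n, gfun d M (Φ t) (s t) (j t) (z (2 * k + 1)) = (b : ℤ)) := by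
  obtain ⟨a, b, Jt, hab, hJt, -, hI⟩ := inv_iter hd Φ s j J hj hJ hΦ hs hne (by omega) n le_rfl
  refine ⟨a, b, hab, ?_⟩
  have hlow : ∀ i, ∃ x, (1 + n ≤ i → i ≤ M - 1 - n → Φ n (Pp d i Jt) ≤ x ∧
      x < Φ n (Qp d i Jt) ∧ ∑ t ∈ range n, gfun d M (Φ t) (s t) (j t) x = -(a : ℤ)) := by
    intro i
    by_cases h : 1 + n ≤ i ∧ i ≤ M - 1 - n
    · obtain ⟨x, hx⟩ := (hI i h.1 h.2).2
      exact ⟨x, fun _ _ => hx⟩
    · exact ⟨0, fun h1 h2 => absurd ⟨h1, h2⟩ h⟩
  choose w hw using hlow
  refine ⟨fun k => if k % 2 = 0 then w (1 + n + k / 2) else Φ n (Qp d (1 + n + k / 2) Jt),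
    ?_, ?_, ?_⟩
  · intro k hk
    rcases Nat.even_or_odd' k with ⟨r, rfl | rfl⟩
    · have e1 : (2 * r) % 2 = 0 := by omega
      have e2 : ¬ (2 * r + 1) % 2 = 0 := by omega
      have e3 : 2 * r / 2 = r := by omega
      have e4 : (2 * r + 1) / 2 = r := by omega
      simp only [e1, e2, e3, e4, if_true, if_false]
      exact (hw (1 + n + r) (by omega) (by omega)).2.1
    · have e1 : ¬ (2 * r + 1) % 2 = 0 := by omega
      have e2 : (2 * r + 1 + 1) % 2 = 0 := by omega
      have e3 : (2 * r + 1) / 2 = r := by omega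
      have e4 : (2 * r + 1 + 1) / 2 = r + 1 := by omega
      simp only [e1, e2, e3, e4, if_true, if_false]
      refine lt_of_lt_of_le ?_ (hw (1 + n + (r + 1)) (by omega) (by omega)).1
      refine hΦ n le_rfl _ _ ?_ ?_
      · have : (1 + n + (r + 1)) * (2 * d) = (1 + n + r) * (2 * d) + 2 * d := by ring
        unfold Pp Qp; omega
      · first | exact ltQ (by omega) (by omega) | exact ltP (by omega) (by omega)
  · intro k hk
    have e1 : (2 * k) % 2 = 0 := by omega
    have e3 : 2 * k / 2 = k := by omega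
    simp only [e1, e3, if_true]
    exact (hw (1 + n + k) (by omega) (by omega)).2.2
  · intro k hk
    have e1 : ¬ (2 * k + 1) % 2 = 0 := by omega
    have e3 : (2 * k + 1) / 2 = k := by omega
    simp only [e1, e3, if_false]
    refine (hI (1 + n + k) (by omega) (by omega)).1 _ le_rfl ?_
    refine hΦ n le_rfl _ _ ?_ ?_
    · have : (1 + n + k + 1) * (2 * d) = (1 + n + k) * (2 * d) + 2 * d := by ring
      unfold Pp Qp; omega
    · first | exact ltQ (by omega) (by omega) | exact ltP (by omega) (by omega)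

end P125F.Comb9
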