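import Vale.Agent.P125F.Edge
import Vale.Agent.P125F.Comb9

/-! # CMB -/

namespace P125F
open Finset P125S

theorem cm_good (l : List ℤ) (np nm m' : ℕ) (u v : ℕ → ℕ)
    (h1 : ∀ k < m', u k ≤ v k ∧ v k ≤ u (k + 1))
    (hu : ∀ k ≤ m', (l.take (u k)).sum = -(nm : ℤ)) (hv : ∀ k < m', (l.take (v k)).sum = (np : ℤ))
    (htot : l.sum = 0) : Good (np + nm) m' l := by
  refine ⟨np, nm, rfl, l.take (u 0), (List.range m').map (fun k =>
    ((l.take (v k)).drop (u k), (l.take (u (k + 1))).drop (v k))), l.drop (u m'), ?_, ?_, ?_, ?_, ?_⟩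
  · simp
  · exact hu 0 (Nat.zero_le _)
  · intro c hc
    rw [List.mem_map] at hc
    obtain ⟨k, hk, rfl⟩ := hc
    rw [List.mem_range] at hk
    obtain ⟨h2, h3⟩ := h1 k hk
    have key : ∀ a b : ℕ, a ≤ b → ((l.take b).drop a).sum = (l.take b).sum - (l.take a).sum := by
      intro a b hab
      have h4 : (l.take b).take a = l.take a := by
        rw [List.take_take, min_eq_left hab]
      have h5 := List.sum_take_add_sum_drop (l.take b) a
      rw [h4] at h5
      linarith
    simp only
    constructor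
    · rw [key _ _ h2, hv k hk, hu k hk.le]
      push_cast
      ring
    · rw [key _ _ h3, hu (k + 1) hk, hv k hk]
      push_cast
      ring
  · have h5 := List.sum_take_add_sum_drop l (u m')
    rw [hu m' le_rfl, htot] at h5
    linarith
  · have key : ∀ k ≤ m', l.take (u 0) ++ (((List.range k).map (fun k =>
        ((l.take (v k)).drop (u k), (l.take (u (k + 1))).drop (v k)))).map
          (fun c => c.1 ++ c.2)).flatten = l.take (u k) := by
      intro k
      induction k with
      | zero => intro _; simp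
      | succ k ih =>
        intro hk
        obtain ⟨h2, h3⟩ := h1 k hk
        rw [List.range_succ, List.map_append, List.map_append, List.flatten_append,
          ← List.append_assoc, ih (by omega)]
        simp only [List.map_cons, List.map_nil, List.flatten_cons, List.flatten_nil,
          List.append_nil]
        have h6 : ∀ a b : ℕ, a ≤ b → l.take a ++ (l.take b).drop a = l.take b := by
          intro a b hab
          have h4 : (l.take b).take a = l.take a := by
            rw [List.take_take, min_eq_left hab]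
          rw [← h4]
          exact List.take_append_drop a (l.take b)
        rw [← List.append_assoc, h6 _ _ h2, h6 _ _ h3]
    rw [key m' le_rfl, List.take_append_drop]

theorem cm_sg (s : Bool) (C : ℕ) :
    ∑ l ∈ range C, sg s l = if s then ((C % 2 : ℕ) : ℤ) else -((C % 2 : ℕ) : ℤ) := by
  have h : ∀ C : ℕ, ∑ l ∈ range C, (-1 : ℤ) ^ l = ((C % 2 : ℕ) : ℤ) := by
    intro C
    induction C with
    | zero => simp
    | succ C ih =>
      rw [sum_range_succ, ih]
      rcases Nat.even_or_odd C with hC | hC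
      · rw [hC.neg_one_pow]
        obtain ⟨c, rfl⟩ := hC
        have h1 : (c + c) % 2 = 0 := by omega
        have h2 : (c + c + 1) % 2 = 1 := by omega
        rw [h1, h2]
        norm_num
      · rw [hC.neg_one_pow]
        obtain ⟨c, rfl⟩ := hC
        have h1 : (2 * c + 1) % 2 = 1 := by omega
        have h2 : (2 * c + 1 + 1) % 2 = 0 := by omega
        rw [h1, h2]
        norm_num
  cases s
  · simp only [sg, Bool.false_eq_true, if_false, sum_neg_distrib, h]
  · simp only [sg, if_true, h]

theorem cm_lab_mono (d : ℕ) (s : Bool) (j : ℕ) (hj : j < d) {l l' : ℕ} (h : l < l') :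
    lab d s j l < lab d s j l' := by
  unfold lab
  split_ifs
  · by_cases hq : l / 2 = l' / 2
    · exact pos_lt' _ _ _ _ _ (by omega) (by omega) (by omega)
    · exact pos_lt _ _ _ _ _ (by omega) (by omega)
  · by_cases hq : (l + 1) / 2 = (l' + 1) / 2
    · exact pos_lt' _ _ _ _ _ (by omega) (by omega) (by omega)
    · exact pos_lt _ _ _ _ _ (by omega) (by omega)

/-- level of one edge below `c` -/
def cmh (d M : ℕ) (F : ℕ → ℕ) (s : Bool) (j c : ℕ) : ℤ :=
  ∑ l ∈ range (2 * M), if F (lab d s j l) < c then sg s l else 0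

theorem cmh_eq (d M : ℕ) (F : ℕ → ℕ) (hF : StrictMono F) (s : Bool) (j c : ℕ) (hj : j < d)
    (C : ℕ) (hC : C < 2 * M) (hC0 : 0 < C) (h1 : F (lab d s j (C - 1)) < c)
    (h2 : c ≤ F (lab d s j C)) :
    cmh d M F s j c = if s then ((C % 2 : ℕ) : ℤ) else -((C % 2 : ℕ) : ℤ) := by
  rw [← cm_sg, cmh, ← sum_filter]
  refine sum_congr ?_ fun _ _ => rfl
  ext l
  rw [mem_filter, mem_range, mem_range]
  constructor
  · rintro ⟨h3, h4⟩
    by_contra h5
    rcases Nat.lt_or_ge C l with h6 | h6
    · have := hF (cm_lab_mono d s j hj h6)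
      omega
    · have h7 : l = C := by omega
      subst h7
      omega
  · intro h3
    refine ⟨by omega, ?_⟩
    rcases Nat.lt_or_ge l (C - 1) with h6 | h6
    · have := hF (cm_lab_mono d s j hj h6)
      omega
    · have h7 : l = C - 1 := by omega
      subst h7
      exact h1

/-- `P` labels -/
def cmP (d : ℕ) (F : ℕ → ℕ) (j a : ℕ) : ℕ := F (pos d a (2 * j))
/-- `Q` labels -/
def cmQ (d : ℕ) (F : ℕ → ℕ) (j a : ℕ) : ℕ := F (pos d a (2 * j + 1))

theorem cm_out (d M : ℕ) (F : ℕ → ℕ) (hF : StrictMono F) (s : Bool) (j c a : ℕ) (hj : j < d)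
    (ha : 1 ≤ a) (haM : a + 1 ≤ M) (h1 : cmQ d F j a < c) (h2 : c ≤ cmP d F j (a + 1)) :
    cmh d M F s j c = if s then 0 else -1 := by
  cases s
  · have e1 : lab d false j (2 * a + 1 - 1) = pos d a (2 * j + 1) := by
      unfold lab
      simp only [Bool.false_eq_true, if_false]
      congr 1 <;> omega
    have e2 : lab d false j (2 * a + 1) = pos d (a + 1) (2 * j) := by
      unfold lab
      simp only [Bool.false_eq_true, if_false]
      congr 1 <;> omega
    rw [cmh_eq d M F hF false j c hj (2 * a + 1) (by omega) (by omega) (by rw [e1]; exact h1)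
      (by rw [e2]; exact h2)]
    have : (2 * a + 1) % 2 = 1 := by omega
    rw [this]
    simp
  · have e1 : lab d true j (2 * a - 1) = pos d a (2 * j + 1) := by
      unfold lab
      simp only [if_true]
      congr 1 <;> omega
    have e2 : lab d true j (2 * a) = pos d (a + 1) (2 * j) := by
      unfold lab
      simp only [if_true]
      congr 1 <;> omega
    rw [cmh_eq d M F hF true j c hj (2 * a) (by omega) (by omega) (by rw [e1]; exact h1)
      (by rw [e2]; exact h2)]
    have : (2 * a) % 2 = 0 := by omega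
    rw [this]
    simp

theorem cm_in (d M : ℕ) (F : ℕ → ℕ) (hF : StrictMono F) (s : Bool) (j c a : ℕ) (hj : j < d)
    (ha : 2 ≤ a) (haM : a + 1 ≤ M) (h1 : cmP d F j a < c) (h2 : c ≤ cmQ d F j a) :
    cmh d M F s j c = if s then 1 else 0 := by
  cases s
  · have e1 : lab d false j (2 * a - 1) = pos d a (2 * j) := by
      unfold lab
      simp only [Bool.false_eq_true, if_false]
      congr 1 <;> omega
    have e2 : lab d false j (2 * a) = pos d a (2 * j + 1) := by
      unfold lab
      simp only [Bool.false_eq_true, if_false]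
      congr 1 <;> omega
    rw [cmh_eq d M F hF false j c hj (2 * a) (by omega) (by omega) (by rw [e1]; exact h1)
      (by rw [e2]; exact h2)]
    have : (2 * a) % 2 = 0 := by omega
    rw [this]
    simp
  · have e1 : lab d true j (2 * a - 1 - 1) = pos d a (2 * j) := by
      unfold lab
      simp only [if_true]
      congr 1 <;> omega
    have e2 : lab d true j (2 * a - 1) = pos d a (2 * j + 1) := by
      unfold lab
      simp only [if_true]
      congr 1 <;> omega
    rw [cmh_eq d M F hF true j c hj (2 * a - 1) (by omega) (by omega) (by rw [e1]; exact h1)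
      (by rw [e2]; exact h2)]
    have : (2 * a - 1) % 2 = 1 := by omega
    rw [this]
    simp

/-- one nesting step -/
theorem cm_nest (d M : ℕ) (F G : ℕ → ℕ) (hG : StrictMono G) (s : Bool) (j j' k : ℕ)
    (hj : j < d) (hj' : j' < d) (hk : k < d) (hkj : k ≠ j')
    (hc : ∀ l < 2 * M, F (lab d s j l) = G (lab d (!s) j' l)) :
    ∃ σ τ : ℕ, σ ≤ 1 ∧ τ ≤ 1 ∧ ∀ b, 1 ≤ b → 1 ≤ b + σ - τ → b + σ - τ + 1 ≤ M →
      cmP d F j (b + σ - τ) ≤ cmP d G k b ∧ cmQ d G k b ≤ cmQ d F j (b + σ - τ) := by
  have hP : ∀ a, 1 ≤ a → a + 1 ≤ M →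
      cmP d F j a = G (pos d (a - if s then 1 else 0) (2 * j' + 1)) ∧
      cmQ d F j a = G (pos d (a + 1 - if s then 1 else 0) (2 * j')) := by
    intro a ha haM
    cases s
    · have e1 : lab d false j (2 * a - 1) = pos d a (2 * j) := by
        unfold lab
        simp only [Bool.false_eq_true, if_false]
        congr 1 <;> omega
      have e2 : lab d false j (2 * a) = pos d a (2 * j + 1) := by
        unfold lab
        simp only [Bool.false_eq_true, if_false]
        congr 1 <;> omega
      have e3 : lab d true j' (2 * a - 1) = pos d a (2 * j' + 1) := by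
        unfold lab
        simp only [if_true]
        congr 1 <;> omega
      have e4 : lab d true j' (2 * a) = pos d (a + 1) (2 * j') := by
        unfold lab
        simp only [if_true]
        congr 1 <;> omega
      have c1 := hc (2 * a - 1) (by omega)
      have c2 := hc (2 * a) (by omega)
      simp only [Bool.not_false] at c1 c2
      rw [e1, e3] at c1
      rw [e2, e4] at c2
      simp only [Bool.false_eq_true, if_false, Nat.sub_zero]
      exact ⟨c1, c2⟩
    · have e1 : lab d true j (2 * a - 2) = pos d a (2 * j) := by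
        unfold lab
        simp only [if_true]
        congr 1 <;> omega
      have e2 : lab d true j (2 * a - 1) = pos d a (2 * j + 1) := by
        unfold lab
        simp only [if_true]
        congr 1 <;> omega
      have e3 : lab d false j' (2 * a - 2) = pos d (a - 1) (2 * j' + 1) := by
        unfold lab
        simp only [Bool.false_eq_true, if_false]
        congr 1 <;> omega
      have e4 : lab d false j' (2 * a - 1) = pos d (a + 1 - 1) (2 * j') := by
        unfold lab
        simp only [Bool.false_eq_true, if_false]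
        congr 1 <;> omega
      have c1 := hc (2 * a - 2) (by omega)
      have c2 := hc (2 * a - 1) (by omega)
      simp only [Bool.not_true] at c1 c2
      rw [e1, e3] at c1
      rw [e2, e4] at c2
      simp only [if_true]
      exact ⟨c1, c2⟩
  refine ⟨if s then 1 else 0, if k < j' then 1 else 0, by split_ifs <;> omega,
    by split_ifs <;> omega, ?_⟩
  intro b hb h1 h2
  obtain ⟨hP1, hQ1⟩ := hP _ h1 h2
  rw [hP1, hQ1]
  unfold cmP cmQ
  constructor
  · refine hG.monotone (le_of_lt ?_)
    by_cases hlt : k < j'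
    · simp only [hlt, if_true] at h1 ⊢
      refine pos_lt _ _ _ _ _ ?_ (by omega)
      split_ifs at h1 ⊢ <;> omega
    · simp only [hlt, if_false] at h1 ⊢
      refine pos_lt' _ _ _ _ _ ?_ (by omega) (by omega)
      split_ifs at h1 ⊢ <;> omega
  · refine hG.monotone (le_of_lt ?_)
    by_cases hlt : k < j'
    · simp only [hlt, if_true] at h1 ⊢
      refine pos_lt' _ _ _ _ _ ?_ (by omega) (by omega)
      split_ifs at h1 ⊢ <;> omega
    · simp only [hlt, if_false] at h1 ⊢
      refine pos_lt _ _ _ _ _ ?_ (by omega)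
      split_ifs at h1 ⊢ <;> omega


theorem cm_ex (M x : ℕ) (A B : ℕ → ℕ) (hd : ∀ i i', i < i' → i' < M → B i ≤ A i') :
    ∑ i ∈ range M, (if A i ≤ x ∧ x < B i then (1 : ℤ) else 0) =
      by classical exact if ∃ i, i < M ∧ A i ≤ x ∧ x < B i then 1 else 0 := by
  classical
  by_cases h : ∃ i, i < M ∧ A i ≤ x ∧ x < B i
  · rw [if_pos h]
    obtain ⟨i, hi, h1, h2⟩ := h
    rw [sum_eq_single_of_mem i (mem_range.2 hi), if_pos ⟨h1, h2⟩]
    intro b hb hne
    rw [if_neg]
    rintro ⟨h3, h4⟩
    rcases Nat.lt_or_gt_of_ne hne with h5 | h5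
    · have := hd b i h5 hi
      omega
    · have := hd i b h5 (mem_range.1 hb)
      omega
  · rw [if_neg h]
    refine sum_eq_zero fun i hi => if_neg fun h1 => h ⟨i, mem_range.1 hi, h1⟩

theorem cm_pair (M : ℕ) (f : ℕ → ℤ) :
    ∑ l ∈ range (2 * M), f l = ∑ i ∈ range M, (f (2 * i) + f (2 * i + 1)) := by
  induction M with
  | zero => simp
  | succ M ih =>
    rw [show 2 * (M + 1) = 2 * M + 1 + 1 by ring, sum_range_succ, sum_range_succ, ih,
      sum_range_succ]
    ring

theorem cm_gfun (d M : ℕ) (F : ℕ → ℕ) (hF : Comb9.Incr d M F) (s : Bool) (j x : ℕ) (hj : j < d) :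
    cmh d M F s j (x + 1) = Comb9.gfun d M F s j x := by
  classical
  unfold cmh
  rw [cm_pair]
  have hPQ : ∀ i, i ≤ M → F (Comb9.Pp d i j) < F (Comb9.Qp d i j) := by
    intro i hi
    exact hF _ _ (by unfold Comb9.Pp Comb9.Qp; omega) (Comb9.ltQ hi hj)
  have hQP : ∀ i i', i < i' → i' ≤ M → F (Comb9.Qp d i j) < F (Comb9.Pp d i' j) := by
    intro i i' h hi
    refine hF _ _ ?_ (Comb9.ltP hi hj)
    have := pos_lt d i i' (2 * j + 1) (2 * j) h (by omega)
    exact this
  cases s
  · have e : ∀ i ∈ range M, ((if F (lab d false j (2 * i)) < x + 1 then sg false (2 * i) else 0) +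
        (if F (lab d false j (2 * i + 1)) < x + 1 then sg false (2 * i + 1) else 0)) =
        -(if F (Comb9.Qp d i j) ≤ x ∧ x < F (Comb9.Pp d (i + 1) j) then (1 : ℤ) else 0) := by
      intro i hi
      rw [mem_range] at hi
      have e1 : lab d false j (2 * i) = Comb9.Qp d i j := by
        unfold lab pos Comb9.Qp
        simp only [Bool.false_eq_true, if_false]
        have h1 : (2 * i + 1) / 2 = i := by omega
        have h2 : (2 * i + 1) % 2 = 1 := by omega
        rw [h1, h2]
        omega
      have e2 : lab d false j (2 * i + 1) = Comb9.Pp d (i + 1) j := by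
        unfold lab pos Comb9.Pp
        simp only [Bool.false_eq_true, if_false]
        have h1 : (2 * i + 1 + 1) / 2 = i + 1 := by omega
        have h2 : (2 * i + 1 + 1) % 2 = 0 := by omega
        rw [h1, h2]
        omega
      have s1 : sg false (2 * i) = -1 := by
        simp [sg]
      have s2 : sg false (2 * i + 1) = 1 := by
        simp [sg, pow_succ]
      rw [e1, e2, s1, s2]
      have h3 := hQP i (i + 1) (by omega) (by omega)
      by_cases c1 : F (Comb9.Qp d i j) ≤ x
      · by_cases c2 : F (Comb9.Pp d (i + 1) j) ≤ x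
        · rw [if_pos (by omega), if_pos (by omega), if_neg (by omega)]
          norm_num
        · rw [if_pos (by omega), if_neg (by omega), if_pos (by omega)]
          norm_num
      · rw [if_neg (by omega), if_neg (by omega), if_neg (by omega)]
        norm_num
    rw [sum_congr rfl e, sum_neg_distrib, cm_ex M x (fun i => F (Comb9.Qp d i j))
      (fun i => F (Comb9.Pp d (i + 1) j))]
    · unfold Comb9.gfun
      rw [if_neg (show ¬ (false = true) by decide)]
      have hiff : (∃ i, i < M ∧ F (Comb9.Qp d i j) ≤ x ∧ x < F (Comb9.Pp d (i + 1) j)) ↔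
          ∃ i, 1 ≤ i ∧ i ≤ M ∧ F (Comb9.Qp d (i - 1) j) ≤ x ∧ x < F (Comb9.Pp d i j) := by
        constructor
        · rintro ⟨i, h1, h2, h3⟩
          exact ⟨i + 1, by omega, by omega, by simpa using h2, h3⟩
        · rintro ⟨i, h0, h1, h2, h3⟩
          refine ⟨i - 1, by omega, h2, ?_⟩
          rw [show i - 1 + 1 = i by omega]
          exact h3
      by_cases hh : ∃ i, i < M ∧ F (Comb9.Qp d i j) ≤ x ∧ x < F (Comb9.Pp d (i + 1) j)
      · rw [if_pos hh, if_pos (hiff.1 hh)]
      · rw [if_neg hh, if_neg (fun h => hh (hiff.2 h))]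
        norm_num
    · intro i i' h hi
      refine (le_of_lt ?_)
      rcases Nat.lt_or_ge (i + 1) i' with h4 | h4
      · exact lt_trans (hPQ (i + 1) (by omega)) (lt_trans (hQP (i + 1) i' h4 (by omega)) (hPQ i' (by omega)))
      · have : i' = i + 1 := by omega
        subst this
        exact hPQ _ (by omega)
  · have e : ∀ i ∈ range M, ((if F (lab d true j (2 * i)) < x + 1 then sg true (2 * i) else 0) +
        (if F (lab d true j (2 * i + 1)) < x + 1 then sg true (2 * i + 1) else 0)) =
        (if F (Comb9.Pp d (i + 1) j) ≤ x ∧ x < F (Comb9.Qp d (i + 1) j) then (1 : ℤ) else 0) := by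
      intro i hi
      rw [mem_range] at hi
      have e1 : lab d true j (2 * i) = Comb9.Pp d (i + 1) j := by
        unfold lab pos Comb9.Pp
        simp only [if_true]
        have h1 : (2 * i) / 2 = i := by omega
        have h2 : (2 * i) % 2 = 0 := by omega
        rw [h1, h2, Nat.add_comm 1 i]
        omega
      have e2 : lab d true j (2 * i + 1) = Comb9.Qp d (i + 1) j := by
        unfold lab pos Comb9.Qp
        simp only [if_true]
        have h1 : (2 * i + 1) / 2 = i := by omega
        have h2 : (2 * i + 1) % 2 = 1 := by omega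
        rw [h1, h2, Nat.add_comm 1 i]
        omega
      have s1 : sg true (2 * i) = 1 := by
        simp [sg]
      have s2 : sg true (2 * i + 1) = -1 := by
        simp [sg, pow_succ]
      rw [e1, e2, s1, s2]
      have h3 := hPQ (i + 1) (by omega)
      by_cases c1 : F (Comb9.Pp d (i + 1) j) ≤ x
      · by_cases c2 : F (Comb9.Qp d (i + 1) j) ≤ x
        · rw [if_pos (by omega), if_pos (by omega), if_neg (by omega)]
          norm_num
        · rw [if_pos (by omega), if_neg (by omega), if_pos (by omega)]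
          norm_num
      · rw [if_neg (by omega), if_neg (by omega), if_neg (by omega)]
        norm_num
    rw [sum_congr rfl e, cm_ex M x (fun i => F (Comb9.Pp d (i + 1) j))
      (fun i => F (Comb9.Qp d (i + 1) j))]
    · unfold Comb9.gfun
      rw [if_pos rfl]
      have hiff : (∃ i, i < M ∧ F (Comb9.Pp d (i + 1) j) ≤ x ∧ x < F (Comb9.Qp d (i + 1) j)) ↔
          ∃ i, 1 ≤ i ∧ i ≤ M ∧ F (Comb9.Pp d i j) ≤ x ∧ x < F (Comb9.Qp d i j) := by
        constructor
        · rintro ⟨i, h1, h2, h3⟩
          exact ⟨i + 1, by omega, by omega, h2, h3⟩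
        · rintro ⟨i, h0, h1, h2, h3⟩
          refine ⟨i - 1, by omega, ?_⟩
          rw [show i - 1 + 1 = i by omega]
          exact ⟨h2, h3⟩
      by_cases hh : ∃ i, i < M ∧ F (Comb9.Pp d (i + 1) j) ≤ x ∧ x < F (Comb9.Qp d (i + 1) j)
      · rw [if_pos hh, if_pos (hiff.1 hh)]
      · rw [if_neg hh, if_neg (fun h => hh (hiff.2 h))]
    · intro i i' h hi
      exact (hQP (i + 1) (i' + 1) (by omega) (by omega)).le

theorem cm_step (d M : ℕ) (F G : ℕ → ℕ) (s : Bool) (j j' : ℕ)
    (hc : ∀ l < 2 * M, F (lab d s j l) = G (lab d (!s) j' l)) :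
    Comb9.Step d M F G s j j' := by
  intro i h1 h2
  obtain ⟨i, rfl⟩ : ∃ k, i = k + 1 := ⟨i - 1, by omega⟩
  have hT0 : ∀ j, lab d true j (2 * i) = Comb9.Pp d (i + 1) j := by
    intro j
    unfold lab pos Comb9.Pp
    simp only [if_true]
    have h1 : (2 * i) / 2 = i := by omega
    have h2 : (2 * i) % 2 = 0 := by omega
    rw [h1, h2, Nat.add_comm 1 i]
    omega
  have hT1 : ∀ j, lab d true j (2 * i + 1) = Comb9.Qp d (i + 1) j := by
    intro j
    unfold lab pos Comb9.Qp
    simp only [if_true]
    have h1 : (2 * i + 1) / 2 = i := by omega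
    have h2 : (2 * i + 1) % 2 = 1 := by omega
    rw [h1, h2, Nat.add_comm 1 i]
    omega
  have hF0 : ∀ j, lab d false j (2 * i) = Comb9.Qp d i j := by
    intro j
    unfold lab pos Comb9.Qp
    simp only [Bool.false_eq_true, if_false]
    have h1 : (2 * i + 1) / 2 = i := by omega
    have h2 : (2 * i + 1) % 2 = 1 := by omega
    rw [h1, h2]
    omega
  have hF1 : ∀ j, lab d false j (2 * i + 1) = Comb9.Pp d (i + 1) j := by
    intro j
    unfold lab pos Comb9.Pp
    simp only [Bool.false_eq_true, if_false]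
    have h1 : (2 * i + 1 + 1) / 2 = i + 1 := by omega
    have h2 : (2 * i + 1 + 1) % 2 = 0 := by omega
    rw [h1, h2]
    omega
  have c1 := hc (2 * i) (by omega)
  have c2 := hc (2 * i + 1) (by omega)
  constructor
  · rintro rfl
    simp only [Bool.not_true] at c1 c2
    rw [hT0, hF0] at c1
    rw [hT1, hF1] at c2
    exact ⟨c1.symm, c2.symm⟩
  · rintro rfl
    simp only [Bool.not_false] at c1 c2
    rw [hT0, hF0] at c1
    rw [hT1, hF1] at c2
    exact ⟨c1.symm, c2.symm⟩

/-- total function of an embedding -/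
def cmT {D m : ℕ} (Φ : Fin D ↪o Fin m) (k : ℕ) : ℕ := if h : k < D then Φ ⟨k, h⟩ else m + k

theorem cmT_mono {D m : ℕ} (Φ : Fin D ↪o Fin m) : StrictMono (cmT Φ) := by
  intro a b hab
  unfold cmT
  by_cases hb : b < D
  · rw [dif_pos hb, dif_pos (lt_trans hab hb)]
    have : Φ ⟨a, lt_trans hab hb⟩ < Φ ⟨b, hb⟩ := Φ.lt_iff_lt.2 hab
    exact this
  · rw [dif_neg hb]
    by_cases ha : a < D
    · rw [dif_pos ha]
      have := (Φ ⟨a, ha⟩).isLt
      omega
    · rw [dif_neg ha]
      omega

theorem cmT_edge (d M m : ℕ) (Φ : Fin ((M + 1) * (2 * d)) ↪o Fin m) (s : Bool) (j : Fin d)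
    (l : Fin (2 * M)) : ((Φ (edge d M s j l) : Fin m) : ℕ) = cmT Φ (lab d s j l) := by
  have h := edge_val d M s j l
  have hlt : lab d s j l < (M + 1) * (2 * d) := by
    rw [← h]; exact (edge d M s j l).isLt
  unfold cmT
  rw [dif_pos hlt]
  congr 2
  exact Fin.ext h

theorem cm_inc (d M m : ℕ) (Φ Ψ : Fin ((M + 1) * (2 * d)) ↪o Fin m) (e : Mv d)
    (hc : Comp d M m Φ Ψ e) (c : ℕ) :
    ∑ k : Fin m, (if (k : ℕ) < c then inc d M m Φ Ψ e k else 0) =
      cmh d M (cmT Φ) e.1 e.2.1 c := by
  classical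
  unfold inc cmh
  simp only [if_pos hc]
  rw [← Fin.sum_univ_eq_sum_range
    (fun l => if cmT Φ (lab d e.1 (e.2.1 : ℕ) l) < c then sg e.1 l else 0)]
  have : ∀ k : Fin m, (if (k : ℕ) < c then
      ∑ l : Fin (2 * M), (if Φ (edge d M e.1 e.2.1 l) = k then sg e.1 l else 0) else 0) =
      ∑ l : Fin (2 * M), if Φ (edge d M e.1 e.2.1 l) = k then
        (if (k : ℕ) < c then sg e.1 l else 0) else 0 := by
    intro k
    split_ifs
    · rfl
    · simp
  rw [sum_congr rfl fun k _ => this k, sum_comm]
  refine sum_congr rfl fun l _ => ?_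
  rw [sum_ite_eq]
  simp only [mem_univ, if_true]
  rw [cmT_edge]

theorem cm_take {m : ℕ} (f : Fin m → ℤ) (c : ℕ) :
    ((List.ofFn f).take c).sum = ∑ k : Fin m, if (k : ℕ) < c then f k else 0 := by
  have := List.sum_take_ofFn f c
  rw [this, sum_filter]

/-- [CMB] -/
theorem cmb28 (d M m n : ℕ) (hn : 1 ≤ n) (hM : 2 * n + 3 ≤ M)
    (ω : Fin (n + 1) → (Fin ((M + 1) * (2 * d)) ↪o Fin m)) (η : Fin n → Mv d)
    (hc : ∀ i, Comp d M m (ω i.castSucc) (ω i.succ) (η i))
    (hb : ∀ i j : Fin n, (j : ℕ) = i + 1 → (η j).2.1 ≠ (η i).2.2) :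
    Good n (M - 2 * n - 2) (List.ofFn (fun k : Fin m =>
      ∑ i : Fin n, inc d M m (ω i.castSucc) (ω i.succ) (η i) k)) := by
  classical
  set F : ℕ → ℕ → ℕ := fun t => if h : t < n + 1 then cmT (ω ⟨t, h⟩) else id with hFdef
  set s : ℕ → Bool := fun t => if h : t < n then (η ⟨t, h⟩).1 else true with hsdef
  set j : ℕ → ℕ := fun t => if h : t < n then ((η ⟨t, h⟩).2.1 : ℕ) else 0 with hjdef
  set J : ℕ → ℕ := fun t => if h : t < n then ((η ⟨t, h⟩).2.2 : ℕ) else 0 with hJdef
  have hFi : ∀ i : Fin n, F i = cmT (ω i.castSucc) := by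
    intro i
    have : (i : ℕ) < n + 1 := by omega
    simp only [hFdef, this, dif_pos]
    rfl
  have hFs : ∀ i : Fin n, F (i + 1) = cmT (ω i.succ) := by
    intro i
    have : (i : ℕ) + 1 < n + 1 := by omega
    simp only [hFdef, this, dif_pos]
    rfl
  have hsi : ∀ i : Fin n, s i = (η i).1 := fun i => by
    simp only [hsdef, i.isLt, dif_pos]
  have hji : ∀ i : Fin n, j i = ((η i).2.1 : ℕ) := fun i => by
    simp only [hjdef, i.isLt, dif_pos]
  have hJi : ∀ i : Fin n, J i = ((η i).2.2 : ℕ) := fun i => by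
    simp only [hJdef, i.isLt, dif_pos]
  have hFmono : ∀ t, t ≤ n → StrictMono (F t) := by
    intro t ht
    have : t < n + 1 := by omega
    simp only [hFdef, this, dif_pos]
    exact cmT_mono _
  have hIncr : ∀ t, t ≤ n → Comb9.Incr d M (F t) := fun t ht a b hab _ => hFmono t ht hab
  have hsum : ∀ x : ℕ, ((List.ofFn (fun k : Fin m =>
      ∑ i : Fin n, inc d M m (ω i.castSucc) (ω i.succ) (η i) k)).take (x + 1)).sum =
      ∑ t ∈ range n, Comb9.gfun d M (F t) (s t) (j t) x := by
    intro x
    rw [cm_take]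
    have : ∀ k : Fin m, (if (k : ℕ) < x + 1 then
        ∑ i : Fin n, inc d M m (ω i.castSucc) (ω i.succ) (η i) k else 0) =
        ∑ i : Fin n, if (k : ℕ) < x + 1 then inc d M m (ω i.castSucc) (ω i.succ) (η i) k
          else 0 := by
      intro k
      split_ifs
      · rfl
      · simp
    rw [sum_congr rfl fun k _ => this k, sum_comm, ← Fin.sum_univ_eq_sum_range
      (fun t => Comb9.gfun d M (F t) (s t) (j t) x)]
    refine sum_congr rfl fun i _ => ?_
    rw [cm_inc d M m _ _ _ (hc i), hFi, hsi, hji]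
    refine cm_gfun d M _ (fun a b hab _ => cmT_mono _ hab) _ _ _ (η i).2.1.isLt
  have htot : (List.ofFn (fun k : Fin m =>
      ∑ i : Fin n, inc d M m (ω i.castSucc) (ω i.succ) (η i) k)).sum = 0 := by
    rw [List.sum_ofFn, sum_comm]
    refine sum_eq_zero fun i _ => ?_
    have h1 := cm_inc d M m _ _ _ (hc i) m
    have h2 : ∑ k : Fin m, (if (k : ℕ) < m then
        inc d M m (ω i.castSucc) (ω i.succ) (η i) k else 0) =
        ∑ k : Fin m, inc d M m (ω i.castSucc) (ω i.succ) (η i) k :=
      sum_congr rfl fun k _ => if_pos k.isLt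
    rw [← h2, h1]
    unfold cmh
    have h3 : ∀ l ∈ range (2 * M), (if cmT (ω i.castSucc) (lab d (η i).1 ((η i).2.1 : ℕ) l) < m
        then sg (η i).1 l else 0) = sg (η i).1 l := by
      intro l hl
      rw [mem_range] at hl
      refine if_pos ?_
      rw [← cmT_edge d M m (ω i.castSucc) (η i).1 (η i).2.1 ⟨l, hl⟩]
      exact Fin.isLt _
    rw [sum_congr rfl h3, cm_sg]
    have h4 : (2 * M) % 2 = 0 := by omega
    rw [h4]
    simp
  have hstep : ∀ t, t < n → Comb9.Step d M (F t) (F (t + 1)) (s t) (j t) (J t) := by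
    intro t ht
    have e1 := hFi ⟨t, ht⟩
    have e2 := hFs ⟨t, ht⟩
    have e3 := hsi ⟨t, ht⟩
    have e4 := hji ⟨t, ht⟩
    have e5 := hJi ⟨t, ht⟩
    simp only at e1 e2 e3 e4 e5
    rw [e1, e2, e3, e4, e5]
    apply cm_step
    intro l hl
    rw [← cmT_edge d M m (ω (⟨t, ht⟩ : Fin n).castSucc) _ (η ⟨t, ht⟩).2.1 ⟨l, hl⟩,
      ← cmT_edge d M m (ω (⟨t, ht⟩ : Fin n).succ) _ (η ⟨t, ht⟩).2.2 ⟨l, hl⟩]
    have h := hc ⟨t, ht⟩
    unfold Comp at h
    have h' := DFunLike.congr_fun h (⟨l, hl⟩ : Fin (2 * M))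
    exact congrArg Fin.val h'
  have hjd : ∀ t, t < n → j t < d := fun t ht => by
    have := hji ⟨t, ht⟩
    simp only at this
    rw [this]; exact Fin.isLt _
  have hJd : ∀ t, t < n → J t < d := fun t ht => by
    have := hJi ⟨t, ht⟩
    simp only at this
    rw [this]; exact Fin.isLt _
  have hne : ∀ t, t + 1 < n → j (t + 1) ≠ J t := by
    intro t ht h
    have e4 := hji ⟨t + 1, ht⟩
    have e5 := hJi ⟨t, by omega⟩
    simp only at e4 e5
    rw [e4, e5] at h
    exact hb ⟨t, by omega⟩ ⟨t + 1, ht⟩ rfl (Fin.ext h)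
  rcases Nat.lt_or_ge d 2 with hd | hd
  · -- `d = 1`, `n = 1`
    have h0 := hjd 0 (by omega)
    have hn1 : n = 1 := by
      by_contra h
      have h1 := hne 0 (by omega)
      have h2 := hJd 0 (by omega)
      have h3 := hjd (0 + 1) (by omega)
      omega
    subst hn1
    have hcm : ∀ c, ∑ t ∈ range 1, Comb9.gfun d M (F t) (s t) (j t) c =
        cmh d M (F 0) (s 0) (j 0) (c + 1) := by
      intro c
      rw [sum_range_one, cm_gfun d M _ (hIncr 0 (by omega)) _ _ _ h0]
    have hmon := hFmono 0 (by omega)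
    have hPQ : ∀ a, cmP d (F 0) (j 0) a < cmQ d (F 0) (j 0) a := fun a =>
      hmon (pos_lt' _ _ _ _ _ le_rfl (by omega) (by omega))
    have hQP : ∀ a, cmQ d (F 0) (j 0) a < cmP d (F 0) (j 0) (a + 1) := fun a =>
      hmon (pos_lt _ _ _ _ _ (by omega) (by omega))
    have key : Good ((if s 0 then 1 else 0) + (if s 0 then 0 else 1)) (M - 2 * 1 - 2)
        (List.ofFn (fun k : Fin m =>
        ∑ i : Fin 1, inc d M m (ω i.castSucc) (ω i.succ) (η i) k)) := by
      refine cm_good _ _ _ _ (fun k => cmQ d (F 0) (j 0) (2 + k) + 1)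
        (fun k => cmP d (F 0) (j 0) (3 + k) + 1) ?_ ?_ ?_ htot
      · intro k _
        have h1 := hQP (2 + k)
        have h2 := hPQ (3 + k)
        have e1 : 2 + (k + 1) = 3 + k := by omega
        have e2 : 2 + k + 1 = 3 + k := by omega
        simp only [e1]
        rw [e2] at h1
        omega
      · intro k hk
        rw [hsum, hcm, cm_out d M _ hmon _ _ _ (2 + k) h0 (by omega) (by omega) (by omega)
          (by have := hQP (2 + k); omega)]
        cases s 0 <;> simp
      · intro k hk
        rw [hsum, hcm, cm_in d M _ hmon _ _ _ (3 + k) h0 (by omega) (by omega) (by omega)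
          (by have := hPQ (3 + k); omega)]
        cases s 0 <;> simp
    have e : (if s 0 then 1 else 0) + (if s 0 then 0 else 1) = 1 := by
      cases s 0 <;> simp
    rw [e] at key
    exact key
  · obtain ⟨a, b, hab, z, hz, hz0, hz1⟩ := Comb9.comb hd F s j J hjd hJd hIncr hstep hne
      (M - 2 * n - 2) (by omega)
    have key := cm_good (List.ofFn (fun k : Fin m =>
      ∑ i : Fin n, inc d M m (ω i.castSucc) (ω i.succ) (η i) k)) b a (M - 2 * n - 2)
      (fun k => z (2 * k) + 1) (fun k => z (2 * k + 1) + 1) ?_ ?_ ?_ htot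
    · rw [show b + a = n by omega] at key
      exact key
    · intro k hk
      have h1 := hz (2 * k) (by omega)
      have h2 := hz (2 * k + 1) (by omega)
      have e : 2 * (k + 1) = 2 * k + 1 + 1 := by ring
      simp only [e]
      omega
    · intro k hk
      rw [hsum]
      exact hz0 k hk
    · intro k hk
      rw [hsum]
      exact hz1 k hk

end P125F
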