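import Vale.Agent.P125F.Defs

/-! # Final assembly (piece FIN) -/

namespace P125F
open Finset P125S

theorem fin18_alt_succ (M : ℕ) : alt (M + 1) = 1 :: -1 :: alt M := by
  unfold alt
  rw [List.replicate_succ, List.flatten_cons]
  rfl

theorem fin18_alt_sum (M : ℕ) : (alt M).sum = 0 := by
  induction M with
  | zero => rfl
  | succ M ih => rw [fin18_alt_succ, List.sum_cons, List.sum_cons, ih]; norm_num

theorem fin18_alt_low {N : List ℤ → ℝ} {θ : ℝ} (hN : Sem N θ) (M : ℕ) (hM : 1 ≤ M) :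
    θ ≤ N (alt M) := by
  obtain ⟨k, rfl⟩ := Nat.exists_eq_add_of_le' hM
  have h := hN.low [1] (-1 :: alt k)
  rw [List.sum_cons, fin18_alt_sum] at h
  rw [fin18_alt_succ]
  have h2 : [(1 : ℤ)] ++ (-1 :: alt k) = 1 :: -1 :: alt k := rfl
  rw [h2] at h
  norm_num at h
  exact h

theorem fin18_coef {M m : ℕ} (t : Fin (2 * M) ↪o Fin m) (j : Fin m) :
    |∑ l : Fin (2 * M), if t l = j then (-1 : ℤ) ^ (l : ℕ) else 0| ≤ 1 := by
  by_cases h : ∃ l, t l = j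
  · obtain ⟨l, hl⟩ := h
    rw [sum_eq_single l]
    · rw [if_pos hl, abs_pow]
      simp
    · intro b _ hb
      rw [if_neg]
      intro hbj
      exact hb (t.injective (hbj.trans hl.symm))
    · intro h
      exact absurd (mem_univ _) h
  · rw [sum_eq_zero]
    · simp
    · intro l _
      rw [if_neg (fun hl => h ⟨l, hl⟩)]

/-- assembly with the other pieces as hypotheses -/
theorem fin18 {X : Type} [NormedAddCommGroup X] [NormedSpace ℝ X] {p K : ℝ} (hp : 1 < p)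
    (hK : 0 < K) {θ : ℝ} (hθ : 0 < θ)
    (hgv : ∃ N : List ℤ → ℝ, Sem N θ ∧ ∀ (m R : ℕ) (δ : ℝ), 0 < δ →
      ∃ y : Fin m → X, ∀ a : Fin m → ℤ, (∀ j, |a j| ≤ (R : ℤ)) →
        |‖∑ j, (a j : ℝ) • y j‖ - N (List.ofFn a)| ≤ δ)
    (hlow : ∀ (N : List ℤ → ℝ), Sem N θ → ∀ (n m M : ℕ), 1 ≤ m → M ≤ 2 * m → ∀ l : List ℤ,
      Good n m l → (n : ℝ) / 4 * N (alt M) ≤ N l)
    (hpat : ∀ (N : List ℤ → ℝ), Sem N θ → ∀ (M m : ℕ) (t : Fin (2 * M) ↪o Fin m),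
      N (List.ofFn (fun j : Fin m => ∑ l : Fin (2 * M), if t l = j then (-1 : ℤ) ^ (l : ℕ) else 0))
      = N (alt M))
    (hch : ∀ (n M : ℕ), 1 ≤ n → 2 * n + 3 ≤ M → ∃ m : ℕ, ∀ (y : Fin m → X) (A B : ℝ), 0 ≤ A →
      0 ≤ B →
      (∀ t : Fin (2 * M) ↪o Fin m,
        ‖∑ j, ((∑ l : Fin (2 * M), if t l = j then (-1 : ℤ) ^ (l : ℕ) else 0 : ℤ) : ℝ) • y j‖ ≤ A) →
      (∀ a : Fin m → ℤ, (∀ j, |a j| ≤ (n : ℤ)) → Good n (M - 2 * n - 2) (List.ofFn a) →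
        B ≤ ‖∑ j, (a j : ℝ) • y j‖) →
      B ^ p / 2 ≤ K ^ p * n * A ^ p) : False := by
  obtain ⟨N, hN, hy⟩ := hgv
  -- choice of `n`
  obtain ⟨n, hn1, hn⟩ : ∃ n : ℕ, 1 ≤ n ∧ 2 * (9 * K) ^ p < (n : ℝ) ^ (p - 1) := by
    have ht : Filter.Tendsto (fun n : ℕ => (n : ℝ) ^ (p - 1)) Filter.atTop Filter.atTop :=
      (tendsto_rpow_atTop (by linarith)).comp tendsto_natCast_atTop_atTop
    have h1 := ht.eventually (Filter.eventually_gt_atTop (2 * (9 * K) ^ p))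
    obtain ⟨n, h2, h3⟩ := ((Filter.eventually_ge_atTop 1).and h1).exists
    exact ⟨n, h2, h3⟩
  have hn1' : (1 : ℝ) ≤ n := by exact_mod_cast hn1
  obtain ⟨m, hm⟩ := hch n (8 * n) hn1 (by omega)
  set N0 : ℝ := N (alt (8 * n)) with hN0
  have hN0θ : θ ≤ N0 := fin18_alt_low hN _ (by omega)
  have hN0pos : 0 < N0 := lt_of_lt_of_le hθ hN0θ
  obtain ⟨y, hyy⟩ := hy m n (θ / 8) (by linarith)
  have hA : ∀ t : Fin (2 * (8 * n)) ↪o Fin m,
      ‖∑ j, ((∑ l : Fin (2 * (8 * n)), if t l = j then (-1 : ℤ) ^ (l : ℕ) else 0 : ℤ) : ℝ) • y j‖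
        ≤ 9 / 8 * N0 := by
    intro t
    have h1 := hyy (fun j => ∑ l : Fin (2 * (8 * n)), if t l = j then (-1 : ℤ) ^ (l : ℕ) else 0)
      (fun j => (fin18_coef t j).trans (by exact_mod_cast hn1))
    rw [hpat N hN (8 * n) m t] at h1
    have h2 := (abs_le.1 h1).2
    linarith
  have hB : ∀ a : Fin m → ℤ, (∀ j, |a j| ≤ (n : ℤ)) →
      Good n (8 * n - 2 * n - 2) (List.ofFn a) → n / 8 * N0 ≤ ‖∑ j, (a j : ℝ) • y j‖ := by
    intro a ha hg
    have h1 := hyy a ha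
    have h2 := hlow N hN n (8 * n - 2 * n - 2) (8 * n) (by omega) (by omega) _ hg
    have h3 := (abs_le.1 h1).1
    have h4 : (1 : ℝ) / 8 * N0 ≤ n / 8 * N0 :=
      mul_le_mul_of_nonneg_right (by linarith) hN0pos.le
    have h5 : (n : ℝ) / 4 * N0 = n / 8 * N0 + n / 8 * N0 := by ring
    rw [← hN0] at h2
    linarith
  have h := hm y (9 / 8 * N0) (n / 8 * N0) (by positivity) (by positivity) hA hB
  -- arithmetic
  have hp0 : 0 < p := by linarith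
  have hb : (n / 8 * N0) ^ p = (n : ℝ) ^ p * (N0 / 8) ^ p := by
    rw [← Real.mul_rpow (by positivity) (by positivity)]
    congr 1
    ring
  have ha : (9 / 8 * N0) ^ p = (9 : ℝ) ^ p * (N0 / 8) ^ p := by
    rw [← Real.mul_rpow (by norm_num) (by positivity)]
    congr 1
    ring
  have hkp : (9 * K) ^ p = (9 : ℝ) ^ p * K ^ p := Real.mul_rpow (by norm_num) hK.le
  have hnp : (n : ℝ) ^ p = (n : ℝ) ^ (p - 1) * n := by
    rw [← Real.rpow_add_one (by positivity)]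
    congr 1
    ring
  rw [hb, ha, hnp] at h
  rw [hkp] at hn
  have hpos : 0 < (n : ℝ) * (N0 / 8) ^ p := by positivity
  have h6 := mul_lt_mul_of_pos_right hn hpos
  nlinarith

end P125F
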