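import Vale.Agent.P125F.Defs

/-! # GV: good vectors -/

namespace P125F
open Finset P125S

theorem blow12 (L : ℕ) (l : List ℤ) :
    blow L l = (l.map (fun z : ℤ => List.replicate L ((z : ℝ) / (L : ℝ)))).flatten := by
  unfold blow
  rw [List.flatMap_def]
  congr 1
  induction l with
  | nil => rfl
  | cons x l ih =>
    rw [List.map_cons, ← ih]
    rfl

theorem gv12_blow (L m : ℕ) (hL : 0 < L) (a : Fin m → ℤ) :
    List.ofFn (fun k : Fin (m * L) => (a (k.divNat) : ℝ) / L) = blow L (List.ofFn a) := by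
  rw [blow12, List.ofFn_mul, List.map_ofFn]
  congr 2
  funext i
  have h1 : (fun j : Fin L => (a (Fin.divNat (⟨(i : ℕ) * L + j, by
      calc (i : ℕ) * L + j < (i + 1) * L := by
            have := j.isLt
            rw [add_mul]
            omega
        _ ≤ m * L := Nat.mul_le_mul_right _ i.isLt⟩ : Fin (m * L))) : ℝ) / L)
      = fun _ => (a i : ℝ) / L := by
    funext j
    have : Fin.divNat (⟨(i : ℕ) * L + j, by
      calc (i : ℕ) * L + j < (i + 1) * L := by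
            have := j.isLt
            rw [add_mul]
            omega
        _ ≤ m * L := Nat.mul_le_mul_right _ i.isLt⟩ : Fin (m * L)) = i := by
      apply Fin.ext
      simp only [Fin.coe_divNat]
      rw [mul_comm, Nat.mul_add_div hL, Nat.div_eq_of_lt j.isLt, add_zero]
    rw [this]
  have h2 : (List.ofFn fun _ : Fin L => (a i : ℝ) / L) = List.replicate L ((a i : ℝ) / L) :=
    List.ofFn_const _ _
  simp only [Function.comp]
  rw [← h2, ← h1]

theorem gv12_sum {X : Type} [NormedAddCommGroup X] [NormedSpace ℝ X] (L m : ℕ) (a : Fin m → ℤ)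
    (y : Fin (m * L) → X) :
    ∑ j : Fin m, (a j : ℝ) • (∑ i : Fin L, ((1 : ℝ) / L) • y (finProdFinEquiv (j, i)))
      = ∑ k : Fin (m * L), ((a (k.divNat) : ℝ) / L) • y k := by
  rw [← finProdFinEquiv.sum_comp, Fintype.sum_prod_type]
  refine sum_congr rfl fun j _ => ?_
  rw [smul_sum]
  refine sum_congr rfl fun i _ => ?_
  have h1 : (finProdFinEquiv (j, i)).divNat = j := by
    have := finProdFinEquiv.symm_apply_apply (j, i)
    rw [finProdFinEquiv_symm_apply] at this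
    exact congrArg Prod.fst this
  rw [h1, smul_smul]
  congr 1
  ring

theorem good_vectors_helper12 {X : Type} [NormedAddCommGroup X] [NormedSpace ℝ X] {θ : ℝ}
    (hspread : ∃ S : List ℝ → ℝ, Spr S θ ∧ ∀ (m : ℕ) (A : Finset (Fin m → ℝ)) (δ : ℝ), 0 < δ →
      ∃ y : Fin m → X, ∀ a ∈ A, |‖∑ j, a j • y j‖ - S (List.ofFn a)| ≤ δ)
    (havg : ∀ S : List ℝ → ℝ, Spr S θ → ∃ N : List ℤ → ℝ, Sem N θ ∧
      ∀ (A : Finset (List ℤ)) (δ : ℝ), 0 < δ →
      ∃ L : ℕ, 0 < L ∧ ∀ l ∈ A, |S (blow L l) - N l| ≤ δ) :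
    ∃ N : List ℤ → ℝ, Sem N θ ∧ ∀ (m R : ℕ) (δ : ℝ), 0 < δ →
      ∃ y : Fin m → X, ∀ a : Fin m → ℤ, (∀ j, |a j| ≤ (R : ℤ)) →
        |‖∑ j, (a j : ℝ) • y j‖ - N (List.ofFn a)| ≤ δ := by
  classical
  obtain ⟨S, hS, hSy⟩ := hspread
  obtain ⟨N, hN, hNL⟩ := havg S hS
  refine ⟨N, hN, fun m R δ hδ => ?_⟩
  set F : Finset (Fin m → ℤ) := Fintype.piFinset fun _ => Finset.Icc (-(R : ℤ)) R with hF
  have hmem : ∀ a : Fin m → ℤ, (∀ j, |a j| ≤ (R : ℤ)) → a ∈ F := by
    intro a ha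
    rw [hF, Fintype.mem_piFinset]
    intro j
    rw [Finset.mem_Icc]
    exact abs_le.1 (ha j)
  obtain ⟨L, hL, hLA⟩ := hNL (F.image fun a => List.ofFn a) (δ / 2) (by positivity)
  obtain ⟨y, hy⟩ := hSy (m * L)
    (F.image fun a => fun k : Fin (m * L) => (a (k.divNat) : ℝ) / L) (δ / 2) (by positivity)
  refine ⟨fun j => ∑ i : Fin L, ((1 : ℝ) / L) • y (finProdFinEquiv (j, i)), fun a ha => ?_⟩
  have h1 := hLA (List.ofFn a) (mem_image_of_mem _ (hmem a ha))
  have h2 := hy (fun k : Fin (m * L) => (a (k.divNat) : ℝ) / L)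
    (mem_image.2 ⟨a, hmem a ha, rfl⟩)
  rw [gv12_blow L m hL a] at h2
  rw [gv12_sum L m a y]
  have h3 := abs_add_le (‖∑ k : Fin (m * L), ((a (k.divNat) : ℝ) / L) • y k‖
    - S (blow L (List.ofFn a))) (S (blow L (List.ofFn a)) - N (List.ofFn a))
  have h4 : ‖∑ k : Fin (m * L), ((a (k.divNat) : ℝ) / L) • y k‖
    - S (blow L (List.ofFn a)) + (S (blow L (List.ofFn a)) - N (List.ofFn a))
    = ‖∑ k : Fin (m * L), ((a (k.divNat) : ℝ) / L) • y k‖ - N (List.ofFn a) := by ring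
  rw [h4] at h3
  linarith

end P125F
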