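import Vale.Agent.P125F.Path20

/-! # The chain with labelled moves built from an indiscernible law -/

namespace P125F

open Finset

section Chain
variable {S U : Type} [Fintype S] [DecidableEq S] [Fintype U] [DecidableEq U] {d : ℕ}

/-- moves: `none` = hold, `(s, j, J)` -/
abbrev Mv20 (d : ℕ) : Type := Option (Bool × Fin d × Fin d)

/-- involution of the moves -/
def inv20 : Mv20 d → Mv20 d
  | none => none
  | some (s, j, J) => some (!s, J, j)

/-- law of the restriction -/
def marg20 (w : S → ℝ) (ρ : Bool → Fin d → S → U) (s : Bool) (j : Fin d) (u : U) : ℝ :=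
  ∑ x, if ρ s j x = u then w x else 0

/-- normalisation -/
noncomputable def Z20 (w : S → ℝ) (ρ : Bool → Fin d → S → U) (s : Bool) (j J : Fin d) (u : U) : ℝ :=
  max (marg20 w ρ s j u) (marg20 w ρ (!s) J u)

/-- transition weight of a proper move -/
noncomputable def mv20 (w : S → ℝ) (ρ : Bool → Fin d → S → U) (x : S) (s : Bool) (j J : Fin d) (y : S) : ℝ :=
  if ρ s j x = ρ (!s) J y then
    1 / (2 * (d : ℝ) ^ 2) * w y / Z20 w ρ s j J (ρ s j x) else 0

/-- hold probability -/
noncomputable def hold20 (w : S → ℝ) (ρ : Bool → Fin d → S → U) (x : S) : ℝ :=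
  1 - ∑ m : Bool × Fin d × Fin d, ∑ y, mv20 w ρ x m.1 m.2.1 m.2.2 y

/-- transition weights -/
noncomputable def q20 (w : S → ℝ) (ρ : Bool → Fin d → S → U) (x : S) (m : Mv20 d) (y : S) : ℝ :=
  match m with
  | none => if x = y then hold20 w ρ x else 0
  | some (s, j, J) => mv20 w ρ x s j J y

variable (w : S → ℝ) (hw : ∀ x, 0 ≤ w x) (hw1 : ∑ x, w x = 1) (ρ : Bool → Fin d → S → U)

include hw in
theorem marg20_nonneg (s : Bool) (j : Fin d) (u : U) : 0 ≤ marg20 w ρ s j u := by
  refine sum_nonneg (fun x _ => ?_)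
  split_ifs
  · exact hw x
  · exact le_refl _

include hw in
theorem Z20_nonneg (s : Bool) (j J : Fin d) (u : U) : 0 ≤ Z20 w ρ s j J u :=
  le_trans (marg20_nonneg w hw ρ s j u) (le_max_left _ _)

include hw in
theorem mv20_nonneg (x : S) (s : Bool) (j J : Fin d) (y : S) : 0 ≤ mv20 w ρ x s j J y := by
  unfold mv20
  split_ifs
  · have h1 := hw y
    have h2 := Z20_nonneg w hw ρ s j J (ρ s j x)
    positivity
  · exact le_refl _

theorem mv20_sum (x : S) (s : Bool) (j J : Fin d) :
    ∑ y, mv20 w ρ x s j J y = 1 / (2 * (d : ℝ) ^ 2) *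
      (marg20 w ρ (!s) J (ρ s j x) / Z20 w ρ s j J (ρ s j x)) := by
  unfold mv20 marg20
  rw [sum_div, mul_sum]
  refine sum_congr rfl (fun y _ => ?_)
  by_cases h : ρ s j x = ρ (!s) J y
  · rw [if_pos h, if_pos h.symm]
    ring
  · rw [if_neg h, if_neg (fun h' => h h'.symm)]
    simp

include hw in
theorem ratio20_le (x : S) (s : Bool) (j J : Fin d) :
    marg20 w ρ (!s) J (ρ s j x) / Z20 w ρ s j J (ρ s j x) ≤ 1 := by
  have h2 := Z20_nonneg w hw ρ s j J (ρ s j x)
  exact div_le_one_of_le₀ (le_max_right _ _) h2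

theorem card20 (hd : 0 < d) :
    ∑ _m : Bool × Fin d × Fin d, (1 / (2 * (d : ℝ) ^ 2)) = 1 := by
  rw [sum_const, card_univ, Fintype.card_prod, Fintype.card_prod, Fintype.card_bool,
    Fintype.card_fin, nsmul_eq_mul]
  have : (d : ℝ) ≠ 0 := by positivity
  push_cast
  field_simp

include hw in
theorem hold20_nonneg (hd : 0 < d) (x : S) : 0 ≤ hold20 w ρ x := by
  unfold hold20
  have h1 : ∑ m : Bool × Fin d × Fin d, ∑ y, mv20 w ρ x m.1 m.2.1 m.2.2 y
      ≤ ∑ _m : Bool × Fin d × Fin d, (1 / (2 * (d : ℝ) ^ 2)) := by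
    refine sum_le_sum (fun m _ => ?_)
    rw [mv20_sum]
    have h := ratio20_le w hw ρ x m.1 m.2.1 m.2.2
    have h0 : 0 ≤ 1 / (2 * (d : ℝ) ^ 2) := by positivity
    nlinarith [mul_le_mul_of_nonneg_left h h0]
  rw [card20 hd] at h1
  linarith

include hw in
theorem q20_nonneg (hd : 0 < d) (x : S) (m : Mv20 d) (y : S) : 0 ≤ q20 w ρ x m y := by
  rcases m with _ | ⟨s, j, J⟩
  · unfold q20
    simp only
    split_ifs
    · exact hold20_nonneg w hw ρ hd x
    · exact le_refl _
  · exact mv20_nonneg w hw ρ x s j J y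

theorem q20_row (x : S) : ∑ m, ∑ y, q20 w ρ x m y = 1 := by
  rw [Fintype.sum_option]
  have h1 : ∑ y, q20 w ρ x none y = hold20 w ρ x := by
    simp [q20]
  rw [h1]
  have h2 : ∑ m : Bool × Fin d × Fin d, ∑ y, q20 w ρ x (some m) y
      = ∑ m : Bool × Fin d × Fin d, ∑ y, mv20 w ρ x m.1 m.2.1 m.2.2 y := rfl
  rw [h2]
  unfold hold20
  ring

theorem q20_rev (x : S) (m : Mv20 d) (y : S) :
    w x * q20 w ρ x m y = w y * q20 w ρ y (inv20 m) x := by
  rcases m with _ | ⟨s, j, J⟩
  · simp only [q20, inv20]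
    by_cases h : x = y
    · subst h; rfl
    · rw [if_neg h, if_neg (fun h' => h h'.symm)]
      simp
  · simp only [q20, inv20, mv20, Bool.not_not]
    by_cases h : ρ s j x = ρ (!s) J y
    · rw [if_pos h, if_pos h.symm]
      have hZ : Z20 w ρ (!s) J j (ρ (!s) J y) = Z20 w ρ s j J (ρ s j x) := by
        unfold Z20
        rw [Bool.not_not, h, max_comm]
      rw [hZ]
      ring
    · rw [if_neg h, if_neg (fun h' => h h'.symm)]
      simp

theorem inv20_inv (m : Mv20 d) : inv20 (inv20 m) = m := by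
  rcases m with _ | ⟨s, j, J⟩ <;> simp [inv20]

theorem q20_stat (y : S) : ∑ x, ∑ m, w x * q20 w ρ x m y = w y := by
  have h1 : ∀ x, ∑ m, w x * q20 w ρ x m y = w y * ∑ m, q20 w ρ y m x := by
    intro x
    simp only [q20_rev w ρ x _ y]
    rw [mul_sum]
    exact Equiv.sum_comp (Function.Involutive.toPerm (inv20 (d := d)) inv20_inv)
      (fun m => w y * q20 w ρ y m x)
  simp only [h1]
  rw [← mul_sum, sum_comm, q20_row, mul_one]

theorem q20_pos {x : S} {s : Bool} {j J : Fin d} {y : S}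
    (h : 0 < q20 w ρ x (some (s, j, J)) y) : ρ s j x = ρ (!s) J y := by
  by_contra hne
  have : q20 w ρ x (some (s, j, J)) y = 0 := by
    simp only [q20, mv20]
    exact if_neg hne
  linarith

theorem q20_pos_w {x : S} {s : Bool} {j J : Fin d} {y : S}
    (hw : ∀ x, 0 ≤ w x) (h : 0 < q20 w ρ x (some (s, j, J)) y) : 0 < w y := by
  rcases eq_or_lt_of_le (hw y) with h' | h'
  · have : q20 w ρ x (some (s, j, J)) y = 0 := by
      simp only [q20, mv20, ← h']
      simp
    linarith
  · exact h'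

theorem marg20_test (s : Bool) (j : Fin d) (F : U → ℝ) :
    ∑ x, w x * F (ρ s j x) = ∑ u, marg20 w ρ s j u * F u := by
  unfold marg20
  simp only [sum_mul]
  rw [sum_comm]
  refine sum_congr rfl (fun x _ => ?_)
  rw [sum_eq_single (ρ s j x)]
  · simp
  · intro u _ hu
    rw [if_neg (fun h => hu h.symm)]
    simp
  · intro h
    exact absurd (mem_univ _) h

include hw hw1 in
theorem hold20_avg (hd : 0 < d) (ε : ℝ)
    (h : ∀ s j J, ∑ u, |marg20 w ρ s j u - marg20 w ρ (!s) J u| ≤ ε) :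
    ∑ x, w x * hold20 w ρ x ≤ ε := by
  have h1 : ∀ x, hold20 w ρ x = ∑ m : Bool × Fin d × Fin d, (1 / (2 * (d : ℝ) ^ 2)) *
      (1 - marg20 w ρ (!m.1) m.2.2 (ρ m.1 m.2.1 x) / Z20 w ρ m.1 m.2.1 m.2.2 (ρ m.1 m.2.1 x)) := by
    intro x
    unfold hold20
    simp only [mv20_sum, mul_sub, mul_one, sum_sub_distrib]
    rw [card20 hd]
  simp only [h1, mul_sum]
  rw [sum_comm]
  have h2 : ∀ m : Bool × Fin d × Fin d, ∑ x, w x * ((1 / (2 * (d : ℝ) ^ 2)) *
      (1 - marg20 w ρ (!m.1) m.2.2 (ρ m.1 m.2.1 x) / Z20 w ρ m.1 m.2.1 m.2.2 (ρ m.1 m.2.1 x)))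
      ≤ (1 / (2 * (d : ℝ) ^ 2)) * ε := by
    intro m
    obtain ⟨s, j, J⟩ := m
    simp only
    have e1 : ∀ x, w x * ((1 / (2 * (d : ℝ) ^ 2)) *
        (1 - marg20 w ρ (!s) J (ρ s j x) / Z20 w ρ s j J (ρ s j x)))
        = (1 / (2 * (d : ℝ) ^ 2)) * (w x *
        (1 - marg20 w ρ (!s) J (ρ s j x) / Z20 w ρ s j J (ρ s j x))) := fun x => by ring
    simp only [e1]
    rw [← mul_sum]
    apply mul_le_mul_of_nonneg_left _ (by positivity)
    rw [marg20_test w ρ s j (fun u => 1 - marg20 w ρ (!s) J u / Z20 w ρ s j J u)]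
    refine le_trans (sum_le_sum (fun u _ => ?_)) (h s j J)
    have ha := marg20_nonneg w hw ρ s j u
    have hb := marg20_nonneg w hw ρ (!s) J u
    unfold Z20
    set a := marg20 w ρ s j u with hadef
    set b := marg20 w ρ (!s) J u with hbdef
    rcases le_total b a with hle | hle
    · rw [max_eq_left hle]
      rcases eq_or_lt_of_le ha with h0 | h0
      · rw [← h0]
        simp
      · have : a * (1 - b / a) = a - b := by field_simp
        rw [this]
        exact le_abs_self _
    · rw [max_eq_right hle]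
      rcases eq_or_lt_of_le hb with h0 | h0
      · have : a = 0 := by linarith
        rw [this]
        simp
      · have : a * (1 - b / b) = 0 := by
          rw [div_self (ne_of_gt h0)]
          ring
        rw [this]
        exact abs_nonneg _
  refine le_trans (sum_le_sum (fun m _ => h2 m)) ?_
  rw [← sum_mul, card20 hd, one_mul]

/-- bad pairs of consecutive moves -/
def Bad20 (m m' : Mv20 d) : Prop :=
  m' = none ∨ ∃ s j J s' j' J', m = some (s, j, J) ∧ m' = some (s', j', J') ∧ j' = J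

include hw in
theorem bad20_mass (hd : 0 < d) (x : S) (m : Mv20 d) :
    ∑ m', ∑ y, (open Classical in if Bad20 m m' then q20 w ρ x m' y else 0)
      ≤ hold20 w ρ x + 1 / d := by
  classical
  rw [Fintype.sum_option]
  have h1 : ∑ y, (if Bad20 m (none : Mv20 d) then q20 w ρ x none y else 0) = hold20 w ρ x := by
    have : Bad20 m (none : Mv20 d) := Or.inl rfl
    simp [this, q20]
  have h1' : ∑ y, (open Classical in if Bad20 m (none : Mv20 d) then q20 w ρ x none y else 0)
      = hold20 w ρ x := by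
    convert h1
  rw [h1']
  apply add_le_add_right
  have hq : ∀ s j J, ∑ y, q20 w ρ x (some (s, j, J)) y ≤ 1 / (2 * (d : ℝ) ^ 2) := by
    intro s j J
    have e : ∑ y, q20 w ρ x (some (s, j, J)) y = ∑ y, mv20 w ρ x s j J y := rfl
    rw [e, mv20_sum]
    have h := ratio20_le w hw ρ x s j J
    have h0 : 0 ≤ 1 / (2 * (d : ℝ) ^ 2) := by positivity
    nlinarith [mul_le_mul_of_nonneg_left h h0]
  rcases m with _ | ⟨s0, j0, J0⟩
  · have : ∀ m' : Bool × Fin d × Fin d, ¬ Bad20 (none : Mv20 d) (some m') := by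
      rintro m' (h | ⟨s, j, J, s', j', J', h, -⟩)
      · simp at h
      · simp at h
    simp only [this, if_false, sum_const_zero]
    positivity
  · have hbd : ∀ m' : Bool × Fin d × Fin d, ∑ y, (open Classical in
        if Bad20 (some (s0, j0, J0)) (some m') then q20 w ρ x (some m') y else 0)
        ≤ if m'.2.1 = J0 then 1 / (2 * (d : ℝ) ^ 2) else 0 := by
      rintro ⟨s', j', J'⟩
      simp only
      by_cases h : j' = J0
      · rw [if_pos h]
        refine le_trans (sum_le_sum (fun y _ => ?_)) (hq s' j' J')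
        split_ifs
        · exact le_refl _
        · exact q20_nonneg w hw ρ hd x _ y
      · rw [if_neg h]
        have : ¬ Bad20 (some (s0, j0, J0)) (some (s', j', J')) := by
          rintro (h' | ⟨s, j, J, s'', j'', J'', h1, h2, h3⟩)
          · simp at h'
          · simp only [Option.some.injEq, Prod.mk.injEq] at h1 h2
            obtain ⟨-, -, rfl⟩ := h1
            obtain ⟨-, rfl, -⟩ := h2
            exact h h3
        simp [this]
    refine le_trans (sum_le_sum (fun m' _ => hbd m')) ?_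
    rw [Fintype.sum_prod_type]
    simp only [Fintype.sum_prod_type]
    have hd' : (d : ℝ) ≠ 0 := by positivity
    have e : ∀ (j' : Fin d), ∑ _J' : Fin d, (if j' = J0 then 1 / (2 * (d : ℝ) ^ 2) else 0)
        = if j' = J0 then 1 / (2 * (d : ℝ)) else 0 := by
      intro j'
      rw [sum_const, card_univ, Fintype.card_fin, nsmul_eq_mul]
      split_ifs
      · field_simp
      · simp
    simp only [e]
    simp only [sum_ite_eq', mem_univ, if_true, sum_const, card_univ, Fintype.card_bool]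
    apply le_of_eq
    rw [nsmul_eq_mul]
    push_cast
    field_simp

end Chain

section Final
variable {S U V : Type} [Fintype S] [DecidableEq S] [Fintype U] [DecidableEq U] {d : ℕ}
  [AddCommGroup V]

/-- the chain: path expectations are bounded below through an invariant -/
theorem chain_lower20 (hd : 0 < d) (w : S → ℝ) (hw : ∀ x, 0 ≤ w x) (hw1 : ∑ x, w x = 1)
    (ρ : Bool → Fin d → S → U) (ε : ℝ)
    (h : ∀ s j J, ∑ u, |marg20 w ρ s j u - marg20 w ρ (!s) J u| ≤ ε)
    (g : S → Mv20 d → S → V) (φ : V → ℝ) (hφ : ∀ v, 0 ≤ φ v) (c : ℝ) (hc : 0 ≤ c)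
    (Inv : ℕ → S → Mv20 d → V → Prop) (h0 : ∀ x m v, Inv 0 x m v → c ≤ φ v)
    (hs : ∀ k x m v s j J y, Inv (k + 1) x m v →
      (∀ s' j' J', m = some (s', j', J') → j ≠ J') → 0 < w y →
      ρ s j x = ρ (!s) J y → Inv k y (some (s, j, J)) (v + g x (some (s, j, J)) y))
    (n : ℕ) (hi : ∀ x, 0 < w x → Inv n x none 0) :
    c * (1 - n * (ε + 1 / d)) ≤ ∑ x, w x * EQ20 (q20 w ρ) g n φ x 0 := by
  refine path_lower20 (q20 w ρ) g w hw hw1 (q20_nonneg w hw ρ hd) (q20_row w ρ) (q20_stat w ρ)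
    Bad20 (fun x => hold20 w ρ x + 1 / d) (bad20_mass w hw ρ hd) _ ?_ φ hφ c hc Inv h0 ?_ n none hi
  · have := hold20_avg w hw hw1 ρ hd ε h
    simp only [mul_add, sum_add_distrib]
    rw [← sum_mul, hw1]
    linarith
  · intro k x m v m' y hI hB hq
    rcases m' with _ | ⟨s, j, J⟩
    · exact absurd (Or.inl rfl) hB
    · refine hs k x m v s j J y hI ?_ (q20_pos_w w ρ hw hq) (q20_pos w ρ hq)
      intro s' j' J' hm hj
      exact hB (Or.inr ⟨s', j', J', s, j, J, hm, rfl, hj⟩)

end Final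

end P125F
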