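import Vale.Agent.P125F.Il15

/-!
Approximately indiscernible laws on increasing tuples.
-/

namespace P125F
open Filter Topology

/-- pairs of increasing maps -/
abbrev Pr (r K : ℕ) : Type :=
  {p : (Fin r → Fin K) × (Fin r → Fin K) // StrictMono p.1 ∧ StrictMono p.2}

/-- the space of differences -/
abbrev EE1 (r K : ℕ) : Type := lp (fun _ : Pr r K × (Fin r → ℕ) => ℝ) 1

open Classical in
/-- difference of the two pushforwards of a point mass -/
noncomputable def DD (r K : ℕ) (Φ : Fin K → ℕ) : EE1 r K :=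
  ∑ p : Pr r K, (lp.single (E := fun _ : Pr r K × (Fin r → ℕ) => ℝ) 1
      (p, fun i => Φ (p.1.1 i)) (1 : ℝ)
    - lp.single (E := fun _ : Pr r K × (Fin r → ℕ) => ℝ) 1 (p, fun i => Φ (p.1.2 i)) (1 : ℝ))

open Classical in
theorem DD_apply (r K : ℕ) (Φ : Fin K → ℕ) (p : Pr r K) (u : Fin r → ℕ) :
    (DD r K Φ : Pr r K × (Fin r → ℕ) → ℝ) (p, u)
      = (if (fun i => Φ (p.1.1 i)) = u then 1 else 0)
        - (if (fun i => Φ (p.1.2 i)) = u then 1 else 0) := by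
  unfold DD
  rw [lp.coeFn_sum, Finset.sum_apply]
  rw [Finset.sum_eq_single p]
  · rw [lp.coeFn_sub, Pi.sub_apply, lp.single_apply, lp.single_apply]
    simp only [Pi.single_apply, Prod.mk.injEq, true_and]
    congr 1
    · simp only [eq_comm]
    · simp only [eq_comm]
  · intro p' _ hp'
    rw [lp.coeFn_sub, Pi.sub_apply, lp.single_apply, lp.single_apply]
    simp only [Pi.single_apply, Prod.mk.injEq]
    rw [if_neg (fun h => hp' h.1.symm), if_neg (fun h => hp' h.1.symm), sub_zero]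
  · intro h; exact absurd (Finset.mem_univ _) h

theorem law_core (r K : ℕ) (ε : ℝ) (hε : 0 < ε) :
    ∃ x ∈ convexHull ℝ (Set.range (fun Φ : {Φ : Fin K → ℕ // StrictMono Φ} => DD r K Φ.1)),
      ‖x‖ < ε := by
  classical
  by_contra hno
  push Not at hno
  have hdisj : Disjoint (Metric.ball (0 : EE1 r K) ε)
      (convexHull ℝ (Set.range (fun Φ : {Φ : Fin K → ℕ // StrictMono Φ} => DD r K Φ.1))) := by
    rw [Set.disjoint_left]
    intro x hx hx'
    have := hno x hx'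
    rw [mem_ball_zero_iff] at hx
    linarith
  obtain ⟨f, c, h1, h2⟩ := geometric_hahn_banach_open (convex_ball _ _) Metric.isOpen_ball
    (convex_convexHull ℝ _) hdisj
  have hc : 0 < c := by
    have := h1 0 (Metric.mem_ball_self hε)
    rwa [map_zero] at this
  let F : Pr r K → (Fin r → ℕ) → ℝ := fun p u =>
    f (lp.single (E := fun _ : Pr r K × (Fin r → ℕ) => ℝ) 1 (p, u) (1 : ℝ))
  have hFb : ∀ p u, |F p u| ≤ ‖f‖ := by
    intro p u
    have h3 := f.le_opNorm (lp.single (E := fun _ : Pr r K × (Fin r → ℕ) => ℝ) 1 (p, u) (1 : ℝ))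
    rw [lp.norm_single (by norm_num), norm_one, mul_one] at h3
    exact h3
  have hf : ∀ Φ : Fin K → ℕ, StrictMono Φ →
      c ≤ ∑ p : Pr r K, (F p (fun i => Φ (p.1.1 i)) + - F p (fun i => Φ (p.1.2 i))) := by
    intro Φ hΦ
    have h3 := h2 (DD r K Φ) (subset_convexHull ℝ _ ⟨⟨Φ, hΦ⟩, rfl⟩)
    unfold DD at h3
    rw [map_sum] at h3
    refine h3.trans (le_of_eq (Finset.sum_congr rfl fun p _ => ?_))
    rw [map_sub, sub_eq_add_neg]
  have hb1 : ∀ (p : Pr r K) (Φ : Fin K → ℕ), |F p (fun i => Φ (p.1.1 i))| ≤ ‖f‖ :=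
    fun p Φ => hFb p _
  have hb2 : ∀ (p : Pr r K) (Φ : Fin K → ℕ), |F p (fun i => Φ (p.1.2 i))| ≤ ‖f‖ :=
    fun p Φ => hFb p _
  have hb3 : ∀ (p : Pr r K) (Φ : Fin K → ℕ),
      |F p (fun i => Φ (p.1.1 i)) + - F p (fun i => Φ (p.1.2 i))| ≤ 2 * ‖f‖ := by
    intro p Φ
    have := abs_add_le (F p (fun i => Φ (p.1.1 i))) (- F p (fun i => Φ (p.1.2 i)))
    rw [abs_neg] at this
    linarith [hb1 p Φ, hb2 p Φ]
  have h4 := IL_ge K (fun Φ => ∑ p : Pr r K,
      (F p (fun i => Φ (p.1.1 i)) + - F p (fun i => Φ (p.1.2 i))))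
    (∑ _p : Pr r K, 2 * ‖f‖) (fun Φ => (Finset.abs_sum_le_sum_abs _ _).trans
      (Finset.sum_le_sum fun p _ => hb3 p Φ)) c 0 (fun Φ hΦ _ => hf Φ hΦ)
  rw [IL_sum Finset.univ K _ (2 * ‖f‖) (by positivity) hb3] at h4
  have h5 : ∀ p : Pr r K,
      IL K (fun Φ => F p (fun i => Φ (p.1.1 i)) + - F p (fun i => Φ (p.1.2 i))) = 0 := by
    intro p
    rw [IL_add K _ _ ‖f‖ (hb1 p) (fun Φ => by rw [abs_neg]; exact hb2 p Φ),
      IL_neg K _ ‖f‖ (hb2 p), IL_comp K r p.1.1 p.2.1 (F p), IL_comp K r p.1.2 p.2.2 (F p)]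
    ring
  rw [Finset.sum_congr rfl fun p _ => h5 p, Finset.sum_const_zero] at h4
  linarith

open Classical in
/-- a finitely supported law on increasing tuples all of whose `r`-marginals are `ε`-close -/
theorem law15 (r K : ℕ) (ε : ℝ) (hε : 0 < ε) :
    ∃ (ι : Type) (_ : Fintype ι) (w : ι → ℝ) (Φ : ι → Fin K → ℕ),
      (∀ i, 0 ≤ w i) ∧ ∑ i, w i = 1 ∧ (∀ i, StrictMono (Φ i)) ∧
      ∀ α β : Fin r → Fin K, StrictMono α → StrictMono β → ∀ s : Finset (Fin r → ℕ),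
        ∑ u ∈ s, |∑ i, w i * ((if (fun l => Φ i (α l)) = u then 1 else 0)
          - (if (fun l => Φ i (β l)) = u then 1 else 0))| ≤ ε := by
  obtain ⟨x, hx, hxε⟩ := law_core r K ε hε
  rw [mem_convexHull_iff_exists_fintype] at hx
  obtain ⟨ι, _, w, z, hw0, hw1, hz, hsum⟩ := hx
  choose Ψ hΨ using hz
  refine ⟨ι, inferInstance, w, fun i => (Ψ i).1, hw0, hw1, fun i => (Ψ i).2, ?_⟩
  intro α β hα hβ s
  let p : Pr r K := ⟨(α, β), hα, hβ⟩
  have hval : ∀ u, (x : Pr r K × (Fin r → ℕ) → ℝ) (p, u)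
      = ∑ i, w i * ((if (fun l => (Ψ i).1 (α l)) = u then 1 else 0)
          - (if (fun l => (Ψ i).1 (β l)) = u then 1 else 0)) := by
    intro u
    rw [← hsum, lp.coeFn_sum, Finset.sum_apply]
    refine Finset.sum_congr rfl fun i _ => ?_
    rw [lp.coeFn_smul, Pi.smul_apply, ← hΨ i, DD_apply, smul_eq_mul]
  have hle : ∑ u ∈ s, |(x : Pr r K × (Fin r → ℕ) → ℝ) (p, u)| ≤ ‖x‖ := by
    have h1 := lp.sum_rpow_le_norm_rpow (p := (1 : ENNReal)) (by norm_num) x
      (s.map ⟨fun u => (p, u), fun u v h => (Prod.mk.inj h).2⟩)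
    rw [Finset.sum_map] at h1
    simp only [ENNReal.toReal_one, Real.rpow_one, Real.norm_eq_abs] at h1
    exact h1
  refine le_trans (le_of_eq (Finset.sum_congr rfl fun u _ => ?_)) (hle.trans hxε.le)
  rw [hval]

end P125F
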