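import Vale.Agent.P125F.Defs
import Vale.Agent.P125F.Law15

namespace P125F
open Finset P125S

theorem ind_helper15 (K r : ℕ) {ε : ℝ} (hε : 0 < ε) :
    ∃ (m : ℕ) (μ : (Fin K ↪o Fin m) → ℝ), (∀ Φ, 0 ≤ μ Φ) ∧ ∑ Φ, μ Φ = 1 ∧
      ∀ α β : Fin r ↪o Fin K, ∑ u : Fin r ↪o Fin m,
        |(∑ Φ, if α.trans Φ = u then μ Φ else 0) - (∑ Φ, if β.trans Φ = u then μ Φ else 0)| ≤ ε := by
  classical
  obtain ⟨ι, _, w, Φ, hw0, hw1, hΦ, hlaw⟩ := law15 r K ε hε
  let m : ℕ := (Finset.univ.sup fun i : ι => Finset.univ.sup fun l : Fin K => Φ i l) + 1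
  have hlt : ∀ i l, Φ i l < m := by
    intro i l
    have h1 : Φ i l ≤ Finset.univ.sup fun l : Fin K => Φ i l :=
      Finset.le_sup (f := fun l => Φ i l) (Finset.mem_univ l)
    have h2 : (Finset.univ.sup fun l : Fin K => Φ i l)
        ≤ Finset.univ.sup fun i : ι => Finset.univ.sup fun l : Fin K => Φ i l :=
      Finset.le_sup (f := fun i : ι => Finset.univ.sup fun l : Fin K => Φ i l) (Finset.mem_univ i)
    exact Nat.lt_succ_of_le (h1.trans h2)
  let em : ι → (Fin K ↪o Fin m) := fun i =>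
    OrderEmbedding.ofStrictMono (fun l => (⟨Φ i l, hlt i l⟩ : Fin m)) (fun l l' h => hΦ i h)
  have hem : ∀ i l, ((em i l : Fin m) : ℕ) = Φ i l := fun i l => rfl
  let μ : (Fin K ↪o Fin m) → ℝ := fun Ψ => ∑ i, if em i = Ψ then w i else 0
  refine ⟨m, μ, ?_, ?_, ?_⟩
  · intro Ψ
    refine Finset.sum_nonneg fun i _ => ?_
    split_ifs
    · exact hw0 i
    · exact le_rfl
  · simp only [μ]
    rw [Finset.sum_comm]
    simp only [Finset.sum_ite_eq, Finset.mem_univ, if_true]
    exact hw1
  · intro α β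
    have key : ∀ (γ : Fin r ↪o Fin K) (u : Fin r ↪o Fin m),
        (∑ Ψ, if γ.trans Ψ = u then μ Ψ else 0)
          = ∑ i, if (fun l => Φ i (γ l)) = (fun l => ((u l : Fin m) : ℕ)) then w i else 0 := by
      intro γ u
      have h1 : ∀ Ψ : Fin K ↪o Fin m, (if γ.trans Ψ = u then μ Ψ else 0)
          = ∑ i, if em i = Ψ then (if γ.trans Ψ = u then w i else 0) else 0 := by
        intro Ψ
        simp only [μ]
        split_ifs with h
        · rfl
        · simp
      rw [Finset.sum_congr rfl fun Ψ _ => h1 Ψ, Finset.sum_comm]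
      refine Finset.sum_congr rfl fun i _ => ?_
      rw [Finset.sum_ite_eq, if_pos (Finset.mem_univ _)]
      have h2 : (γ.trans (em i) = u) ↔
          ((fun l => Φ i (γ l)) = (fun l => ((u l : Fin m) : ℕ))) := by
        constructor
        · intro h
          funext l
          rw [← h]
          rfl
        · intro h
          ext l
          exact congrFun h l
      by_cases h : γ.trans (em i) = u
      · rw [if_pos h, if_pos (h2.1 h)]
      · rw [if_neg h, if_neg (fun h' => h (h2.2 h'))]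
    have hinj : Set.InjOn (fun (u : Fin r ↪o Fin m) => (fun l => ((u l : Fin m) : ℕ)))
        ((Finset.univ : Finset (Fin r ↪o Fin m)) : Set (Fin r ↪o Fin m)) := by
      intro u _ v _ h
      ext l
      exact congrFun h l
    have h3 := hlaw α β α.strictMono β.strictMono
      (Finset.univ.image (fun (u : Fin r ↪o Fin m) => (fun l => ((u l : Fin m) : ℕ))))
    rw [Finset.sum_image hinj] at h3
    refine le_trans (le_of_eq (Finset.sum_congr rfl fun u _ => ?_)) h3
    rw [key α u, key β u, ← Finset.sum_sub_distrib]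
    congr 1
    refine Finset.sum_congr rfl fun i _ => ?_
    split_ifs <;> simp

end P125F
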