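import Vale.Agent.P125F.Edge
import Vale.Agent.P125F.Chain20
import Vale.Agent.P125F.IND_helper15

/-! # [JC] the labelled chain from the indiscernible law -/

namespace P125F

open Finset P125S

theorem sum_mv20 {S U : Type} [Fintype S] [DecidableEq S] [Fintype U] [DecidableEq U] {d : ℕ}
    (w : S → ℝ) (ρ : Bool → Fin d → S → U) (x : S) :
    ∑ y, ∑ e : Bool × Fin d × Fin d, q20 w ρ x (some e) y = 1 - hold20 w ρ x := by
  rw [sum_comm]
  unfold hold20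
  have : ∑ e : Bool × Fin d × Fin d, ∑ y, q20 w ρ x (some e) y
      = ∑ m : Bool × Fin d × Fin d, ∑ y, mv20 w ρ x m.1 m.2.1 m.2.2 y := rfl
  rw [this]
  ring

theorem fix20 {S U : Type} [Fintype S] [DecidableEq S] [Fintype U] [DecidableEq U] {d : ℕ}
    (hd : 0 < d) (w : S → ℝ) (hw : ∀ x, 0 ≤ w x) (ρ : Bool → Fin d → S → U) (x : S) (j : Fin d) :
    ∑ y, ∑ e : Bool × Fin d × Fin d, (if e.2.1 = j then q20 w ρ x (some e) y else 0)
      ≤ 1 / d := by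
  rw [sum_comm]
  have hq : ∀ e : Bool × Fin d × Fin d,
      ∑ y, (if e.2.1 = j then q20 w ρ x (some e) y else 0)
        ≤ if e.2.1 = j then 1 / (2 * (d : ℝ) ^ 2) else 0 := by
    rintro ⟨s, j', J⟩
    simp only
    by_cases h : j' = j
    · simp only [h, if_true]
      have e : ∑ y, q20 w ρ x (some (s, j, J)) y = ∑ y, mv20 w ρ x s j J y := rfl
      rw [e, mv20_sum]
      have h := ratio20_le w hw ρ x s j J
      have h0 : 0 ≤ 1 / (2 * (d : ℝ) ^ 2) := by positivity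
      nlinarith [mul_le_mul_of_nonneg_left h h0]
    · simp [h]
  refine le_trans (sum_le_sum (fun e _ => hq e)) ?_
  rw [Fintype.sum_prod_type]
  simp only [Fintype.sum_prod_type]
  have hd' : (d : ℝ) ≠ 0 := by positivity
  have e : ∀ (j' : Fin d), ∑ _J' : Fin d, (if j' = j then 1 / (2 * (d : ℝ) ^ 2) else 0)
      = if j' = j then 1 / (2 * (d : ℝ)) else 0 := by
    intro j'
    rw [sum_const, card_univ, Fintype.card_fin, nsmul_eq_mul]
    split_ifs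
    · field_simp
    · simp
  simp only [e]
  simp only [sum_ite_eq', mem_univ, if_true, sum_const, card_univ, Fintype.card_bool]
  apply le_of_eq
  rw [nsmul_eq_mul]
  push_cast
  field_simp

theorem jc_helper20 (d M : ℕ) (hd : 1 ≤ d) {ε : ℝ} (hε : 0 < ε) :
    ∃ (m : ℕ) (L : LChain (Fin ((M + 1) * (2 * d)) ↪o Fin m) (Mv d)),
      (∀ e, L.inv e = (!e.1, e.2.2, e.2.1)) ∧
      (∀ Φ Ψ e, L.J Φ Ψ e ≠ 0 → Comp d M m Φ Ψ e) ∧
      (1 - ε ≤ ∑ Φ, ∑ Ψ, ∑ e, L.J Φ Ψ e) ∧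
      (∀ Φ (j : Fin d), ∑ Ψ, ∑ e, (if e.2.1 = j then L.J Φ Ψ e else 0) ≤ L.w Φ / d) := by
  classical
  obtain ⟨m, w, hw, hw1, hlaw⟩ := ind_helper15 ((M + 1) * (2 * d)) (2 * M) hε
  have hd0 : 0 < d := hd
  set ρ : Bool → Fin d → (Fin ((M + 1) * (2 * d)) ↪o Fin m) → (Fin (2 * M) ↪o Fin m) :=
    fun s j Φ => (edge d M s j).trans Φ with hρ
  have hmarg : ∀ s j (J : Fin d), ∑ u, |marg20 w ρ s j u - marg20 w ρ (!s) J u| ≤ ε := by
    intro s j J
    have := hlaw (edge d M s j) (edge d M (!s) J)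
    refine le_trans (le_of_eq ?_) this
    refine sum_congr rfl (fun u _ => ?_)
    unfold marg20
    rfl
  refine ⟨m, ⟨w, fun Φ Ψ e => w Φ * q20 w ρ Φ (some e) Ψ, fun e => (!e.1, e.2.2, e.2.1), hw, hw1,
    ?_, ?_, ?_, ?_⟩, fun e => rfl, ?_, ?_, ?_⟩
  · intro x y e
    exact mul_nonneg (hw x) (q20_nonneg w hw ρ hd0 x _ y)
  · intro x
    simp only [← mul_sum]
    rw [sum_mv20]
    have h1 := hold20_nonneg w hw ρ hd0 x
    have h2 := hw x
    nlinarith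
  · rintro x y ⟨s, j, J⟩
    exact q20_rev w ρ x (some (s, j, J)) y
  · rintro ⟨s, j, J⟩
    simp
  · rintro Φ Ψ ⟨s, j, J⟩ hne
    have hq : 0 < q20 w ρ Φ (some (s, j, J)) Ψ := by
      rcases eq_or_lt_of_le (q20_nonneg w hw ρ hd0 Φ (some (s, j, J)) Ψ) with h | h
      · exact absurd (by show w Φ * q20 w ρ Φ (some (s, j, J)) Ψ = 0; rw [← h, mul_zero]) hne
      · exact h
    exact q20_pos w ρ hq
  · have h1 := hold20_avg w hw hw1 ρ hd0 ε hmarg
    have h2 : ∑ Φ, ∑ Ψ, ∑ e : Mv d, w Φ * q20 w ρ Φ (some e) Ψ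
        = ∑ Φ, (w Φ - w Φ * hold20 w ρ Φ) := by
      refine sum_congr rfl (fun Φ _ => ?_)
      simp only [← mul_sum]
      rw [sum_mv20]
      ring
    show 1 - ε ≤ ∑ Φ, ∑ Ψ, ∑ e : Mv d, w Φ * q20 w ρ Φ (some e) Ψ
    rw [h2, sum_sub_distrib, hw1]
    linarith
  · intro Φ j
    show ∑ Ψ, ∑ e : Mv d, (if e.2.1 = j then w Φ * q20 w ρ Φ (some e) Ψ else 0) ≤ w Φ / d
    have h1 := fix20 hd0 w hw ρ Φ j
    have h2 : ∑ Ψ, ∑ e : Mv d, (if e.2.1 = j then w Φ * q20 w ρ Φ (some e) Ψ else 0)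
        = w Φ * ∑ Ψ, ∑ e : Mv d, (if e.2.1 = j then q20 w ρ Φ (some e) Ψ else 0) := by
      simp only [mul_sum]
      refine sum_congr rfl (fun Ψ _ => sum_congr rfl (fun e _ => ?_))
      split_ifs
      · rfl
      · simp
    rw [h2]
    have := mul_le_mul_of_nonneg_left h1 (hw Φ)
    calc w Φ * ∑ Ψ, ∑ e : Mv d, (if e.2.1 = j then q20 w ρ Φ (some e) Ψ else 0)
        ≤ w Φ * (1 / d) := this
      _ = w Φ / d := by ring

end P125F
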