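import Mathlib

/-! # BOX: from antisymmetric increments to functions on a reversible chain -/

namespace P125F

open Finset
open scoped Classical

variable {S M : Type} [Fintype S] [Fintype M] {D : ℕ}

/-- `t`-step expectation of a function of the accumulated increments -/
noncomputable def EQ (q : S → M → S → ℝ) (g : S → M → S → (Fin D → ℤ)) :
    ℕ → ((Fin D → ℤ) → ℝ) → S → (Fin D → ℤ) → ℝ
  | 0 => fun φ _ v => φ v
  | t + 1 => fun φ x v => ∑ m, ∑ y, q x m y * EQ q g t φ y (v + g x m y)

theorem EQ_nonneg (q : S → M → S → ℝ) (g : S → M → S → (Fin D → ℤ)) (hq : ∀ x m y, 0 ≤ q x m y)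
    (φ : (Fin D → ℤ) → ℝ) (hφ : ∀ v, 0 ≤ φ v) (t : ℕ) : ∀ x v, 0 ≤ EQ q g t φ x v := by
  induction t with
  | zero => intro x v; exact hφ v
  | succ t ih =>
    intro x v
    exact Finset.sum_nonneg fun m _ => Finset.sum_nonneg fun y _ => mul_nonneg (hq x m y) (ih _ _)

theorem EQ_shift (q : S → M → S → ℝ) (g : S → M → S → (Fin D → ℤ))
    (φ : (Fin D → ℤ) → ℝ) (a : Fin D → ℤ) (t : ℕ) : ∀ x v,
    EQ q g t (fun u => φ (u - a)) x v = EQ q g t φ x (v - a) := by
  induction t with
  | zero => intro x v; rfl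
  | succ t ih =>
    intro x v
    show ∑ m, ∑ y, q x m y * EQ q g t (fun u => φ (u - a)) y (v + g x m y)
      = ∑ m, ∑ y, q x m y * EQ q g t φ y (v - a + g x m y)
    refine Finset.sum_congr rfl fun m _ => Finset.sum_congr rfl fun y _ => ?_
    rw [ih]
    congr 2
    abel

/-- the position as an integer vector -/
def bc {D L : ℕ} (v : Fin D → Fin L) : Fin D → ℤ := fun i => ((v i : ℕ) : ℤ)

theorem bc_inj {D L : ℕ} : Function.Injective (bc : (Fin D → Fin L) → (Fin D → ℤ)) := by
  intro v w h
  funext i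
  have := congrFun h i
  simp only [bc, Nat.cast_inj] at this
  exact Fin.ext this

/-- holding probability -/
noncomputable def bhold (q : S → M → S → ℝ) (g : S → M → S → (Fin D → ℤ)) (L : ℕ)
    (x : S) (v : Fin D → Fin L) : ℝ :=
  ∑ m, ∑ y, if ∃ v' : Fin D → Fin L, bc v + g x m y = bc v' then 0 else q x m y

/-- the lifted chain -/
noncomputable def bP (q : S → M → S → ℝ) (g : S → M → S → (Fin D → ℤ)) (L : ℕ)
    (a b : S × (Fin D → Fin L)) : ℝ :=
  (∑ m, if bc a.2 + g a.1 m b.1 = bc b.2 then q a.1 m b.1 else 0)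
    + (if a = b then bhold q g L a.1 a.2 else 0)

theorem bP_apply (q : S → M → S → ℝ) (g : S → M → S → (Fin D → ℤ)) (L : ℕ)
    (a : S × (Fin D → Fin L)) (F : S × (Fin D → Fin L) → ℝ) :
    ∑ b, bP q g L a b * F b
      = (∑ m, ∑ y, ∑ v', if bc a.2 + g a.1 m y = bc v' then q a.1 m y * F (y, v') else 0)
        + bhold q g L a.1 a.2 * F a := by
  unfold bP
  simp only [add_mul, Finset.sum_add_distrib]
  congr 1
  · rw [Fintype.sum_prod_type]
    simp only [Finset.sum_mul, ite_mul, zero_mul]
    rw [Finset.sum_comm]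
    simp only [Finset.sum_comm (γ := M)]
    rw [Finset.sum_comm]
  · simp only [ite_mul, zero_mul]
    rw [Finset.sum_ite_eq]
    simp

theorem bP_sum (q : S → M → S → ℝ) (g : S → M → S → (Fin D → ℤ))
    (hs : ∀ x, ∑ m, ∑ y, q x m y = 1) (L : ℕ) (a : S × (Fin D → Fin L)) :
    ∑ b, bP q g L a b = 1 := by
  have h := bP_apply q g L a (fun _ => 1)
  simp only [mul_one] at h
  rw [h, ← hs a.1]
  unfold bhold
  rw [← Finset.sum_add_distrib]
  refine Finset.sum_congr rfl fun m _ => ?_
  rw [← Finset.sum_add_distrib]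
  refine Finset.sum_congr rfl fun y _ => ?_
  by_cases hex : ∃ v' : Fin D → Fin L, bc a.2 + g a.1 m y = bc v'
  · rw [if_pos hex, add_zero]
    obtain ⟨v', hv'⟩ := hex
    have : ∀ v'' : Fin D → Fin L, (if bc a.2 + g a.1 m y = bc v'' then q a.1 m y else 0)
        = if v'' = v' then q a.1 m y else 0 := by
      intro v''
      by_cases hv : v'' = v'
      · subst hv; simp [hv']
      · rw [if_neg hv, if_neg]
        intro h'
        exact hv (bc_inj (h'.symm.trans hv'))
    simp only [this]
    simp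
  · rw [if_neg hex]
    push Not at hex
    have : ∀ v'' : Fin D → Fin L, (if bc a.2 + g a.1 m y = bc v'' then q a.1 m y else 0) = 0 :=
      fun v'' => if_neg (hex v'')
    simp only [this]
    simp

theorem bP_rev (w : S → ℝ) (q : S → M → S → ℝ) (g : S → M → S → (Fin D → ℤ)) (inv : M → M)
    (hinv : Function.Involutive inv) (hrev : ∀ x m y, w x * q x m y = w y * q y (inv m) x)
    (hg : ∀ x m y, g y (inv m) x = - g x m y) (L : ℕ) (c : ℝ) (a b : S × (Fin D → Fin L)) :
    (w a.1 * c) * bP q g L a b = (w b.1 * c) * bP q g L b a := by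
  unfold bP
  have h1 : w a.1 * (∑ m, if bc a.2 + g a.1 m b.1 = bc b.2 then q a.1 m b.1 else 0)
      = w b.1 * (∑ m, if bc b.2 + g b.1 m a.1 = bc a.2 then q b.1 m a.1 else 0) := by
    rw [Finset.mul_sum, Finset.mul_sum]
    refine Fintype.sum_equiv (hinv.toPerm inv) _ _ fun m => ?_
    have e : (hinv.toPerm inv) m = inv m := rfl
    rw [e]
    have hiff : (bc a.2 + g a.1 m b.1 = bc b.2) ↔ (bc b.2 + g b.1 (inv m) a.1 = bc a.2) := by
      rw [hg a.1 m b.1]
      constructor
      · intro h; rw [← h]; abel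
      · intro h; rw [← h]; abel
    by_cases hc : bc a.2 + g a.1 m b.1 = bc b.2
    · rw [if_pos hc, if_pos (hiff.1 hc)]; exact hrev _ _ _
    · rw [if_neg hc, if_neg (fun h => hc (hiff.2 h))]; simp
  by_cases hab : a = b
  · subst hab; rfl
  · rw [if_neg hab, if_neg (Ne.symm hab), add_zero, add_zero]
    calc (w a.1 * c) * (∑ m, if bc a.2 + g a.1 m b.1 = bc b.2 then q a.1 m b.1 else 0)
        = c * (w a.1 * (∑ m, if bc a.2 + g a.1 m b.1 = bc b.2 then q a.1 m b.1 else 0)) := by ring
      _ = c * (w b.1 * (∑ m, if bc b.2 + g b.1 m a.1 = bc a.2 then q b.1 m a.1 else 0)) := by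
          rw [h1]
      _ = _ := by ring

theorem bP_nonneg (q : S → M → S → ℝ) (g : S → M → S → (Fin D → ℤ)) (hq : ∀ x m y, 0 ≤ q x m y)
    (L : ℕ) (a b : S × (Fin D → Fin L)) : 0 ≤ bP q g L a b := by
  unfold bP bhold
  apply add_nonneg
  · exact Finset.sum_nonneg fun m _ => by split_ifs <;> simp [hq]
  · split_ifs
    · exact Finset.sum_nonneg fun m _ => Finset.sum_nonneg fun y _ => by split_ifs <;> simp [hq]
    · exact le_rfl

/-- inside the box the lifted chain is the walk -/
theorem bP_pow (q : S → M → S → ℝ) (g : S → M → S → (Fin D → ℤ)) (R : ℕ)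
    (hR : ∀ x m y i, |g x m y i| ≤ R) (L : ℕ) (φ : (Fin D → ℤ) → ℝ) (t : ℕ) :
    ∀ (x : S) (v : Fin D → Fin L), (∀ i, t * R ≤ (v i : ℕ) ∧ (v i : ℕ) + t * R < L) →
    ∑ b : S × (Fin D → Fin L), ((Matrix.of (bP q g L)) ^ t) (x, v) b * φ (bc b.2)
      = EQ q g t φ x (bc v) := by
  induction t with
  | zero =>
    intro x v _
    rw [pow_zero]
    simp only [Matrix.one_apply, ite_mul, one_mul, zero_mul]
    rw [Finset.sum_ite_eq]
    simp [EQ]
  | succ t ih =>
    intro x v hv
    have h1 : ∑ b : S × (Fin D → Fin L), ((Matrix.of (bP q g L)) ^ (t + 1)) (x, v) b * φ (bc b.2)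
        = ∑ a : S × (Fin D → Fin L), bP q g L (x, v) a *
          ∑ b : S × (Fin D → Fin L), ((Matrix.of (bP q g L)) ^ t) a b * φ (bc b.2) := by
      rw [pow_succ']
      simp only [Matrix.mul_apply, Finset.sum_mul, Finset.mul_sum, Matrix.of_apply]
      rw [Finset.sum_comm]
      refine Finset.sum_congr rfl fun a _ => Finset.sum_congr rfl fun b _ => ?_
      ring
    rw [h1, bP_apply]
    have hin : ∀ m y, ∃ v' : Fin D → Fin L, bc v + g x m y = bc v' ∧
        ∀ i, t * R ≤ (v' i : ℕ) ∧ (v' i : ℕ) + t * R < L := by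
      intro m y
      have hb : ∀ i, (t * R : ℤ) ≤ ((v i : ℕ) : ℤ) + g x m y i ∧
          ((v i : ℕ) : ℤ) + g x m y i + t * R < L := by
        intro i
        have e1 := abs_le.1 (hR x m y i)
        obtain ⟨e2, e3⟩ := hv i
        have e2' : ((t + 1 : ℕ) : ℤ) * R ≤ ((v i : ℕ) : ℤ) := by exact_mod_cast e2
        have e3' : ((v i : ℕ) : ℤ) + ((t + 1 : ℕ) : ℤ) * R < L := by exact_mod_cast e3
        push_cast at e2' e3'
        constructor <;> nlinarith [e1.1, e1.2]
      have hnn : ∀ i, 0 ≤ ((v i : ℕ) : ℤ) + g x m y i := by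
        intro i
        have h0 : (0 : ℤ) ≤ t * R := by positivity
        exact h0.trans (hb i).1
      refine ⟨fun i => ⟨(((v i : ℕ) : ℤ) + g x m y i).toNat, ?_⟩, ?_, ?_⟩
      · have h0 : (0 : ℤ) ≤ t * R := by positivity
        have := (hb i).2
        have h2 := hnn i
        omega
      · funext i
        simp only [bc, Pi.add_apply]
        exact (Int.toNat_of_nonneg (hnn i)).symm
      · intro i
        have e1 := (hb i).1
        have e2 := (hb i).2
        have e3 : (((((v i : ℕ) : ℤ) + g x m y i).toNat : ℕ) : ℤ) = ((v i : ℕ) : ℤ) + g x m y i :=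
          Int.toNat_of_nonneg (hnn i)
        constructor
        · have : ((t * R : ℕ) : ℤ) ≤ (((((v i : ℕ) : ℤ) + g x m y i).toNat : ℕ) : ℤ) := by
            rw [e3]; push_cast; exact e1
          exact_mod_cast this
        · have : (((((v i : ℕ) : ℤ) + g x m y i).toNat : ℕ) : ℤ) + ((t * R : ℕ) : ℤ) < (L : ℤ) := by
            rw [e3]; push_cast; exact e2
          exact_mod_cast this
    have hhold : bhold q g L x v = 0 := by
      unfold bhold
      refine Finset.sum_eq_zero fun m _ => Finset.sum_eq_zero fun y _ => ?_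
      obtain ⟨v', h1, _⟩ := hin m y
      rw [if_pos ⟨v', h1⟩]
    simp only [hhold, zero_mul, add_zero]
    show _ = ∑ m, ∑ y, q x m y * EQ q g t φ y (bc v + g x m y)
    refine Finset.sum_congr rfl fun m _ => Finset.sum_congr rfl fun y _ => ?_
    obtain ⟨v', h2, h3⟩ := hin m y
    have : ∀ v'' : Fin D → Fin L, (if bc v + g x m y = bc v'' then q x m y *
        ∑ b : S × (Fin D → Fin L), ((Matrix.of (bP q g L)) ^ t) (y, v'') b * φ (bc b.2) else 0)
        = if v'' = v' then q x m y *
        ∑ b : S × (Fin D → Fin L), ((Matrix.of (bP q g L)) ^ t) (y, v') b * φ (bc b.2) else 0 := by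
      intro v''
      by_cases hv' : v'' = v'
      · subst hv'; simp [h2]
      · rw [if_neg hv', if_neg]
        intro h'
        exact hv' (bc_inj (h'.symm.trans h2))
    simp only [this]
    rw [Finset.sum_ite_eq']
    simp only [mem_univ, if_true]
    rw [ih y v' h3, h2]

/-- the Markov inequality for functions on finite reversible chains -/
def MTineq (D : ℕ) (ν : (Fin D → ℤ) → ℝ) (K : ℝ) : Prop :=
  ∀ (T : Type) [Fintype T] [DecidableEq T] (w : T → ℝ) (P : T → T → ℝ),
    (∀ x, 0 ≤ w x) → ∑ x, w x = 1 → (∀ x y, 0 ≤ P x y) → (∀ x, ∑ y, P x y = 1) →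
    (∀ x y, w x * P x y = w y * P y x) → ∀ (f : T → (Fin D → ℤ)) (t : ℕ), 1 ≤ t →
    ∑ x, ∑ y, w x * ((Matrix.of P) ^ t) x y * ν (f y - f x)
      ≤ K * t * ∑ x, ∑ y, w x * P x y * ν (f y - f x)

theorem pow_nonneg' {T : Type} [Fintype T] [DecidableEq T] (P : T → T → ℝ)
    (hP : ∀ x y, 0 ≤ P x y) (t : ℕ) : ∀ x y, 0 ≤ ((Matrix.of P) ^ t) x y := by
  induction t with
  | zero => intro x y; rw [pow_zero, Matrix.one_apply]; split_ifs <;> norm_num
  | succ t ih =>
    intro x y
    rw [pow_succ, Matrix.mul_apply]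
    exact Finset.sum_nonneg fun z _ => mul_nonneg (ih _ _) (hP _ _)

theorem box_lift (ν : (Fin D → ℤ) → ℝ) (hν : ∀ v, 0 ≤ ν v) (hν0 : ν 0 = 0) (K : ℝ) (hK : 0 ≤ K)
    (hMT : MTineq D ν K)
    (w : S → ℝ) (q : S → M → S → ℝ) (g : S → M → S → (Fin D → ℤ)) (inv : M → M)
    (hw : ∀ x, 0 ≤ w x) (hw1 : ∑ x, w x = 1) (hq : ∀ x m y, 0 ≤ q x m y)
    (hs : ∀ x, ∑ m, ∑ y, q x m y = 1)
    (hinv : Function.Involutive inv) (hrev : ∀ x m y, w x * q x m y = w y * q y (inv m) x)
    (hg : ∀ x m y, g y (inv m) x = - g x m y) (t : ℕ) (ht : 1 ≤ t) :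
    ∑ x, w x * EQ q g t ν x 0 ≤ K * t * ∑ x, ∑ m, ∑ y, w x * q x m y * ν (g x m y) := by
  -- bound on the increments
  obtain ⟨R, hR⟩ : ∃ R : ℕ, ∀ x m y i, |g x m y i| ≤ R := by
    refine ⟨∑ x, ∑ m, ∑ y, ∑ i, (g x m y i).natAbs, fun x m y i => ?_⟩
    rw [Int.abs_eq_natAbs]
    have h1 : (g x m y i).natAbs ≤ ∑ x, ∑ m, ∑ y, ∑ i, (g x m y i).natAbs := by
      calc (g x m y i).natAbs ≤ ∑ i, (g x m y i).natAbs :=
            Finset.single_le_sum (f := fun i => (g x m y i).natAbs) (fun _ _ => Nat.zero_le _)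
              (mem_univ i)
        _ ≤ ∑ y, ∑ i, (g x m y i).natAbs :=
            Finset.single_le_sum (f := fun y => ∑ i, (g x m y i).natAbs)
              (fun _ _ => Nat.zero_le _) (mem_univ y)
        _ ≤ ∑ m, ∑ y, ∑ i, (g x m y i).natAbs :=
            Finset.single_le_sum (f := fun m => ∑ y, ∑ i, (g x m y i).natAbs)
              (fun _ _ => Nat.zero_le _) (mem_univ m)
        _ ≤ _ := Finset.single_le_sum (f := fun x => ∑ m, ∑ y, ∑ i, (g x m y i).natAbs)
              (fun _ _ => Nat.zero_le _) (mem_univ x)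
    exact_mod_cast h1
  set E := ∑ x, w x * EQ q g t ν x 0 with hE
  set G := ∑ x, ∑ m, ∑ y, w x * q x m y * ν (g x m y) with hG
  have hE0 : 0 ≤ E := Finset.sum_nonneg fun x _ => mul_nonneg (hw x) (EQ_nonneg q g hq ν hν t x 0)
  -- for every `l`
  have key : ∀ l : ℕ, 1 ≤ l → ((l : ℝ) / ((2 * (t * R) + l : ℕ) : ℝ)) ^ D * E ≤ K * t * G := by
    intro l hl
    obtain ⟨L, hL⟩ : ∃ L, L = 2 * (t * R) + l := ⟨_, rfl⟩
    rw [← hL]
    have hLpos : (0 : ℝ) < (L : ℝ) := by
      have : 0 < L := by omega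
      exact_mod_cast this
    obtain ⟨c, hc⟩ : ∃ c : ℝ, c = 1 / (L : ℝ) ^ D := ⟨_, rfl⟩
    have hc0 : 0 < c := by rw [hc]; positivity
    have hcardL : (Fintype.card (Fin D → Fin L) : ℝ) = (L : ℝ) ^ D := by
      rw [Fintype.card_fun, Fintype.card_fin, Fintype.card_fin]; push_cast; rfl
    have h := hMT (S × (Fin D → Fin L)) (fun a => w a.1 * c) (bP q g L)
      (fun a => mul_nonneg (hw _) hc0.le)
      (by
        rw [Fintype.sum_prod_type]
        simp only [Finset.sum_const, Finset.card_univ, nsmul_eq_mul]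
        rw [← Finset.mul_sum, ← Finset.sum_mul, hw1, hcardL, hc]
        field_simp)
      (bP_nonneg q g hq L) (bP_sum q g hs L)
      (fun a b => bP_rev w q g inv hinv hrev hg L c a b) (fun a => bc a.2) t ht
    -- right side
    have hright : ∑ a : S × (Fin D → Fin L), ∑ b : S × (Fin D → Fin L),
        w a.1 * c * bP q g L a b * ν (bc b.2 - bc a.2) ≤ G := by
      have e1 : ∀ a : S × (Fin D → Fin L), ∑ b : S × (Fin D → Fin L),
          w a.1 * c * bP q g L a b * ν (bc b.2 - bc a.2)
          ≤ c * ∑ m, ∑ y, w a.1 * q a.1 m y * ν (g a.1 m y) := by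
        intro a
        have e2 : ∑ b : S × (Fin D → Fin L), w a.1 * c * bP q g L a b * ν (bc b.2 - bc a.2)
            = w a.1 * c * ∑ b : S × (Fin D → Fin L), bP q g L a b * ν (bc b.2 - bc a.2) := by
          rw [Finset.mul_sum]
          refine Finset.sum_congr rfl fun b _ => by ring
        rw [e2, bP_apply q g L a (fun b => ν (bc b.2 - bc a.2))]
        simp only [sub_self, hν0, mul_zero, add_zero]
        have e3 : (∑ m, ∑ y, ∑ v' : Fin D → Fin L, if bc a.2 + g a.1 m y = bc v' then
            q a.1 m y * ν (bc v' - bc a.2) else 0) ≤ ∑ m, ∑ y, q a.1 m y * ν (g a.1 m y) := by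
          refine Finset.sum_le_sum fun m _ => Finset.sum_le_sum fun y _ => ?_
          by_cases hex : ∃ v' : Fin D → Fin L, bc a.2 + g a.1 m y = bc v'
          · obtain ⟨v', hv'⟩ := hex
            have : ∀ v'' : Fin D → Fin L, (if bc a.2 + g a.1 m y = bc v'' then
                q a.1 m y * ν (bc v'' - bc a.2) else 0)
                = if v'' = v' then q a.1 m y * ν (g a.1 m y) else 0 := by
              intro v''
              by_cases hv : v'' = v'
              · subst hv
                rw [if_pos hv', if_pos rfl, ← hv', add_sub_cancel_left]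
              · rw [if_neg hv, if_neg]
                intro h'
                exact hv (bc_inj (h'.symm.trans hv'))
            simp only [this]
            rw [Finset.sum_ite_eq']
            simp
          · push Not at hex
            have : ∀ v'' : Fin D → Fin L, (if bc a.2 + g a.1 m y = bc v'' then
                q a.1 m y * ν (bc v'' - bc a.2) else 0) = 0 := fun v'' => if_neg (hex v'')
            simp only [this, Finset.sum_const_zero]
            exact mul_nonneg (hq _ _ _) (hν _)
        calc w a.1 * c * _ ≤ w a.1 * c * ∑ m, ∑ y, q a.1 m y * ν (g a.1 m y) :=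
              mul_le_mul_of_nonneg_left e3 (mul_nonneg (hw _) hc0.le)
          _ = c * ∑ m, ∑ y, w a.1 * q a.1 m y * ν (g a.1 m y) := by
              simp only [Finset.mul_sum]
              refine Finset.sum_congr rfl fun m _ => Finset.sum_congr rfl fun y _ => by ring
      calc ∑ a : S × (Fin D → Fin L), ∑ b : S × (Fin D → Fin L),
            w a.1 * c * bP q g L a b * ν (bc b.2 - bc a.2)
          ≤ ∑ a : S × (Fin D → Fin L), c * ∑ m, ∑ y, w a.1 * q a.1 m y * ν (g a.1 m y) :=
            Finset.sum_le_sum fun a _ => e1 a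
        _ = G := by
            rw [Fintype.sum_prod_type]
            simp only [Finset.sum_const, Finset.card_univ, nsmul_eq_mul]
            rw [← Finset.mul_sum, ← Finset.mul_sum, hcardL, hc, hG]
            field_simp
    -- left side
    have hleft : ((l : ℝ) / (L : ℝ)) ^ D * E ≤ ∑ a : S × (Fin D → Fin L),
        ∑ b : S × (Fin D → Fin L), w a.1 * c * ((Matrix.of (bP q g L)) ^ t) a b
          * ν (bc b.2 - bc a.2) := by
      have hPn := pow_nonneg' (bP q g L) (bP_nonneg q g hq L) t
      set Φ : S → (Fin D → Fin L) → ℝ := fun x v => ∑ b : S × (Fin D → Fin L),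
        w x * c * ((Matrix.of (bP q g L)) ^ t) (x, v) b * ν (bc b.2 - bc v) with hΦ
      have hΦ0 : ∀ x v, 0 ≤ Φ x v := fun x v => Finset.sum_nonneg fun b _ =>
        mul_nonneg (mul_nonneg (mul_nonneg (hw x) hc0.le) (hPn _ _)) (hν _)
      have e0 : ∑ a : S × (Fin D → Fin L),
          ∑ b : S × (Fin D → Fin L), w a.1 * c * ((Matrix.of (bP q g L)) ^ t) a b
          * ν (bc b.2 - bc a.2) = ∑ x, ∑ v, Φ x v := by
        rw [Fintype.sum_prod_type]
      rw [e0]
      -- the interior
      have hlt : ∀ k : Fin l, (k : ℕ) + t * R < L := by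
        intro k
        have := k.2
        omega
      set ι : (Fin D → Fin l) → (Fin D → Fin L) := fun u i => ⟨(u i : ℕ) + t * R, hlt (u i)⟩
        with hι
      have hιinj : Function.Injective ι := by
        intro u u' h
        funext i
        have := congrFun h i
        simp only [hι, Fin.mk.injEq] at this
        exact Fin.ext (by omega)
      have e1 : ∀ x, ∑ u : Fin D → Fin l, Φ x (ι u) ≤ ∑ v, Φ x v := by
        intro x
        rw [← Finset.sum_image (f := fun v => Φ x v) (s := univ) (g := ι)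
          (fun _ _ _ _ h => hιinj h)]
        exact Finset.sum_le_sum_of_subset_of_nonneg (Finset.subset_univ _)
          (fun v _ _ => hΦ0 x v)
      have e2 : ∀ x u, Φ x (ι u) = w x * c * EQ q g t ν x 0 := by
        intro x u
        have hh := bP_pow q g R hR L (fun z => ν (z - bc (ι u))) t x (ι u) (by
          intro i
          have := (u i).2
          simp only [hι]
          constructor <;> omega)
        rw [EQ_shift, sub_self] at hh
        rw [hΦ]
        simp only
        rw [← hh, Finset.mul_sum]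
        refine Finset.sum_congr rfl fun b _ => by ring
      calc ((l : ℝ) / (L : ℝ)) ^ D * E = ∑ x, ∑ u : Fin D → Fin l, Φ x (ι u) := by
            simp only [e2, Finset.sum_const, Finset.card_univ, nsmul_eq_mul, Fintype.card_fun,
              Fintype.card_fin]
            rw [hE, Finset.mul_sum]
            refine Finset.sum_congr rfl fun x _ => ?_
            rw [hc]
            push_cast
            rw [div_pow]
            field_simp
        _ ≤ ∑ x, ∑ v, Φ x v := Finset.sum_le_sum fun x _ => e1 x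
    have hKt : 0 ≤ K * t := by positivity
    calc ((l : ℝ) / (L : ℝ)) ^ D * E ≤ _ := hleft
      _ ≤ K * t * _ := h
      _ ≤ K * t * G := mul_le_mul_of_nonneg_left hright hKt
  -- the limit
  have hlim : Filter.Tendsto (fun l : ℕ => ((l : ℝ) / ((2 * (t * R) + l : ℕ) : ℝ)) ^ D * E)
      Filter.atTop (nhds (1 ^ D * E)) := by
    apply Filter.Tendsto.mul_const
    apply Filter.Tendsto.pow
    have h1 : Filter.Tendsto (fun l : ℕ => (l : ℝ) / ((l : ℝ) + (2 * (t * R) : ℕ))) Filter.atTop
        (nhds 1) := tendsto_natCast_div_add_atTop _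
    refine h1.congr fun l => ?_
    push_cast
    rw [add_comm]
  have := le_of_tendsto hlim (Filter.eventually_atTop.2 ⟨1, fun l hl => key l hl⟩)
  simpa using this

end P125F
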