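import Vale.Agent.P125F.Defs
import Vale.Agent.P125F.Box3

/-! # LAB: Markov type for labelled reversible sub-chains -/

namespace P125F

open Finset P125S
open scoped Classical

section lab3

variable {V E : Type} [Fintype V] [Fintype E]

theorem lab3_sum_cons {S : Type} [Fintype S] {β : Type} [AddCommMonoid β] (m : ℕ)
    (H : (Fin (m + 1) → S) → β) :
    ∑ ω : Fin (m + 1) → S, H ω = ∑ x : S, ∑ ω : Fin m → S, H (Fin.cons x ω) := by
  rw [← Fintype.sum_prod_type' (f := fun (x : S) (ω : Fin m → S) => H (Fin.cons x ω))]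
  exact (Fintype.sum_equiv (Fin.consEquiv (fun _ : Fin (m + 1) => S)) _ _ (fun _ => rfl)).symm

/-- the transition weights, with a hold move -/
noncomputable def labq (L : LChain V E) (x : V) (e : Option E) (y : V) : ℝ :=
  match e with
  | some e => L.J x y e / L.w x
  | none => if x = y then 1 - ∑ z, ∑ e, L.J x z e / L.w x else 0

/-- increments with a hold move -/
def labg {m : ℕ} (g : V → V → E → Fin m → ℤ) (x : V) (e : Option E) (y : V) : Fin m → ℤ :=
  match e with
  | some e => g x y e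
  | none => 0

theorem labJ_zero (L : LChain V E) {x : V} (h : L.w x = 0) (y : V) (e : E) : L.J x y e = 0 := by
  have h1 := L.sub x
  rw [h] at h1
  have h2 : L.J x y e ≤ ∑ y, ∑ e, L.J x y e := by
    calc L.J x y e ≤ ∑ e, L.J x y e :=
          Finset.single_le_sum (f := fun e => L.J x y e) (fun e _ => L.J_nonneg _ _ _) (mem_univ e)
      _ ≤ _ := Finset.single_le_sum (f := fun y => ∑ e, L.J x y e)
          (fun y _ => Finset.sum_nonneg fun e _ => L.J_nonneg _ _ _) (mem_univ y)
  exact le_antisymm (h2.trans h1) (L.J_nonneg _ _ _)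

theorem lab_row (L : LChain V E) (x : V) : ∑ z, ∑ e, L.J x z e / L.w x ≤ 1 := by
  simp only [← Finset.sum_div]
  by_cases h : L.w x = 0
  · rw [h, div_zero]; norm_num
  · have hp : 0 < L.w x := lt_of_le_of_ne (L.w_nonneg x) (Ne.symm h)
    rw [div_le_one hp]
    exact L.sub x

theorem labq_nonneg (L : LChain V E) (x : V) (e : Option E) (y : V) : 0 ≤ labq L x e y := by
  cases e with
  | some e => exact div_nonneg (L.J_nonneg _ _ _) (L.w_nonneg _)
  | none =>
    show 0 ≤ if x = y then 1 - ∑ z, ∑ e, L.J x z e / L.w x else 0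
    split_ifs
    · have := lab_row L x
      linarith
    · exact le_rfl

theorem labq_sum (L : LChain V E) (x : V) : ∑ e, ∑ y, labq L x e y = 1 := by
  rw [Fintype.sum_option]
  have h1 : ∑ y, labq L x none y = 1 - ∑ z, ∑ e, L.J x z e / L.w x := by
    show ∑ y, (if x = y then 1 - ∑ z, ∑ e, L.J x z e / L.w x else 0) = _
    rw [Finset.sum_ite_eq]
    simp
  have h2 : ∑ e, ∑ y, labq L x (some e) y = ∑ z, ∑ e, L.J x z e / L.w x := by
    rw [Finset.sum_comm]
    rfl
  rw [h1, h2]
  ring

theorem labq_rev (L : LChain V E) (x : V) (e : Option E) (y : V) :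
    L.w x * labq L x e y = L.w y * labq L y (e.map L.inv) x := by
  cases e with
  | some e =>
    show L.w x * (L.J x y e / L.w x) = L.w y * (L.J y x (L.inv e) / L.w y)
    rw [← L.symm x y e]
    by_cases hx : L.w x = 0
    · rw [labJ_zero L hx y e]; simp
    · by_cases hy : L.w y = 0
      · rw [L.symm x y e, labJ_zero L hy x _]; simp
      · field_simp
  | none =>
    show L.w x * (if x = y then 1 - ∑ z, ∑ e, L.J x z e / L.w x else 0)
      = L.w y * (if y = x then 1 - ∑ z, ∑ e, L.J y z e / L.w y else 0)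
    by_cases h : x = y
    · subst h; rfl
    · rw [if_neg h, if_neg (Ne.symm h)]; ring

/-- path sums from a given state -/
noncomputable def labF (L : LChain V E) {m : ℕ} (g : V → V → E → Fin m → ℤ)
    (φ : (Fin m → ℤ) → ℝ) (n : ℕ) (x : V) (v : Fin m → ℤ) : ℝ :=
  ∑ ω : Fin (n + 1) → V, ∑ η : Fin n → E, if ω 0 = x then
    (∏ i : Fin n, (L.J (ω i.castSucc) (ω i.succ) (η i) / L.w (ω i.castSucc)))
      * φ (v + ∑ i : Fin n, g (ω i.castSucc) (ω i.succ) (η i)) else 0

theorem labF_succ (L : LChain V E) {m : ℕ} (g : V → V → E → Fin m → ℤ)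
    (φ : (Fin m → ℤ) → ℝ) (n : ℕ) (x : V) (v : Fin m → ℤ) :
    labF L g φ (n + 1) x v
      = ∑ y, ∑ e, L.J x y e / L.w x * labF L g φ n y (v + g x y e) := by
  unfold labF
  rw [lab3_sum_cons]
  have h1 : ∀ x0 : V, (∑ ω : Fin (n + 1) → V, ∑ η : Fin (n + 1) → E,
      if (Fin.cons x0 ω : Fin (n + 2) → V) 0 = x then
        (∏ i : Fin (n + 1), (L.J ((Fin.cons x0 ω : Fin (n + 2) → V) i.castSucc)
          ((Fin.cons x0 ω : Fin (n + 2) → V) i.succ) (η i)
          / L.w ((Fin.cons x0 ω : Fin (n + 2) → V) i.castSucc)))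
        * φ (v + ∑ i : Fin (n + 1), g ((Fin.cons x0 ω : Fin (n + 2) → V) i.castSucc)
          ((Fin.cons x0 ω : Fin (n + 2) → V) i.succ) (η i)) else 0)
      = if x0 = x then ∑ ω : Fin (n + 1) → V, ∑ e : E, ∑ η : Fin n → E,
        L.J x (ω 0) e / L.w x * ((∏ i : Fin n, (L.J (ω i.castSucc) (ω i.succ) (η i)
          / L.w (ω i.castSucc))) * φ (v + g x (ω 0) e + ∑ i : Fin n, g (ω i.castSucc) (ω i.succ)
            (η i))) else 0 := by
    intro x0
    by_cases hx : x0 = x
    · subst hx
      rw [if_pos rfl]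
      refine Finset.sum_congr rfl fun ω _ => ?_
      rw [lab3_sum_cons]
      refine Finset.sum_congr rfl fun e _ => Finset.sum_congr rfl fun η _ => ?_
      rw [Fin.cons_zero, if_pos rfl, Fin.prod_univ_succ, Fin.sum_univ_succ]
      have e1 : ∀ i : Fin n, (Fin.cons x0 ω : Fin (n + 2) → V) i.succ.castSucc
          = ω i.castSucc := fun i => rfl
      have e2 : ∀ i : Fin n, (Fin.cons x0 ω : Fin (n + 2) → V) i.succ.succ = ω i.succ :=
        fun i => rfl
      have e3 : (Fin.cons x0 ω : Fin (n + 2) → V) (Fin.castSucc 0) = x0 := rfl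
      have e4 : (Fin.cons x0 ω : Fin (n + 2) → V) (Fin.succ 0) = ω 0 := rfl
      simp only [e1, e2, e3, e4, Fin.cons_zero, Fin.cons_succ]
      rw [mul_assoc, add_assoc]
    · rw [if_neg hx]
      refine Finset.sum_eq_zero fun ω _ => Finset.sum_eq_zero fun η _ => ?_
      rw [Fin.cons_zero, if_neg hx]
  rw [Finset.sum_congr rfl (fun x0 _ => h1 x0), Finset.sum_ite_eq' univ x]
  simp only [mem_univ, if_true]
  -- right side
  have h2 : ∀ ω : Fin (n + 1) → V, (∑ e : E, ∑ η : Fin n → E,
        L.J x (ω 0) e / L.w x * ((∏ i : Fin n, (L.J (ω i.castSucc) (ω i.succ) (η i)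
          / L.w (ω i.castSucc))) * φ (v + g x (ω 0) e + ∑ i : Fin n, g (ω i.castSucc) (ω i.succ)
            (η i))))
      = ∑ y, ∑ e, ∑ η : Fin n → E, if ω 0 = y then L.J x y e / L.w x *
        ((∏ i : Fin n, (L.J (ω i.castSucc) (ω i.succ) (η i)
          / L.w (ω i.castSucc))) * φ (v + g x y e + ∑ i : Fin n, g (ω i.castSucc) (ω i.succ)
            (η i))) else 0 := by
    intro ω
    rw [Finset.sum_eq_single (ω 0)]
    · simp
    · intro y _ hy
      refine Finset.sum_eq_zero fun e _ => Finset.sum_eq_zero fun η _ => ?_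
      rw [if_neg (Ne.symm hy)]
    · intro h; exact absurd (mem_univ _) h
  rw [Finset.sum_congr rfl (fun ω _ => h2 ω), Finset.sum_comm]
  refine Finset.sum_congr rfl fun y _ => ?_
  rw [Finset.sum_comm]
  refine Finset.sum_congr rfl fun e _ => ?_
  rw [Finset.mul_sum]
  refine Finset.sum_congr rfl fun ω _ => ?_
  rw [Finset.mul_sum]
  refine Finset.sum_congr rfl fun η _ => ?_
  split_ifs <;> simp

theorem labF_le (L : LChain V E) {m : ℕ} (g : V → V → E → Fin m → ℤ)
    (φ : (Fin m → ℤ) → ℝ) (hφ : ∀ v, 0 ≤ φ v) (n : ℕ) : ∀ (x : V) (v : Fin m → ℤ),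
    labF L g φ n x v ≤ EQ (labq L) (labg g) n φ x v := by
  induction n with
  | zero =>
    intro x v
    unfold labF
    rw [lab3_sum_cons]
    simp only [Fintype.sum_unique, Fin.cons_zero, univ_eq_empty, prod_empty, sum_empty, add_zero,
      one_mul]
    rw [Finset.sum_ite_eq' univ x]
    simp [EQ]
  | succ n ih =>
    intro x v
    rw [labF_succ]
    show _ ≤ ∑ e, ∑ y, labq L x e y * EQ (labq L) (labg g) n φ y (v + labg g x e y)
    rw [Fintype.sum_option, Finset.sum_comm]
    have h0 : 0 ≤ ∑ y, labq L x none y * EQ (labq L) (labg g) n φ y (v + labg g x none y) :=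
      Finset.sum_nonneg fun y _ => mul_nonneg (labq_nonneg L _ _ _)
        (EQ_nonneg _ _ (labq_nonneg L) φ hφ n _ _)
    have h1 : ∑ e, ∑ y, L.J x y e / L.w x * labF L g φ n y (v + g x y e)
        ≤ ∑ e, ∑ y, labq L x (some e) y * EQ (labq L) (labg g) n φ y
          (v + labg g x (some e) y) := by
      refine Finset.sum_le_sum fun e _ => Finset.sum_le_sum fun y _ => ?_
      exact mul_le_mul_of_nonneg_left (ih y _) (div_nonneg (L.J_nonneg _ _ _) (L.w_nonneg _))
    linarith

end lab3

/-- two-state chain -/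
noncomputable def twoChain : Chain Bool where
  w := fun _ => 1 / 2
  P := fun x y => if x = y then 0 else 1
  w_nonneg := fun _ => by norm_num
  w_sum := by norm_num
  P_nonneg := fun x y => by split_ifs <;> norm_num
  P_sum := fun x => by cases x <;> simp
  rev := fun x y => by
    by_cases h : x = y
    · subst h; rfl
    · rw [if_neg h, if_neg (Ne.symm h)]

theorem lab_ineq_helper3 {X : Type} [NormedAddCommGroup X] [NormedSpace ℝ X] {p K : ℝ} (hp : 0 < p)
    (hX : MarkovType X p K) {V E : Type} [Fintype V] [Fintype E] [DecidableEq V] [DecidableEq E]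
    (L : LChain V E) {m : ℕ} (g : V → V → E → Fin m → ℤ)
    (hg : ∀ x y e j, g y x (L.inv e) j = -g x y e j) (y : Fin m → X) (n : ℕ) (hn : 1 ≤ n) :
    ∑ ω : Fin (n + 1) → V, ∑ η : Fin n → E, L.pw ω η *
        ‖∑ j, ((∑ i : Fin n, g (ω i.castSucc) (ω i.succ) (η i) j : ℤ) : ℝ) • y j‖ ^ p
      ≤ K ^ p * n * ∑ x, ∑ x', ∑ e, L.J x x' e * ‖∑ j, (g x x' e j : ℝ) • y j‖ ^ p := by
  obtain ⟨ν, hνdef⟩ : ∃ ν : (Fin m → ℤ) → ℝ, ν = fun v => ‖∑ j, (v j : ℝ) • y j‖ ^ p := ⟨_, rfl⟩
  have hν : ∀ v, 0 ≤ ν v := fun v => by rw [hνdef]; positivity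
  have hν0 : ν 0 = 0 := by
    rw [hνdef]; simp [Real.zero_rpow hp.ne']
  have hνsub : ∀ a b : Fin m → ℤ,
      ‖(∑ j, (a j : ℝ) • y j) - ∑ j, (b j : ℝ) • y j‖ ^ p = ν (a - b) := by
    intro a b
    rw [hνdef, ← Finset.sum_sub_distrib]
    simp only [← sub_smul, Pi.sub_apply, Int.cast_sub]
  have hL : ∀ (ω : Fin (n + 1) → V) (η : Fin n → E),
      ‖∑ j, ((∑ i : Fin n, g (ω i.castSucc) (ω i.succ) (η i) j : ℤ) : ℝ) • y j‖ ^ p
        = ν (∑ i : Fin n, g (ω i.castSucc) (ω i.succ) (η i)) := by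
    intro ω η
    rw [hνdef]
    simp only [Finset.sum_apply]
  have hR : ∀ x x' e, ‖∑ j, (g x x' e j : ℝ) • y j‖ ^ p = ν (g x x' e) := by
    intro x x' e; rw [hνdef]
  simp only [hL, hR]
  by_cases hK : 0 ≤ K ^ p
  · have hMT : MTineq m ν (K ^ p) := by
      intro T _ _ w P h1 h2 h3 h4 h5 f t ht
      have := hX T ⟨w, P, h1, h2, h3, h4, h5⟩ (fun x => ∑ j, (f x j : ℝ) • y j) t ht
      simpa only [hνsub] using this
    have hbox := box_lift ν hν hν0 (K ^ p) hK hMT L.w (labq L) (labg g) (Option.map L.inv)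
      L.w_nonneg L.w_sum (labq_nonneg L) (labq_sum L)
      (fun e => by cases e <;> simp [L.inv_inv]) (labq_rev L)
      (fun x e y => by
        cases e with
        | some e => funext j; exact hg x y e j
        | none => simp [labg]) n hn
    have hleft : ∑ ω : Fin (n + 1) → V, ∑ η : Fin n → E, L.pw ω η *
        ν (∑ i : Fin n, g (ω i.castSucc) (ω i.succ) (η i))
        ≤ ∑ x, L.w x * EQ (labq L) (labg g) n ν x 0 := by
      have e1 : ∑ ω : Fin (n + 1) → V, ∑ η : Fin n → E, L.pw ω η *
          ν (∑ i : Fin n, g (ω i.castSucc) (ω i.succ) (η i))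
          = ∑ x, L.w x * labF L g ν n x 0 := by
        unfold labF
        simp only [Finset.mul_sum]
        symm
        rw [Finset.sum_comm]
        refine Finset.sum_congr rfl fun ω _ => ?_
        rw [Finset.sum_comm]
        refine Finset.sum_congr rfl fun η _ => ?_
        rw [Finset.sum_eq_single (ω 0)]
        · rw [if_pos rfl, zero_add]
          unfold LChain.pw
          ring
        · intro x _ hx
          rw [if_neg (Ne.symm hx), mul_zero]
        · intro h; exact absurd (mem_univ _) h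
      rw [e1]
      exact Finset.sum_le_sum fun x _ => mul_le_mul_of_nonneg_left
        (labF_le L g ν hν n x 0) (L.w_nonneg x)
    have hright : ∑ x, ∑ e, ∑ x', L.w x * labq L x e x' * ν (labg g x e x')
        = ∑ x, ∑ x', ∑ e, L.J x x' e * ν (g x x' e) := by
      refine Finset.sum_congr rfl fun x _ => ?_
      rw [Fintype.sum_option]
      have e0 : ∑ x', L.w x * labq L x none x' * ν (labg g x none x') = 0 := by
        refine Finset.sum_eq_zero fun x' _ => ?_
        show L.w x * labq L x none x' * ν 0 = 0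
        rw [hν0, mul_zero]
      rw [e0, zero_add, Finset.sum_comm]
      refine Finset.sum_congr rfl fun x' _ => Finset.sum_congr rfl fun e _ => ?_
      show L.w x * (L.J x x' e / L.w x) * ν (g x x' e) = _
      by_cases hx : L.w x = 0
      · rw [labJ_zero L hx x' e]; simp
      · field_simp
    rw [hright] at hbox
    exact hleft.trans hbox
  · push Not at hK
    have hz : ∀ v, ν v = 0 := by
      intro v
      have h := hX Bool twoChain (fun b => if b then (∑ j, (v j : ℝ) • y j) else 0) 1 le_rfl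
      have hv : ‖∑ j, (v j : ℝ) • y j‖ ^ p = ν v := by rw [hνdef]
      have h0 : (0 : ℝ) ^ p = 0 := Real.zero_rpow hp.ne'
      simp only [twoChain, pow_one, Fintype.sum_bool, Matrix.of_apply] at h
      simp [h0, hv, norm_neg] at h
      have := hν v
      nlinarith
    simp only [hz, mul_zero, Finset.sum_const_zero]
    exact le_rfl

end P125F
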