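import Vale.Agent.P125F.Edge

/-! # [PW] weight of the non-backtracking full paths -/

namespace P125F
open Finset P125S

section pw23

variable {V E : Type} [Fintype V] [Fintype E]

/-- one-step kernel -/
noncomputable def kn23 (L : LChain V E) (x y : V) (e : E) : ℝ := L.J x y e / L.w x

theorem kn23_nonneg (L : LChain V E) (x y : V) (e : E) : 0 ≤ kn23 L x y e :=
  div_nonneg (L.J_nonneg x y e) (L.w_nonneg x)

theorem w_mul_kn23 (L : LChain V E) (x y : V) (e : E) : L.w x * kn23 L x y e = L.J x y e := by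
  unfold kn23
  by_cases h : L.w x = 0
  · have h1 : L.J x y e ≤ 0 := by
      have h2 : L.J x y e ≤ ∑ e', L.J x y e' :=
        Finset.single_le_sum (fun e' _ => L.J_nonneg x y e') (Finset.mem_univ e)
      have h3 : ∑ e', L.J x y e' ≤ ∑ y', ∑ e', L.J x y' e' :=
        Finset.single_le_sum (f := fun y' => ∑ e', L.J x y' e')
          (fun y' _ => Finset.sum_nonneg fun e' _ => L.J_nonneg x y' e') (Finset.mem_univ y)
      have h4 := L.sub x
      linarith
    have h2 := L.J_nonneg x y e
    have h5 : L.J x y e = 0 := le_antisymm h1 h2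
    rw [h5, h]; simp
  · field_simp

theorem pw23_snoc (L : LChain V E) {n : ℕ} (ω : Fin (n + 1) → V) (η : Fin n → E) (y : V) (e : E) :
    L.pw (n := n + 1) (Fin.snoc (α := fun _ => V) ω y) (Fin.snoc (α := fun _ => E) η e)
      = L.pw ω η * kn23 L (ω (Fin.last n)) y e := by
  unfold LChain.pw kn23
  rw [Fin.prod_univ_castSucc, ← mul_assoc]
  have h0 : (Fin.snoc (α := fun _ => V) ω y : Fin (n + 1 + 1) → V) 0 = ω 0 := by
    have := Fin.snoc_castSucc (α := fun _ => V) y ω 0
    simpa using this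
  have h1 : ∀ i : Fin n, (Fin.snoc (α := fun _ => V) ω y : Fin (n + 1 + 1) → V)
      (i.castSucc.castSucc) = ω i.castSucc := fun i => Fin.snoc_castSucc (α := fun _ => V) y ω _
  have h2 : ∀ i : Fin n, (Fin.snoc (α := fun _ => V) ω y : Fin (n + 1 + 1) → V)
      (i.castSucc.succ) = ω i.succ := by
    intro i
    rw [← Fin.castSucc_succ]
    exact Fin.snoc_castSucc (α := fun _ => V) y ω _
  have h3 : (Fin.snoc (α := fun _ => V) ω y : Fin (n + 1 + 1) → V)
      ((Fin.last n).castSucc) = ω (Fin.last n) := Fin.snoc_castSucc (α := fun _ => V) y ω _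
  have h4 : (Fin.snoc (α := fun _ => V) ω y : Fin (n + 1 + 1) → V)
      ((Fin.last n).succ) = y := by
    rw [Fin.succ_last]
    exact Fin.snoc_last (α := fun _ => V) y ω
  have h5 : ∀ i : Fin n, (Fin.snoc (α := fun _ => E) η e : Fin (n + 1) → E)
      (i.castSucc) = η i := fun i => Fin.snoc_castSucc (α := fun _ => E) e η _
  have h6 : (Fin.snoc (α := fun _ => E) η e : Fin (n + 1) → E) (Fin.last n) = e :=
    Fin.snoc_last (α := fun _ => E) e η
  rw [h0, h3, h4, h6]
  congr 1
  congr 1
  refine Finset.prod_congr rfl fun i _ => ?_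
  rw [h1, h2, h5]

theorem sum23_snoc {A : Type} [Fintype A] {n : ℕ} (F : (Fin (n + 1) → A) → ℝ) :
    ∑ ω : Fin (n + 1) → A, F ω = ∑ ω : Fin n → A, ∑ y : A, F (Fin.snoc (α := fun _ => A) ω y) := by
  rw [← (Fin.snocEquiv (fun _ : Fin (n + 1) => A)).sum_comp, Fintype.sum_prod_type,
    Finset.sum_comm]
  rfl

theorem pw23_nonneg (L : LChain V E) {n : ℕ} (ω : Fin (n + 1) → V) (η : Fin n → E) :
    0 ≤ L.pw ω η := by
  unfold LChain.pw
  exact mul_nonneg (L.w_nonneg _) (Finset.prod_nonneg fun i _ =>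
    div_nonneg (L.J_nonneg _ _ _) (L.w_nonneg _))

/-- sum over paths with one more step -/
theorem sum23_step {n : ℕ} (F : (Fin (n + 1 + 1) → V) → (Fin (n + 1) → E) → ℝ) :
    ∑ ω, ∑ η, F ω η = ∑ ω : Fin (n + 1) → V, ∑ η : Fin n → E, ∑ y : V, ∑ e : E,
      F (Fin.snoc (α := fun _ => V) ω y) (Fin.snoc (α := fun _ => E) η e) := by
  rw [sum23_snoc]
  refine Finset.sum_congr rfl fun ω _ => ?_
  rw [Finset.sum_comm]
  rw [sum23_snoc]
  refine Finset.sum_congr rfl fun η _ => ?_
  rw [Finset.sum_comm]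

/-- the law at the end is dominated by `w` -/
theorem end23 (L : LChain V E) : ∀ (n : ℕ) (φ : V → ℝ), (∀ x, 0 ≤ φ x) →
    ∑ ω : Fin (n + 1) → V, ∑ η : Fin n → E, L.pw ω η * φ (ω (Fin.last n)) ≤ ∑ x, L.w x * φ x := by
  intro n
  induction n with
  | zero =>
    intro φ hφ
    have h1 : ∑ ω : Fin (0 + 1) → V, ∑ η : Fin 0 → E, L.pw ω η * φ (ω (Fin.last 0))
        = ∑ ω : Fin (0 + 1) → V, L.w (ω 0) * φ (ω 0) := by
      refine Finset.sum_congr rfl fun ω _ => ?_
      rw [Fintype.sum_unique]
      unfold LChain.pw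
      simp
    rw [h1, sum23_snoc, Fintype.sum_unique]
    refine le_of_eq (Finset.sum_congr rfl fun y _ => ?_)
    have : (Fin.snoc (α := fun _ => V) (default : Fin 0 → V) y : Fin (0 + 1) → V) 0 = y :=
      Fin.snoc_last (α := fun _ => V) y _
    rw [this]
  | succ n ih =>
    intro φ hφ
    rw [sum23_step]
    have h1 : ∑ ω : Fin (n + 1) → V, ∑ η : Fin n → E, ∑ y : V, ∑ e : E,
          L.pw (n := n + 1) (Fin.snoc (α := fun _ => V) ω y) (Fin.snoc (α := fun _ => E) η e)
            * φ ((Fin.snoc (α := fun _ => V) ω y : Fin (n + 1 + 1) → V) (Fin.last (n + 1)))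
        = ∑ ω : Fin (n + 1) → V, ∑ η : Fin n → E, L.pw ω η *
          (fun x => ∑ y : V, ∑ e : E, kn23 L x y e * φ y) (ω (Fin.last n)) := by
      refine Finset.sum_congr rfl fun ω _ => Finset.sum_congr rfl fun η _ => ?_
      simp only [Finset.mul_sum]
      refine Finset.sum_congr rfl fun y _ => Finset.sum_congr rfl fun e _ => ?_
      rw [pw23_snoc, Fin.snoc_last (α := fun _ => V) y ω]
      ring
    rw [h1]
    refine (ih (fun x => ∑ y : V, ∑ e : E, kn23 L x y e * φ y) (fun x =>
      Finset.sum_nonneg fun y _ => Finset.sum_nonneg fun e _ =>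
        mul_nonneg (kn23_nonneg L x y e) (hφ y))).trans ?_
    have h2 : ∑ x, L.w x * (∑ y : V, ∑ e : E, kn23 L x y e * φ y)
        = ∑ y, (∑ x, ∑ e, L.J y x e) * φ y := by
      calc ∑ x, L.w x * (∑ y : V, ∑ e : E, kn23 L x y e * φ y)
          = ∑ x, ∑ y, ∑ e, L.J x y e * φ y := by
            refine Finset.sum_congr rfl fun x _ => ?_
            rw [Finset.mul_sum]
            refine Finset.sum_congr rfl fun y _ => ?_
            rw [Finset.mul_sum]
            refine Finset.sum_congr rfl fun e _ => ?_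
            rw [← w_mul_kn23 L x y e]
            ring
        _ = ∑ y, ∑ x, ∑ e, L.J x y e * φ y := Finset.sum_comm
        _ = ∑ y, (∑ x, ∑ e, L.J y x e) * φ y := by
            refine Finset.sum_congr rfl fun y _ => ?_
            rw [Finset.sum_mul]
            refine Finset.sum_congr rfl fun x _ => ?_
            have hinv : Function.Involutive L.inv := L.inv_inv
            rw [Finset.sum_mul]
            refine (Finset.sum_congr rfl fun e _ => ?_).trans
              (Equiv.sum_comp (hinv.toPerm L.inv) (fun e => L.J y x e * φ y))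
            rw [L.symm x y e]
            rfl
    show ∑ x, L.w x * (∑ y : V, ∑ e : E, kn23 L x y e * φ y) ≤ _
    rw [h2]
    refine Finset.sum_le_sum fun y _ => ?_
    exact mul_le_mul_of_nonneg_right (L.sub y) (hφ y)

end pw23

/-- non-backtracking -/
def NB23 {d n : ℕ} (η : Fin n → Mv d) : Prop :=
  ∀ i j : Fin n, (j : ℕ) = i + 1 → (η j).2.1 ≠ (η i).2.2

theorem nb23_snoc {d : ℕ} (hd : 1 ≤ d) {n : ℕ} (η : Fin n → Mv d) (h : NB23 η) :
    ∃ j₀ : Fin d, ∀ e : Mv d, e.2.1 ≠ j₀ → NB23 (Fin.snoc (α := fun _ => Mv d) η e) := by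
  rcases n with _ | n
  · refine ⟨⟨0, hd⟩, fun e _ i j hij => ?_⟩
    have h1 := i.isLt
    have h2 := j.isLt
    omega
  · refine ⟨(η (Fin.last n)).2.2, fun e he i j hij => ?_⟩
    have hi : (i : ℕ) < n + 1 := by have := j.isLt; omega
    obtain ⟨i', rfl⟩ : ∃ i' : Fin (n + 1), i = i'.castSucc := ⟨⟨i, hi⟩, rfl⟩
    rw [Fin.snoc_castSucc (α := fun _ => Mv d) e η i']
    rcases Nat.lt_or_ge (j : ℕ) (n + 1) with hj | hj
    · obtain ⟨j', rfl⟩ : ∃ j' : Fin (n + 1), j = j'.castSucc := ⟨⟨j, hj⟩, rfl⟩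
      rw [Fin.snoc_castSucc (α := fun _ => Mv d) e η j']
      exact h i' j' hij
    · have hjl : j = Fin.last (n + 1) := by
        apply Fin.ext
        have := j.isLt
        simp only [Fin.val_last]
        omega
      rw [hjl, Fin.snoc_last (α := fun _ => Mv d) e η]
      have hil : i' = Fin.last n := by
        apply Fin.ext
        simp only [Fin.val_last]
        have h3 : ((Fin.castSucc i' : Fin (n + 1 + 1)) : ℕ) = (i' : ℕ) := rfl
        rw [h3] at hij
        have := j.isLt
        omega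
      rw [hil]
      exact he

open Classical in
/-- the mass of the non-backtracking paths -/
noncomputable def mass23 {V : Type} [Fintype V] {d : ℕ} (L : LChain V (Mv d)) (n : ℕ) : ℝ :=
  ∑ ω : Fin (n + 1) → V, ∑ η : Fin n → Mv d, (if NB23 η then L.pw ω η else 0)

theorem pw_nb_aux {V : Type} [Fintype V] (d : ℕ) (hd : 1 ≤ d) {ε : ℝ}
    (L : LChain V (Mv d)) (h1 : 1 - ε ≤ ∑ x, ∑ y, ∑ e, L.J x y e)
    (h2 : ∀ x (j : Fin d), ∑ y, ∑ e : Mv d, (if e.2.1 = j then L.J x y e else 0) ≤ L.w x / d)
    (n : ℕ) :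
    1 - n * ε - n / d ≤ mass23 L n := by
  classical
  have hdpos : (0 : ℝ) < d := by exact_mod_cast hd
  induction n with
  | zero =>
    have h0 : mass23 L 0 = ∑ ω : Fin (0 + 1) → V, L.w (ω 0) := by
      refine Finset.sum_congr rfl fun ω _ => ?_
      have hnb : NB23 (default : Fin 0 → Mv d) := fun i => i.elim0
      rw [Fintype.sum_unique, if_pos hnb]
      unfold LChain.pw
      simp
    rw [h0, sum23_snoc, Fintype.sum_unique]
    have h3 : ∀ y : V, (Fin.snoc (α := fun _ => V) (default : Fin 0 → V) y : Fin (0 + 1) → V) 0 = y :=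
      fun y => Fin.snoc_last (α := fun _ => V) y _
    simp only [h3]
    rw [L.w_sum]
    simp
  | succ n ih =>
    have hm : mass23 L (n + 1) = ∑ ω : Fin (n + 1) → V, ∑ η : Fin n → Mv d,
        ∑ y : V, ∑ e : Mv d, (if NB23 (Fin.snoc (α := fun _ => Mv d) η e) then
          L.pw (n := n + 1) (Fin.snoc (α := fun _ => V) ω y)
            (Fin.snoc (α := fun _ => Mv d) η e) else 0) :=
      sum23_step (fun ω η => if NB23 η then L.pw ω η else 0)
    rw [hm]
    -- lower bound of the one-step sum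
    set k : V → ℝ := fun x => ∑ y, ∑ e, kn23 L x y e with hk
    have hkle : ∀ x, k x ≤ 1 := by
      intro x
      have h3 : k x = (∑ y, ∑ e, L.J x y e) / L.w x := by
        simp only [hk, kn23, Finset.sum_div]
      rw [h3]
      exact div_le_one_of_le₀ (L.sub x) (L.w_nonneg x)
    have hstep : ∀ (ω : Fin (n + 1) → V) (η : Fin n → Mv d),
        (if NB23 η then L.pw ω η else 0) * 1 - L.pw ω η * (1 - k (ω (Fin.last n)))
          - L.pw ω η * (1 / d)
        ≤ ∑ y : V, ∑ e : Mv d, (if NB23 (Fin.snoc (α := fun _ => Mv d) η e) then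
          L.pw (n := n + 1) (Fin.snoc (α := fun _ => V) ω y)
            (Fin.snoc (α := fun _ => Mv d) η e) else 0) := by
      intro ω η
      have hp := pw23_nonneg L ω η
      by_cases hnb : NB23 η
      · rw [if_pos hnb]
        obtain ⟨j₀, hj₀⟩ := nb23_snoc hd η hnb
        have h3 : ∑ y : V, ∑ e : Mv d, (L.pw ω η * kn23 L (ω (Fin.last n)) y e
            - L.pw ω η * (if e.2.1 = j₀ then kn23 L (ω (Fin.last n)) y e else 0))
            ≤ ∑ y : V, ∑ e : Mv d, (if NB23 (Fin.snoc (α := fun _ => Mv d) η e) then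
              L.pw (n := n + 1) (Fin.snoc (α := fun _ => V) ω y)
                (Fin.snoc (α := fun _ => Mv d) η e) else 0) := by
          refine Finset.sum_le_sum fun y _ => Finset.sum_le_sum fun e _ => ?_
          by_cases he : e.2.1 = j₀
          · rw [if_pos he, sub_self]
            split_ifs
            · exact pw23_nonneg L _ _
            · exact le_refl _
          · rw [if_neg he, if_pos (hj₀ e he), pw23_snoc]
            simp
        refine le_trans ?_ h3
        have h4 : ∑ y : V, ∑ e : Mv d, (L.pw ω η * kn23 L (ω (Fin.last n)) y e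
            - L.pw ω η * (if e.2.1 = j₀ then kn23 L (ω (Fin.last n)) y e else 0))
            = L.pw ω η * k (ω (Fin.last n)) - L.pw ω η * ∑ y : V, ∑ e : Mv d,
              (if e.2.1 = j₀ then kn23 L (ω (Fin.last n)) y e else 0) := by
          simp only [Finset.sum_sub_distrib, hk, Finset.mul_sum]
        rw [h4]
        have h5 : ∑ y : V, ∑ e : Mv d,
            (if e.2.1 = j₀ then kn23 L (ω (Fin.last n)) y e else 0) ≤ 1 / d := by
          have h6 : ∑ y : V, ∑ e : Mv d,
              (if e.2.1 = j₀ then kn23 L (ω (Fin.last n)) y e else 0)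
              = (∑ y : V, ∑ e : Mv d,
              (if e.2.1 = j₀ then L.J (ω (Fin.last n)) y e else 0)) / L.w (ω (Fin.last n)) := by
            simp only [Finset.sum_div]
            refine Finset.sum_congr rfl fun y _ => Finset.sum_congr rfl fun e _ => ?_
            split_ifs
            · rfl
            · simp
          rw [h6]
          have h7 := h2 (ω (Fin.last n)) j₀
          rcases (L.w_nonneg (ω (Fin.last n))).eq_or_lt with h8 | h8
          · rw [← h8]; simp
          · rw [div_le_iff₀ h8]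
            calc _ ≤ _ := h7
              _ = _ := by ring
        have h9 := mul_le_mul_of_nonneg_left h5 hp
        linarith
      · rw [if_neg hnb]
        have h3 : 0 ≤ ∑ y : V, ∑ e : Mv d, (if NB23 (Fin.snoc (α := fun _ => Mv d) η e) then
          L.pw (n := n + 1) (Fin.snoc (α := fun _ => V) ω y)
            (Fin.snoc (α := fun _ => Mv d) η e) else 0) := by
          refine Finset.sum_nonneg fun y _ => Finset.sum_nonneg fun e _ => ?_
          split_ifs
          · exact pw23_nonneg L _ _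
          · exact le_refl _
        have h4 : 0 ≤ L.pw ω η * (1 - k (ω (Fin.last n))) :=
          mul_nonneg hp (by linarith [hkle (ω (Fin.last n))])
        have h5 : 0 ≤ L.pw ω η * (1 / d) := by positivity
        linarith
    have hA : ∑ ω : Fin (n + 1) → V, ∑ η : Fin n → Mv d,
        L.pw ω η * (1 - k (ω (Fin.last n))) ≤ ε := by
      refine (end23 L n (fun x => 1 - k x) (fun x => by linarith [hkle x])).trans ?_
      have h3 : ∑ x, L.w x * (1 - k x) = 1 - ∑ x, ∑ y, ∑ e, L.J x y e := by
        have h31 : ∀ x, L.w x * (1 - k x) = L.w x - ∑ y, ∑ e, L.J x y e := by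
          intro x
          rw [mul_sub, mul_one]
          congr 1
          simp only [hk, Finset.mul_sum]
          refine Finset.sum_congr rfl fun y _ => Finset.sum_congr rfl fun e _ => ?_
          exact w_mul_kn23 L x y e
        simp only [h31]
        rw [Finset.sum_sub_distrib, L.w_sum]
      rw [h3]
      linarith
    have hB : ∑ ω : Fin (n + 1) → V, ∑ η : Fin n → Mv d, L.pw ω η * (1 / d) ≤ 1 / d := by
      refine (end23 L n (fun _ => 1 / d) (fun _ => by positivity)).trans ?_
      rw [← Finset.sum_mul, L.w_sum, one_mul]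
    have hC : ∑ ω : Fin (n + 1) → V, ∑ η : Fin n → Mv d,
        ((if NB23 η then L.pw ω η else 0) * 1 - L.pw ω η * (1 - k (ω (Fin.last n)))
          - L.pw ω η * (1 / d))
        ≤ ∑ ω : Fin (n + 1) → V, ∑ η : Fin n → Mv d,
        ∑ y : V, ∑ e : Mv d, (if NB23 (Fin.snoc (α := fun _ => Mv d) η e) then
          L.pw (n := n + 1) (Fin.snoc (α := fun _ => V) ω y)
            (Fin.snoc (α := fun _ => Mv d) η e) else 0) :=
      Finset.sum_le_sum fun ω _ => Finset.sum_le_sum fun η _ => hstep ω η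
    have hD : ∑ ω : Fin (n + 1) → V, ∑ η : Fin n → Mv d,
        ((if NB23 η then L.pw ω η else 0) * 1 - L.pw ω η * (1 - k (ω (Fin.last n)))
          - L.pw ω η * (1 / d))
        = mass23 L n - (∑ ω : Fin (n + 1) → V, ∑ η : Fin n → Mv d,
            L.pw ω η * (1 - k (ω (Fin.last n))))
          - ∑ ω : Fin (n + 1) → V, ∑ η : Fin n → Mv d, L.pw ω η * (1 / d) := by
      unfold mass23
      rw [← Finset.sum_sub_distrib, ← Finset.sum_sub_distrib]
      refine Finset.sum_congr rfl fun ω _ => ?_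
      rw [← Finset.sum_sub_distrib, ← Finset.sum_sub_distrib]
      refine Finset.sum_congr rfl fun η _ => ?_
      rw [mul_one]
    have hfin : 1 - ((n + 1 : ℕ) : ℝ) * ε - ((n + 1 : ℕ) : ℝ) / d
        = (1 - n * ε - n / d) - ε - 1 / d := by
      push_cast
      ring
    rw [hfin]
    rw [hD] at hC
    refine le_trans ?_ hC
    linarith

/-- [PW] weight of non-backtracking full paths. -/
theorem pw_nb {V : Type} [Fintype V] (d : ℕ) (hd : 1 ≤ d) {ε : ℝ} (hε : 0 ≤ ε)
    (L : LChain V (Mv d)) (h1 : 1 - ε ≤ ∑ x, ∑ y, ∑ e, L.J x y e)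
    (h2 : ∀ x (j : Fin d), ∑ y, ∑ e : Mv d, (if e.2.1 = j then L.J x y e else 0) ≤ L.w x / d)
    (n : ℕ) :
    1 - n * ε - n / d ≤ ∑ ω : Fin (n + 1) → V, ∑ η : Fin n → Mv d,
      (if ∀ i j : Fin n, (j : ℕ) = i + 1 → (η j).2.1 ≠ (η i).2.2 then L.pw ω η else 0) := by
  refine (pw_nb_aux d hd L h1 h2 n).trans (le_of_eq ?_)
  unfold mass23
  refine Finset.sum_congr rfl fun ω _ => Finset.sum_congr rfl fun η _ => ?_
  by_cases h : NB23 η
  · rw [if_pos h]
    exact (if_pos h).symm
  · rw [if_neg h]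
    exact (if_neg h).symm

end P125F
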