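import Vale.Agent.P125F.A1_helper5
import Vale.Agent.P125F.A2_helper19
import Vale.Agent.P125F.GV_helper12
import Vale.Agent.P125F.B_helper25
import Vale.Agent.P125F.B0_helper18
import Vale.Agent.P125F.JC_helper20
import Vale.Agent.P125F.PW_helper23
import Vale.Agent.P125F.Cmb28
import Vale.Agent.P125F.LAB_helper3
import Vale.Agent.P125F.CH_helper26
import Vale.Agent.P125F.FIN_helper18

namespace P125F
open Finset P125S

/-- main theorem (stream L), assembly by helper19 -/
theorem main19 {X : Type} [NormedAddCommGroup X] [NormedSpace ℝ X] {p K : ℝ} (hp : 1 < p)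
    (hK : 0 < K) (hX : MarkovType X p K) {θ : ℝ} (hθ : 0 < θ) : ¬ ∀ N, HasJames X θ N := by
  intro hJ
  refine fin18 (X := X) (p := p) (K := K) (θ := θ) hp hK hθ ?_ ?_ ?_ ?_
  · exact good_vectors_helper12 (spread5 hθ hJ) (fun S hS => avg_helper19 hθ hS)
  · exact fun N hN n m M hm hM l hl => good_low_helper25 hN n m M hm hM l hl
  · exact fun N hN M m t => alt_pattern18 hN M m t
  · intro n M hn hM
    obtain ⟨m, hm⟩ := chain_ineq_of
      (fun d M hd {ε} hε => jc_helper20 d M hd hε)
      (fun {V} _ d hd {ε} hε L h1 h2 n => pw_nb d hd hε L h1 h2 n)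
      (fun d M m n hn hM ω η hc hb => cmb28 d M m n hn hM ω η hc hb)
      (fun {X} _ _ {p K} hp _ hX {V E} _ _ _ _ L {m} g hg y n hn =>
        lab_ineq_helper3 hp hX L g hg y n hn) n M hn hM
    refine ⟨m, fun y A B hA hB h1 h2 => ?_⟩
    exact hm X p K (by linarith) hK hX y A B hA hB h1 h2

end P125F

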