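import Vale.Agent.P125F.Defs

/-! # Piece B: patterns of good paths -/

namespace P125F
open Finset P125S

variable {N : List ℤ → ℝ} {θ : ℝ}

theorem b21_nil (hN : Sem N θ) : N [] = 0 := by
  have h := hN.smul 0 []
  simpa using h

theorem b21_nonneg (hN : Sem N θ) (l : List ℤ) : 0 ≤ N l := by
  have h := hN.low l []
  simpa using h

theorem b21_drop (hN : Sem N θ) (l₁ l₂ : List ℤ) : N (l₁ ++ l₂) ≤ N (l₁ ++ 0 :: l₂) := by
  rcases l₂ with _ | ⟨b, l₃⟩
  · rcases List.eq_nil_or_concat l₁ with h | ⟨l', c, h⟩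
    · subst h
      have h1 := b21_nil hN
      have h2 := b21_nonneg hN ([] ++ [0])
      simp only [List.nil_append] at h2 ⊢
      rw [h1]
      exact h2
    · subst h
      have h1 := hN.merge l' c 0 []
      simp only [add_zero] at h1
      simpa using h1
  · have h1 := hN.merge l₁ 0 b l₃
    simpa using h1

theorem b21_ins (hN : Sem N θ) (l₁ l₂ : List ℤ) : N (l₁ ++ 0 :: l₂) ≤ N (l₁ ++ l₂) := by
  rcases l₂ with _ | ⟨b, l₃⟩
  · rcases List.eq_nil_or_concat l₁ with h | ⟨l', c, h⟩
    · subst h
      have h1 := b21_nil hN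
      have h2 := hN.smul 0 [1]
      simp at h2
      simp only [List.nil_append]
      rw [h1, h2]
    · subst h
      have h1 := hN.split l' c 0 [] (by simp)
      simp only [add_zero] at h1
      simpa using h1
  · have h1 := hN.split l₁ 0 b l₃ (by simp)
    simpa using h1

theorem b21_block (hN : Sem N θ) (b : List ℤ) : ∀ l₁ l₂ : List ℤ,
    N (l₁ ++ b.sum :: l₂) ≤ N (l₁ ++ (b ++ l₂)) := by
  induction b with
  | nil =>
    intro l₁ l₂
    exact b21_ins hN l₁ l₂
  | cons a b ih =>
    intro l₁ l₂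
    have h1 := hN.merge l₁ a b.sum l₂
    have h2 := ih (l₁ ++ [a]) l₂
    rw [List.sum_cons]
    simp only [List.append_assoc, List.cons_append, List.nil_append] at h2 ⊢
    exact h1.trans h2

theorem b21_blocks (hN : Sem N θ) (n : ℤ) (bs : List (List ℤ × List ℤ)) :
    (∀ c ∈ bs, c.1.sum = n ∧ c.2.sum = -n) → ∀ l₁ l₂ : List ℤ,
    N (l₁ ++ ((List.replicate bs.length [n, -n]).flatten ++ l₂))
      ≤ N (l₁ ++ ((bs.map (fun c => c.1 ++ c.2)).flatten ++ l₂)) := by
  induction bs with
  | nil =>
    intro _ l₁ l₂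
    simp
  | cons c bs ih =>
    intro h l₁ l₂
    have hc := h c (by simp)
    have h1 := b21_block hN c.1 l₁ (-n :: ((List.replicate bs.length [n, -n]).flatten ++ l₂))
    have h2 := b21_block hN c.2 (l₁ ++ c.1) ((List.replicate bs.length [n, -n]).flatten ++ l₂)
    have h3 := ih (fun c' hc' => h c' (List.mem_cons_of_mem _ hc')) (l₁ ++ c.1 ++ c.2) l₂
    rw [hc.1] at h1
    rw [hc.2] at h2
    simp only [List.length_cons, List.replicate_succ, List.flatten_cons, List.map_cons,
      List.append_assoc, List.cons_append, List.nil_append] at h1 h2 h3 ⊢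
    exact h1.trans (h2.trans h3)

theorem b21_L1 (hN : Sem N θ) (np nm : ℤ) (hp : 0 ≤ np) (hm : 0 ≤ nm) (k : ℕ) : ∀ l₁ : List ℤ,
    N (l₁ ++ (List.replicate k [np, -np]).flatten)
      ≤ N (l₁ ++ (-nm :: ((List.replicate k [np + nm, -(np + nm)]).flatten ++ [nm]))) := by
  induction k with
  | zero =>
    intro l₁
    have h1 := b21_drop hN l₁ []
    have h2 := hN.merge l₁ (-nm) nm []
    rw [neg_add_cancel] at h2
    simpa using h1.trans h2
  | succ k ih =>
    intro l₁
    have h1 := hN.merge l₁ (-nm) (np + nm) (-(np + nm) ::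
      ((List.replicate k [np + nm, -(np + nm)]).flatten ++ [nm]))
    have e1 : -nm + (np + nm) = np := by ring
    rw [e1] at h1
    have h2 := hN.split (l₁ ++ [np]) (-np) (-nm)
      ((List.replicate k [np + nm, -(np + nm)]).flatten ++ [nm]) (by nlinarith)
    have e2 : -np + -nm = -(np + nm) := by ring
    rw [e2] at h2
    have h3 := ih (l₁ ++ [np, -np])
    simp only [List.replicate_succ, List.flatten_cons,
      List.append_assoc, List.cons_append, List.nil_append] at h1 h2 h3 ⊢
    exact h3.trans (h2.trans h1)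

theorem b21_L2 (hN : Sem N θ) (np nm : ℤ) (hp : 0 ≤ np) (hm : 0 ≤ nm) (k : ℕ) : ∀ l₁ : List ℤ,
    N (l₁ ++ (List.replicate (k + 1) [-nm, nm]).flatten)
      ≤ N (l₁ ++ (-nm :: ((List.replicate k [np + nm, -(np + nm)]).flatten ++ [nm]))) := by
  induction k with
  | zero =>
    intro l₁
    simp
  | succ k ih =>
    intro l₁
    have h1 := hN.split (l₁ ++ [-nm]) nm np (-(np + nm) ::
      ((List.replicate k [np + nm, -(np + nm)]).flatten ++ [nm])) (by positivity)
    have e1 : nm + np = np + nm := by ring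
    rw [e1] at h1
    have h2 := hN.merge (l₁ ++ [-nm, nm]) np (-(np + nm))
      ((List.replicate k [np + nm, -(np + nm)]).flatten ++ [nm])
    have e2 : np + -(np + nm) = -nm := by ring
    rw [e2] at h2
    have h3 := ih (l₁ ++ [-nm, nm])
    rw [List.replicate_succ (n := k + 1), List.flatten_cons]
    simp only [List.replicate_succ (n := k) (a := [np + nm, -(np + nm)]), List.flatten_cons,
      List.append_assoc, List.cons_append, List.nil_append] at h1 h2 h3 ⊢
    exact h3.trans (h2.trans h1)

theorem b21_map (a : ℤ) (k : ℕ) :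
    (List.replicate k [a, -a]).flatten = (alt k).map (a * ·) := by
  rw [alt]
  induction k with
  | zero => simp
  | succ k ih =>
    rw [List.replicate_succ, List.flatten_cons, List.replicate_succ, List.flatten_cons,
      List.map_append, ih]
    simp

theorem b21_mono (hN : Sem N θ) (k : ℕ) : N (alt k) ≤ N (alt (k + 1)) := by
  have h1 := b21_drop hN [] (alt k)
  have h2 := hN.merge [] 1 (-1) (alt k)
  have e1 : alt (k + 1) = [] ++ 1 :: -1 :: alt k := by
    rw [alt, alt, List.replicate_succ, List.flatten_cons]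
    rfl
  rw [e1]
  have e2 : (1 : ℤ) + -1 = 0 := by norm_num
  rw [e2] at h2
  exact h1.trans h2

theorem b21_mono' (hN : Sem N θ) {k j : ℕ} (h : k ≤ j) : N (alt k) ≤ N (alt j) := by
  induction h with
  | refl => exact le_rfl
  | step _ ih => exact ih.trans (b21_mono hN _)

theorem b21_zeros_right (hN : Sem N θ) (j : ℕ) (l : List ℤ) :
    N (l ++ List.replicate j 0) ≤ N l := by
  induction j with
  | zero => simp
  | succ j ih =>
    rw [List.replicate_succ]
    exact (b21_ins hN l (List.replicate j 0)).trans ih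

theorem b21_zeros_left (hN : Sem N θ) (j : ℕ) (l : List ℤ) :
    N (List.replicate j 0 ++ l) ≤ N l := by
  induction j with
  | zero => simp
  | succ j ih =>
    rw [List.replicate_succ, List.cons_append]
    exact (b21_ins hN [] (List.replicate j 0 ++ l)).trans ih

theorem b21_zip_right (l : List ℤ) :
    List.zipWith (· + ·) l (List.replicate l.length 0) = l := by
  induction l with
  | nil => simp
  | cons a l ih =>
    rw [List.length_cons, List.replicate_succ, List.zipWith_cons_cons, ih, add_zero]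

theorem b21_zip_left (l : List ℤ) :
    List.zipWith (· + ·) (List.replicate l.length 0) l = l := by
  induction l with
  | nil => simp
  | cons a l ih =>
    rw [List.length_cons, List.replicate_succ, List.zipWith_cons_cons, ih, zero_add]

theorem b21_double (hN : Sem N θ) (m : ℕ) : N (alt (2 * m)) ≤ 2 * N (alt m) := by
  have e1 : alt (2 * m) = alt m ++ alt m := by
    rw [two_mul, alt, alt, List.replicate_add, List.flatten_append]
  have h1 := hN.tri (alt m ++ List.replicate (alt m).length 0)
    (List.replicate (alt m).length 0 ++ alt m) (by simp)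
  rw [List.zipWith_append (by simp), b21_zip_right, b21_zip_left, ← e1] at h1
  have h2 := b21_zeros_right hN (alt m).length (alt m)
  have h3 := b21_zeros_left hN (alt m).length (alt m)
  linarith

/-- [B] -/
theorem good_low21 {N : List ℤ → ℝ} {θ : ℝ} (hN : Sem N θ) (n m M : ℕ) (_hm : 1 ≤ m)
    (hM : M ≤ 2 * m) (l : List ℤ) (hl : Good n m l) :
    (n : ℝ) / 4 * N (alt M) ≤ N l := by
  obtain ⟨np, nm, hn, b₀, bs, b₁, hlen, hb0, hbs, hb1, rfl⟩ := hl
  have hn' : (n : ℤ) = (np : ℤ) + nm := by exact_mod_cast hn.symm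
  -- merging the blocks
  have h1 := b21_block hN b₀ [] ((List.replicate bs.length [(n : ℤ), -n]).flatten ++ [(nm : ℤ)])
  have h2 := b21_blocks hN n bs hbs b₀ [(nm : ℤ)]
  have h3 := b21_block hN b₁ (b₀ ++ (bs.map (fun c => c.1 ++ c.2)).flatten) []
  rw [hb0] at h1
  rw [hb1] at h3
  simp only [List.append_assoc, List.nil_append, List.append_nil] at h1 h2 h3
  have h4 : N (-(nm : ℤ) :: ((List.replicate m [(np : ℤ) + nm, -((np : ℤ) + nm)]).flatten
      ++ [(nm : ℤ)])) ≤ N (b₀ ++ (bs.map (fun c => c.1 ++ c.2)).flatten ++ b₁) := by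
    rw [← hn', ← hlen, List.append_assoc]
    exact h1.trans (h2.trans h3)
  have hp0 : (0 : ℤ) ≤ np := by positivity
  have hm0 : (0 : ℤ) ≤ nm := by positivity
  have k1 := b21_L1 hN np nm hp0 hm0 m []
  have k2 := b21_L2 hN np nm hp0 hm0 m []
  simp only [List.nil_append] at k1 k2
  rw [b21_map, hN.smul] at k1
  have e1 : (List.replicate (m + 1) [-(nm : ℤ), nm]).flatten
      = (alt (m + 1)).map ((-(nm : ℤ)) * ·) := by
    have := b21_map (-(nm : ℤ)) (m + 1)
    rw [neg_neg] at this
    exact this
  rw [e1, hN.smul] at k2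
  have a1 : |(((np : ℤ)) : ℝ)| = np := by
    rw [abs_of_nonneg (by positivity)]
    norm_num
  have a2 : |((-(nm : ℤ) : ℤ) : ℝ)| = nm := by
    push_cast
    rw [abs_neg, abs_of_nonneg (by positivity)]
  rw [a1] at k1
  rw [a2] at k2
  have m1 := b21_mono hN m
  have m2 := b21_mono' hN hM
  have m3 := b21_double hN m
  have n0 := b21_nonneg hN (alt m)
  have hnr : (n : ℝ) = np + nm := by exact_mod_cast hn.symm
  have hnm0 : (0 : ℝ) ≤ nm := by positivity
  have hn0 : (0 : ℝ) ≤ n := by positivity
  have k3 : (nm : ℝ) * N (alt m) ≤ nm * N (alt (m + 1)) := mul_le_mul_of_nonneg_left m1 hnm0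
  have k4 : (n : ℝ) / 4 * N (alt M) ≤ (n : ℝ) / 4 * (2 * N (alt m)) :=
    mul_le_mul_of_nonneg_left (m2.trans m3) (by positivity)
  have k5 : (n : ℝ) / 4 * (2 * N (alt m)) = (np * N (alt m) + nm * N (alt m)) / 2 := by
    rw [hnr]
    ring
  linarith

end P125F
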