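import Vale.Agent.P125F.Edge
import Vale.Agent.P125F.IND_helper15

namespace P125F
open Finset P125S

section jab
variable {K r m : ℕ} (μ : (Fin K ↪o Fin m) → ℝ)

open Classical in
/-- marginal -/
noncomputable def nu15 (α : Fin r ↪o Fin K) (u : Fin r ↪o Fin m) : ℝ :=
  ∑ Φ, if α.trans Φ = u then μ Φ else 0

open Classical in
/-- symmetric weight of one kind of move -/
noncomputable def jab (α β : Fin r ↪o Fin K) (Φ Ψ : Fin K ↪o Fin m) : ℝ :=
  if α.trans Φ = β.trans Ψ then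
    μ Φ * μ Ψ / max (nu15 μ α (α.trans Φ)) (nu15 μ β (α.trans Φ)) else 0

theorem nu15_nonneg (h0 : ∀ Φ, 0 ≤ μ Φ) (α : Fin r ↪o Fin K) (u : Fin r ↪o Fin m) :
    0 ≤ nu15 μ α u := by
  classical
  unfold nu15
  refine Finset.sum_nonneg fun i _ => ?_
  split_ifs
  · exact h0 i
  · exact le_rfl

theorem jab_nonneg (h0 : ∀ Φ, 0 ≤ μ Φ) (α β : Fin r ↪o Fin K) (Φ Ψ : Fin K ↪o Fin m) :
    0 ≤ jab μ α β Φ Ψ := by
  classical
  unfold jab
  split_ifs
  · exact div_nonneg (mul_nonneg (h0 _) (h0 _))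
      ((nu15_nonneg μ h0 α _).trans (le_max_left _ _))
  · exact le_rfl

theorem jab_symm (α β : Fin r ↪o Fin K) (Φ Ψ : Fin K ↪o Fin m) :
    jab μ α β Φ Ψ = jab μ β α Ψ Φ := by
  classical
  unfold jab
  by_cases h : α.trans Φ = β.trans Ψ
  · rw [if_pos h, if_pos h.symm, ← h, max_comm, mul_comm (μ Φ)]
  · rw [if_neg h, if_neg (fun h' => h h'.symm)]

theorem jab_row (α β : Fin r ↪o Fin K) (Φ : Fin K ↪o Fin m) :
    ∑ Ψ, jab μ α β Φ Ψ = μ Φ * (nu15 μ β (α.trans Φ) /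
      max (nu15 μ α (α.trans Φ)) (nu15 μ β (α.trans Φ))) := by
  classical
  have h1 : nu15 μ β (α.trans Φ) = ∑ Ψ, if α.trans Φ = β.trans Ψ then μ Ψ else 0 := by
    unfold nu15
    refine Finset.sum_congr rfl fun y _ => ?_
    by_cases h : α.trans Φ = β.trans y
    · rw [if_pos h, if_pos h.symm]
    · rw [if_neg h, if_neg (fun h' => h h'.symm)]
  have h2 : ∀ D : ℝ, μ Φ * (nu15 μ β (α.trans Φ) / D)
      = ∑ Ψ, if α.trans Φ = β.trans Ψ then μ Φ * μ Ψ / D else 0 := by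
    intro D
    rw [h1, Finset.sum_div, Finset.mul_sum]
    refine Finset.sum_congr rfl fun y _ => ?_
    split_ifs
    · ring
    · ring
  rw [h2]
  rfl

theorem jab_row_le (h0 : ∀ Φ, 0 ≤ μ Φ) (α β : Fin r ↪o Fin K) (Φ : Fin K ↪o Fin m) :
    ∑ Ψ, jab μ α β Φ Ψ ≤ μ Φ := by
  rw [jab_row]
  have h2 : nu15 μ β (α.trans Φ) / max (nu15 μ α (α.trans Φ)) (nu15 μ β (α.trans Φ)) ≤ 1 :=
    div_le_one_of_le₀ (le_max_right _ _) ((nu15_nonneg μ h0 _ _).trans (le_max_left _ _))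
  calc _ ≤ μ Φ * 1 := mul_le_mul_of_nonneg_left h2 (h0 Φ)
    _ = _ := mul_one _

theorem jab_mass (h0 : ∀ Φ, 0 ≤ μ Φ) (h1 : ∑ Φ, μ Φ = 1) (α β : Fin r ↪o Fin K) (ε : ℝ)
    (hT : ∑ u : Fin r ↪o Fin m, |nu15 μ α u - nu15 μ β u| ≤ ε) :
    1 - ε ≤ ∑ Φ, ∑ Ψ, jab μ α β Φ Ψ := by
  classical
  have h3 : ∑ Φ, μ Φ * (1 - nu15 μ β (α.trans Φ) /
      max (nu15 μ α (α.trans Φ)) (nu15 μ β (α.trans Φ)))
      = ∑ u : Fin r ↪o Fin m, nu15 μ α u * (1 - nu15 μ β u / max (nu15 μ α u) (nu15 μ β u)) := by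
    have h4 : ∀ u : Fin r ↪o Fin m, nu15 μ α u * (1 - nu15 μ β u / max (nu15 μ α u) (nu15 μ β u))
        = ∑ Φ, if α.trans Φ = u then μ Φ * (1 - nu15 μ β (α.trans Φ) /
          max (nu15 μ α (α.trans Φ)) (nu15 μ β (α.trans Φ))) else 0 := by
      intro u
      conv_lhs => rw [show nu15 μ α u = ∑ Φ, if α.trans Φ = u then μ Φ else 0 from rfl]
      rw [Finset.sum_mul]
      refine Finset.sum_congr rfl fun Φ _ => ?_
      by_cases h : α.trans Φ = u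
      · subst h
        simp only [if_true]
        rfl
      · rw [if_neg h, if_neg h, zero_mul]
    rw [Finset.sum_congr rfl fun u _ => h4 u, Finset.sum_comm]
    refine Finset.sum_congr rfl fun Φ _ => ?_
    rw [Finset.sum_ite_eq, if_pos (Finset.mem_univ _)]
  have h5 : ∀ u : Fin r ↪o Fin m, nu15 μ α u *
      (1 - nu15 μ β u / max (nu15 μ α u) (nu15 μ β u)) ≤ |nu15 μ α u - nu15 μ β u| := by
    intro u
    rcases le_total (nu15 μ α u) (nu15 μ β u) with hle | hle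
    · rw [max_eq_right hle]
      rcases (nu15_nonneg μ h0 β u).eq_or_lt with h | h
      · have : nu15 μ α u = 0 := le_antisymm (hle.trans h.symm.le) (nu15_nonneg μ h0 α u)
        rw [this, zero_mul]; exact abs_nonneg _
      · rw [div_self h.ne', sub_self, mul_zero]; exact abs_nonneg _
    · rw [max_eq_left hle]
      rcases (nu15_nonneg μ h0 α u).eq_or_lt with h | h
      · rw [← h, zero_mul]; exact abs_nonneg _
      · rw [mul_sub, mul_one, mul_div_cancel₀ _ h.ne']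
        exact le_abs_self _
  have h6 : ∑ Φ, μ Φ * (1 - nu15 μ β (α.trans Φ) /
      max (nu15 μ α (α.trans Φ)) (nu15 μ β (α.trans Φ)))
      = ∑ Φ, μ Φ - ∑ Φ, ∑ Ψ, jab μ α β Φ Ψ := by
    rw [← Finset.sum_sub_distrib]
    refine Finset.sum_congr rfl fun Φ _ => ?_
    rw [jab_row]
    ring
  have h7 := (Finset.sum_le_sum fun (u : Fin r ↪o Fin m) (_ : u ∈ Finset.univ) => h5 u).trans hT
  rw [← h3, h6, h1] at h7
  linarith

end jab

theorem jc_helper15 (d M : ℕ) (hd : 1 ≤ d) {ε : ℝ} (hε : 0 < ε) :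
    ∃ (m : ℕ) (L : LChain (Fin ((M + 1) * (2 * d)) ↪o Fin m) (Mv d)),
      (∀ e, L.inv e = (!e.1, e.2.2, e.2.1)) ∧
      (∀ Φ Ψ e, L.J Φ Ψ e ≠ 0 → Comp d M m Φ Ψ e) ∧
      (1 - ε ≤ ∑ Φ, ∑ Ψ, ∑ e, L.J Φ Ψ e) ∧
      (∀ Φ (j : Fin d), ∑ Ψ, ∑ e, (if e.2.1 = j then L.J Φ Ψ e else 0) ≤ L.w Φ / d) := by
  classical
  obtain ⟨m, μ, h0, h1, hlaw⟩ := ind_helper15 ((M + 1) * (2 * d)) (2 * M) hε
  have hdR : (0 : ℝ) < d := by exact_mod_cast hd
  let J : (Fin ((M + 1) * (2 * d)) ↪o Fin m) → (Fin ((M + 1) * (2 * d)) ↪o Fin m) → Mv d → ℝ :=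
    fun Φ Ψ e => jab μ (edge d M e.1 e.2.1) (edge d M (!e.1) e.2.2) Φ Ψ / (2 * d * d)
  have hrow : ∀ Φ e, ∑ Ψ, J Φ Ψ e ≤ μ Φ / (2 * d * d) := by
    intro Φ e
    simp only [J]
    rw [← Finset.sum_div]
    exact div_le_div_of_nonneg_right (jab_row_le μ h0 _ _ Φ) (by positivity)
  have hcard : (∑ _e : Mv d, (1 : ℝ)) = 2 * d * d := by
    simp only [Finset.sum_const, Finset.card_univ, Fintype.card_prod, Fintype.card_bool,
      Fintype.card_fin, nsmul_eq_mul, mul_one]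
    push_cast
    ring
  refine ⟨m, ⟨μ, J, fun e => (!e.1, e.2.2, e.2.1), h0, h1, ?_, ?_, ?_, ?_⟩, ?_, ?_, ?_, ?_⟩
  · intro Φ Ψ e
    exact div_nonneg (jab_nonneg μ h0 _ _ _ _) (by positivity)
  · intro Φ
    rw [Finset.sum_comm]
    calc ∑ e : Mv d, ∑ Ψ, J Φ Ψ e ≤ ∑ e : Mv d, μ Φ / (2 * d * d) * 1 :=
          Finset.sum_le_sum fun e _ => by rw [mul_one]; exact hrow Φ e
      _ = μ Φ / (2 * d * d) * (2 * d * d) := by rw [← Finset.mul_sum, hcard]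
      _ = μ Φ := by field_simp
      _ ≤ μ Φ := le_rfl
  · intro Φ Ψ e
    simp only [J, Bool.not_not]
    rw [jab_symm]
  · intro e
    simp
  · intro e
    rfl
  · intro Φ Ψ e hJ
    unfold Comp
    by_contra hc
    apply hJ
    show jab μ (edge d M e.1 e.2.1) (edge d M (!e.1) e.2.2) Φ Ψ / (2 * d * d) = 0
    unfold jab
    rw [if_neg hc, zero_div]
  · show 1 - ε ≤ ∑ Φ, ∑ Ψ, ∑ e, J Φ Ψ e
    have h2 : ∑ Φ, ∑ Ψ, ∑ e, J Φ Ψ e = ∑ e : Mv d, (∑ Φ, ∑ Ψ,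
        jab μ (edge d M e.1 e.2.1) (edge d M (!e.1) e.2.2) Φ Ψ) / (2 * d * d) := by
      rw [Finset.sum_congr rfl fun Φ _ => Finset.sum_comm, Finset.sum_comm]
      refine Finset.sum_congr rfl fun e _ => ?_
      rw [Finset.sum_div]
      refine Finset.sum_congr rfl fun Φ _ => ?_
      rw [Finset.sum_div]
    rw [h2]
    have h3 : ∀ e : Mv d, (1 - ε) ≤ ∑ Φ, ∑ Ψ,
        jab μ (edge d M e.1 e.2.1) (edge d M (!e.1) e.2.2) Φ Ψ := by
      intro e
      refine jab_mass μ h0 h1 _ _ ε ?_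
      refine le_trans (le_of_eq ?_) (hlaw (edge d M e.1 e.2.1) (edge d M (!e.1) e.2.2))
      refine Finset.sum_congr rfl fun u _ => ?_
      unfold nu15
      congr 3 <;> (refine Finset.sum_congr rfl fun Φ _ => ?_; congr)
    calc 1 - ε = (∑ _e : Mv d, (1 : ℝ)) * ((1 - ε) / (2 * d * d)) := by
          rw [hcard]; field_simp
      _ = ∑ e : Mv d, (1 - ε) / (2 * d * d) := by
          rw [Finset.sum_mul]; simp only [one_mul]
      _ ≤ _ := Finset.sum_le_sum fun e _ =>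
          div_le_div_of_nonneg_right (h3 e) (by positivity)
  · intro Φ j
    show ∑ Ψ, ∑ e : Mv d, (if e.2.1 = j then J Φ Ψ e else 0) ≤ μ Φ / d
    rw [Finset.sum_comm]
    have h4 : ∀ e : Mv d, ∑ Ψ, (if e.2.1 = j then J Φ Ψ e else 0)
        ≤ if e.2.1 = j then μ Φ / (2 * d * d) else 0 := by
      intro e
      split_ifs
      · exact hrow Φ e
      · simp
    refine (Finset.sum_le_sum fun e _ => h4 e).trans (le_of_eq ?_)
    have h5 : ∀ c : ℝ, ∑ x : Fin d, ∑ _y : Fin d, (if x = j then c else 0) = d * c := by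
      intro c
      simp only [Finset.sum_const, Finset.card_univ, Fintype.card_fin, nsmul_eq_mul]
      rw [← Finset.mul_sum, Finset.sum_ite_eq' Finset.univ j, if_pos (Finset.mem_univ _)]
    simp only [Fintype.sum_prod_type, Fintype.sum_bool]
    rw [h5]
    field_simp
    ring

end P125F
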