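import Vale.Agent.P125F.A1_helper5
import Vale.Agent.P125F.GV_helper12
import Vale.Agent.P125F.B21
import Vale.Agent.P125F.B0_helper18
import Vale.Agent.P125F.JC_helper15
import Vale.Agent.P125F.PW_helper23
import Vale.Agent.P125F.Cmb28
import Vale.Agent.P125F.LAB_helper3
import Vale.Agent.P125F.CH_helper26
import Vale.Agent.P125F.FIN_helper18

/-! # Assembly of stream L; the only hypothesis is the averaging piece A2 -/

namespace P125F
open Finset P125S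

theorem chain28 (n M : ℕ) (hn : 1 ≤ n) (hM : 2 * n + 3 ≤ M) :
    ∃ m : ℕ, ∀ (X : Type) [NormedAddCommGroup X] [NormedSpace ℝ X] (p K : ℝ), 0 < p → 0 < K →
      MarkovType X p K → ∀ (y : Fin m → X) (A B : ℝ), 0 ≤ A → 0 ≤ B →
      (∀ t : Fin (2 * M) ↪o Fin m,
        ‖∑ j, ((∑ l : Fin (2 * M), if t l = j then (-1 : ℤ) ^ (l : ℕ) else 0 : ℤ) : ℝ) • y j‖ ≤ A) →
      (∀ a : Fin m → ℤ, (∀ j, |a j| ≤ (n : ℤ)) → Good n (M - 2 * n - 2) (List.ofFn a) →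
        B ≤ ‖∑ j, (a j : ℝ) • y j‖) →
      B ^ p / 2 ≤ K ^ p * n * A ^ p :=
  chain_ineq_of
    (fun d M hd _ hε => jc_helper15 d M hd hε)
    (fun d hd _ hε L h1 h2 n => pw_nb d hd hε L h1 h2 n)
    (fun d M m n hn hM ω η hc hb => cmb28 d M m n hn hM ω η hc hb)
    (fun hp _ hX _ _ _ _ _ _ L _ g hg y n hn => lab_ineq_helper3 hp hX L g hg y n hn)
    n M hn hM

theorem main_of_avg28 (havg : ∀ (S : List ℝ → ℝ) (θ : ℝ), 0 < θ → Spr S θ →
      ∃ N : List ℤ → ℝ, Sem N θ ∧ ∀ (A : Finset (List ℤ)) (δ : ℝ), 0 < δ →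
      ∃ L : ℕ, 0 < L ∧ ∀ l ∈ A, |S (blow L l) - N l| ≤ δ)
    {X : Type} [NormedAddCommGroup X] [NormedSpace ℝ X] {p K : ℝ} (hp : 1 < p)
    (hK : 0 < K) (hX : MarkovType X p K) {θ : ℝ} (hθ : 0 < θ) : ¬ ∀ N, HasJames X θ N := by
  intro hJ
  refine fin18 (X := X) hp hK hθ
    (good_vectors_helper12 (spread5 hθ hJ) (fun S hS => havg S θ hθ hS))
    (fun N hN n m M hm hM l hl => good_low21 hN n m M hm hM l hl)
    (fun N hN M m t => alt_pattern18 hN M m t) ?_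
  intro n M hn hM
  obtain ⟨m, hm⟩ := chain28 n M hn hM
  exact ⟨m, fun y A B hA hB h1 h2 => hm X p K (by linarith) hK hX y A B hA hB h1 h2⟩

end P125F
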