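import Vale.Agent.P125F.Univ2

/-! # From the statement at the lowest universe to all spaces -/

namespace P125F
open Finset P125S

/-- a positive constant in the Markov type inequality -/
theorem bridge2 {X : Type*} [NormedAddCommGroup X] [NormedSpace ℝ X] {p K : ℝ} (hp : 1 < p)
    (hK : 0 ≤ K)
    (hX : ∀ (S : Type) [Fintype S] [DecidableEq S] (C : Chain S) (f : S → X) (t : ℕ), 1 ≤ t →
      ∑ x, ∑ y, C.w x * ((Matrix.of C.P) ^ t) x y * ‖f y - f x‖ ^ p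
        ≤ K ^ p * t * ∑ x, ∑ y, C.w x * C.P x y * ‖f y - f x‖ ^ p)
    {Y : Type} [NormedAddCommGroup Y] [NormedSpace ℝ Y] (J : Y →ₗᵢ[ℝ] X) :
    MarkovType Y p (K + 1) := by
  intro S _ _ C f t ht
  have h := hX S C (fun s => J (f s)) t ht
  have e : ∀ x y, ‖J (f y) - J (f x)‖ = ‖f y - f x‖ := by
    intro x y
    rw [← map_sub, J.norm_map]
  simp only [e] at h
  refine h.trans ?_
  have h0 : 0 ≤ ∑ x, ∑ y, C.w x * C.P x y * ‖f y - f x‖ ^ p :=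
    Finset.sum_nonneg fun x _ => Finset.sum_nonneg fun y _ =>
      mul_nonneg (mul_nonneg (C.w_nonneg x) (C.P_nonneg x y)) (Real.rpow_nonneg (norm_nonneg _) _)
  refine mul_le_mul_of_nonneg_right (mul_le_mul_of_nonneg_right ?_ (Nat.cast_nonneg t)) h0
  exact Real.rpow_le_rpow hK (by linarith) (by linarith)

/-- no James systems in any universe, from the lowest one -/
theorem noJames2
    (main : ∀ (Y : Type) [NormedAddCommGroup Y] [NormedSpace ℝ Y] (p K : ℝ), 1 < p → 0 < K →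
      MarkovType Y p K → ∀ θ : ℝ, 0 < θ → ¬ ∀ N, HasJames Y θ N)
    {X : Type*} [NormedAddCommGroup X] [NormedSpace ℝ X] {p K : ℝ} (hp : 1 < p)
    (hK : 0 ≤ K)
    (hX : ∀ (S : Type) [Fintype S] [DecidableEq S] (C : Chain S) (f : S → X) (t : ℕ), 1 ≤ t →
      ∑ x, ∑ y, C.w x * ((Matrix.of C.P) ^ t) x y * ‖f y - f x‖ ^ p
        ≤ K ^ p * t * ∑ x, ∑ y, C.w x * C.P x y * ‖f y - f x‖ ^ p)
    {θ : ℝ} (hθ : 0 < θ) :
    ∃ N : ℕ, ¬ ∃ (x : Fin N → X) (f : Fin N → (X →L[ℝ] ℝ)), (∀ j, ‖x j‖ ≤ 1) ∧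
      (∀ i, ‖f i‖ ≤ 1) ∧ ∀ i j, f i (x j) = if i ≤ j then θ else 0 := by
  by_contra hcon
  push Not at hcon
  have hcon' : ∀ N : ℕ, ∃ (x : Fin N → X) (f : Fin N → (X →L[ℝ] ℝ)), (∀ j, ‖x j‖ ≤ 1) ∧
      (∀ i, ‖f i‖ ≤ 1) ∧ ∀ i j, f i (x j) = if i ≤ j then θ else 0 := hcon
  choose x f hx hf hxf using hcon'
  obtain ⟨Y, _, _, J, hJ⟩ := transfer2 x f hx hf hxf
  exact main Y p (K + 1) hp (by linarith) (bridge2 hp hK hX J) θ hθ hJ

end P125F
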