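import Vale.Agent.P125S.Defs

/-! Markov type inequality for seminorms on finitely supported sequences -/

namespace P125F

/-- Markov type inequality for a seminorm on `ℕ →₀ ℝ` -/
def SemiMT (N : Seminorm ℝ (ℕ →₀ ℝ)) (p K : ℝ) : Prop :=
  ∀ (S : Type) [Fintype S] [DecidableEq S] (C : P125S.Chain S) (f : S → (ℕ →₀ ℝ)) (t : ℕ), 1 ≤ t →
    ∑ x, ∑ y, C.w x * ((Matrix.of C.P) ^ t) x y * N (f y - f x) ^ p
      ≤ K ^ p * t * ∑ x, ∑ y, C.w x * C.P x y * N (f y - f x) ^ p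

end P125F
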