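import Vale.Agent.P125F.Defs
import Vale.Agent.P125F.SemiDef10
import Vale.Agent.P125F.Il15

/-! # From normed spaces to seminorms on finitely supported sequences -/

namespace P125F
open Filter Topology Finset

theorem b24_le (ρ : Seminorm ℝ (ℕ →₀ ℝ)) (h1 : ∀ j, ρ (Finsupp.single j 1) ≤ 1) (v : ℕ →₀ ℝ) :
    ρ v ≤ ∑ j ∈ v.support, |v j| := by
  have h2 : v = ∑ j ∈ v.support, v j • Finsupp.single j (1 : ℝ) := by
    conv_lhs => rw [← Finsupp.sum_single v]
    unfold Finsupp.sum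
    refine Finset.sum_congr rfl fun j _ => ?_
    rw [Finsupp.smul_single, smul_eq_mul, mul_one]
  conv_lhs => rw [h2]
  have h3 : ρ (∑ j ∈ v.support, v j • Finsupp.single j (1 : ℝ))
      ≤ ∑ j ∈ v.support, ρ (v j • Finsupp.single j (1 : ℝ)) :=
    Finset.le_sum_of_subadditive ρ (map_zero ρ).le (fun x y => map_add_le_add ρ x y) _ _
  refine h3.trans (Finset.sum_le_sum fun j _ => ?_)
  rw [map_smul_eq_mul, Real.norm_eq_abs]
  calc |v j| * ρ (Finsupp.single j 1) ≤ |v j| * 1 :=
        mul_le_mul_of_nonneg_left (h1 j) (abs_nonneg _)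
    _ = |v j| := mul_one _

/-- the ultralimit of a sequence of seminorms -/
theorem b24_ultra (ρ : ℕ → Seminorm ℝ (ℕ →₀ ℝ)) (h1 : ∀ N j, ρ N (Finsupp.single j 1) ≤ 1) :
    ∃ R : Seminorm ℝ (ℕ →₀ ℝ), ∀ v,
      Tendsto (fun N => ρ N v) (hyperfilter ℕ : Filter ℕ) (𝓝 (R v)) := by
  have hlim : ∀ v : ℕ →₀ ℝ, Tendsto (fun N => ρ N v) (hyperfilter ℕ : Filter ℕ)
      (𝓝 (uLim (fun N => ρ N v))) := fun v =>
    uLim_spec _ (∑ j ∈ v.support, |v j|) fun N => by
      rw [abs_of_nonneg (apply_nonneg _ _)]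
      exact b24_le (ρ N) (h1 N) v
  refine ⟨Seminorm.of (fun v => uLim (fun N => ρ N v)) ?_ ?_, hlim⟩
  · intro x y
    exact le_of_tendsto_of_tendsto' (hlim (x + y)) ((hlim x).add (hlim y))
      fun N => map_add_le_add (ρ N) x y
  · intro a x
    refine tendsto_nhds_unique (hlim (a • x)) ?_
    have h2 : (fun N => ρ N (a • x)) = fun N => ‖a‖ * ρ N x := by
      funext N
      rw [map_smul_eq_mul]
    rw [h2]
    exact (hlim x).const_mul _

theorem b24_mt (ρ : ℕ → Seminorm ℝ (ℕ →₀ ℝ)) (R : Seminorm ℝ (ℕ →₀ ℝ))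
    (hR : ∀ v, Tendsto (fun N => ρ N v) (hyperfilter ℕ : Filter ℕ) (𝓝 (R v)))
    {p K : ℝ} (hp : 0 ≤ p) (hM : ∀ N, SemiMT (ρ N) p K) : SemiMT R p K := by
  intro S _ _ C f t ht
  have hl : ∀ A : S → S → ℝ, Tendsto (fun N => ∑ x, ∑ y, A x y * ρ N (f y - f x) ^ p)
      (hyperfilter ℕ : Filter ℕ) (𝓝 (∑ x, ∑ y, A x y * R (f y - f x) ^ p)) := by
    intro A
    refine tendsto_finset_sum _ fun x _ => tendsto_finset_sum _ fun y _ => ?_
    exact ((hR _).rpow_const (Or.inr hp)).const_mul _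
  exact le_of_tendsto_of_tendsto' (hl fun x y => C.w x * ((Matrix.of C.P) ^ t) x y)
    ((hl fun x y => C.w x * C.P x y).const_mul _) fun N => hM N S C f t ht

/-- tail functional -/
noncomputable def tailL (θ : ℝ) (i : ℕ) : (ℕ →₀ ℝ) →ₗ[ℝ] ℝ :=
  θ • Finsupp.linearCombination ℝ (fun j : ℕ => if i ≤ j then (1 : ℝ) else 0)

theorem tailL_single (θ : ℝ) (i j : ℕ) :
    tailL θ i (Finsupp.single j 1) = if i ≤ j then θ else 0 := by
  unfold tailL
  rw [LinearMap.smul_apply, Finsupp.linearCombination_single]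
  by_cases h : i ≤ j
  · simp [h]
  · simp [h]

theorem tailL_eq (θ : ℝ) (i : ℕ) (v : ℕ →₀ ℝ) :
    tailL θ i v = θ * ∑ j ∈ v.support.filter (i ≤ ·), v j := by
  unfold tailL
  rw [LinearMap.smul_apply, Finsupp.linearCombination_apply, smul_eq_mul, Finset.sum_filter]
  unfold Finsupp.sum
  congr 1
  refine Finset.sum_congr rfl fun j _ => ?_
  by_cases h : i ≤ j
  · simp [h]
  · simp [h]

/-- a norm on finitely supported sequences with all tail bounds and Markov type gives a normed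
space of Markov type `p` with James systems of all lengths -/
theorem b24_space (R : Seminorm ℝ (ℕ →₀ ℝ)) {p K θ : ℝ} (hθ : 0 < θ)
    (h1 : ∀ j, R (Finsupp.single j 1) ≤ 1)
    (h2 : ∀ v : ℕ →₀ ℝ, ∀ i : ℕ, θ * |∑ j ∈ v.support.filter (i ≤ ·), v j| ≤ R v)
    (hM : SemiMT R p K) :
    ∃ (X : Type) (_ : NormedAddCommGroup X) (_ : NormedSpace ℝ X),
      MarkovType X p K ∧ ∀ N, HasJames X θ N := by
  have h2' : ∀ (v : ℕ →₀ ℝ) (i : ℕ), |tailL θ i v| ≤ R v := fun v i => by
    rw [tailL_eq, abs_mul, abs_of_pos hθ]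
    exact h2 v i
  have hz : ∀ v, R v = 0 → v = 0 := by
    intro v hv
    have h3 : ∀ i, tailL θ i v = 0 := fun i => by
      have := h2' v i
      rw [hv] at this
      exact abs_eq_zero.1 (le_antisymm this (abs_nonneg _))
    ext j
    have h4 : tailL θ j v - tailL θ (j + 1) v = θ * v j := by
      have h5 : tailL θ j - tailL θ (j + 1) = θ • Finsupp.lapply j := by
        refine Finsupp.lhom_ext fun k c => ?_
        have h6 : Finsupp.single k c = c • Finsupp.single k (1 : ℝ) := by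
          rw [Finsupp.smul_single, smul_eq_mul, mul_one]
        rw [h6, map_smul, map_smul]
        congr 1
        rw [LinearMap.sub_apply, tailL_single, tailL_single, LinearMap.smul_apply,
          Finsupp.lapply_apply, smul_eq_mul, Finsupp.single_apply]
        by_cases hk : k = j
        · subst hk; simp
        · by_cases hk2 : j ≤ k
          · have : j + 1 ≤ k := by omega
            simp [hk, hk2, this]
          · have : ¬ j + 1 ≤ k := by omega
            simp [hk, hk2, this]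
      have h7 := LinearMap.congr_fun h5 v
      simpa using h7
    rw [h3, h3, sub_zero] at h4
    have h8 : v j = 0 := by
      rcases mul_eq_zero.1 h4.symm with h | h
      · exact absurd h hθ.ne'
      · exact h
    simpa using h8
  letI iN : Norm (ℕ →₀ ℝ) := ⟨R⟩
  have core : NormedSpace.Core ℝ (ℕ →₀ ℝ) :=
    { norm_nonneg := fun x => apply_nonneg R x
      norm_smul := fun c x => map_smul_eq_mul R c x
      norm_triangle := fun x y => map_add_le_add R x y
      norm_eq_zero_iff := fun x => ⟨fun h => hz x h, fun h => by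
        subst h
        exact map_zero R⟩ }
  letI iG : NormedAddCommGroup (ℕ →₀ ℝ) := NormedAddCommGroup.ofCore core
  letI iS : NormedSpace ℝ (ℕ →₀ ℝ) := NormedSpace.ofCore core
  refine ⟨ℕ →₀ ℝ, iG, iS, ?_, ?_⟩
  · intro S _ _ C f t ht
    exact hM S C f t ht
  · intro N
    refine ⟨fun j => Finsupp.single (j : ℕ) 1, fun i => LinearMap.mkContinuous (tailL θ i) 1 ?_,
      ?_, ?_, ?_⟩
    · intro v
      rw [one_mul]
      exact h2' v i
    · intro j
      exact h1 j
    · intro i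
      exact LinearMap.mkContinuous_norm_le _ zero_le_one _
    · intro i j
      show tailL θ i (Finsupp.single (j : ℕ) 1) = _
      rw [tailL_single]
      simp only [Fin.le_def]

/-- The main theorem for normed spaces implies the version for seminorms. -/
theorem bridge24
    (main : ∀ (X : Type) [NormedAddCommGroup X] [NormedSpace ℝ X] (p K : ℝ), 1 < p → 0 < K →
      MarkovType X p K → ∀ θ : ℝ, 0 < θ → ¬ ∀ N, HasJames X θ N)
    (p K θ : ℝ) (hp : 1 < p) (hK : 0 < K) (hθ : 0 < θ) :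
    ∃ N : ℕ, ¬ ∃ ρ : Seminorm ℝ (ℕ →₀ ℝ), (∀ j, ρ (Finsupp.single j 1) ≤ 1) ∧
      (∀ v : ℕ →₀ ℝ, ∀ i < N, θ * |∑ j ∈ v.support.filter (i ≤ ·), v j| ≤ ρ v) ∧
      SemiMT ρ p K := by
  by_contra hcon
  push Not at hcon
  choose ρ h1 h2 h3 using hcon
  obtain ⟨R, hR⟩ := b24_ultra ρ h1
  have hR1 : ∀ j, R (Finsupp.single j 1) ≤ 1 := fun j =>
    le_of_tendsto' (hR _) fun N => h1 N j
  have hR2 : ∀ v : ℕ →₀ ℝ, ∀ i : ℕ, θ * |∑ j ∈ v.support.filter (i ≤ ·), v j| ≤ R v := by
    intro v i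
    refine ge_of_tendsto (hR v) ?_
    have h4 : ∀ᶠ t in (hyperfilter ℕ : Filter ℕ), i < t := by
      have h5 : ∀ᶠ t in (cofinite : Filter ℕ), i < t := by
        rw [Nat.cofinite_eq_atTop]
        exact Filter.eventually_gt_atTop i
      exact hyperfilter_le_cofinite h5
    filter_upwards [h4] with N hN
    exact h2 N v i hN
  have hR3 : SemiMT R p K := b24_mt ρ R hR (by linarith) h3
  obtain ⟨X, i1, i2, hX, hJ⟩ := b24_space R hθ hR1 hR2 hR3
  exact main X p K hp hK hX θ hθ hJ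

end P125F
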