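import Vale.Agent.P125F.Edge

/-! # Piece CH: the chain inequality -/

namespace P125F
open Finset P125S

theorem ch21_sg (s : Bool) (l : ℕ) : sg (!s) l = -sg s l := by
  cases s <;> simp [sg]

/-- reversed move, opposite increment -/
theorem ch21_anti (d M m : ℕ) (Φ Ψ : Fin ((M + 1) * (2 * d)) ↪o Fin m) (e : Mv d) (k : Fin m) :
    inc d M m Ψ Φ (!e.1, e.2.2, e.2.1) k = -inc d M m Φ Ψ e k := by
  classical
  unfold inc
  have hiff : Comp d M m Ψ Φ (!e.1, e.2.2, e.2.1) ↔ Comp d M m Φ Ψ e := by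
    unfold Comp
    simp only [Bool.not_not]
    exact ⟨fun h => h.symm, fun h => h.symm⟩
  by_cases h : Comp d M m Φ Ψ e
  · rw [if_pos h, if_pos (hiff.2 h), ← Finset.sum_neg_distrib]
    refine Finset.sum_congr rfl fun l _ => ?_
    have h1 : Φ (edge d M e.1 e.2.1 l) = Ψ (edge d M (!e.1) e.2.2 l) := by
      have := congrArg (fun f : Fin (2 * M) ↪o Fin m => f l) h
      simpa using this
    rw [h1]
    split_ifs
    · exact ch21_sg _ _
    · simp
  · rw [if_neg h, if_neg (fun h' => h (hiff.1 h'))]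
    simp

theorem ch21_coef {M m : ℕ} (t : Fin (2 * M) ↪o Fin m) (c : Fin (2 * M) → ℤ)
    (hc : ∀ l, |c l| ≤ 1) (j : Fin m) :
    |∑ l : Fin (2 * M), if t l = j then c l else 0| ≤ 1 := by
  by_cases h : ∃ l, t l = j
  · obtain ⟨l, hl⟩ := h
    rw [sum_eq_single l]
    · rw [if_pos hl]
      exact hc l
    · intro b _ hb
      rw [if_neg]
      intro hbj
      exact hb (t.injective (hbj.trans hl.symm))
    · intro h
      exact absurd (mem_univ _) h
  · rw [sum_eq_zero]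
    · simp
    · intro l _
      rw [if_neg (fun hl => h ⟨l, hl⟩)]

theorem ch21_sg_abs (s : Bool) (l : ℕ) : |sg s l| ≤ 1 := by
  cases s <;> simp [sg, abs_pow, abs_neg]

theorem ch21_inc_abs (d M m : ℕ) (Φ Ψ : Fin ((M + 1) * (2 * d)) ↪o Fin m) (e : Mv d) (k : Fin m) :
    |inc d M m Φ Ψ e k| ≤ 1 := by
  classical
  unfold inc
  split_ifs
  · exact ch21_coef ((edge d M e.1 e.2.1).trans Φ) (fun l => sg e.1 l)
      (fun l => ch21_sg_abs _ _) k
  · simp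

theorem ch21_G {X : Type} [NormedAddCommGroup X] [NormedSpace ℝ X] (d M m : ℕ)
    (y : Fin m → X) (A : ℝ)
    (hG : ∀ t : Fin (2 * M) ↪o Fin m,
      ‖∑ j, ((∑ l : Fin (2 * M), if t l = j then (-1 : ℤ) ^ (l : ℕ) else 0 : ℤ) : ℝ) • y j‖ ≤ A)
    (Φ Ψ : Fin ((M + 1) * (2 * d)) ↪o Fin m) (e : Mv d) (h : Comp d M m Φ Ψ e) :
    ‖∑ j, ((inc d M m Φ Ψ e j : ℤ) : ℝ) • y j‖ ≤ A := by
  classical
  have h1 := hG ((edge d M e.1 e.2.1).trans Φ)
  obtain ⟨s, j0, j1⟩ := e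
  cases s
  · have h2 : ∀ j, inc d M m Φ Ψ (false, j0, j1) j
        = -(∑ l : Fin (2 * M), if ((edge d M false j0).trans Φ) l = j then (-1 : ℤ) ^ (l : ℕ)
          else 0) := by
      intro j
      unfold inc
      rw [if_pos h, ← Finset.sum_neg_distrib]
      refine Finset.sum_congr rfl fun l _ => ?_
      simp only [RelEmbedding.trans_apply, sg]
      split_ifs <;> simp_all
    have h3 : ∑ j, ((inc d M m Φ Ψ (false, j0, j1) j : ℤ) : ℝ) • y j
        = -(∑ j, ((∑ l : Fin (2 * M), if ((edge d M false j0).trans Φ) l = j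
          then (-1 : ℤ) ^ (l : ℕ) else 0 : ℤ) : ℝ) • y j) := by
      rw [← Finset.sum_neg_distrib]
      refine Finset.sum_congr rfl fun j _ => ?_
      rw [h2 j, Int.cast_neg, neg_smul]
    rw [h3, norm_neg]
    exact h1
  · have h2 : ∀ j, inc d M m Φ Ψ (true, j0, j1) j
        = ∑ l : Fin (2 * M), if ((edge d M true j0).trans Φ) l = j then (-1 : ℤ) ^ (l : ℕ)
          else 0 := by
      intro j
      unfold inc
      rw [if_pos h]
      refine Finset.sum_congr rfl fun l _ => ?_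
      simp only [RelEmbedding.trans_apply, sg]
      split_ifs <;> simp_all
    have h3 : ∑ j, ((inc d M m Φ Ψ (true, j0, j1) j : ℤ) : ℝ) • y j
        = ∑ j, ((∑ l : Fin (2 * M), if ((edge d M true j0).trans Φ) l = j
          then (-1 : ℤ) ^ (l : ℕ) else 0 : ℤ) : ℝ) • y j := by
      refine Finset.sum_congr rfl fun j _ => ?_
      rw [h2 j]
    rw [h3]
    exact h1

theorem ch21_pw_nonneg {V E : Type} [Fintype V] [Fintype E] (L : LChain V E) {n : ℕ}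
    (ω : Fin (n + 1) → V) (η : Fin n → E) : 0 ≤ L.pw ω η :=
  mul_nonneg (L.w_nonneg _) (Finset.prod_nonneg fun _ _ =>
    div_nonneg (L.J_nonneg _ _ _) (L.w_nonneg _))

theorem ch21_pw_ne {V E : Type} [Fintype V] [Fintype E] (L : LChain V E) {n : ℕ}
    (ω : Fin (n + 1) → V) (η : Fin n → E) (h : L.pw ω η ≠ 0) (i : Fin n) :
    L.J (ω i.castSucc) (ω i.succ) (η i) ≠ 0 := by
  intro h0
  apply h
  unfold LChain.pw
  rw [Finset.prod_eq_zero (Finset.mem_univ i) (by rw [h0, zero_div]), mul_zero]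

/-- [CH] from JC, PW, CMB, LAB (`0 < K` is needed) -/
theorem chain_ineq21
    (hjc : ∀ (d M : ℕ), 1 ≤ d → ∀ {ε : ℝ}, 0 < ε →
      ∃ (m : ℕ) (L : LChain (Fin ((M + 1) * (2 * d)) ↪o Fin m) (Mv d)),
        (∀ e, L.inv e = (!e.1, e.2.2, e.2.1)) ∧
        (∀ Φ Ψ e, L.J Φ Ψ e ≠ 0 → Comp d M m Φ Ψ e) ∧
        (1 - ε ≤ ∑ Φ, ∑ Ψ, ∑ e, L.J Φ Ψ e) ∧
        (∀ Φ (j : Fin d), ∑ Ψ, ∑ e, (if e.2.1 = j then L.J Φ Ψ e else 0) ≤ L.w Φ / d))
    (hpw : ∀ {V : Type} [Fintype V] (d : ℕ), 1 ≤ d → ∀ {ε : ℝ}, 0 ≤ ε →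
      ∀ (L : LChain V (Mv d)), (1 - ε ≤ ∑ x, ∑ y, ∑ e, L.J x y e) →
      (∀ x (j : Fin d), ∑ y, ∑ e : Mv d, (if e.2.1 = j then L.J x y e else 0) ≤ L.w x / d) →
      ∀ (n : ℕ), 1 - n * ε - n / d ≤ ∑ ω : Fin (n + 1) → V, ∑ η : Fin n → Mv d,
        (if ∀ i j : Fin n, (j : ℕ) = i + 1 → (η j).2.1 ≠ (η i).2.2 then L.pw ω η else 0))
    (hcmb : ∀ (d M m n : ℕ), 1 ≤ n → 2 * n + 3 ≤ M →
      ∀ (ω : Fin (n + 1) → (Fin ((M + 1) * (2 * d)) ↪o Fin m)) (η : Fin n → Mv d),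
      (∀ i, Comp d M m (ω i.castSucc) (ω i.succ) (η i)) →
      (∀ i j : Fin n, (j : ℕ) = i + 1 → (η j).2.1 ≠ (η i).2.2) →
      Good n (M - 2 * n - 2) (List.ofFn (fun k : Fin m =>
        ∑ i : Fin n, inc d M m (ω i.castSucc) (ω i.succ) (η i) k)))
    (hlab : ∀ {X : Type} [NormedAddCommGroup X] [NormedSpace ℝ X] {p K : ℝ}, 0 < p →
      MarkovType X p K → ∀ {V E : Type} [Fintype V] [Fintype E] [DecidableEq V] [DecidableEq E]
      (L : LChain V E) {m : ℕ} (g : V → V → E → Fin m → ℤ),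
      (∀ x y e j, g y x (L.inv e) j = -g x y e j) → ∀ (y : Fin m → X) (n : ℕ), 1 ≤ n →
      ∑ ω : Fin (n + 1) → V, ∑ η : Fin n → E, L.pw ω η *
        ‖∑ j, ((∑ i : Fin n, g (ω i.castSucc) (ω i.succ) (η i) j : ℤ) : ℝ) • y j‖ ^ p
      ≤ K ^ p * n * ∑ x, ∑ x', ∑ e, L.J x x' e * ‖∑ j, (g x x' e j : ℝ) • y j‖ ^ p)
    (n M : ℕ) (hn : 1 ≤ n) (hM : 2 * n + 3 ≤ M) :
    ∃ m : ℕ, ∀ (X : Type) [NormedAddCommGroup X] [NormedSpace ℝ X] (p K : ℝ), 0 < p → 0 < K →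
      MarkovType X p K → ∀ (y : Fin m → X) (A B : ℝ), 0 ≤ A → 0 ≤ B →
      (∀ t : Fin (2 * M) ↪o Fin m,
        ‖∑ j, ((∑ l : Fin (2 * M), if t l = j then (-1 : ℤ) ^ (l : ℕ) else 0 : ℤ) : ℝ) • y j‖ ≤ A) →
      (∀ a : Fin m → ℤ, (∀ j, |a j| ≤ (n : ℤ)) → Good n (M - 2 * n - 2) (List.ofFn a) →
        B ≤ ‖∑ j, (a j : ℝ) • y j‖) →
      B ^ p / 2 ≤ K ^ p * n * A ^ p := by
  classical
  have hn0 : (0 : ℝ) < n := by exact_mod_cast hn
  obtain ⟨m, L, hinv, hcomp, hmass, hrow⟩ := hjc (4 * n) M (by omega)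
    (ε := 1 / (4 * n)) (by positivity)
  refine ⟨m, ?_⟩
  intro X _ _ p K hp hK hX y A B hA hB hG hBl
  have h1 := hlab hp hX L (inc (4 * n) M m) (by
    intro Φ Ψ e k
    rw [hinv e]
    exact ch21_anti (4 * n) M m Φ Ψ e k) y n hn
  have h2 := hpw (4 * n) (by omega) (ε := 1 / (4 * n)) (by positivity) L hmass hrow n
  have h3 : (1 : ℝ) / 2 ≤ ∑ ω : Fin (n + 1) → (Fin ((M + 1) * (2 * (4 * n))) ↪o Fin m),
      ∑ η : Fin n → Mv (4 * n),
        (if ∀ i j : Fin n, (j : ℕ) = i + 1 → (η j).2.1 ≠ (η i).2.2 then L.pw ω η else 0) := by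
    refine le_trans (le_of_eq ?_) h2
    push_cast
    field_simp
    norm_num
  have hBp : 0 ≤ B ^ p := Real.rpow_nonneg hB p
  have hAp : 0 ≤ A ^ p := Real.rpow_nonneg hA p
  have hKp : 0 ≤ K ^ p := Real.rpow_nonneg hK.le p
  have h4 : B ^ p / 2 ≤ ∑ ω : Fin (n + 1) → (Fin ((M + 1) * (2 * (4 * n))) ↪o Fin m),
      ∑ η : Fin n → Mv (4 * n), L.pw ω η *
        ‖∑ j, ((∑ i : Fin n, inc (4 * n) M m (ω i.castSucc) (ω i.succ) (η i) j : ℤ) : ℝ) •
          y j‖ ^ p := by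
    calc B ^ p / 2 = (1 / 2) * B ^ p := by ring
      _ ≤ (∑ ω : Fin (n + 1) → (Fin ((M + 1) * (2 * (4 * n))) ↪o Fin m),
          ∑ η : Fin n → Mv (4 * n),
          (if ∀ i j : Fin n, (j : ℕ) = i + 1 → (η j).2.1 ≠ (η i).2.2 then L.pw ω η else 0))
            * B ^ p := mul_le_mul_of_nonneg_right h3 hBp
      _ ≤ _ := by
          rw [Finset.sum_mul]
          refine Finset.sum_le_sum fun ω _ => ?_
          rw [Finset.sum_mul]
          refine Finset.sum_le_sum fun η _ => ?_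
          have hpw0 := ch21_pw_nonneg L ω η
          by_cases hb : ∀ i j : Fin n, (j : ℕ) = i + 1 → (η j).2.1 ≠ (η i).2.2
          · rw [if_pos hb]
            by_cases hz : L.pw ω η = 0
            · rw [hz, zero_mul, zero_mul]
            · refine mul_le_mul_of_nonneg_left ?_ hpw0
              refine Real.rpow_le_rpow hB ?_ hp.le
              refine hBl _ ?_ (hcmb (4 * n) M m n hn hM ω η
                (fun i => hcomp _ _ _ (ch21_pw_ne L ω η hz i)) hb)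
              intro k
              calc |∑ i : Fin n, inc (4 * n) M m (ω i.castSucc) (ω i.succ) (η i) k|
                  ≤ ∑ i : Fin n, |inc (4 * n) M m (ω i.castSucc) (ω i.succ) (η i) k| :=
                    Finset.abs_sum_le_sum_abs _ _
                _ ≤ ∑ _i : Fin n, (1 : ℤ) := Finset.sum_le_sum fun i _ => ch21_inc_abs _ _ _ _ _ _ _
                _ = (n : ℤ) := by simp
          · rw [if_neg hb, zero_mul]
            exact mul_nonneg hpw0 (Real.rpow_nonneg (norm_nonneg _) p)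
  refine h4.trans (h1.trans ?_)
  have h5 : ∑ x, ∑ x', ∑ e, L.J x x' e *
      ‖∑ j, ((inc (4 * n) M m x x' e j : ℤ) : ℝ) • y j‖ ^ p ≤ A ^ p := by
    calc ∑ x, ∑ x', ∑ e, L.J x x' e *
          ‖∑ j, ((inc (4 * n) M m x x' e j : ℤ) : ℝ) • y j‖ ^ p
        ≤ ∑ x, ∑ x', ∑ e, L.J x x' e * A ^ p := by
          refine Finset.sum_le_sum fun x _ => Finset.sum_le_sum fun x' _ =>
            Finset.sum_le_sum fun e _ => ?_
          by_cases hz : L.J x x' e = 0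
          · rw [hz, zero_mul, zero_mul]
          · refine mul_le_mul_of_nonneg_left ?_ (L.J_nonneg _ _ _)
            exact Real.rpow_le_rpow (norm_nonneg _)
              (ch21_G (4 * n) M m y A hG x x' e (hcomp _ _ _ hz)) hp.le
      _ = (∑ x, ∑ x', ∑ e, L.J x x' e) * A ^ p := by
          simp only [Finset.sum_mul]
      _ ≤ 1 * A ^ p := by
          refine mul_le_mul_of_nonneg_right ?_ hAp
          rw [← L.w_sum]
          exact Finset.sum_le_sum fun x _ => L.sub x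
      _ = A ^ p := one_mul _
  calc K ^ p * n * ∑ x, ∑ x', ∑ e, L.J x x' e *
        ‖∑ j, ((inc (4 * n) M m x x' e j : ℤ) : ℝ) • y j‖ ^ p
      ≤ K ^ p * n * A ^ p := mul_le_mul_of_nonneg_left h5 (by positivity)

end P125F
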