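import Vale.Agent.P125F.Edge
import Vale.Agent.P125F.Comb9

/-! # CMB: from prefix sums to the block structure -/

namespace P125F
open Finset P125S

theorem take_seg12 (l : List ℤ) {p q : ℕ} (h : p ≤ q) :
    l.take p ++ (l.take q).drop p = l.take q := by
  have h1 := List.take_append_drop p (l.take q)
  rw [List.take_take, min_eq_left h] at h1
  exact h1

theorem sum_seg12 (l : List ℤ) {p q : ℕ} (h : p ≤ q) :
    ((l.take q).drop p).sum = (l.take q).sum - (l.take p).sum := by
  have h1 := congrArg List.sum (take_seg12 l h)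
  rw [List.sum_append] at h1
  linarith

theorem good_of_take12 (n m a b : ℕ) (hab : a + b = n) (l : List ℤ) (Z : ℕ → ℕ)
    (hZ : ∀ k, k < 2 * m → Z k ≤ Z (k + 1))
    (he : ∀ k, k ≤ m → (l.take (Z (2 * k))).sum = -(a : ℤ))
    (ho : ∀ k, k < m → (l.take (Z (2 * k + 1))).sum = (b : ℤ)) (htot : l.sum = 0) :
    Good n m l := by
  refine ⟨b, a, by omega, l.take (Z 0),
    (List.range m).map (fun k => ((l.take (Z (2 * k + 1))).drop (Z (2 * k)),
      (l.take (Z (2 * k + 2))).drop (Z (2 * k + 1)))), l.drop (Z (2 * m)), by simp, ?_, ?_, ?_, ?_⟩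
  · have := he 0 (by omega)
    simpa using this
  · intro c hc
    rw [List.mem_map] at hc
    obtain ⟨k, hk, rfl⟩ := hc
    rw [List.mem_range] at hk
    have h0 := he k (by omega)
    have h1 := ho k hk
    have h2 := he (k + 1) (by omega)
    rw [show 2 * (k + 1) = 2 * k + 2 by ring] at h2
    have e1 := sum_seg12 l (hZ (2 * k) (by omega))
    have e2 := sum_seg12 l (hZ (2 * k + 1) (by omega))
    constructor
    · simp only
      rw [e1, h1, h0]
      have : ((a : ℤ) + b = n) := by exact_mod_cast hab
      linarith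
    · simp only
      rw [e2, h2, h1]
      have : ((a : ℤ) + b = n) := by exact_mod_cast hab
      linarith
  · have h1 := congrArg List.sum (List.take_append_drop (Z (2 * m)) l)
    rw [List.sum_append, he m le_rfl, htot] at h1
    linarith
  · have key : ∀ k, k ≤ m → l.take (Z 0) ++ (((List.range k).map
        (fun k => ((l.take (Z (2 * k + 1))).drop (Z (2 * k)),
          (l.take (Z (2 * k + 2))).drop (Z (2 * k + 1))))).map (fun c => c.1 ++ c.2)).flatten
        = l.take (Z (2 * k)) := by
      intro k
      induction k with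
      | zero => intro _; simp
      | succ k ih =>
        intro hk
        rw [List.range_succ, List.map_append, List.map_append, List.flatten_append,
          ← List.append_assoc, ih (by omega)]
        simp only [List.map_cons, List.map_nil, List.flatten_cons, List.flatten_nil,
          List.append_nil]
        rw [← List.append_assoc, take_seg12 l (hZ (2 * k) (by omega)),
          take_seg12 l (hZ (2 * k + 1) (by omega))]
        rfl
    rw [key m le_rfl, List.take_append_drop]

theorem good_of_prefix12 {m₀ : ℕ} (n m a b : ℕ) (hab : a + b = n) (f : Fin m₀ → ℤ) (z : ℕ → ℕ)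
    (hz : ∀ k, k < 2 * m → z k < z (k + 1))
    (he : ∀ k, k ≤ m → ∑ j : Fin m₀, (if (j : ℕ) ≤ z (2 * k) then f j else 0) = -(a : ℤ))
    (ho : ∀ k, k < m → ∑ j : Fin m₀, (if (j : ℕ) ≤ z (2 * k + 1) then f j else 0) = (b : ℤ))
    (htot : ∑ j, f j = 0) : Good n m (List.ofFn f) := by
  have h1 : ∀ x : ℕ, ((List.ofFn f).take (x + 1)).sum
      = ∑ j : Fin m₀, (if (j : ℕ) ≤ x then f j else 0) := by
    intro x
    rw [List.sum_take_ofFn, sum_filter]
    refine sum_congr rfl fun j _ => ?_
    by_cases h : (j : ℕ) ≤ x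
    · rw [if_pos h, if_pos (by omega)]
    · rw [if_neg h, if_neg (by omega)]
  refine good_of_take12 n m a b hab _ (fun k => z k + 1) (fun k hk => ?_) (fun k hk => ?_)
    (fun k hk => ?_) ?_
  · have := hz k hk
    omega
  · rw [h1]
    exact he k hk
  · rw [h1]
    exact ho k hk
  · rw [List.sum_ofFn]
    exact htot

/-- prefix sums of an alternating sequence placed at increasing labels -/
theorem alt_prefix12 (M : ℕ) (t : ℕ → ℕ) (ht : ∀ i j, i < j → j < 2 * M → t i < t j) (x : ℕ) :
    ∑ l ∈ range (2 * M), (if t l ≤ x then (-1 : ℤ) ^ l else 0)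
      = if ∃ i, i < M ∧ t (2 * i) ≤ x ∧ x < t (2 * i + 1) then 1 else 0 := by
  classical
  induction M with
  | zero => simp
  | succ M ih =>
    have ih' := ih (fun i j hij hj => ht i j hij (by omega))
    rw [show 2 * (M + 1) = 2 * M + 1 + 1 by ring, sum_range_succ, sum_range_succ, ih']
    have hp : ((-1 : ℤ)) ^ (2 * M) = 1 := by rw [pow_mul]; norm_num
    have hp1 : ((-1 : ℤ)) ^ (2 * M + 1) = -1 := by rw [pow_succ, hp]; norm_num
    rw [hp, hp1]
    have hlt : t (2 * M) < t (2 * M + 1) := ht _ _ (by omega) (by omega)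
    by_cases h1 : t (2 * M) ≤ x
    · have hno : ¬ ∃ i, i < M ∧ t (2 * i) ≤ x ∧ x < t (2 * i + 1) := by
        rintro ⟨i, hi, -, h3⟩
        have h4 : t (2 * i + 1) < t (2 * M) := ht _ _ (by omega) (by omega)
        omega
      rw [if_neg hno, if_pos h1]
      by_cases h2 : t (2 * M + 1) ≤ x
      · have hno2 : ¬ ∃ i, i < M + 1 ∧ t (2 * i) ≤ x ∧ x < t (2 * i + 1) := by
          rintro ⟨i, hi, h3, h4⟩
          rcases Nat.lt_or_ge i M with h5 | h5
          · exact hno ⟨i, h5, h3, h4⟩
          · have : i = M := by omega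
            subst this
            omega
        rw [if_pos h2, if_neg hno2]
        norm_num
      · rw [if_neg h2, if_pos ⟨M, by omega, h1, by omega⟩]
        norm_num
    · have h2 : ¬ t (2 * M + 1) ≤ x := by omega
      rw [if_neg h1, if_neg h2, add_zero, add_zero]
      by_cases h3 : ∃ i, i < M ∧ t (2 * i) ≤ x ∧ x < t (2 * i + 1)
      · obtain ⟨i, hi, h4⟩ := h3
        rw [if_pos ⟨i, hi, h4⟩, if_pos ⟨i, by omega, h4⟩]
      · rw [if_neg h3, if_neg]
        rintro ⟨i, hi, h4, h5⟩
        rcases Nat.lt_or_ge i M with h6 | h6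
        · exact h3 ⟨i, h6, h4, h5⟩
        · have : i = M := by omega
          subst this
          omega

end P125F
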