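import Vale.Agent.P125F.Edge
import Vale.Agent.P125F.Comb9

/-! CMB from comb9 (helper9) -/

namespace P125F.Cmb9

open Finset P125F P125F.Comb9

def ext (P m : ℕ) (Φ : Fin P ↪o Fin m) (a : ℕ) : ℕ := if h : a < P then (Φ ⟨a, h⟩ : ℕ) else 0

theorem ext_incr (d M m : ℕ) (Φ : Fin ((M + 1) * (2 * d)) ↪o Fin m) :
    Incr d M (ext _ m Φ) := by
  intro a b hab hb
  have ha : a < (M + 1) * (2 * d) := by omega
  unfold ext
  rw [dif_pos ha, dif_pos hb]
  have : Φ ⟨a, ha⟩ < Φ ⟨b, hb⟩ := Φ.strictMono (show (⟨a, ha⟩ : Fin _) < ⟨b, hb⟩ from hab)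
  exact this

theorem edge_ext (d M m : ℕ) (Φ : Fin ((M + 1) * (2 * d)) ↪o Fin m) (s : Bool) (j : Fin d)
    (l : Fin (2 * M)) : ((Φ (edge d M s j l) : Fin m) : ℕ) = ext _ m Φ (lab d s j l) := by
  have h := edge_val d M s j l
  have h2 : lab d s j l < (M + 1) * (2 * d) := by rw [← h]; exact (edge d M s j l).isLt
  unfold ext
  rw [dif_pos h2]
  congr 2
  exact Fin.ext h

theorem lab_te (d j k : ℕ) : lab d true j (2 * k) = Pp d (k + 1) j := by
  unfold lab pos Pp
  have h1 : 2 * k / 2 = k := by omega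
  have h2 : 2 * k % 2 = 0 := by omega
  simp only [if_true, h1, h2]
  ring

theorem lab_to (d j k : ℕ) : lab d true j (2 * k + 1) = Qp d (k + 1) j := by
  unfold lab pos Qp
  have h1 : (2 * k + 1) / 2 = k := by omega
  have h2 : (2 * k + 1) % 2 = 1 := by omega
  simp only [if_true, h1, h2]
  ring

theorem lab_fe (d j k : ℕ) : lab d false j (2 * k) = Qp d k j := by
  unfold lab pos Qp
  have h1 : (2 * k + 1) / 2 = k := by omega
  have h2 : (2 * k + 1) % 2 = 1 := by omega
  simp only [Bool.false_eq_true, if_false, h1, h2]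
  ring

theorem lab_fo (d j k : ℕ) : lab d false j (2 * k + 1) = Pp d (k + 1) j := by
  unfold lab pos Pp
  have h1 : (2 * k + 1 + 1) / 2 = k + 1 := by omega
  have h2 : (2 * k + 1 + 1) % 2 = 0 := by omega
  simp only [Bool.false_eq_true, if_false, h1, h2]
  ring

theorem comp_step (d M m : ℕ) (Φ Ψ : Fin ((M + 1) * (2 * d)) ↪o Fin m) (e : Mv d)
    (h : Comp d M m Φ Ψ e) :
    Step d M (ext _ m Φ) (ext _ m Ψ) e.1 e.2.1 e.2.2 := by
  have hl : ∀ l : Fin (2 * M), ext _ m Φ (lab d e.1 e.2.1 l) = ext _ m Ψ (lab d (!e.1) e.2.2 l) := by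
    intro l
    rw [← edge_ext, ← edge_ext]
    have := DFunLike.congr_fun h l
    simp only [RelEmbedding.coe_trans, Function.comp_apply] at this
    rw [this]
  intro i h1 h2
  obtain ⟨k, rfl⟩ : ∃ k, i = k + 1 := ⟨i - 1, by omega⟩
  have a0 := hl ⟨2 * k, by omega⟩
  have a1 := hl ⟨2 * k + 1, by omega⟩
  simp only [Nat.add_sub_cancel] at *
  refine ⟨fun hs => ?_, fun hs => ?_⟩
  · rw [hs] at a0 a1
    simp only [Bool.not_true, lab_te, lab_to, lab_fe, lab_fo] at a0 a1
    exact ⟨a0.symm, a1.symm⟩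
  · rw [hs] at a0 a1
    simp only [Bool.not_false, lab_te, lab_to, lab_fe, lab_fo] at a0 a1
    exact ⟨a0.symm, a1.symm⟩

theorem sum_pairs (f : ℕ → ℤ) (M : ℕ) :
    ∑ l ∈ range (2 * M), f l = ∑ k ∈ range M, (f (2 * k) + f (2 * k + 1)) := by
  induction M with
  | zero => simp
  | succ M ih =>
    rw [show 2 * (M + 1) = 2 * M + 1 + 1 by ring, sum_range_succ, sum_range_succ, ih,
      sum_range_succ]
    ring

theorem arcs (A B : ℕ → ℕ) (x M : ℕ) (hAB : ∀ k, k < M → A k ≤ B k)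
    (hd : ∀ k k', k < k' → k' < M → B k ≤ A k') :
    ∑ k ∈ range M, ((if A k ≤ x then (1 : ℤ) else 0) + (if B k ≤ x then (-1 : ℤ) else 0))
      = if ∃ k, k < M ∧ A k ≤ x ∧ x < B k then 1 else 0 := by
  classical
  have h1 : ∀ k ∈ range M, ((if A k ≤ x then (1 : ℤ) else 0) + (if B k ≤ x then (-1 : ℤ) else 0))
      = if A k ≤ x ∧ x < B k then 1 else 0 := by
    intro k hk
    have := hAB k (mem_range.mp hk)
    by_cases c1 : A k ≤ x
    · by_cases c2 : B k ≤ x
      · rw [if_pos c1, if_pos c2, if_neg (by omega)]; norm_num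
      · rw [if_pos c1, if_neg c2, if_pos ⟨c1, by omega⟩]; norm_num
    · rw [if_neg c1, if_neg (by omega), if_neg (by omega)]; norm_num
  rw [sum_congr rfl h1]
  split_ifs with h
  · obtain ⟨k, hk, hx1, hx2⟩ := h
    rw [sum_eq_single k]
    · rw [if_pos ⟨hx1, hx2⟩]
    · intro k' hk' hne
      rw [if_neg]
      rintro ⟨y1, y2⟩
      rcases Nat.lt_or_gt_of_ne hne with h | h
      · have := hd k' k h hk
        omega
      · have := hd k k' h (mem_range.mp hk')
        omega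
    · intro h'
      exact absurd (mem_range.mpr hk) h'
  · refine sum_eq_zero ?_
    intro k hk
    rw [if_neg]
    rintro ⟨y1, y2⟩
    exact h ⟨k, mem_range.mp hk, y1, y2⟩

/-- prefix sum -/
def pre {m : ℕ} (c : Fin m → ℤ) (x : ℕ) : ℤ := ∑ k : Fin m, if (k : ℕ) ≤ x then c k else 0

theorem pre_inc (d M m : ℕ) (Φ Ψ : Fin ((M + 1) * (2 * d)) ↪o Fin m) (e : Mv d)
    (h : Comp d M m Φ Ψ e) (x : ℕ) :
    pre (inc d M m Φ Ψ e) x = gfun d M (ext _ m Φ) e.1 e.2.1 x := by
  classical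
  have hI := ext_incr d M m Φ
  have hj := e.2.1.isLt
  have e1 : pre (inc d M m Φ Ψ e) x =
      ∑ l : Fin (2 * M), if ext _ m Φ (lab d e.1 e.2.1 l) ≤ x then sg e.1 l else 0 := by
    unfold pre inc
    simp only [if_pos h]
    have : ∀ k : Fin m, (if (k : ℕ) ≤ x then
        ∑ l : Fin (2 * M), (if Φ (edge d M e.1 e.2.1 l) = k then sg e.1 l else 0) else 0)
        = ∑ l : Fin (2 * M), if Φ (edge d M e.1 e.2.1 l) = k then
          (if (k : ℕ) ≤ x then sg e.1 l else 0) else 0 := by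
      intro k
      split_ifs with hk
      · rfl
      · simp
    rw [sum_congr rfl (fun k _ => this k), sum_comm]
    refine sum_congr rfl fun l _ => ?_
    rw [sum_ite_eq univ (Φ (edge d M e.1 e.2.1 l)), if_pos (mem_univ _), edge_ext]
  rw [e1, Fin.sum_univ_eq_sum_range (fun l => if ext _ m Φ (lab d e.1 e.2.1 l) ≤ x then
    sg e.1 l else 0) (2 * M), sum_pairs]
  have sgt : ∀ k, sg true (2 * k) = 1 ∧ sg true (2 * k + 1) = -1 := by
    intro k; unfold sg; simp [pow_succ, pow_mul]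
  have sgf : ∀ k, sg false (2 * k) = -1 ∧ sg false (2 * k + 1) = 1 := by
    intro k; unfold sg; simp [pow_succ, pow_mul]
  cases hs : e.1 with
  | true =>
    unfold gfun
    rw [if_pos rfl]
    have := arcs (fun k => ext _ m Φ (Pp d (k + 1) e.2.1)) (fun k => ext _ m Φ (Qp d (k + 1) e.2.1))
      x M (fun k hk => le_of_incr hI (by unfold Pp Qp; omega) (ltQ (by omega) hj))
      (fun k k' hk hk' => le_of_incr hI (by
        have : (k + 1 + 1) * (2 * d) ≤ (k' + 1) * (2 * d) := Nat.mul_le_mul_right _ (by omega)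
        have h2 : (k + 1 + 1) * (2 * d) = (k + 1) * (2 * d) + 2 * d := by ring
        unfold Pp Qp; omega) (ltP (by omega) hj))
    simp only [lab_te, lab_to, (sgt _).1, (sgt _).2]
    rw [this]
    refine if_congr ?_ rfl rfl
    constructor
    · rintro ⟨k, hk, a, b⟩; exact ⟨k + 1, by omega, by omega, a, b⟩
    · rintro ⟨i, h1, h2, a, b⟩
      obtain ⟨k, rfl⟩ : ∃ k, i = k + 1 := ⟨i - 1, by omega⟩
      exact ⟨k, by omega, a, b⟩
  | false =>
    unfold gfun
    rw [if_neg (by decide)]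
    have := arcs (fun k => ext _ m Φ (Qp d k e.2.1)) (fun k => ext _ m Φ (Pp d (k + 1) e.2.1))
      x M (fun k hk => le_of_incr hI (by
        have h2 : (k + 1) * (2 * d) = k * (2 * d) + 2 * d := by ring
        unfold Pp Qp; omega) (ltP (by omega) hj))
      (fun k k' hk hk' => le_of_incr hI (by
        have : (k + 1) * (2 * d) ≤ k' * (2 * d) := Nat.mul_le_mul_right _ (by omega)
        unfold Pp Qp; omega) (ltQ (by omega) hj))
    simp only [lab_fe, lab_fo, (sgf _).1, (sgf _).2]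
    have e2 : ∀ k, ((if ext _ m Φ (Qp d k e.2.1) ≤ x then (-1 : ℤ) else 0) +
        (if ext _ m Φ (Pp d (k + 1) e.2.1) ≤ x then (1 : ℤ) else 0)) =
        -((if ext _ m Φ (Qp d k e.2.1) ≤ x then (1 : ℤ) else 0) +
        (if ext _ m Φ (Pp d (k + 1) e.2.1) ≤ x then (-1 : ℤ) else 0)) := by
      intro k; split_ifs <;> ring
    rw [sum_congr rfl (fun k _ => e2 k), sum_neg_distrib, this]
    by_cases hh : ∃ k, k < M ∧ ext _ m Φ (Qp d k e.2.1) ≤ x ∧ x < ext _ m Φ (Pp d (k + 1) e.2.1)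
    · rw [if_pos hh, if_pos]
      obtain ⟨k, hk, a, b⟩ := hh
      exact ⟨k + 1, by omega, by omega, by simpa using a, b⟩
    · rw [if_neg hh, if_neg]
      · norm_num
      · rintro ⟨i, h1, h2, a, b⟩
        obtain ⟨k, rfl⟩ : ∃ k, i = k + 1 := ⟨i - 1, by omega⟩
        exact hh ⟨k, by omega, by simpa using a, b⟩

theorem take_pre {m : ℕ} (c : Fin m → ℤ) (x : ℕ) :
    ((List.ofFn c).take (x + 1)).sum = pre c x := by
  rw [List.sum_take_ofFn]
  unfold pre
  rw [sum_filter]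
  refine sum_congr rfl fun k _ => ?_
  by_cases h : (k : ℕ) ≤ x
  · rw [if_pos h, if_pos (by omega)]
  · rw [if_neg h, if_neg (by omega)]

theorem seg_sum (l : List ℤ) (a b : ℕ) (h : a ≤ b) :
    ((l.drop a).take (b - a)).sum = (l.take b).sum - (l.take a).sum := by
  have : l.take b = l.take a ++ (l.drop a).take (b - a) := by
    rw [← List.take_add]
    congr 1
    omega
  rw [this, List.sum_append]
  ring

theorem good_of (l : List ℤ) (a b : ℕ) (m : ℕ) (z : ℕ → ℕ)
    (hz : ∀ k, k < 2 * m → z k < z (k + 1))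
    (he : ∀ k, k ≤ m → (l.take (z (2 * k) + 1)).sum = -(a : ℤ))
    (ho : ∀ k, k < m → (l.take (z (2 * k + 1) + 1)).sum = (b : ℤ)) (h0 : l.sum = 0) :
    Good (a + b) m l := by
  refine ⟨b, a, by omega, l.take (z 0 + 1),
    (List.range m).map (fun k =>
      ((l.drop (z (2 * k) + 1)).take (z (2 * k + 1) + 1 - (z (2 * k) + 1)),
       (l.drop (z (2 * k + 1) + 1)).take (z (2 * k + 1 + 1) + 1 - (z (2 * k + 1) + 1)))),
    l.drop (z (2 * m) + 1), ?_, ?_, ?_, ?_, ?_⟩
  · simp
  · simpa using he 0 (Nat.zero_le _)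
  · intro c hc
    obtain ⟨k, hk, rfl⟩ := List.mem_map.mp hc
    rw [List.mem_range] at hk
    have z1 := hz (2 * k) (by omega)
    have z2 := hz (2 * k + 1) (by omega)
    refine ⟨?_, ?_⟩
    · rw [seg_sum _ _ _ (by omega), ho k hk, he k (by omega)]
      push_cast; ring
    · rw [seg_sum _ _ _ (by omega), ho k hk]
      have := he (k + 1) (by omega)
      rw [show 2 * (k + 1) = 2 * k + 1 + 1 by ring] at this
      rw [this]
      push_cast; ring
  · have h1 : l.sum = (l.take (z (2 * m) + 1)).sum + (l.drop (z (2 * m) + 1)).sum := by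
      rw [← List.sum_append, List.take_append_drop]
    rw [h0, he m le_rfl] at h1
    linarith
  · have key : ∀ r, r ≤ m → l.take (z 0 + 1) ++ (((List.range r).map (fun k =>
        ((l.drop (z (2 * k) + 1)).take (z (2 * k + 1) + 1 - (z (2 * k) + 1)),
         (l.drop (z (2 * k + 1) + 1)).take (z (2 * k + 1 + 1) + 1 - (z (2 * k + 1) + 1))))).map
        (fun c => c.1 ++ c.2)).flatten = l.take (z (2 * r) + 1) := by
      intro r
      induction r with
      | zero => intro _; simp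
      | succ r ih =>
        intro hr
        have z1 := hz (2 * r) (by omega)
        have z2 := hz (2 * r + 1) (by omega)
        rw [List.range_succ, List.map_append, List.map_append, List.flatten_append,
          ← List.append_assoc, ih (by omega)]
        simp only [List.map_cons, List.map_nil, List.flatten_cons, List.flatten_nil,
          List.append_nil]
        rw [← List.append_assoc, ← List.take_add, ← Nat.add_sub_assoc (by omega)]
        have e1 : z (2 * r) + 1 + (z (2 * r + 1) + 1) - (z (2 * r) + 1) = z (2 * r + 1) + 1 := by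
          omega
        rw [e1, ← List.take_add]
        congr 1
        rw [show 2 * (r + 1) = 2 * r + 1 + 1 by ring]
        omega
    rw [key m le_rfl, List.take_append_drop]

end P125F.Cmb9

namespace P125F.Cmb9
open Finset P125F P125F.Comb9

theorem alt_of_inv {d M m lo hi : ℕ} {Φ : ℕ → ℕ} (hΦ : Incr d M Φ) {J : ℕ} (hJ : J < d)
    {F : ℕ → ℤ} {a b : ℤ} (hI : Inv d Φ J F a b lo hi) (h1 : lo + m ≤ hi) (h2 : hi + 1 ≤ M) :
    ∃ z : ℕ → ℕ, (∀ k, k < 2 * m → z k < z (k + 1)) ∧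
      (∀ k, k ≤ m → F (z (2 * k)) = -a) ∧ (∀ k, k < m → F (z (2 * k + 1)) = b) := by
  have hlow : ∀ i, ∃ x, (lo ≤ i → i ≤ hi → Φ (Pp d i J) ≤ x ∧
      x < Φ (Qp d i J) ∧ F x = -a) := by
    intro i
    by_cases h : lo ≤ i ∧ i ≤ hi
    · obtain ⟨x, hx⟩ := (hI i h.1 h.2).2
      exact ⟨x, fun _ _ => hx⟩
    · exact ⟨0, fun h1 h2 => absurd ⟨h1, h2⟩ h⟩
  choose w hw using hlow
  refine ⟨fun k => if k % 2 = 0 then w (lo + k / 2) else Φ (Qp d (lo + k / 2) J), ?_, ?_, ?_⟩
  · intro k hk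
    rcases Nat.even_or_odd' k with ⟨r, rfl | rfl⟩
    · have e1 : (2 * r) % 2 = 0 := by omega
      have e2 : ¬ (2 * r + 1) % 2 = 0 := by omega
      have e3 : 2 * r / 2 = r := by omega
      have e4 : (2 * r + 1) / 2 = r := by omega
      simp only [e1, e2, e3, e4, if_true, if_false]
      exact (hw (lo + r) (by omega) (by omega)).2.1
    · have e1 : ¬ (2 * r + 1) % 2 = 0 := by omega
      have e2 : (2 * r + 1 + 1) % 2 = 0 := by omega
      have e3 : (2 * r + 1) / 2 = r := by omega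
      have e4 : (2 * r + 1 + 1) / 2 = r + 1 := by omega
      simp only [e1, e2, e3, e4, if_true, if_false]
      refine lt_of_lt_of_le ?_ (hw (lo + (r + 1)) (by omega) (by omega)).1
      refine hΦ _ _ ?_ (ltP (by omega) hJ)
      have : (lo + (r + 1)) * (2 * d) = (lo + r) * (2 * d) + 2 * d := by ring
      unfold Pp Qp; omega
  · intro k hk
    have e1 : (2 * k) % 2 = 0 := by omega
    have e3 : 2 * k / 2 = k := by omega
    simp only [e1, e3, if_true]
    exact (hw (lo + k) (by omega) (by omega)).2.2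
  · intro k hk
    have e1 : ¬ (2 * k + 1) % 2 = 0 := by omega
    have e3 : (2 * k + 1) / 2 = k := by omega
    simp only [e1, e3, if_false]
    refine (hI (lo + k) (by omega) (by omega)).1 _ le_rfl ?_
    refine hΦ _ _ ?_ (ltP (by omega) hJ)
    have : (lo + k + 1) * (2 * d) = (lo + k) * (2 * d) + 2 * d := by ring
    unfold Pp Qp; omega

theorem step0_true {d M : ℕ} {Φ Φ' : ℕ → ℕ} {j J' : ℕ} (hj : j < d)
    (hΦ : Incr d M Φ) (hs : Step d M Φ Φ' true j J') (hM : 2 ≤ M) :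
    Inv d Φ' J' (gfun d M Φ true j) 0 1 1 (M - 1) := by
  intro i h1 h2
  have e1 := (hs (i + 1) (by omega) (by omega)).1 rfl
  have e0 := (hs i (by omega) (by omega)).1 rfl
  simp only [Nat.add_sub_cancel] at e1
  have hmul : (i + 1) * (2 * d) = i * (2 * d) + 2 * d := by ring
  refine ⟨?_, ?_⟩
  · intro x hx1 hx2
    rw [e1.1] at hx1
    rw [e1.2] at hx2
    unfold gfun
    rw [if_pos rfl, if_pos ⟨i + 1, by omega, by omega, hx1, hx2⟩]
  · rw [e0.2, e1.1]
    refine ⟨Φ (Qp d i j), le_rfl, hΦ _ _ (by unfold Pp Qp; omega) (ltP (by omega) hj), ?_⟩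
    unfold gfun
    rw [if_pos rfl, if_neg, neg_zero]
    rintro ⟨i', g1, g2, g3, g4⟩
    rcases Nat.lt_or_ge i i' with h | h
    · have : Φ (Pp d (i + 1) j) ≤ Φ (Pp d i' j) := by
        refine le_of_incr hΦ ?_ (ltP g2 hj)
        have : (i + 1) * (2 * d) ≤ i' * (2 * d) := Nat.mul_le_mul_right _ h
        unfold Pp; omega
      have h3 : Φ (Qp d i j) < Φ (Pp d (i + 1) j) :=
        hΦ _ _ (by unfold Pp Qp; omega) (ltP (by omega) hj)
      omega
    · have : Φ (Qp d i' j) ≤ Φ (Qp d i j) := by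
        refine le_of_incr hΦ ?_ (ltQ (by omega) hj)
        have : i' * (2 * d) ≤ i * (2 * d) := Nat.mul_le_mul_right _ h
        unfold Qp; omega
      omega

theorem step0_false {d M : ℕ} {Φ Φ' : ℕ → ℕ} {j J' : ℕ} (hj : j < d)
    (hΦ : Incr d M Φ) (hs : Step d M Φ Φ' false j J') (hM : 2 ≤ M) :
    Inv d Φ' J' (gfun d M Φ false j) 1 0 1 (M - 1) := by
  intro i h1 h2
  obtain ⟨k, rfl⟩ : ∃ k, i = k + 1 := ⟨i - 1, by omega⟩
  have e1 := (hs (k + 1 + 1) (by omega) (by omega)).2 rfl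
  have e0 := (hs (k + 1) (by omega) (by omega)).2 rfl
  simp only [Nat.add_sub_cancel] at e1 e0
  have hmul : (k + 1) * (2 * d) = k * (2 * d) + 2 * d := by ring
  refine ⟨?_, ?_⟩
  · intro x hx1 hx2
    rw [e0.2] at hx1
    rw [e1.1] at hx2
    unfold gfun
    rw [if_neg (by decide), if_neg]
    rintro ⟨i', g1, g2, g3, g4⟩
    rcases Nat.lt_or_ge (k + 1) i' with h | h
    · have : Φ (Qp d (k + 1) j) ≤ Φ (Qp d (i' - 1) j) := by
        refine le_of_incr hΦ ?_ (ltQ (by omega) hj)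
        have : (k + 1) * (2 * d) ≤ (i' - 1) * (2 * d) := Nat.mul_le_mul_right _ (by omega)
        unfold Qp; omega
      omega
    · have : Φ (Pp d i' j) ≤ Φ (Pp d (k + 1) j) := by
        refine le_of_incr hΦ ?_ (ltP (by omega) hj)
        have : i' * (2 * d) ≤ (k + 1) * (2 * d) := Nat.mul_le_mul_right _ h
        unfold Pp; omega
      omega
  · rw [e0.1, e0.2]
    have h3 : Φ (Qp d k j) < Φ (Pp d (k + 1) j) :=
      hΦ _ _ (by unfold Pp Qp; omega) (ltP (by omega) hj)
    refine ⟨Φ (Qp d k j), le_rfl, h3, ?_⟩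
    unfold gfun
    rw [if_neg (by decide), if_pos ⟨k + 1, by omega, by omega, by simp, h3⟩]

/-- alternation for all `d ≥ 1` -/
theorem comb' {d M n : ℕ} (hn : 1 ≤ n) (Φ : ℕ → ℕ → ℕ) (s : ℕ → Bool) (j J : ℕ → ℕ)
    (hj : ∀ t, t < n → j t < d) (hJ : ∀ t, t < n → J t < d)
    (hΦ : ∀ t, t ≤ n → Incr d M (Φ t))
    (hs : ∀ t, t < n → Step d M (Φ t) (Φ (t + 1)) (s t) (j t) (J t))
    (hne : ∀ t, t + 1 < n → j (t + 1) ≠ J t) (m : ℕ) (hm : 2 * n + 2 + m ≤ M) :
    ∃ a b : ℕ, a + b = n ∧ ∃ z : ℕ → ℕ, (∀ k, k < 2 * m → z k < z (k + 1)) ∧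
      (∀ k, k ≤ m → ∑ t ∈ range n, gfun d M (Φ t) (s t) (j t) (z (2 * k)) = -(a : ℤ)) ∧
      (∀ k, k < m → ∑ t ∈ range n, gfun d M (Φ t) (s t) (j t) (z (2 * k + 1)) = (b : ℤ)) := by
  by_cases hd : 2 ≤ d
  · exact comb hd Φ s j J hj hJ hΦ hs hne m hm
  · have h0 := hj 0 (by omega)
    have h0' := hJ 0 (by omega)
    have hn1 : n = 1 := by
      by_contra hne1
      have h1 := hj 1 (by omega)
      have h2 : j (0 + 1) < d := h1
      exact hne 0 (by omega) (by omega)
    subst hn1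
    have hst := hs 0 (by omega)
    have hj0 := hj 0 (by omega)
    cases hsb : s 0 with
    | true =>
      rw [hsb] at hst
      have hI := step0_true hj0 (hΦ 0 (by omega)) hst (by omega)
      obtain ⟨z, z1, z2, z3⟩ := alt_of_inv (m := m) (hΦ 1 le_rfl) h0' hI (by omega) (by omega)
      refine ⟨0, 1, rfl, z, z1, ?_, ?_⟩
      · intro k hk; rw [sum_range_one, hsb]; simpa using z2 k hk
      · intro k hk; rw [sum_range_one, hsb]; simpa using z3 k hk
    | false =>
      rw [hsb] at hst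
      have hI := step0_false hj0 (hΦ 0 (by omega)) hst (by omega)
      obtain ⟨z, z1, z2, z3⟩ := alt_of_inv (m := m) (hΦ 1 le_rfl) h0' hI (by omega) (by omega)
      refine ⟨1, 0, rfl, z, z1, ?_, ?_⟩
      · intro k hk; rw [sum_range_one, hsb]; simpa using z2 k hk
      · intro k hk; rw [sum_range_one, hsb]; simpa using z3 k hk

theorem inc_total (d M m : ℕ) (Φ Ψ : Fin ((M + 1) * (2 * d)) ↪o Fin m) (e : Mv d) :
    ∑ k : Fin m, inc d M m Φ Ψ e k = 0 := by
  classical
  unfold inc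
  by_cases h : Comp d M m Φ Ψ e
  · simp only [if_pos h]
    rw [sum_comm]
    have : ∀ l : Fin (2 * M), ∑ k : Fin m, (if Φ (edge d M e.1 e.2.1 l) = k then sg e.1 l else 0)
        = sg e.1 l := by
      intro l
      rw [sum_ite_eq univ (Φ (edge d M e.1 e.2.1 l)), if_pos (mem_univ _)]
    rw [sum_congr rfl (fun l _ => this l),
      Fin.sum_univ_eq_sum_range (fun l => sg e.1 l) (2 * M), sum_pairs]
    refine sum_eq_zero fun k _ => ?_
    unfold sg
    cases e.1 <;> simp [pow_succ, pow_mul]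
  · simp only [if_neg h]
    simp

end P125F.Cmb9

namespace P125F
open Finset P125F.Comb9 P125F.Cmb9

/-- [CMB] combinatorics of non-backtracking compatible paths. -/
theorem cmb (d M m n : ℕ) (hn : 1 ≤ n) (hM : 2 * n + 3 ≤ M)
    (ω : Fin (n + 1) → (Fin ((M + 1) * (2 * d)) ↪o Fin m)) (η : Fin n → Mv d)
    (hc : ∀ i, Comp d M m (ω i.castSucc) (ω i.succ) (η i))
    (hb : ∀ i j : Fin n, (j : ℕ) = i + 1 → (η j).2.1 ≠ (η i).2.2) :
    Good n (M - 2 * n - 2) (List.ofFn (fun k : Fin m =>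
      ∑ i : Fin n, inc d M m (ω i.castSucc) (ω i.succ) (η i) k)) := by
  classical
  let i0 : Fin n := ⟨0, hn⟩
  let Φ : ℕ → ℕ → ℕ := fun t => if h : t < n + 1 then ext _ m (ω ⟨t, h⟩) else fun _ => 0
  let e : ℕ → Mv d := fun t => if h : t < n then η ⟨t, h⟩ else η i0
  have hΦt : ∀ t (h : t < n + 1), Φ t = ext _ m (ω ⟨t, h⟩) := fun t h => dif_pos h
  have het : ∀ t (h : t < n), e t = η ⟨t, h⟩ := fun t h => dif_pos h
  obtain ⟨a, b, hab, z, z1, z2, z3⟩ := comb' (d := d) (M := M) hn Φ (fun t => (e t).1)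
    (fun t => (e t).2.1) (fun t => (e t).2.2) (fun t _ => (e t).2.1.isLt)
    (fun t _ => (e t).2.2.isLt)
    (fun t ht => by rw [hΦt t (by omega)]; exact ext_incr d M m _)
    (fun t ht => by
      rw [hΦt t (by omega), hΦt (t + 1) (by omega), het t ht]
      exact comp_step d M m _ _ _ (hc ⟨t, ht⟩))
    (fun t ht => by
      rw [het t (by omega), het (t + 1) ht]
      intro h
      exact hb ⟨t, by omega⟩ ⟨t + 1, ht⟩ rfl (Fin.ext h))
    (M - 2 * n - 2) (by omega)
  have hF : ∀ x, ((List.ofFn (fun k : Fin m =>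
      ∑ i : Fin n, inc d M m (ω i.castSucc) (ω i.succ) (η i) k)).take (x + 1)).sum
      = ∑ t ∈ range n, gfun d M (Φ t) (e t).1 (e t).2.1 x := by
    intro x
    rw [take_pre, ← Fin.sum_univ_eq_sum_range
      (fun t => gfun d M (Φ t) (e t).1 (e t).2.1 x) n]
    unfold pre
    have h1 : ∀ k : Fin m, (if (k : ℕ) ≤ x then
        ∑ i : Fin n, inc d M m (ω i.castSucc) (ω i.succ) (η i) k else 0)
        = ∑ i : Fin n, if (k : ℕ) ≤ x then inc d M m (ω i.castSucc) (ω i.succ) (η i) k else 0 := by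
      intro k
      split_ifs
      · rfl
      · simp
    rw [sum_congr rfl (fun k _ => h1 k), sum_comm]
    refine sum_congr rfl fun i _ => ?_
    have := pre_inc d M m (ω i.castSucc) (ω i.succ) (η i) (hc i) x
    unfold pre at this
    rw [this, hΦt i (by omega), het i i.isLt]
    rfl
  have := good_of (List.ofFn (fun k : Fin m =>
      ∑ i : Fin n, inc d M m (ω i.castSucc) (ω i.succ) (η i) k)) a b (M - 2 * n - 2) z z1
      (fun k hk => by rw [hF]; exact z2 k hk) (fun k hk => by rw [hF]; exact z3 k hk) (by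
        rw [List.sum_ofFn, sum_comm]
        exact sum_eq_zero fun i _ => inc_total d M m _ _ _)
  rw [hab] at this
  exact this

end P125F
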