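import Vale.Agent.P125F.Law15

/-!
The reversible move chain on the states of an approximately indiscernible law.
-/

namespace P125F
open Finset

/-- mass of the states with given labels at given positions -/
noncomputable def mass15 {ι : Type} [Fintype ι] {K r : ℕ} (w : ι → ℝ) (Φ : ι → Fin K → ℕ)
    (α : Fin r → Fin K) (u : Fin r → ℕ) : ℝ :=
  open Classical in ∑ i, if (fun l => Φ i (α l)) = u then w i else 0

open Classical in
theorem chain15 (r K : ℕ) (ε : ℝ) (hε : 0 < ε) (Λ : Type) [Fintype Λ] [Nonempty Λ]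
    (inv : Λ → Λ) (hinv : ∀ m, inv (inv m) = m) (A : Λ → Fin r → Fin K)
    (hA : ∀ m, StrictMono (A m)) :
    ∃ (S : Type) (_ : Fintype S) (w : S → ℝ) (Φ : S → Fin K → ℕ) (q : S → Λ → S → ℝ),
      (∀ x, 0 ≤ w x) ∧ ∑ x, w x = 1 ∧ (∀ x, StrictMono (Φ x)) ∧
      (∀ x m y, 0 ≤ q x m y) ∧
      (∀ x m y, w x * q x m y = w y * q y (inv m) x) ∧
      (∀ x m y, q x m y ≠ 0 → ∀ l, Φ x (A m l) = Φ y (A (inv m) l)) ∧
      (∀ x m, ∑ y, q x m y ≤ 1 / Fintype.card Λ) ∧
      1 - ε ≤ ∑ x, ∑ m, ∑ y, w x * q x m y := by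
  obtain ⟨S, _, w, Φ, hw0, hw1, hΦ, hlaw⟩ := law15 r K ε hε
  have hN : (0 : ℝ) < Fintype.card Λ := by exact_mod_cast Fintype.card_pos
  let μ : Λ → (Fin r → ℕ) → ℝ := fun m u => mass15 w Φ (A m) u
  have hμ0 : ∀ m u, 0 ≤ μ m u := by
    intro m u
    refine Finset.sum_nonneg fun i _ => ?_
    split_ifs
    · exact hw0 i
    · exact le_rfl
  have hμw : ∀ m x, w x ≤ μ m (fun l => Φ x (A m l)) := by
    intro m x
    have h1 := Finset.single_le_sum (f := fun i => if (fun l => Φ i (A m l))
      = (fun l => Φ x (A m l)) then w i else 0) (fun i _ => by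
        split_ifs
        · exact hw0 i
        · exact le_rfl) (Finset.mem_univ x)
    rwa [if_pos rfl] at h1
  let q : S → Λ → S → ℝ := fun x m y =>
    if (fun l => Φ x (A m l)) = (fun l => Φ y (A (inv m) l)) then
      1 / Fintype.card Λ * (w y / max (μ m (fun l => Φ x (A m l)))
        (μ (inv m) (fun l => Φ x (A m l)))) else 0
  have hrow : ∀ x m, ∑ y, q x m y = 1 / Fintype.card Λ *
      (μ (inv m) (fun l => Φ x (A m l)) / max (μ m (fun l => Φ x (A m l)))
        (μ (inv m) (fun l => Φ x (A m l)))) := by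
    intro x m
    have h1 : μ (inv m) (fun l => Φ x (A m l)) = ∑ y, if (fun l => Φ x (A m l))
        = (fun l => Φ y (A (inv m) l)) then w y else 0 := by
      refine Finset.sum_congr rfl fun y _ => ?_
      simp only [eq_comm]
    conv_rhs => rw [h1, Finset.sum_div, Finset.mul_sum]
    refine Finset.sum_congr rfl fun y _ => ?_
    simp only [q]
    split_ifs
    · rw [h1]
    · simp
  refine ⟨S, inferInstance, w, Φ, q, hw0, hw1, hΦ, ?_, ?_, ?_, ?_, ?_⟩
  · intro x m y
    simp only [q]
    split_ifs
    · have := hw0 y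
      have h2 : 0 ≤ max (μ m (fun l => Φ x (A m l))) (μ (inv m) (fun l => Φ x (A m l))) :=
        (hμ0 _ _).trans (le_max_left _ _)
      positivity
    · exact le_rfl
  · intro x m y
    simp only [q, hinv]
    by_cases h : (fun l => Φ x (A m l)) = (fun l => Φ y (A (inv m) l))
    · rw [if_pos h, if_pos h.symm, ← h, max_comm]
      ring
    · rw [if_neg h, if_neg (fun h' => h h'.symm), mul_zero, mul_zero]
  · intro x m y hq l
    by_cases h : (fun l => Φ x (A m l)) = (fun l => Φ y (A (inv m) l))
    · exact congrFun h l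
    · exact absurd (if_neg h) hq
  · intro x m
    rw [hrow]
    have h2 : μ (inv m) (fun l => Φ x (A m l)) / max (μ m (fun l => Φ x (A m l)))
        (μ (inv m) (fun l => Φ x (A m l))) ≤ 1 :=
      div_le_one_of_le₀ (le_max_right _ _) ((hμ0 _ _).trans (le_max_left _ _))
    have h3 : 0 ≤ 1 / (Fintype.card Λ : ℝ) := by positivity
    calc _ ≤ 1 / (Fintype.card Λ : ℝ) * 1 := mul_le_mul_of_nonneg_left h2 h3
      _ = _ := mul_one _
  · -- total mass
    have hm : ∀ m, 1 - ε ≤ ∑ x, w x * (μ (inv m) (fun l => Φ x (A m l)) /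
        max (μ m (fun l => Φ x (A m l))) (μ (inv m) (fun l => Φ x (A m l)))) := by
      intro m
      set T : Finset (Fin r → ℕ) := Finset.univ.image (fun x => fun l => Φ x (A m l)) with hT
      have h1 := hlaw (A m) (A (inv m)) (hA m) (hA (inv m)) T
      have h2 : ∀ u, ∑ i, w i * ((if (fun l => Φ i (A m l)) = u then 1 else 0)
          - (if (fun l => Φ i (A (inv m) l)) = u then 1 else 0)) = μ m u - μ (inv m) u := by
        intro u
        simp only [μ, mass15]
        rw [← Finset.sum_sub_distrib]
        refine Finset.sum_congr rfl fun i _ => ?_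
        split_ifs <;> simp
      rw [Finset.sum_congr rfl fun u _ => by rw [h2 u]] at h1
      -- group by u
      have h3 : ∑ x, w x * (1 - μ (inv m) (fun l => Φ x (A m l)) /
          max (μ m (fun l => Φ x (A m l))) (μ (inv m) (fun l => Φ x (A m l))))
          = ∑ u ∈ T, μ m u * (1 - μ (inv m) u / max (μ m u) (μ (inv m) u)) := by
        rw [← Finset.sum_fiberwise_of_maps_to (s := Finset.univ) (t := T)
          (g := fun x => fun l => Φ x (A m l)) (fun x hx => Finset.mem_image_of_mem _ hx)]
        refine Finset.sum_congr rfl fun u _ => ?_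
        rw [Finset.sum_filter]
        simp only [μ, mass15]
        rw [Finset.sum_mul]
        refine Finset.sum_congr rfl fun x _ => ?_
        by_cases h : (fun l => Φ x (A m l)) = u
        · subst h
          simp
        · rw [if_neg h, if_neg h, zero_mul]
      have h4 : ∀ u, μ m u * (1 - μ (inv m) u / max (μ m u) (μ (inv m) u))
          ≤ |μ m u - μ (inv m) u| := by
        intro u
        rcases le_total (μ m u) (μ (inv m) u) with hle | hle
        · rw [max_eq_right hle]
          rcases (hμ0 (inv m) u).eq_or_lt with h0 | h0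
          · have : μ m u = 0 := le_antisymm (hle.trans h0.symm.le) (hμ0 m u)
            rw [this, zero_mul]; exact abs_nonneg _
          · rw [div_self h0.ne', sub_self, mul_zero]; exact abs_nonneg _
        · rw [max_eq_left hle]
          rcases (hμ0 m u).eq_or_lt with h0 | h0
          · rw [← h0, zero_mul]; exact abs_nonneg _
          · rw [mul_sub, mul_one, mul_div_cancel₀ _ h0.ne']
            exact le_abs_self _
      have h5 : ∑ x, w x * (1 - μ (inv m) (fun l => Φ x (A m l)) /
          max (μ m (fun l => Φ x (A m l))) (μ (inv m) (fun l => Φ x (A m l)))) ≤ ε := by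
        rw [h3]
        exact (Finset.sum_le_sum fun u _ => h4 u).trans h1
      have h6 : ∑ x, w x * (1 - μ (inv m) (fun l => Φ x (A m l)) /
          max (μ m (fun l => Φ x (A m l))) (μ (inv m) (fun l => Φ x (A m l))))
          = ∑ x, w x - ∑ x, w x * (μ (inv m) (fun l => Φ x (A m l)) /
          max (μ m (fun l => Φ x (A m l))) (μ (inv m) (fun l => Φ x (A m l)))) := by
        rw [← Finset.sum_sub_distrib]
        exact Finset.sum_congr rfl fun x _ => by ring
      rw [h6, hw1] at h5
      linarith
    have h7 : ∑ x, ∑ m, ∑ y, w x * q x m y = ∑ m, 1 / (Fintype.card Λ : ℝ) *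
        ∑ x, w x * (μ (inv m) (fun l => Φ x (A m l)) /
        max (μ m (fun l => Φ x (A m l))) (μ (inv m) (fun l => Φ x (A m l)))) := by
      rw [Finset.sum_comm]
      refine Finset.sum_congr rfl fun m _ => ?_
      rw [Finset.mul_sum]
      refine Finset.sum_congr rfl fun x _ => ?_
      rw [← Finset.mul_sum, hrow]
      ring
    rw [h7]
    have h8 : ∑ m : Λ, 1 / (Fintype.card Λ : ℝ) * (1 - ε) ≤ ∑ m, 1 / (Fintype.card Λ : ℝ) *
        ∑ x, w x * (μ (inv m) (fun l => Φ x (A m l)) /
        max (μ m (fun l => Φ x (A m l))) (μ (inv m) (fun l => Φ x (A m l)))) :=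
      Finset.sum_le_sum fun m _ => mul_le_mul_of_nonneg_left (hm m) (by positivity)
    rw [Finset.sum_const, Finset.card_univ, nsmul_eq_mul, ← mul_assoc, mul_one_div_cancel hN.ne',
      one_mul] at h8
    exact h8

end P125F
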