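import Vale.Agent.P125F.Defs

/-! # From cut points to the block structure -/

namespace P125F
open Finset P125S

theorem g25_take (l : List ℤ) (i j : ℕ) (h : i ≤ j) :
    l.take j = l.take i ++ (l.drop i).take (j - i) := by
  have : j = i + (j - i) := by omega
  conv_lhs => rw [this]
  rw [List.take_add]

theorem good_of_cuts_list (n m : ℕ) (l : List ℤ) (a b : ℕ) (hab : a + b = n) (z : ℕ → ℕ)
    (hz : ∀ i, i < 2 * m → z i < z (i + 1))
    (he : ∀ i, i ≤ m → (l.take (z (2 * i) + 1)).sum = -(a : ℤ))
    (ho : ∀ i, i < m → (l.take (z (2 * i + 1) + 1)).sum = (b : ℤ)) (h0 : l.sum = 0) :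
    Good n m l := by
  set seg : ℕ → List ℤ := fun i => (l.drop (z i + 1)).take (z (i + 1) - z i) with hseg
  have hstep : ∀ i, i < 2 * m → l.take (z (i + 1) + 1) = l.take (z i + 1) ++ seg i := by
    intro i hi
    have h1 := g25_take l (z i + 1) (z (i + 1) + 1) (by have := hz i hi; omega)
    have e : z (i + 1) + 1 - (z i + 1) = z (i + 1) - z i := by omega
    rw [e] at h1
    exact h1
  have hcat : ∀ k, k ≤ m → l.take (z 0 + 1) ++
      (((List.range k).map (fun i => (seg (2 * i), seg (2 * i + 1)))).map
        (fun c => c.1 ++ c.2)).flatten = l.take (z (2 * k) + 1) := by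
    intro k
    induction k with
    | zero => intro _; simp
    | succ k ih =>
      intro hk
      rw [List.range_succ, List.map_append, List.map_append, List.flatten_append,
        ← List.append_assoc, ih (by omega)]
      have s1 := hstep (2 * k) (by omega)
      have s2 := hstep (2 * k + 1) (by omega)
      have e : 2 * (k + 1) = 2 * k + 1 + 1 := by ring
      rw [e, s2, s1]
      simp
  refine ⟨b, a, by omega, l.take (z 0 + 1),
    (List.range m).map (fun i => (seg (2 * i), seg (2 * i + 1))), l.drop (z (2 * m) + 1),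
    by simp, ?_, ?_, ?_, ?_⟩
  · exact he 0 (Nat.zero_le _)
  · intro c hc
    rw [List.mem_map] at hc
    obtain ⟨i, hi, rfl⟩ := hc
    rw [List.mem_range] at hi
    have s1 := congrArg List.sum (hstep (2 * i) (by omega))
    have s2 := congrArg List.sum (hstep (2 * i + 1) (by omega))
    rw [List.sum_append] at s1 s2
    have t1 := he i (by omega)
    have t2 := ho i hi
    have t3 := he (i + 1) (by omega)
    have e : 2 * (i + 1) = 2 * i + 1 + 1 := by ring
    rw [e] at t3
    constructor
    · show (seg (2 * i)).sum = (n : ℤ)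
      rw [t1, t2] at s1
      push_cast [← hab]
      linarith
    · show (seg (2 * i + 1)).sum = -(n : ℤ)
      rw [t2, t3] at s2
      push_cast [← hab]
      linarith
  · have h1 := List.take_append_drop (z (2 * m) + 1) l
    have h2 := congrArg List.sum h1
    rw [List.sum_append, he m le_rfl, h0] at h2
    linarith
  · rw [hcat m le_rfl, List.take_append_drop]

theorem good_of_cuts (n m K : ℕ) (F : Fin K → ℤ) (a b : ℕ) (hab : a + b = n) (z : ℕ → ℕ)
    (hz : ∀ i, i < 2 * m → z i < z (i + 1))
    (he : ∀ i, i ≤ m → ∑ k : Fin K, (if (k : ℕ) ≤ z (2 * i) then F k else 0) = -(a : ℤ))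
    (ho : ∀ i, i < m → ∑ k : Fin K, (if (k : ℕ) ≤ z (2 * i + 1) then F k else 0) = (b : ℤ))
    (h0 : ∑ k, F k = 0) : Good n m (List.ofFn F) := by
  have hp : ∀ x : ℕ, ((List.ofFn F).take (x + 1)).sum
      = ∑ k : Fin K, (if (k : ℕ) ≤ x then F k else 0) := by
    intro x
    rw [List.sum_take_ofFn, Finset.sum_filter]
    refine Finset.sum_congr rfl fun k _ => ?_
    have : ((k : ℕ) < x + 1) ↔ ((k : ℕ) ≤ x) := Nat.lt_succ_iff
    simp only [this]
  refine good_of_cuts_list n m (List.ofFn F) a b hab z hz ?_ ?_ ?_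
  · intro i hi; rw [hp]; exact he i hi
  · intro i hi; rw [hp]; exact ho i hi
  · rw [List.sum_ofFn]; exact h0

end P125F
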