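import Vale.Agent.P125F.Edge
import Vale.Agent.P125F.Comb9
import Vale.Agent.P125F.CmbG_helper25

/-! # Prefix sums of the increments -/

namespace P125F
open Finset P125S

open scoped Classical in
theorem altsum25 (M : ℕ) (u : ℕ → ℕ) (x : ℕ) : ∀ T, T ≤ M →
    (∀ a b, a < b → b < 2 * M → u a < u b) →
    ∑ l ∈ range (2 * T), (if u l ≤ x then (-1 : ℤ) ^ l else 0)
      = if ∃ i, 1 ≤ i ∧ i ≤ T ∧ u (2 * (i - 1)) ≤ x ∧ x < u (2 * (i - 1) + 1) then 1 else 0 := by
  intro T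
  induction T with
  | zero =>
    intro _ _
    have : ¬ ∃ i, 1 ≤ i ∧ i ≤ 0 ∧ u (2 * (i - 1)) ≤ x ∧ x < u (2 * (i - 1) + 1) := by
      rintro ⟨i, h1, h2, _⟩
      omega
    rw [if_neg this]
    simp
  | succ T ih =>
    intro hT hu
    have e : 2 * (T + 1) = 2 * T + 1 + 1 := by ring
    rw [e, Finset.sum_range_succ, Finset.sum_range_succ, ih (by omega) hu]
    have p0 : (-1 : ℤ) ^ (2 * T) = 1 := by rw [pow_mul]; norm_num
    have p1 : (-1 : ℤ) ^ (2 * T + 1) = -1 := by rw [pow_succ, p0]; norm_num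
    rw [p0, p1]
    have h0 : u (2 * T) < u (2 * T + 1) := hu _ _ (by omega) (by omega)
    by_cases hA : ∃ i, 1 ≤ i ∧ i ≤ T ∧ u (2 * (i - 1)) ≤ x ∧ x < u (2 * (i - 1) + 1)
    · have hA' : ∃ i, 1 ≤ i ∧ i ≤ T + 1 ∧ u (2 * (i - 1)) ≤ x ∧ x < u (2 * (i - 1) + 1) := by
        obtain ⟨i, h1, h2, h3⟩ := hA
        exact ⟨i, h1, by omega, h3⟩
      rw [if_pos hA, if_pos hA']
      obtain ⟨i, h1, h2, h3, h4⟩ := hA
      have h5 : u (2 * (i - 1) + 1) < u (2 * T) := hu _ _ (by omega) (by omega)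
      rw [if_neg (by omega), if_neg (by omega)]
      ring
    · rw [if_neg hA]
      by_cases hB : u (2 * T) ≤ x ∧ x < u (2 * T + 1)
      · have hA' : ∃ i, 1 ≤ i ∧ i ≤ T + 1 ∧ u (2 * (i - 1)) ≤ x ∧ x < u (2 * (i - 1) + 1) := by
          refine ⟨T + 1, by omega, le_rfl, ?_⟩
          have : T + 1 - 1 = T := by omega
          rw [this]
          exact hB
        rw [if_pos hA', if_pos hB.1, if_neg (by omega)]
        ring
      · have hA' : ¬ ∃ i, 1 ≤ i ∧ i ≤ T + 1 ∧ u (2 * (i - 1)) ≤ x ∧ x < u (2 * (i - 1) + 1) := by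
          rintro ⟨i, h1, h2, h3, h4⟩
          rcases Nat.lt_or_ge i (T + 1) with h5 | h5
          · exact hA ⟨i, h1, by omega, h3, h4⟩
          · have h6 : i = T + 1 := le_antisymm h2 h5
            subst h6
            have : T + 1 - 1 = T := by omega
            rw [this] at h3 h4
            exact hB ⟨h3, h4⟩
        rw [if_neg hA']
        by_cases hC : u (2 * T) ≤ x
        · rw [if_pos hC, if_pos (by
            by_contra hh
            exact hB ⟨hC, by omega⟩)]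
          ring
        · rw [if_neg hC, if_neg (by omega)]
          ring

/-- extension of an embedding to the naturals -/
def ext25 {n m : ℕ} (Φ : Fin n ↪o Fin m) (i : ℕ) : ℕ :=
  if h : i < n then ((Φ ⟨i, h⟩ : Fin m) : ℕ) else 0

theorem ext25_edge (d M m : ℕ) (Φ : Fin ((M + 1) * (2 * d)) ↪o Fin m) (s : Bool) (j : Fin d)
    (l : Fin (2 * M)) : ((Φ (edge d M s j l) : Fin m) : ℕ) = ext25 Φ (lab d s j l) := by
  have h := edge_val d M s j l
  have hlt : lab d s j l < (M + 1) * (2 * d) := by rw [← h]; exact (edge d M s j l).isLt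
  unfold ext25
  rw [dif_pos hlt]
  congr 2
  exact Fin.ext h

theorem ext25_mono (d M m : ℕ) (Φ : Fin ((M + 1) * (2 * d)) ↪o Fin m) :
    Comb9.Incr d M (ext25 Φ) := by
  intro a b hab hb
  unfold ext25
  rw [dif_pos (by omega), dif_pos hb]
  exact Φ.strictMono (show (⟨a, _⟩ : Fin _) < ⟨b, _⟩ from hab)

theorem lab_true (d j i : ℕ) (hi : 1 ≤ i) : lab d true j (2 * (i - 1)) = Comb9.Pp d i j := by
  unfold lab pos Comb9.Pp
  have h1 : 1 + 2 * (i - 1) / 2 = i := by omega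
  have h2 : 2 * (i - 1) % 2 = 0 := by omega
  simp only [if_true, h1, h2]
  ring

theorem lab_true' (d j i : ℕ) (hi : 1 ≤ i) : lab d true j (2 * (i - 1) + 1) = Comb9.Qp d i j := by
  unfold lab pos Comb9.Qp
  have h1 : 1 + (2 * (i - 1) + 1) / 2 = i := by omega
  have h2 : (2 * (i - 1) + 1) % 2 = 1 := by omega
  simp only [if_true, h1, h2]
  ring

theorem lab_false (d j i : ℕ) (hi : 1 ≤ i) :
    lab d false j (2 * (i - 1)) = Comb9.Qp d (i - 1) j := by
  unfold lab pos Comb9.Qp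
  have h1 : (2 * (i - 1) + 1) / 2 = i - 1 := by omega
  have h2 : (2 * (i - 1) + 1) % 2 = 1 := by omega
  simp only [h1, h2]
  simp
  ring

theorem lab_false' (d j i : ℕ) (hi : 1 ≤ i) :
    lab d false j (2 * (i - 1) + 1) = Comb9.Pp d i j := by
  unfold lab pos Comb9.Pp
  have h1 : (2 * (i - 1) + 1 + 1) / 2 = i := by omega
  have h2 : (2 * (i - 1) + 1 + 1) % 2 = 0 := by omega
  simp only [h1, h2]
  simp

theorem sum_sg25 (d M m : ℕ) (Φ : Fin ((M + 1) * (2 * d)) ↪o Fin m) (s : Bool) (j : Fin d)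
    (x : ℕ) :
    ∑ l : Fin (2 * M), (if ext25 Φ (lab d s j l) ≤ x then sg s l else 0)
      = Comb9.gfun d M (ext25 Φ) s j x := by
  have hu : ∀ a b, a < b → b < 2 * M → ext25 Φ (lab d s j a) < ext25 Φ (lab d s j b) := by
    intro a b hab hb
    have h1 := ext25_edge d M m Φ s j ⟨a, by omega⟩
    have h2 := ext25_edge d M m Φ s j ⟨b, hb⟩
    have h3 : (Φ (edge d M s j ⟨a, by omega⟩) : Fin m) < Φ (edge d M s j ⟨b, hb⟩) :=
      Φ.strictMono ((edge d M s j).strictMono hab)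
    have h4 : ((Φ (edge d M s j ⟨a, by omega⟩) : Fin m) : ℕ)
      < ((Φ (edge d M s j ⟨b, hb⟩) : Fin m) : ℕ) := h3
    rw [h1, h2] at h4
    exact h4
  have hA := altsum25 M (fun l => ext25 Φ (lab d s j l)) x M le_rfl hu
  rw [Finset.sum_range] at hA
  cases s with
  | true =>
    unfold Comb9.gfun
    rw [if_pos rfl]
    have e1 : ∀ l : Fin (2 * M), (if ext25 Φ (lab d true j l) ≤ x then sg true l else 0)
        = (if ext25 Φ (lab d true j l) ≤ x then (-1 : ℤ) ^ (l : ℕ) else 0) := by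
      intro l; simp [sg]
    rw [Finset.sum_congr rfl fun l _ => e1 l, hA]
    congr 1
    apply propext
    constructor
    · rintro ⟨i, h1, h2, h3, h4⟩
      rw [lab_true d j i h1] at h3
      rw [lab_true' d j i h1] at h4
      exact ⟨i, h1, h2, h3, h4⟩
    · rintro ⟨i, h1, h2, h3, h4⟩
      refine ⟨i, h1, h2, ?_, ?_⟩
      · show ext25 Φ (lab d true j (2 * (i - 1))) ≤ x
        rw [lab_true d j i h1]; exact h3
      · show x < ext25 Φ (lab d true j (2 * (i - 1) + 1))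
        rw [lab_true' d j i h1]; exact h4
  | false =>
    unfold Comb9.gfun
    rw [if_neg (by simp)]
    have e1 : ∀ l : Fin (2 * M), (if ext25 Φ (lab d false j l) ≤ x then sg false l else 0)
        = -(if ext25 Φ (lab d false j l) ≤ x then (-1 : ℤ) ^ (l : ℕ) else 0) := by
      intro l
      by_cases h : ext25 Φ (lab d false j l) ≤ x <;> simp [sg, h]
    rw [Finset.sum_congr rfl fun l _ => e1 l, Finset.sum_neg_distrib, hA]
    have e2 : (∃ i, 1 ≤ i ∧ i ≤ M ∧ ext25 Φ (lab d false j (2 * (i - 1))) ≤ x ∧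
        x < ext25 Φ (lab d false j (2 * (i - 1) + 1)))
        ↔ (∃ i, 1 ≤ i ∧ i ≤ M ∧ ext25 Φ (Comb9.Qp d (i - 1) j) ≤ x ∧
          x < ext25 Φ (Comb9.Pp d i j)) := by
      constructor
      · rintro ⟨i, h1, h2, h3, h4⟩
        rw [lab_false d j i h1] at h3
        rw [lab_false' d j i h1] at h4
        exact ⟨i, h1, h2, h3, h4⟩
      · rintro ⟨i, h1, h2, h3, h4⟩
        refine ⟨i, h1, h2, ?_, ?_⟩
        · rw [lab_false d j i h1]; exact h3
        · rw [lab_false' d j i h1]; exact h4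
    by_cases hE : ∃ i, 1 ≤ i ∧ i ≤ M ∧ ext25 Φ (Comb9.Qp d (i - 1) j) ≤ x ∧
        x < ext25 Φ (Comb9.Pp d i j)
    · rw [if_pos hE, if_pos (e2.2 hE)]
    · rw [if_neg hE, if_neg (fun h => hE (e2.1 h))]
      rfl

/-- prefix sums of the increments -/
theorem inc_prefix25 (d M m : ℕ) (Φ Ψ : Fin ((M + 1) * (2 * d)) ↪o Fin m) (e : Mv d)
    (hc : Comp d M m Φ Ψ e) (x : ℕ) :
    ∑ k : Fin m, (if (k : ℕ) ≤ x then inc d M m Φ Ψ e k else 0)
      = Comb9.gfun d M (ext25 Φ) e.1 e.2.1 x := by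
  classical
  rw [← sum_sg25 d M m Φ e.1 e.2.1 x]
  have e1 : ∀ k : Fin m, (if (k : ℕ) ≤ x then inc d M m Φ Ψ e k else 0)
      = ∑ l : Fin (2 * M), (if Φ (edge d M e.1 e.2.1 l) = k then
          (if (k : ℕ) ≤ x then sg e.1 l else 0) else 0) := by
    intro k
    unfold inc
    rw [if_pos hc]
    split_ifs with h
    · refine Finset.sum_congr rfl fun l _ => ?_
      rfl
    · rw [Finset.sum_eq_zero]
      intro l _
      split_ifs <;> rfl
  rw [Finset.sum_congr rfl fun k _ => e1 k, Finset.sum_comm]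
  refine Finset.sum_congr rfl fun l _ => ?_
  rw [Finset.sum_ite_eq, if_pos (mem_univ _), ext25_edge]

/-- total sum of the increments -/
theorem inc_total25 (d M m : ℕ) (Φ Ψ : Fin ((M + 1) * (2 * d)) ↪o Fin m) (e : Mv d)
    (hc : Comp d M m Φ Ψ e) : ∑ k : Fin m, inc d M m Φ Ψ e k = 0 := by
  have h := inc_prefix25 d M m Φ Ψ e hc m
  have e1 : ∑ k : Fin m, (if (k : ℕ) ≤ m then inc d M m Φ Ψ e k else 0)
      = ∑ k : Fin m, inc d M m Φ Ψ e k :=
    Finset.sum_congr rfl fun k _ => by rw [if_pos k.isLt.le]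
  rw [e1] at h
  rw [h]
  have hlt : ∀ i, ext25 Φ i ≤ m := by
    intro i
    unfold ext25
    split_ifs
    · exact (Fin.isLt _).le
    · exact Nat.zero_le _
  unfold Comb9.gfun
  split_ifs with h1 h2 h2
  · obtain ⟨i, _, _, _, h4⟩ := h2
    exact absurd h4 (not_lt.2 (hlt _))
  · rfl
  · obtain ⟨i, _, _, _, h4⟩ := h2
    exact absurd h4 (not_lt.2 (hlt _))
  · rfl

/-- compatible moves are steps -/
theorem step_of_comp25 (d M m : ℕ) (Φ Ψ : Fin ((M + 1) * (2 * d)) ↪o Fin m) (e : Mv d)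
    (hc : Comp d M m Φ Ψ e) :
    Comb9.Step d M (ext25 Φ) (ext25 Ψ) e.1 e.2.1 e.2.2 := by
  have key : ∀ l, l < 2 * M → ext25 Φ (lab d e.1 e.2.1 l) = ext25 Ψ (lab d (!e.1) e.2.2 l) := by
    intro l hl
    rw [← ext25_edge d M m Φ e.1 e.2.1 ⟨l, hl⟩, ← ext25_edge d M m Ψ (!e.1) e.2.2 ⟨l, hl⟩]
    have h1 := DFunLike.congr_fun hc (⟨l, hl⟩ : Fin (2 * M))
    exact congrArg (fun (z : Fin m) => (z : ℕ)) h1
  intro i hi hiM
  have k1 := key (2 * (i - 1)) (by omega)
  have k2 := key (2 * (i - 1) + 1) (by omega)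
  constructor
  · intro hs
    rw [hs] at k1 k2
    simp only [Bool.not_true] at k1 k2
    rw [lab_true _ _ _ hi, lab_false _ _ _ hi] at k1
    rw [lab_true' _ _ _ hi, lab_false' _ _ _ hi] at k2
    exact ⟨k1.symm, k2.symm⟩
  · intro hs
    rw [hs] at k1 k2
    simp only [Bool.not_false] at k1 k2
    rw [lab_true _ _ _ hi, lab_false _ _ _ hi] at k1
    rw [lab_true' _ _ _ hi, lab_false' _ _ _ hi] at k2
    exact ⟨k1.symm, k2.symm⟩

/-- CMB -/
theorem cmb25 (d M m n : ℕ) (hd : 2 ≤ d) (hn : 1 ≤ n) (hM : 2 * n + 3 ≤ M)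
    (ω : Fin (n + 1) → (Fin ((M + 1) * (2 * d)) ↪o Fin m)) (η : Fin n → Mv d)
    (hc : ∀ i, Comp d M m (ω i.castSucc) (ω i.succ) (η i))
    (hb : ∀ i j : Fin n, (j : ℕ) = i + 1 → (η j).2.1 ≠ (η i).2.2) :
    Good n (M - 2 * n - 2) (List.ofFn (fun k : Fin m =>
      ∑ i : Fin n, inc d M m (ω i.castSucc) (ω i.succ) (η i) k)) := by
  classical
  have hn0 : 0 < n := hn
  set ph : ℕ → ℕ → ℕ := fun t => ext25 (ω ⟨min t n, by omega⟩) with hph
  set et : ℕ → Mv d := fun t => η ⟨min t (n - 1), by omega⟩ with het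
  have e1 : ∀ i : Fin n, ph i = ext25 (ω i.castSucc) := by
    intro i
    simp only [hph]
    congr 2
    exact Fin.ext (by simp)
  have e2 : ∀ i : Fin n, ph (i + 1) = ext25 (ω i.succ) := by
    intro i
    simp only [hph]
    congr 2
    exact Fin.ext (by simp)
  have e3 : ∀ i : Fin n, et i = η i := by
    intro i
    simp only [het]
    congr 1
    exact Fin.ext (by simp; omega)
  obtain ⟨a, b, hab, z, hz, he, ho⟩ := Comb9.comb hd ph (fun t => (et t).1)
    (fun t => ((et t).2.1 : ℕ)) (fun t => ((et t).2.2 : ℕ))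
    (fun t _ => (et t).2.1.isLt) (fun t _ => (et t).2.2.isLt)
    (fun t _ => ext25_mono d M m _)
    (fun t ht => by
      have h1 := step_of_comp25 d M m _ _ _ (hc ⟨t, ht⟩)
      rw [← e1 ⟨t, ht⟩, ← e2 ⟨t, ht⟩, ← e3 ⟨t, ht⟩] at h1
      exact h1)
    (fun t ht => by
      have h1 := hb ⟨t, by omega⟩ ⟨t + 1, ht⟩ rfl
      rw [← e3 ⟨t, by omega⟩, ← e3 ⟨t + 1, ht⟩] at h1
      intro h2
      exact h1 (Fin.ext h2)) (M - 2 * n - 2) (by omega)
  have hpre : ∀ x : ℕ, ∑ k : Fin m, (if (k : ℕ) ≤ x then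
      (∑ i : Fin n, inc d M m (ω i.castSucc) (ω i.succ) (η i) k) else 0)
      = ∑ t ∈ range n, Comb9.gfun d M (ph t) (et t).1 ((et t).2.1 : ℕ) x := by
    intro x
    rw [Finset.sum_range]
    have f1 : ∀ i : Fin n, Comb9.gfun d M (ph i) (et i).1 ((et i).2.1 : ℕ) x
        = ∑ k : Fin m, (if (k : ℕ) ≤ x then inc d M m (ω i.castSucc) (ω i.succ) (η i) k else 0) := by
      intro i
      rw [e1, e3, inc_prefix25 d M m _ _ _ (hc i)]
    rw [Finset.sum_congr rfl fun i _ => f1 i, Finset.sum_comm]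
    refine Finset.sum_congr rfl fun k _ => ?_
    split_ifs
    · rfl
    · simp
  refine good_of_cuts n (M - 2 * n - 2) m _ a b hab z hz ?_ ?_ ?_
  · intro i hi
    rw [hpre]
    exact he i hi
  · intro i hi
    rw [hpre]
    exact ho i hi
  · rw [Finset.sum_comm]
    exact Finset.sum_eq_zero fun i _ => inc_total25 d M m _ _ _ (hc i)

end P125F
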