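import Vale.Agent.P125F.SemiDef10

/-! Dyadic martingales as trees; James systems from many jumps -/

namespace P125F
open Finset

/-- Markov type inequality in a normed space -/
def XMT (X : Type*) [NormedAddCommGroup X] (p K : ℝ) : Prop :=
  ∀ (S : Type) [Fintype S] [DecidableEq S] (C : P125S.Chain S) (f : S → X) (t : ℕ), 1 ≤ t →
    ∑ x, ∑ y, C.w x * ((Matrix.of C.P) ^ t) x y * ‖f y - f x‖ ^ p
      ≤ K ^ p * t * ∑ x, ∑ y, C.w x * C.P x y * ‖f y - f x‖ ^ p

/-- dyadic martingales -/
inductive Tr (X : Type*) where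
  | leaf (x : X) : Tr X
  | node (l r : Tr X) : Tr X

variable {X : Type*} [NormedAddCommGroup X] [NormedSpace ℝ X]

/-- starting value -/
noncomputable def Tr.val : Tr X → X
  | .leaf x => x
  | .node l r => (1 / 2 : ℝ) • (l.val + r.val)

/-- all values in the unit ball -/
def Tr.inBall : Tr X → Prop
  | .leaf x => ‖x‖ ≤ 1
  | .node l r => l.inBall ∧ r.inBall

/-- probability of at least `k` jumps of size at least `ε` -/
noncomputable def Tr.PN (ε : ℝ) : Tr X → ℕ → ℝ
  | .leaf _, 0 => 1
  | .leaf _, _ + 1 => 0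
  | .node _ _, 0 => 1
  | .node l r, k + 1 =>
    open Classical in
    if ε ≤ ‖l.val - r.val‖ / 2 then (l.PN ε k + r.PN ε k) / 2
    else (l.PN ε (k + 1) + r.PN ε (k + 1)) / 2

theorem Tr.PN_zero (ε : ℝ) (T : Tr X) : T.PN ε 0 = 1 := by
  cases T <;> simp [Tr.PN]

theorem Tr.PN_nonneg (ε : ℝ) (T : Tr X) : ∀ k, 0 ≤ T.PN ε k := by
  induction T with
  | leaf x => intro k; cases k <;> simp [Tr.PN]
  | node l r hl hr =>
    intro k
    cases k with
    | zero => simp [Tr.PN]
    | succ k =>
      unfold Tr.PN
      split_ifs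
      · linarith [hl k, hr k]
      · linarith [hl (k + 1), hr (k + 1)]

theorem Tr.val_ball (T : Tr X) (h : T.inBall) : ‖T.val‖ ≤ 1 := by
  induction T with
  | leaf x => exact h
  | node l r hl hr =>
    unfold Tr.val
    have h1 := hl h.1
    have h2 := hr h.2
    rw [norm_smul]
    have := norm_add_le l.val r.val
    norm_num
    linarith

/-- prepend -/
def cns (x : X) (s : ℕ → X) : ℕ → X
  | 0 => x
  | n + 1 => s n

/-- weighted paths, recorded by the positions after the jumps -/
noncomputable def Tr.seqs (ε : ℝ) : Tr X → List (ℝ × (ℕ → X))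
  | .leaf x => [(1, fun _ => x)]
  | .node l r =>
    open Classical in
    if ε ≤ ‖l.val - r.val‖ / 2 then
      (l.seqs ε).map (fun a => (a.1 / 2, cns l.val a.2)) ++
        (r.seqs ε).map (fun a => (a.1 / 2, cns r.val a.2))
    else (l.seqs ε).map (fun a => (a.1 / 2, a.2)) ++ (r.seqs ε).map (fun a => (a.1 / 2, a.2))

/-- expectation over a weighted list -/
def LE (L : List (ℝ × (ℕ → X))) (F : (ℕ → X) → ℝ) : ℝ := (L.map (fun a => a.1 * F a.2)).sum

theorem LE_node_jump (ε : ℝ) (l r : Tr X) (h : ε ≤ ‖l.val - r.val‖ / 2) (F : (ℕ → X) → ℝ) :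
    LE ((Tr.node l r).seqs ε) F
      = (LE (l.seqs ε) (fun s => F (cns l.val s)) + LE (r.seqs ε) (fun s => F (cns r.val s))) / 2 := by
  have hs : (Tr.node l r).seqs ε = (l.seqs ε).map (fun a => (a.1 / 2, cns l.val a.2)) ++
        (r.seqs ε).map (fun a => (a.1 / 2, cns r.val a.2)) := by
    rw [Tr.seqs, if_pos h]
  rw [hs]
  unfold LE
  rw [List.map_append, List.sum_append, List.map_map, List.map_map]
  have e : ∀ (L : List (ℝ × (ℕ → X))) (x : X),
      (L.map ((fun a : ℝ × (ℕ → X) => a.1 * F a.2) ∘ fun a => (a.1 / 2, cns x a.2))).sum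
      = (L.map (fun a => a.1 * F (cns x a.2))).sum / 2 := by
    intro L x
    induction L with
    | nil => simp
    | cons a L ih =>
      simp only [List.map_cons, List.sum_cons, Function.comp] at ih ⊢
      rw [ih]; ring
  rw [e, e]; ring

theorem LE_node_no (ε : ℝ) (l r : Tr X) (h : ¬ ε ≤ ‖l.val - r.val‖ / 2) (F : (ℕ → X) → ℝ) :
    LE ((Tr.node l r).seqs ε) F = (LE (l.seqs ε) F + LE (r.seqs ε) F) / 2 := by
  have hs : (Tr.node l r).seqs ε = (l.seqs ε).map (fun a => (a.1 / 2, a.2)) ++
        (r.seqs ε).map (fun a => (a.1 / 2, a.2)) := by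
    rw [Tr.seqs, if_neg h]
  rw [hs]
  unfold LE
  rw [List.map_append, List.sum_append, List.map_map, List.map_map]
  have e : ∀ (L : List (ℝ × (ℕ → X))),
      (L.map ((fun a : ℝ × (ℕ → X) => a.1 * F a.2) ∘ fun a => (a.1 / 2, a.2))).sum
      = (L.map (fun a => a.1 * F a.2)).sum / 2 := by
    intro L
    induction L with
    | nil => simp
    | cons a L ih =>
      simp only [List.map_cons, List.sum_cons, Function.comp] at ih ⊢
      rw [ih]; ring
  rw [e, e]; ring

theorem LE_leaf (ε : ℝ) (x : X) (F : (ℕ → X) → ℝ) :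
    LE ((Tr.leaf x).seqs ε) F = F (fun _ => x) := by
  simp [LE, Tr.seqs]

/-- general properties of the weighted paths -/
theorem seqs_w (ε : ℝ) (T : Tr X) : ∀ a ∈ T.seqs ε, 0 ≤ a.1 := by
  induction T with
  | leaf x => intro a ha; simp [Tr.seqs] at ha; subst ha; norm_num
  | node l r hl hr =>
    intro a ha
    unfold Tr.seqs at ha
    split_ifs at ha <;>
    · simp only [List.mem_append, List.mem_map] at ha
      rcases ha with ⟨b, hb, rfl⟩ | ⟨b, hb, rfl⟩
      · have := hl b hb; simp only; linarith
      · have := hr b hb; simp only; linarith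

theorem seqs_ball (ε : ℝ) (T : Tr X) (hT : T.inBall) : ∀ a ∈ T.seqs ε, ∀ j, ‖a.2 j‖ ≤ 1 := by
  induction T with
  | leaf x => intro a ha j; simp [Tr.seqs] at ha; subst ha; exact hT
  | node l r hl hr =>
    intro a ha j
    unfold Tr.seqs at ha
    split_ifs at ha
    · simp only [List.mem_append, List.mem_map] at ha
      rcases ha with ⟨b, hb, rfl⟩ | ⟨b, hb, rfl⟩
      · cases j with
        | zero => exact Tr.val_ball l hT.1
        | succ j => exact hl hT.1 b hb j
      · cases j with
        | zero => exact Tr.val_ball r hT.2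
        | succ j => exact hr hT.2 b hb j
    · simp only [List.mem_append, List.mem_map] at ha
      rcases ha with ⟨b, hb, rfl⟩ | ⟨b, hb, rfl⟩
      · exact hl hT.1 b hb j
      · exact hr hT.2 b hb j

theorem LE_one (ε : ℝ) (T : Tr X) : LE (T.seqs ε) (fun _ => 1) = 1 := by
  induction T with
  | leaf x => rw [LE_leaf]
  | node l r hl hr =>
    by_cases h : ε ≤ ‖l.val - r.val‖ / 2
    · rw [LE_node_jump ε l r h, hl, hr]; norm_num
    · rw [LE_node_no ε l r h, hl, hr]; norm_num

theorem sum_cns (x : X) (s : ℕ → X) (v : ℕ → ℝ) (M : ℕ) :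
    ∑ j ∈ range (M + 1), v j • cns x s j = v 0 • x + ∑ j ∈ range M, v (j + 1) • s j := by
  rw [sum_range_succ', add_comm]
  rfl

/-- Jensen -/
theorem jensen (ε : ℝ) (T : Tr X) : ∀ (a : X) (v : ℕ → ℝ) (M : ℕ),
    ‖a + (∑ j ∈ range M, v j) • T.val‖ ≤ LE (T.seqs ε) (fun s => ‖a + ∑ j ∈ range M, v j • s j‖) := by
  induction T with
  | leaf x =>
    intro a v M
    rw [LE_leaf, sum_smul]
    exact le_rfl
  | node l r hl hr =>
    intro a v M
    have key : ∀ (V : ℝ), ‖a + V • (Tr.node l r).val‖
        ≤ (‖a + V • l.val‖ + ‖a + V • r.val‖) / 2 := by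
      intro V
      have e : a + V • (Tr.node l r).val
          = (1 / 2 : ℝ) • ((a + V • l.val) + (a + V • r.val)) := by
        rw [Tr.val]
        module
      rw [e, norm_smul]
      have := norm_add_le (a + V • l.val) (a + V • r.val)
      norm_num
      linarith
    by_cases h : ε ≤ ‖l.val - r.val‖ / 2
    · rw [LE_node_jump ε l r h]
      refine (key _).trans ?_
      cases M with
      | zero =>
        have h1 := hl a v 0
        have h2 := hr a v 0
        simp only [range_zero, sum_empty] at h1 h2 ⊢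
        simp only [zero_smul, add_zero] at h1 h2 ⊢
        linarith
      | succ M =>
        simp only [sum_cns]
        have h1 := hl (a + v 0 • l.val) (fun j => v (j + 1)) M
        have h2 := hr (a + v 0 • r.val) (fun j => v (j + 1)) M
        have e1 : ∀ y : X, a + (∑ j ∈ range (M + 1), v j) • y
            = a + v 0 • y + (∑ j ∈ range M, v (j + 1)) • y := by
          intro y
          rw [sum_range_succ', add_smul]; abel
        rw [e1, e1]
        simp only [add_assoc] at h1 h2 ⊢
        linarith
    · rw [LE_node_no ε l r h]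
      refine (key _).trans ?_
      have h1 := hl a v M
      have h2 := hr a v M
      linarith

/-- tails are seen -/
theorem tails (ε : ℝ) (T : Tr X) : ∀ (i : ℕ) (a : X) (v : ℕ → ℝ) (M : ℕ),
    ε * T.PN ε (i + 1) * |∑ j ∈ range M, if i ≤ j then v j else 0|
      ≤ LE (T.seqs ε) (fun s => ‖a + ∑ j ∈ range M, v j • s j‖) := by
  induction T with
  | leaf x =>
    intro i a v M
    rw [LE_leaf]
    simp only [Tr.PN, mul_zero, zero_mul]
    exact norm_nonneg _
  | node l r hl hr =>
    intro i a v M
    by_cases h : ε ≤ ‖l.val - r.val‖ / 2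
    · rw [LE_node_jump ε l r h]
      have hPN : (Tr.node l r).PN ε (i + 1) = (l.PN ε i + r.PN ε i) / 2 := by
        rw [Tr.PN, if_pos h]
      rw [hPN]
      cases M with
      | zero =>
        have h1 := jensen ε l a v 0
        have h2 := jensen ε r a v 0
        simp only [range_zero, sum_empty, abs_zero, mul_zero] at h1 h2 ⊢
        simp only [zero_smul, add_zero] at h1 h2 ⊢
        linarith [norm_nonneg a]
      | succ M =>
        simp only [sum_cns]
        cases i with
        | zero =>
          rw [Tr.PN_zero, Tr.PN_zero]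
          have h1 := jensen ε l (a + v 0 • l.val) (fun j => v (j + 1)) M
          have h2 := jensen ε r (a + v 0 • r.val) (fun j => v (j + 1)) M
          have e1 : ∀ y : X, a + v 0 • y + (∑ j ∈ range M, v (j + 1)) • y
              = a + (∑ j ∈ range (M + 1), v j) • y := by
            intro y
            rw [sum_range_succ', add_smul]; abel
          rw [e1] at h1 h2
          simp only [Nat.zero_le, if_true]
          set V := ∑ j ∈ range (M + 1), v j
          have h3 : |V| * ‖l.val - r.val‖ ≤ ‖a + V • l.val‖ + ‖a + V • r.val‖ := by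
            rw [← Real.norm_eq_abs, ← norm_smul]
            have : V • (l.val - r.val) = (a + V • l.val) - (a + V • r.val) := by module
            rw [this]
            exact norm_sub_le _ _
          have h4 : |V| * ε ≤ |V| * (‖l.val - r.val‖ / 2) :=
            mul_le_mul_of_nonneg_left h (abs_nonneg _)
          simp only [add_assoc] at h1 h2 ⊢
          linarith
        | succ i =>
          have h1 := hl i (a + v 0 • l.val) (fun j => v (j + 1)) M
          have h2 := hr i (a + v 0 • r.val) (fun j => v (j + 1)) M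
          rw [sum_range_succ']
          simp only [Nat.add_le_add_iff_right, nonpos_iff_eq_zero, Nat.add_eq_zero_iff,
            one_ne_zero, and_false, if_false, add_zero]
          simp only [add_assoc] at h1 h2 ⊢
          linarith
    · rw [LE_node_no ε l r h]
      have hPN : (Tr.node l r).PN ε (i + 1) = (l.PN ε (i + 1) + r.PN ε (i + 1)) / 2 := by
        rw [Tr.PN, if_neg h]
      rw [hPN]
      have h1 := hl i a v M
      have h2 := hr i a v M
      linarith

end P125F
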