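import Vale.Agent.P125F.TreeU24
import Vale.Agent.P125F.Tree16

/-! # Comparison of the two encodings of dyadic martingales -/

namespace P125F.TU24
open P125F

variable {X : Type*} [NormedAddCommGroup X] [NormedSpace ℝ X]

/-- conversion -/
def toTr : Tree X → X → Tr X
  | Tree.leaf, x => Tr.leaf x
  | Tree.node y l r, x => Tr.node (toTr l (x + y)) (toTr r (x - y))

theorem toTr_val : ∀ (τ : Tree X) (x : X), (toTr τ x).val = x
  | Tree.leaf, x => rfl
  | Tree.node y l r, x => by
    show (1 / 2 : ℝ) • ((toTr l (x + y)).val + (toTr r (x - y)).val) = x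
    rw [toTr_val l, toTr_val r, add_add_sub_cancel, ← two_smul ℝ x, smul_smul]
    norm_num

theorem toTr_ball : ∀ (τ : Tree X) (x : X), InB τ x → (toTr τ x).inBall
  | Tree.leaf, _, h => h
  | Tree.node _ l r, _, h => ⟨toTr_ball l _ h.1, toTr_ball r _ h.2⟩

theorem toTr_PN (ε : ℝ) : ∀ (τ : Tree X) (x : X) (N : ℕ), (toTr τ x).PN ε N = pr ε N τ
  | Tree.leaf, x, 0 => by simp [toTr, Tr.PN, pr]
  | Tree.leaf, x, N + 1 => by simp [toTr, Tr.PN, pr]
  | Tree.node y l r, x, 0 => by simp [toTr, Tr.PN, pr]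
  | Tree.node y l r, x, N + 1 => by
    have h1 : ‖(toTr l (x + y)).val - (toTr r (x - y)).val‖ / 2 = ‖y‖ := by
      rw [toTr_val, toTr_val]
      have h2 : x + y - (x - y) = (2 : ℝ) • y := by
        rw [two_smul]; abel
      rw [h2, norm_smul]
      norm_num
    have h3 : (toTr (Tree.node y l r) x) = Tr.node (toTr l (x + y)) (toTr r (x - y)) := rfl
    rw [h3, Tr.PN, h1, pr, toTr_PN ε l, toTr_PN ε r, toTr_PN ε l, toTr_PN ε r]

end P125F.TU24
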