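import Vale.Agent.P125S.Defs

/-! # Markov type implies superreflexivity: definitions -/

namespace P125F
open Finset P125S

/-- Markov type `p` with constant `K` (as in the problem). -/
def MarkovType (X : Type) [NormedAddCommGroup X] [NormedSpace ℝ X] (p K : ℝ) : Prop :=
  ∀ (S : Type) [Fintype S] [DecidableEq S] (C : Chain S) (f : S → X) (t : ℕ), 1 ≤ t →
    ∑ x, ∑ y, C.w x * ((Matrix.of C.P) ^ t) x y * ‖f y - f x‖ ^ p
      ≤ K ^ p * t * ∑ x, ∑ y, C.w x * C.P x y * ‖f y - f x‖ ^ p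

/-- James system of length `N` with constant `θ`. -/
def HasJames (X : Type) [NormedAddCommGroup X] [NormedSpace ℝ X] (θ : ℝ) (N : ℕ) : Prop :=
  ∃ (x : Fin N → X) (f : Fin N → (X →L[ℝ] ℝ)), (∀ j, ‖x j‖ ≤ 1) ∧ (∀ i, ‖f i‖ ≤ 1) ∧
    ∀ i j, f i (x j) = if i ≤ j then θ else 0

/-- spreading seminorm on finite real sequences -/
structure Spr (S : List ℝ → ℝ) (θ : ℝ) : Prop where
  tri : ∀ l l' : List ℝ, l.length = l'.length → S (List.zipWith (· + ·) l l') ≤ S l + S l'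
  smul : ∀ (k : ℝ) (l : List ℝ), S (l.map (k * ·)) = |k| * S l
  zero : ∀ l₁ l₂ : List ℝ, S (l₁ ++ 0 :: l₂) = S (l₁ ++ l₂)
  low : ∀ l₁ l₂ : List ℝ, θ * |l₂.sum| ≤ S (l₁ ++ l₂)
  up : ∀ l : List ℝ, S l ≤ (l.map (fun a => |a|)).sum

/-- averaged seminorm on integer sequences -/
structure Sem (N : List ℤ → ℝ) (θ : ℝ) : Prop where
  tri : ∀ l l' : List ℤ, l.length = l'.length → N (List.zipWith (· + ·) l l') ≤ N l + N l'
  smul : ∀ (k : ℤ) (l : List ℤ), N (l.map (k * ·)) = |(k : ℝ)| * N l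
  merge : ∀ (l₁ : List ℤ) (a b : ℤ) (l₂ : List ℤ), N (l₁ ++ (a + b) :: l₂) ≤ N (l₁ ++ a :: b :: l₂)
  split : ∀ (l₁ : List ℤ) (a b : ℤ) (l₂ : List ℤ), 0 ≤ a * b →
    N (l₁ ++ a :: b :: l₂) ≤ N (l₁ ++ (a + b) :: l₂)
  low : ∀ l₁ l₂ : List ℤ, θ * |((l₂.sum : ℤ) : ℝ)| ≤ N (l₁ ++ l₂)

/-- every coefficient `a` becomes a run of length `L` of `a / L` -/
noncomputable def blow (L : ℕ) (l : List ℤ) : List ℝ :=
  l.flatMap (fun a => List.replicate L ((a : ℝ) / L))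

/-- `1, -1, 1, -1, ...` (`2 M` terms) -/
def alt (M : ℕ) : List ℤ := (List.replicate M [(1 : ℤ), -1]).flatten

/-- the block structure of the coefficients of a good path -/
def Good (n m : ℕ) (l : List ℤ) : Prop :=
  ∃ np nm : ℕ, np + nm = n ∧ ∃ (b₀ : List ℤ) (bs : List (List ℤ × List ℤ)) (b₁ : List ℤ),
    bs.length = m ∧ b₀.sum = -(nm : ℤ) ∧ (∀ c ∈ bs, c.1.sum = (n : ℤ) ∧ c.2.sum = -(n : ℤ)) ∧
    b₁.sum = (nm : ℤ) ∧ l = b₀ ++ (bs.map (fun c => c.1 ++ c.2)).flatten ++ b₁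

/-- reversible labelled sub-chain -/
structure LChain (V E : Type) [Fintype V] [Fintype E] where
  w : V → ℝ
  J : V → V → E → ℝ
  inv : E → E
  w_nonneg : ∀ x, 0 ≤ w x
  w_sum : ∑ x, w x = 1
  J_nonneg : ∀ x y e, 0 ≤ J x y e
  sub : ∀ x, ∑ y, ∑ e, J x y e ≤ w x
  symm : ∀ x y e, J x y e = J y x (inv e)
  inv_inv : ∀ e, inv (inv e) = e

/-- weight of a labelled path with `n` steps -/
noncomputable def LChain.pw {V E : Type} [Fintype V] [Fintype E] (L : LChain V E) {n : ℕ}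
    (ω : Fin (n + 1) → V) (η : Fin n → E) : ℝ :=
  L.w (ω 0) * ∏ i : Fin n, (L.J (ω i.castSucc) (ω i.succ) (η i) / L.w (ω i.castSucc))

/-! ## the concrete chain -/

/-- positions: cell `i`, place `c` -/
def pos (d i c : ℕ) : ℕ := i * (2 * d) + c

/-- position of the `l`-th label of the edge `(s, j)` -/
def lab (d : ℕ) (s : Bool) (j l : ℕ) : ℕ :=
  if s then pos d (1 + l / 2) (2 * j + l % 2) else pos d ((l + 1) / 2) (2 * j + (l + 1) % 2)

/-- sign of the `l`-th label -/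
def sg (s : Bool) (l : ℕ) : ℤ := if s then (-1) ^ l else -(-1) ^ l

end P125F
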