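import Vale.Agent.P125F.Defs

/-! # The edge embeddings and the increments -/

namespace P125F
open Finset P125S

theorem pos_lt (d a b c c' : ℕ) (h : a < b) (hc : c < 2 * d) : pos d a c < pos d b c' := by
  unfold pos
  have h1 : (a + 1) * (2 * d) ≤ b * (2 * d) := Nat.mul_le_mul_right _ h
  have h2 : (a + 1) * (2 * d) = a * (2 * d) + 2 * d := by ring
  omega

theorem pos_lt' (d a b c c' : ℕ) (h : a ≤ b) (hc : c < c') (hcd : c' < 2 * d) :
    pos d a c < pos d b c' := by
  rcases Nat.lt_or_ge a b with h1 | h1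
  · exact pos_lt d a b c c' h1 (by omega)
  · have : a = b := le_antisymm h h1
    subst this
    unfold pos
    omega

/-- the edge embedding -/
theorem lab_lt (d M : ℕ) (s : Bool) (j : Fin d) : ∃ α : Fin (2 * M) ↪o Fin ((M + 1) * (2 * d)),
    ∀ l, ((α l : Fin ((M + 1) * (2 * d))) : ℕ) = lab d s j l := by
  have hj := j.isLt
  have hlt : ∀ l : Fin (2 * M), lab d s j l < (M + 1) * (2 * d) := by
    intro l
    have hl := l.isLt
    have key : ∀ i c, i ≤ M → c < 2 * d → pos d i c < (M + 1) * (2 * d) := by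
      intro i c hi hc
      have := pos_lt d i (M + 1) c 0 (by omega) hc
      unfold pos at this ⊢
      omega
    unfold lab
    split_ifs
    · exact key _ _ (by omega) (by omega)
    · exact key _ _ (by omega) (by omega)
  have hmono : ∀ l l' : Fin (2 * M), l < l' → lab d s j l < lab d s j l' := by
    intro l l' h
    have h' : (l : ℕ) < l' := h
    unfold lab
    split_ifs
    · by_cases hq : (l : ℕ) / 2 = l' / 2
      · exact pos_lt' _ _ _ _ _ (by omega) (by omega) (by omega)
      · exact pos_lt _ _ _ _ _ (by omega) (by omega)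
    · by_cases hq : ((l : ℕ) + 1) / 2 = (l' + 1) / 2
      · exact pos_lt' _ _ _ _ _ (by omega) (by omega) (by omega)
      · exact pos_lt _ _ _ _ _ (by omega) (by omega)
  refine ⟨OrderEmbedding.ofStrictMono (fun l => ⟨lab d s j l, hlt l⟩) ?_, fun l => rfl⟩
  intro l l' h
  exact hmono l l' h

/-- the edge embedding -/
noncomputable def edge (d M : ℕ) (s : Bool) (j : Fin d) : Fin (2 * M) ↪o Fin ((M + 1) * (2 * d)) :=
  (lab_lt d M s j).choose

theorem edge_val (d M : ℕ) (s : Bool) (j : Fin d) (l : Fin (2 * M)) :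
    ((edge d M s j l : Fin ((M + 1) * (2 * d))) : ℕ) = lab d s j l :=
  (lab_lt d M s j).choose_spec l

/-- labels of moves: sign, old index, new index -/
abbrev Mv (d : ℕ) : Type := Bool × Fin d × Fin d

/-- compatibility of a move -/
def Comp (d M m : ℕ) (Φ Ψ : Fin ((M + 1) * (2 * d)) ↪o Fin m) (e : Mv d) : Prop :=
  (edge d M e.1 e.2.1).trans Φ = (edge d M (!e.1) e.2.2).trans Ψ

/-- increments -/
noncomputable def inc (d M m : ℕ) (Φ Ψ : Fin ((M + 1) * (2 * d)) ↪o Fin m) (e : Mv d)
    (k : Fin m) : ℤ := by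
  classical
  exact if Comp d M m Φ Ψ e then
    ∑ l : Fin (2 * M), if Φ (edge d M e.1 e.2.1 l) = k then sg e.1 l else 0 else 0

end P125F
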