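import Mathlib

/-! # Renorming: from a bounded uniformly concave functional to a uniformly convex norm -/

namespace P125F

open Set Filter Topology

/-- bounded midpoint convex functions on `[0,1]` lie below the chord -/
theorem ren24_chord (φ : ℝ → ℝ) (M : ℝ) (hM : ∀ t, 0 ≤ t → t ≤ 1 → φ t ≤ M)
    (hmid : ∀ s t, 0 ≤ s → s ≤ 1 → 0 ≤ t → t ≤ 1 → φ ((s + t) / 2) ≤ (φ s + φ t) / 2) :
    ∀ t, 0 ≤ t → t ≤ 1 → φ t ≤ (1 - t) * φ 0 + t * φ 1 := by
  have key : ∀ n : ℕ, ∀ t, 0 ≤ t → t ≤ 1 →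
      φ t - ((1 - t) * φ 0 + t * φ 1) ≤ (|M| + |φ 0| + |φ 1|) / 2 ^ n := by
    intro n
    induction n with
    | zero =>
      intro t h0 h1
      have a1 := hM t h0 h1
      have a2 := le_abs_self M
      have a3 := neg_abs_le (φ 0)
      have a4 := neg_abs_le (φ 1)
      have b1 := abs_nonneg (φ 0)
      have b2 := abs_nonneg (φ 1)
      rw [pow_zero, div_one]
      nlinarith
    | succ n ih =>
      intro t h0 h1
      by_cases ht : t ≤ 1 / 2
      · have a1 := hmid 0 (2 * t) le_rfl zero_le_one (by linarith) (by linarith)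
        have a2 := ih (2 * t) (by linarith) (by linarith)
        have e1 : (0 + 2 * t) / 2 = t := by ring
        rw [e1] at a1
        rw [pow_succ, ← div_div]
        linarith
      · have a1 := hmid (2 * t - 1) 1 (by linarith) (by linarith) zero_le_one le_rfl
        have a2 := ih (2 * t - 1) (by linarith) (by linarith)
        have e1 : (2 * t - 1 + 1) / 2 = t := by ring
        rw [e1] at a1
        rw [pow_succ, ← div_div]
        linarith
  intro t h0 h1
  have h2 : Tendsto (fun n : ℕ => (|M| + |φ 0| + |φ 1|) / (2 : ℝ) ^ n) atTop (𝓝 0) := by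
    have h3 : Tendsto (fun n : ℕ => (|M| + |φ 0| + |φ 1|) * ((1 / 2 : ℝ)) ^ n) atTop
        (𝓝 ((|M| + |φ 0| + |φ 1|) * 0)) :=
      (tendsto_pow_atTop_nhds_zero_of_lt_one (by norm_num) (by norm_num)).const_mul _
    rw [mul_zero] at h3
    refine h3.congr fun n => ?_
    rw [one_div, inv_pow, div_eq_mul_inv]
  have h3 := ge_of_tendsto' h2 (fun n => key n t h0 h1)
  linarith

/-- renorming -/
theorem renorm24 {X : Type*} [NormedAddCommGroup X] [NormedSpace ℝ X] (U : X → ℝ) (g : ℝ → ℝ)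
    (hU0 : ∀ x, ‖x‖ ≤ 1 → 0 ≤ U x) (hU1 : ∀ x, ‖x‖ ≤ 1 → U x ≤ 1 / 4)
    (hUs : ∀ x, U (-x) = U x) (hg0 : ∀ t, 0 < t → 0 < g t) (hgm : Monotone g)
    (hg1 : ∀ t, 0 ≤ t → 0 ≤ g t)
    (hmid : ∀ a b, ‖a‖ ≤ 1 → ‖b‖ ≤ 1 →
      (U a + U b) / 2 + g (‖a - b‖ / 2) ≤ U ((1 / 2 : ℝ) • (a + b))) :
    ∃ nm : Seminorm ℝ X, (∀ x, ‖x‖ ≤ nm x ∧ nm x ≤ 5 * ‖x‖) ∧
      ∀ ε > 0, ∃ δ > 0, ∀ x y, nm x ≤ 1 → nm y ≤ 1 → ε ≤ nm (x - y) →
        nm ((1 / 2 : ℝ) • (x + y)) ≤ 1 - δ := by
  classical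
  set W : X → ℝ := fun x => ‖x‖ ^ 2 - U x + U 0 with hW
  have hW0 : W 0 = 0 := by simp [hW]
  have hnz : ‖(0 : X)‖ ≤ 1 := by simp
  have hWs : ∀ x, W (-x) = W x := by
    intro x
    simp only [hW, norm_neg, hUs]
  have hWle : ∀ x, ‖x‖ ≤ 1 → W x ≤ 5 / 4 := by
    intro x hx
    have h1 := hU0 x hx
    have h2 := hU1 0 hnz
    have h3 : ‖x‖ ^ 2 ≤ 1 := by nlinarith [norm_nonneg x]
    simp only [hW]
    linarith
  have hmidnorm : ∀ a b : X, ‖a‖ ≤ 1 → ‖b‖ ≤ 1 → ‖(1 / 2 : ℝ) • (a + b)‖ ≤ 1 := by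
    intro a b ha hb
    rw [norm_smul]
    have := norm_add_le a b
    rw [Real.norm_of_nonneg (by norm_num)]
    linarith
  have hWmid : ∀ a b, ‖a‖ ≤ 1 → ‖b‖ ≤ 1 →
      W ((1 / 2 : ℝ) • (a + b)) ≤ (W a + W b) / 2 - g (‖a - b‖ / 2) := by
    intro a b ha hb
    have h1 := hmid a b ha hb
    have h2 : ‖(1 / 2 : ℝ) • (a + b)‖ ^ 2 ≤ (‖a‖ ^ 2 + ‖b‖ ^ 2) / 2 := by
      rw [norm_smul, Real.norm_of_nonneg (by norm_num)]
      have h3 := norm_add_le a b
      have h4 := norm_nonneg (a + b)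
      have h5 : (1 / 2 * ‖a + b‖) ^ 2 ≤ (1 / 2 * (‖a‖ + ‖b‖)) ^ 2 :=
        pow_le_pow_left₀ (by positivity) (by linarith) 2
      nlinarith [sq_nonneg (‖a‖ - ‖b‖)]
    simp only [hW]
    linarith
  have hWconv : ∀ a b, ‖a‖ ≤ 1 → ‖b‖ ≤ 1 → ∀ t : ℝ, 0 ≤ t → t ≤ 1 →
      W ((1 - t) • a + t • b) ≤ (1 - t) * W a + t * W b := by
    intro a b ha hb
    have hin : ∀ t : ℝ, 0 ≤ t → t ≤ 1 → ‖(1 - t) • a + t • b‖ ≤ 1 := by
      intro t h0 h1
      refine (norm_add_le _ _).trans ?_
      rw [norm_smul, norm_smul, Real.norm_of_nonneg h0, Real.norm_of_nonneg (by linarith)]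
      nlinarith [norm_nonneg a, norm_nonneg b]
    have h := ren24_chord (fun t => W ((1 - t) • a + t • b)) (5 / 4)
      (fun t h0 h1 => hWle _ (hin t h0 h1)) ?_
    · intro t h0 h1
      have := h t h0 h1
      simpa using this
    · intro s t hs0 hs1 ht0 ht1
      have e1 : (1 - (s + t) / 2) • a + ((s + t) / 2) • b
          = (1 / 2 : ℝ) • (((1 - s) • a + s • b) + ((1 - t) • a + t • b)) := by
        module
      have h2 := hWmid _ _ (hin s hs0 hs1) (hin t ht0 ht1)
      have h3 := hg1 (‖((1 - s) • a + s • b) - ((1 - t) • a + t • b)‖ / 2) (by positivity)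
      show W ((1 - (s + t) / 2) • a + ((s + t) / 2) • b) ≤ _
      rw [e1]
      linarith
  have hWnn : ∀ x, ‖x‖ ≤ 1 → 0 ≤ W x := by
    intro x hx
    have h1 := hWconv x (-x) hx (by rw [norm_neg]; exact hx) (1 / 2) (by norm_num) (by norm_num)
    have e1 : (1 - (1 / 2 : ℝ)) • x + (1 / 2 : ℝ) • (-x) = 0 := by module
    rw [e1, hW0, hWs] at h1
    linarith
  set K : Set X := {x | ‖x‖ ≤ 1 ∧ W x ≤ 1 / 4} with hK
  have hKconv : Convex ℝ K := by
    intro x hx y hy s t hs ht hst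
    have hs' : s = 1 - t := by linarith
    subst hs'
    refine ⟨?_, ?_⟩
    · refine (norm_add_le _ _).trans ?_
      rw [norm_smul, norm_smul, Real.norm_of_nonneg ht, Real.norm_of_nonneg hs]
      nlinarith [hx.1, hy.1, norm_nonneg x, norm_nonneg y]
    · have h1 := hWconv x y hx.1 hy.1 t ht (by linarith)
      have h2 := hx.2
      have h3 := hy.2
      nlinarith
  have hKsym : ∀ x ∈ K, -x ∈ K := by
    intro x hx
    exact ⟨by rw [norm_neg]; exact hx.1, by rw [hWs]; exact hx.2⟩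
  have hKbal : Balanced ℝ K := by
    intro a ha
    rintro _ ⟨x, hx, rfl⟩
    rw [Real.norm_eq_abs, abs_le] at ha
    have h1 := hKconv hx (hKsym x hx) (show 0 ≤ (1 + a) / 2 by linarith)
      (show 0 ≤ (1 - a) / 2 by linarith) (by ring)
    have e1 : ((1 + a) / 2) • x + ((1 - a) / 2) • (-x) = a • x := by module
    rw [e1] at h1
    exact h1
  have hKball : ∀ x, ‖x‖ ≤ 1 / 5 → x ∈ K := by
    intro x hx
    refine ⟨by linarith, ?_⟩
    have h1 : ‖(5 : ℝ) • x‖ ≤ 1 := by
      rw [norm_smul, Real.norm_of_nonneg (by norm_num)]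
      linarith
    have h2 := hWconv 0 ((5 : ℝ) • x) hnz h1 (1 / 5) (by norm_num) (by norm_num)
    have e1 : (1 - (1 / 5 : ℝ)) • (0 : X) + (1 / 5 : ℝ) • ((5 : ℝ) • x) = x := by module
    rw [e1, hW0] at h2
    have h3 := hWle _ h1
    linarith
  have hKnhds : K ∈ 𝓝 (0 : X) := by
    refine Filter.mem_of_superset (Metric.closedBall_mem_nhds (0 : X) (show (0 : ℝ) < 1 / 5 by
      norm_num)) ?_
    intro x hx
    rw [mem_closedBall_zero_iff] at hx
    exact hKball x hx
  have hKabs : Absorbent ℝ K := absorbent_nhds_zero hKnhds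
  have hKsq : ∀ x ∈ K, ‖x‖ ≤ 3 / 4 := by
    intro x hx
    have h1 := hx.2
    have h2 := hU1 x hx.1
    have h3 := hU0 0 hnz
    simp only [hW] at h1
    by_contra hc
    push Not at hc
    nlinarith [norm_nonneg x]
  -- elements of small gauge
  have hmem : ∀ x, gauge K x ≤ 1 → ∀ η : ℝ, 0 < η → (1 + η)⁻¹ • x ∈ K := by
    intro x hx η hη
    obtain ⟨b, hb0, hb1, hxb⟩ := exists_lt_of_gauge_lt hKabs (show gauge K x < 1 + η by linarith)
    obtain ⟨k, hk, rfl⟩ := hxb
    have h1 : (1 + η)⁻¹ • (b • k) = ((1 + η)⁻¹ * b) • k := by rw [smul_smul]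
    show (1 + η)⁻¹ • (b • k) ∈ K
    rw [h1]
    refine hKbal _ ?_ ⟨k, hk, rfl⟩
    rw [Real.norm_of_nonneg (by positivity)]
    rw [inv_mul_le_iff₀ (by linarith)]
    linarith
  refine ⟨gaugeSeminorm hKbal hKconv hKabs, ?_, ?_⟩
  · intro x
    constructor
    · show ‖x‖ ≤ gauge K x
      refine le_of_forall_pos_le_add fun η hη => ?_
      obtain ⟨b, hb0, hb1, hxb⟩ := exists_lt_of_gauge_lt hKabs
        (show gauge K x < gauge K x + η by linarith)
      obtain ⟨k, hk, rfl⟩ := hxb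
      have h1 := hk.1
      show ‖b • k‖ ≤ _
      rw [norm_smul, Real.norm_of_nonneg hb0.le]
      nlinarith [norm_nonneg k]
    · show gauge K x ≤ 5 * ‖x‖
      by_cases hx : x = 0
      · subst hx
        rw [gauge_zero, norm_zero]
        norm_num
      · have hxp : 0 < ‖x‖ := norm_pos_iff.mpr hx
        refine gauge_le_of_mem (by positivity) ?_
        refine ⟨(5 * ‖x‖)⁻¹ • x, hKball _ ?_, ?_⟩
        · rw [norm_smul, norm_inv, Real.norm_of_nonneg (by positivity)]
          rw [mul_inv, mul_assoc, inv_mul_cancel₀ hxp.ne']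
          norm_num
        · show (5 * ‖x‖) • ((5 * ‖x‖)⁻¹ • x) = x
          rw [smul_smul, mul_inv_cancel₀ (by positivity), one_smul]
  · intro ε hε
    have hlow : ∀ x, ‖x‖ ≤ gauge K x := by
      intro x
      refine le_of_forall_pos_le_add fun η hη => ?_
      obtain ⟨b, hb0, hb1, hxb⟩ := exists_lt_of_gauge_lt hKabs
        (show gauge K x < gauge K x + η by linarith)
      obtain ⟨k, hk, rfl⟩ := hxb
      have h1 := hk.1
      show ‖b • k‖ ≤ _
      rw [norm_smul, Real.norm_of_nonneg hb0.le]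
      nlinarith [norm_nonneg k]
    have hup : ∀ x, gauge K x ≤ 5 * ‖x‖ := by
      intro x
      by_cases hx : x = 0
      · subst hx
        rw [gauge_zero, norm_zero]
        norm_num
      · have hxp : 0 < ‖x‖ := norm_pos_iff.mpr hx
        refine gauge_le_of_mem (by positivity) ?_
        refine ⟨(5 * ‖x‖)⁻¹ • x, hKball _ ?_, ?_⟩
        · rw [norm_smul, norm_inv, Real.norm_of_nonneg (by positivity)]
          rw [mul_inv, mul_assoc, inv_mul_cancel₀ hxp.ne']
          norm_num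
        · show (5 * ‖x‖) • ((5 * ‖x‖)⁻¹ • x) = x
          rw [smul_smul, mul_inv_cancel₀ (by positivity), one_smul]
    set g0 : ℝ := min (g (ε / 20)) 1 with hg0def
    have hg0pos : 0 < g0 := lt_min (hg0 _ (by positivity)) one_pos
    have hg0le : g0 ≤ g (ε / 20) := min_le_left _ _
    have hg0le1 : g0 ≤ 1 := min_le_right _ _
    set lam : ℝ := 4 * g0 / 5 with hlam
    have hlam0 : 0 < lam := by positivity
    have hlam1 : lam ≤ 1 := by rw [hlam]; linarith
    set d : ℝ := lam / 3 with hd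
    have hd0 : 0 < d := by positivity
    refine ⟨d / (1 + d), by positivity, ?_⟩
    intro x y hx hy hxy
    change gauge K x ≤ 1 at hx
    change gauge K y ≤ 1 at hy
    change ε ≤ gauge K (x - y) at hxy
    show gauge K ((1 / 2 : ℝ) • (x + y)) ≤ 1 - d / (1 + d)
    have hxy' : ε / 5 ≤ ‖x - y‖ := by
      have := hup (x - y)
      linarith
    have step : ∀ η : ℝ, 0 < η → η ≤ 1 →
        gauge K ((1 / 2 : ℝ) • (x + y)) ≤ (1 + η) * (1 + d)⁻¹ := by
      intro η hη hη1
      have hx' := hmem x hx η hη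
      have hy' := hmem y hy η hη
      set x' := (1 + η)⁻¹ • x with hx'def
      set y' := (1 + η)⁻¹ • y with hy'def
      have hdist : ε / 20 ≤ ‖x' - y'‖ / 2 := by
        have e1 : x' - y' = (1 + η)⁻¹ • (x - y) := by rw [hx'def, hy'def, smul_sub]
        rw [e1, norm_smul, norm_inv, Real.norm_of_nonneg (by linarith)]
        have h1 : (1 / 2 : ℝ) ≤ (1 + η)⁻¹ := by
          rw [one_div]
          exact inv_anti₀ (by linarith) (by linarith)
        nlinarith [norm_nonneg (x - y)]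
      set m' := (1 / 2 : ℝ) • (x' + y') with hm'
      have hWm : W m' ≤ 1 / 4 - g0 := by
        have h1 := hWmid x' y' hx'.1 hy'.1
        have h2 := hgm hdist
        have h3 := hx'.2
        have h4 := hy'.2
        linarith
      have hm'n : ‖m'‖ ≤ 3 / 4 := by
        have h1 := hKsq x' hx'
        have h2 := hKsq y' hy'
        rw [hm', norm_smul, Real.norm_of_nonneg (by norm_num)]
        have := norm_add_le x' y'
        linarith
      have hz : ‖(4 / 3 : ℝ) • m'‖ ≤ 1 := by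
        rw [norm_smul, Real.norm_of_nonneg (by norm_num)]
        linarith
      have hm'1 : ‖m'‖ ≤ 1 := by linarith
      have hin : (1 + d) • m' ∈ K := by
        have e1 : (1 + d) • m' = (1 - lam) • m' + lam • ((4 / 3 : ℝ) • m') := by
          rw [hd]
          module
        refine ⟨?_, ?_⟩
        · rw [norm_smul, Real.norm_of_nonneg (by linarith)]
          have : d ≤ 1 / 3 := by rw [hd]; linarith
          nlinarith [norm_nonneg m']
        · rw [e1]
          have h1 := hWconv m' ((4 / 3 : ℝ) • m') hm'1 hz lam hlam0.le hlam1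
          have h2 := hWle _ hz
          have h3 := hWnn m' hm'1
          have h4 : lam * W ((4 / 3 : ℝ) • m') ≤ lam * (5 / 4) :=
            mul_le_mul_of_nonneg_left h2 hlam0.le
          have h5 : (1 - lam) * W m' ≤ W m' := by nlinarith
          have h6 : lam * (5 / 4) = g0 := by rw [hlam]; ring
          linarith
      refine gauge_le_of_mem (by positivity) ?_
      refine ⟨(1 + d) • m', hin, ?_⟩
      show ((1 + η) * (1 + d)⁻¹) • ((1 + d) • m') = (1 / 2 : ℝ) • (x + y)
      rw [hm', hx'def, hy'def, ← smul_add, smul_smul, smul_smul, smul_smul]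
      congr 1
      have h1 : (1 + d) ≠ 0 := by linarith
      have h2 : (1 + η) ≠ 0 := by linarith
      field_simp
    have hlim : gauge K ((1 / 2 : ℝ) • (x + y)) ≤ (1 + d)⁻¹ := by
      refine le_of_forall_pos_le_add fun η hη => ?_
      have h1 := step (min η 1) (lt_min hη one_pos) (min_le_right _ _)
      have h2 : (1 + d)⁻¹ ≤ 1 := by
        rw [inv_le_one₀ (by linarith)]
        linarith
      have h3 : 0 < (1 + d)⁻¹ := by positivity
      have h4 : min η 1 ≤ η := min_le_left _ _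
      have h5 : 0 < min η 1 := lt_min hη one_pos
      nlinarith
    refine hlim.trans (le_of_eq ?_)
    field_simp
    ring

end P125F
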