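import Vale.Agent.P125F.Tree16

/-! The seminorms of the jump systems -/

namespace P125F
open Finset

variable {X : Type*} [NormedAddCommGroup X] [NormedSpace ℝ X]

section lp
variable {ι : Type} [Fintype ι]

/-- weighted power sum -/
noncomputable def ps (w : ι → ℝ) (s : ι → ℕ → X) (p : ℝ) (v : ℕ →₀ ℝ) : ℝ :=
  ∑ i, w i * ‖Finsupp.linearCombination ℝ (s i) v‖ ^ p

theorem ps_nonneg (w : ι → ℝ) (hw : ∀ i, 0 ≤ w i) (s : ι → ℕ → X) (p : ℝ) (v : ℕ →₀ ℝ) :
    0 ≤ ps w s p v := sum_nonneg fun i _ => mul_nonneg (hw i) (Real.rpow_nonneg (norm_nonneg _) _)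

theorem ps_eq (w : ι → ℝ) (hw : ∀ i, 0 ≤ w i) (s : ι → ℕ → X) (p : ℝ) (hp : 1 ≤ p) (v : ℕ →₀ ℝ) :
    ps w s p v = ∑ i, (w i ^ (1 / p) * ‖Finsupp.linearCombination ℝ (s i) v‖) ^ p := by
  unfold ps
  refine sum_congr rfl fun i _ => ?_
  rw [Real.mul_rpow (Real.rpow_nonneg (hw i) _) (norm_nonneg _), ← Real.rpow_mul (hw i)]
  rw [one_div_mul_cancel (by linarith), Real.rpow_one]

/-- the weighted `L_p` seminorm -/
noncomputable def lpS (w : ι → ℝ) (hw : ∀ i, 0 ≤ w i) (s : ι → ℕ → X) (p : ℝ) (hp : 1 ≤ p) :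
    Seminorm ℝ (ℕ →₀ ℝ) :=
  Seminorm.of (fun v => (ps w s p v) ^ (1 / p))
    (by
      intro x y
      simp only [ps_eq w hw s p hp]
      refine le_trans ?_ (Real.Lp_add_le_of_nonneg univ hp
        (fun i _ => mul_nonneg (Real.rpow_nonneg (hw i) _) (norm_nonneg _))
        (fun i _ => mul_nonneg (Real.rpow_nonneg (hw i) _) (norm_nonneg _)))
      refine Real.rpow_le_rpow ?_ ?_ (by positivity)
      · exact sum_nonneg fun i _ => Real.rpow_nonneg
          (mul_nonneg (Real.rpow_nonneg (hw i) _) (norm_nonneg _)) _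
      · refine sum_le_sum fun i _ => Real.rpow_le_rpow
          (mul_nonneg (Real.rpow_nonneg (hw i) _) (norm_nonneg _)) ?_ (by linarith)
        rw [map_add, ← mul_add]
        exact mul_le_mul_of_nonneg_left (norm_add_le _ _) (Real.rpow_nonneg (hw i) _))
    (by
      intro a x
      have e : ps w s p (a • x) = |a| ^ p * ps w s p x := by
        unfold ps
        rw [mul_sum]
        refine sum_congr rfl fun i _ => ?_
        rw [map_smul, norm_smul, Real.norm_eq_abs, Real.mul_rpow (abs_nonneg _) (norm_nonneg _)]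
        ring
      rw [e, Real.mul_rpow (Real.rpow_nonneg (abs_nonneg _) _) (ps_nonneg w hw s p x),
        ← Real.rpow_mul (abs_nonneg _), mul_one_div_cancel (by linarith), Real.rpow_one,
        Real.norm_eq_abs])

theorem lpS_apply (w : ι → ℝ) (hw : ∀ i, 0 ≤ w i) (s : ι → ℕ → X) (p : ℝ) (hp : 1 ≤ p)
    (v : ℕ →₀ ℝ) : lpS w hw s p hp v = (ps w s p v) ^ (1 / p) := rfl

theorem lpS_rpow (w : ι → ℝ) (hw : ∀ i, 0 ≤ w i) (s : ι → ℕ → X) (p : ℝ) (hp : 1 ≤ p)
    (v : ℕ →₀ ℝ) : (lpS w hw s p hp v) ^ p = ps w s p v := by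
  rw [lpS_apply, ← Real.rpow_mul (ps_nonneg w hw s p v), one_div_mul_cancel (by linarith),
    Real.rpow_one]

theorem pow_entry_nonneg {S : Type} [Fintype S] [DecidableEq S] (C : P125S.Chain S) (t : ℕ)
    (x y : S) : 0 ≤ ((Matrix.of C.P) ^ t) x y := by
  induction t generalizing x y with
  | zero =>
    rw [pow_zero, Matrix.one_apply]
    split_ifs <;> norm_num
  | succ t ih =>
    rw [pow_succ, Matrix.mul_apply]
    exact sum_nonneg fun z _ => mul_nonneg (ih x z) (C.P_nonneg z y)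

theorem exch {S : Type} [Fintype S] (A : S → S → ℝ) (w : ι → ℝ) (B : ι → S → S → ℝ) :
    ∑ x, ∑ y, A x y * ∑ i, w i * B i x y = ∑ i, w i * ∑ x, ∑ y, A x y * B i x y := by
  simp only [mul_sum]
  symm
  rw [sum_comm]
  refine sum_congr rfl fun x _ => ?_
  rw [sum_comm]
  exact sum_congr rfl fun y _ => sum_congr rfl fun i _ => by ring

theorem lpS_MT (w : ι → ℝ) (hw : ∀ i, 0 ≤ w i) (s : ι → ℕ → X) (p : ℝ) (hp : 1 ≤ p) (K : ℝ)
    (hX : XMT X p K) : SemiMT (lpS w hw s p hp) p K := by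
  intro S _ _ C f t ht
  simp only [lpS_rpow]
  unfold ps
  rw [exch (fun x y => C.w x * ((Matrix.of C.P) ^ t) x y) w
      (fun i x y => ‖Finsupp.linearCombination ℝ (s i) (f y - f x)‖ ^ p),
    exch (fun x y => C.w x * C.P x y) w
      (fun i x y => ‖Finsupp.linearCombination ℝ (s i) (f y - f x)‖ ^ p), mul_sum]
  refine sum_le_sum fun i _ => ?_
  have h := hX S C (fun x => Finsupp.linearCombination ℝ (s i) (f x)) t ht
  simp only [← map_sub] at h
  have h2 := mul_le_mul_of_nonneg_left h (hw i)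
  refine h2.trans (le_of_eq ?_)
  ring

theorem lpS_single (w : ι → ℝ) (hw : ∀ i, 0 ≤ w i) (s : ι → ℕ → X) (p : ℝ) (hp : 1 ≤ p)
    (h1 : ∑ i, w i = 1) (hs : ∀ i j, ‖s i j‖ ≤ 1) (j : ℕ) :
    lpS w hw s p hp (Finsupp.single j 1) ≤ 1 := by
  rw [lpS_apply]
  refine Real.rpow_le_one (ps_nonneg w hw s p _) ?_ (by positivity)
  unfold ps
  refine le_trans ?_ h1.le
  refine sum_le_sum fun i _ => ?_
  rw [Finsupp.linearCombination_single, one_smul]
  exact mul_le_of_le_one_right (hw i) (Real.rpow_le_one (norm_nonneg _) (hs i j) (by linarith))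

theorem lpS_mean (w : ι → ℝ) (hw : ∀ i, 0 ≤ w i) (s : ι → ℕ → X) (p : ℝ) (hp : 1 ≤ p)
    (h1 : ∑ i, w i = 1) (v : ℕ →₀ ℝ) :
    ∑ i, w i * ‖Finsupp.linearCombination ℝ (s i) v‖ ≤ lpS w hw s p hp v := by
  rw [lpS_apply]
  exact Real.arith_mean_le_rpow_mean univ w _ (fun i _ => hw i) h1 (fun i _ => norm_nonneg _) hp

end lp

theorem LE_fin (L : List (ℝ × (ℕ → X))) (F : (ℕ → X) → ℝ) :
    LE L F = ∑ i : Fin L.length, (L[i.1]).1 * F (L[i.1]).2 := by
  unfold LE
  rw [Fin.sum_univ_fun_getElem L (fun a => a.1 * F a.2)]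

/-- **T1**: many jumps give a seminorm with tails -/
theorem tree_james16 (p K : ℝ) (hp : 1 ≤ p) (hX : XMT X p K) (ε : ℝ) (hε : 0 < ε) (N : ℕ)
    (T : Tr X) (hT : T.inBall) (hN : 1 / 2 < T.PN ε N) :
    ∃ ρ : Seminorm ℝ (ℕ →₀ ℝ), (∀ j, ρ (Finsupp.single j 1) ≤ 1) ∧
      (∀ (v : ℕ →₀ ℝ) (i : ℕ), i < N → ε / 2 * |∑ j ∈ v.support.filter (i ≤ ·), v j| ≤ ρ v) ∧
      SemiMT ρ p K := by
  classical
  set L := T.seqs ε with hL
  set w : Fin L.length → ℝ := fun i => (L[i.1]).1 with hw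
  set s : Fin L.length → ℕ → X := fun i => (L[i.1]).2 with hs
  have hw0 : ∀ i, 0 ≤ w i := fun i => seqs_w ε T _ (List.getElem_mem _)
  have hw1 : ∑ i, w i = 1 := by
    have := LE_one ε T
    rw [← hL, LE_fin] at this
    simp only [mul_one] at this
    exact this
  have hsb : ∀ i j, ‖s i j‖ ≤ 1 := fun i j => seqs_ball ε T hT _ (List.getElem_mem _) j
  have hmono : ∀ (T : Tr X) (k : ℕ), T.PN ε (k + 1) ≤ T.PN ε k := by
    intro T
    induction T with
    | leaf x => intro k; cases k <;> simp [Tr.PN]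
    | node l r hl hr =>
      intro k
      cases k with
      | zero =>
        rw [Tr.PN_zero]
        unfold Tr.PN
        split_ifs
        · rw [Tr.PN_zero, Tr.PN_zero]; norm_num
        · have h1 := hl 0
          have h2 := hr 0
          rw [Tr.PN_zero] at h1 h2
          simp only [zero_add] at h1 h2 ⊢
          linarith
      | succ k =>
        rw [Tr.PN, Tr.PN]
        split_ifs
        · linarith [hl k, hr k]
        · linarith [hl (k + 1), hr (k + 1)]
  have hanti : Antitone (T.PN ε) := antitone_nat_of_succ_le (hmono T)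
  refine ⟨lpS w hw0 s p hp, lpS_single w hw0 s p hp hw1 hsb, ?_, lpS_MT w hw0 s p hp K hX⟩
  intro v i hi
  refine le_trans ?_ (lpS_mean w hw0 s p hp hw1 v)
  -- choose a range
  obtain ⟨M, hM⟩ : ∃ M, v.support ⊆ range M := by
    refine ⟨v.support.sup id + 1, fun j hj => ?_⟩
    rw [mem_range]
    exact Nat.lt_succ_of_le (Finset.le_sup (f := id) hj)
  have hlin : ∀ y : ℕ → X, Finsupp.linearCombination ℝ y v = ∑ j ∈ range M, v j • y j := by
    intro y
    rw [Finsupp.linearCombination_apply, Finsupp.sum]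
    refine sum_subset hM fun j _ hj => ?_
    rw [Finsupp.notMem_support_iff.1 hj, zero_smul]
  have htail : ∑ j ∈ v.support.filter (i ≤ ·), v j = ∑ j ∈ range M, if i ≤ j then v j else 0 := by
    rw [sum_filter]
    refine sum_subset hM fun j _ hj => ?_
    rw [Finsupp.notMem_support_iff.1 hj, ite_self]
  have h1 := tails ε T i 0 (fun j => v j) M
  rw [← hL, LE_fin] at h1
  simp only [zero_add] at h1
  have h2 : ∑ i, w i * ‖Finsupp.linearCombination ℝ (s i) v‖
      = ∑ i : Fin L.length, (L[i.1]).1 * ‖∑ j ∈ range M, v j • (L[i.1]).2 j‖ := by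
    refine sum_congr rfl fun i _ => ?_
    rw [hlin]
  rw [h2, htail]
  refine le_trans ?_ h1
  refine mul_le_mul_of_nonneg_right ?_ (abs_nonneg _)
  have h3 : 1 / 2 < T.PN ε (i + 1) := lt_of_lt_of_le hN (hanti hi)
  nlinarith

end P125F
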