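import Vale.Agent.P125F.Bridge24
import Vale.Agent.P125F.ConvU24
import Vale.Agent.P125F.Tree16b
import Vale.Agent.P125F.Ren24

/-! # Assembly (universe polymorphic): no long James systems implies an equivalent uniformly
convex norm -/

namespace P125F

theorem finalU24 {X : Type*} [NormedAddCommGroup X] [NormedSpace ℝ X] (p K : ℝ) (hp : 1 ≤ p)
    (hs : ∀ θ : ℝ, 0 < θ → ∃ N : ℕ, ¬ ∃ ρ : Seminorm ℝ (ℕ →₀ ℝ),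
      (∀ j, ρ (Finsupp.single j 1) ≤ 1) ∧
      (∀ v : ℕ →₀ ℝ, ∀ i < N, θ * |∑ j ∈ v.support.filter (i ≤ ·), v j| ≤ ρ v) ∧
      SemiMT ρ p K) (hX : XMT X p K) :
    ∃ nm : Seminorm ℝ X, (∀ x, ‖x‖ ≤ nm x ∧ nm x ≤ 5 * ‖x‖) ∧
      ∀ ε : ℝ, 0 < ε → ∃ δ : ℝ, 0 < δ ∧ ∀ x y : X, nm x ≤ 1 → nm y ≤ 1 → ε ≤ nm (x - y) →
        nm ((1 / 2 : ℝ) • (x + y)) ≤ 1 - δ := by
  have hN : ∀ ε : ℝ, 0 < ε → ∃ N : ℕ, ∀ (τ : TU24.Tree X) (x : X), TU24.InB τ x →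
      TU24.pr ε N τ ≤ 1 / 2 := by
    intro ε hε
    obtain ⟨N, hN⟩ := hs (ε / 2) (by positivity)
    refine ⟨N, fun τ x hτ => ?_⟩
    by_contra hcon
    push Not at hcon
    obtain ⟨ρ, h1, h2, h3⟩ := tree_james16 p K hp hX ε hε N (TU24.toTr τ x)
      (TU24.toTr_ball τ x hτ) (by rw [TU24.toTr_PN]; exact hcon)
    exact hN ⟨ρ, h1, fun v i hi => h2 v i hi, h3⟩
  obtain ⟨U, g, hU0, hU1, hUs, hg0, hgm, hg1, hm⟩ := TU24.exists_U hN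
  exact renorm24 U g (fun x _ => hU0 x) (fun x _ => hU1 x) hUs hg0 hgm (fun t _ => hg1 t) hm

/-- The verbatim statement from the main theorem. -/
theorem verb24 {X : Type*} [NormedAddCommGroup X] [NormedSpace ℝ X] (p K : ℝ) (hp : 1 < p)
    (hK : 0 < K)
    (main : ∀ (Y : Type) [NormedAddCommGroup Y] [NormedSpace ℝ Y] (p K : ℝ), 1 < p → 0 < K →
      MarkovType Y p K → ∀ θ : ℝ, 0 < θ → ¬ ∀ N, HasJames Y θ N) (hX : XMT X p K) :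
    ∃ nm : Seminorm ℝ X, (∀ x, ‖x‖ ≤ nm x ∧ nm x ≤ 5 * ‖x‖) ∧
      ∀ ε : ℝ, 0 < ε → ∃ δ : ℝ, 0 < δ ∧ ∀ x y : X, nm x ≤ 1 → nm y ≤ 1 → ε ≤ nm (x - y) →
        nm ((1 / 2 : ℝ) • (x + y)) ≤ 1 - δ :=
  finalU24 p K hp.le (fun θ hθ => bridge24 main p K θ hp hK hθ) hX

end P125F
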