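import Vale.Agent.P125F.Defs

namespace P125F
open Finset P125S

/-- blowing up commutes with listing -/
theorem blow_ofFn14 (L m : ℕ) (a : Fin m → ℤ) :
    blow L (List.ofFn a) = List.ofFn (fun k : Fin (m * L) => ((a k.divNat : ℝ)) / L) := by
  rw [List.ofFn_mul]
  have hb : blow L (List.ofFn a)
      = ((List.ofFn a).map (fun z : ℤ => List.replicate L ((z : ℝ) / L))).flatten := by
    unfold blow
    rw [List.flatMap_def]
    congr 1
    generalize List.ofFn a = l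
    induction l with
    | nil => rfl
    | cons z l ih => simpa using ih
  rw [hb, List.map_ofFn]
  apply congrArg
  apply congrArg
  funext i
  simp only [Function.comp]
  rw [← List.ofFn_const]
  apply congrArg
  funext j
  have : (⟨(i : ℕ) * L + j, by
      have := i.2; have := j.2
      calc (i : ℕ) * L + j < i * L + L := by omega
        _ = (i + 1) * L := by ring
        _ ≤ m * L := Nat.mul_le_mul_right _ i.2⟩ : Fin (m * L)).divNat = i := by
    ext
    simp only [Fin.coe_divNat]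
    rw [Nat.add_comm, Nat.add_mul_div_right _ _ (lt_of_le_of_lt (Nat.zero_le _) j.2)]
    rw [Nat.div_eq_of_lt j.2, Nat.zero_add]
  rw [this]

theorem good_vectors14 {X : Type} [NormedAddCommGroup X] [NormedSpace ℝ X] {θ : ℝ}
    (hA1 : ∃ S : List ℝ → ℝ, Spr S θ ∧ ∀ (m : ℕ) (A : Finset (Fin m → ℝ)) (δ : ℝ), 0 < δ →
      ∃ y : Fin m → X, ∀ a ∈ A, |‖∑ j, a j • y j‖ - S (List.ofFn a)| ≤ δ)
    (hA2 : ∀ S : List ℝ → ℝ, Spr S θ → ∃ N : List ℤ → ℝ, Sem N θ ∧
      ∀ (A : Finset (List ℤ)) (δ : ℝ), 0 < δ → ∃ L : ℕ, 0 < L ∧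
        ∀ l ∈ A, |S (blow L l) - N l| ≤ δ) :
    ∃ N : List ℤ → ℝ, Sem N θ ∧ ∀ (m R : ℕ) (δ : ℝ), 0 < δ → ∃ y : Fin m → X,
      ∀ a : Fin m → ℤ, (∀ j, |a j| ≤ (R : ℤ)) →
        |‖∑ j, (a j : ℝ) • y j‖ - N (List.ofFn a)| ≤ δ := by
  classical
  obtain ⟨S, hS, hSa⟩ := hA1
  obtain ⟨N, hN, hNa⟩ := hA2 S hS
  refine ⟨N, hN, fun m R δ hδ => ?_⟩
  set F : Finset (Fin m → ℤ) := Fintype.piFinset (fun _ => Finset.Icc (-(R : ℤ)) R) with hF
  obtain ⟨L, hL, hLa⟩ := hNa (F.image List.ofFn) (δ / 2) (by linarith)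
  obtain ⟨y', hy'⟩ := hSa (m * L)
    (F.image (fun a => (fun k : Fin (m * L) => ((a k.divNat : ℝ)) / L))) (δ / 2) (by linarith)
  refine ⟨fun j => ∑ i : Fin L, ((1 : ℝ) / L) • y' (finProdFinEquiv (j, i)), fun a ha => ?_⟩
  have haF : a ∈ F := by
    rw [hF, Fintype.mem_piFinset]
    intro j
    rw [Finset.mem_Icc]
    exact abs_le.1 (ha j)
  have h1 := hLa (List.ofFn a) (Finset.mem_image_of_mem _ haF)
  have h2 := hy' _ (Finset.mem_image_of_mem _ haF)
  have h3 : ∑ j, (a j : ℝ) • (∑ i : Fin L, ((1 : ℝ) / L) • y' (finProdFinEquiv (j, i)))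
      = ∑ k : Fin (m * L), (((a k.divNat : ℝ)) / L) • y' k := by
    rw [← Equiv.sum_comp finProdFinEquiv, Fintype.sum_prod_type]
    refine Finset.sum_congr rfl fun j _ => ?_
    rw [Finset.smul_sum]
    refine Finset.sum_congr rfl fun i _ => ?_
    have : (finProdFinEquiv (j, i)).divNat = j := by
      have := finProdFinEquiv.symm_apply_apply (j, i)
      rw [finProdFinEquiv_symm_apply] at this
      exact (Prod.ext_iff.1 this).1
    rw [this, smul_smul, mul_one_div]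
  rw [h3]
  rw [blow_ofFn14] at h1
  have := abs_sub_le (‖∑ k : Fin (m * L), (((a k.divNat : ℝ)) / L) • y' k‖)
    (S (List.ofFn (fun k : Fin (m * L) => ((a k.divNat : ℝ)) / L))) (N (List.ofFn a))
  linarith

end P125F
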