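import Vale.Agent.P125F.Defs

/-! # [GV] good vectors from the spreading seminorm and the averaged seminorm -/

namespace P125F
open Finset P125S

/-- `blow` in plain form (the definition elaborates with a monadic lift) -/
theorem blow4 (L : ℕ) (l : List ℤ) :
    blow L l = l.flatMap (fun a : ℤ => List.replicate L ((a : ℝ) / L)) := by
  induction l with
  | nil => rfl
  | cons a l ih =>
    have h1 : blow L (a :: l) = List.replicate L ((a : ℝ) / L) ++ blow L l := rfl
    rw [h1, ih, List.flatMap_cons]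

theorem gv4_list (m L : ℕ) (a : Fin m → ℤ) :
    List.ofFn (fun k : Fin (m * L) => ((a (finProdFinEquiv.symm k).1 : ℤ) : ℝ) / L)
      = blow L (List.ofFn a) := by
  rw [List.ofFn_mul, blow4, List.flatMap_def, List.map_ofFn]
  congr 1
  apply congrArg
  funext i
  have h : (fun j : Fin L => ((a (finProdFinEquiv.symm
      (⟨(i : ℕ) * L + j, by
        calc (i : ℕ) * L + j < (i : ℕ) * L + L := by omega
          _ = ((i : ℕ) + 1) * L := by ring
          _ ≤ m * L := Nat.mul_le_mul_right L i.2⟩ : Fin (m * L))).1 : ℤ) : ℝ) / L)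
      = fun _ => ((a i : ℤ) : ℝ) / L := by
    funext j
    have he : (⟨(i : ℕ) * L + j, by
        calc (i : ℕ) * L + j < (i : ℕ) * L + L := by omega
          _ = ((i : ℕ) + 1) * L := by ring
          _ ≤ m * L := Nat.mul_le_mul_right L i.2⟩ : Fin (m * L)) = finProdFinEquiv (i, j) := by
      apply Fin.ext
      simp [finProdFinEquiv]
      ring
    rw [he, Equiv.symm_apply_apply]
  rw [h, List.ofFn_const]
  rfl

theorem good_vectors_aux {X : Type} [NormedAddCommGroup X] [NormedSpace ℝ X]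
    {S : List ℝ → ℝ} {N : List ℤ → ℝ}
    (hS : ∀ (m : ℕ) (A : Finset (Fin m → ℝ)) (δ : ℝ), 0 < δ →
      ∃ y : Fin m → X, ∀ a ∈ A, |‖∑ j, a j • y j‖ - S (List.ofFn a)| ≤ δ)
    (hN : ∀ (A : Finset (List ℤ)) (δ : ℝ), 0 < δ →
      ∃ L : ℕ, 0 < L ∧ ∀ l ∈ A, |S (blow L l) - N l| ≤ δ) (m R : ℕ) (δ : ℝ) (hδ : 0 < δ) :
    ∃ y : Fin m → X, ∀ a : Fin m → ℤ, (∀ j, |a j| ≤ (R : ℤ)) →
      |‖∑ j, (a j : ℝ) • y j‖ - N (List.ofFn a)| ≤ δ := by
  classical
  set box : Finset (Fin m → ℤ) := Fintype.piFinset (fun _ => Finset.Icc (-(R : ℤ)) R) with hbox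
  obtain ⟨L, hL, hLN⟩ := hN (box.image fun a => List.ofFn a) (δ / 2) (by linarith)
  obtain ⟨y', hy'⟩ := hS (m * L) (box.image fun a =>
    fun k : Fin (m * L) => ((a (finProdFinEquiv.symm k).1 : ℤ) : ℝ) / L) (δ / 2) (by linarith)
  refine ⟨fun j => ∑ i : Fin L, (1 / (L : ℝ)) • y' (finProdFinEquiv (j, i)), fun a ha => ?_⟩
  have hab : a ∈ box := by
    rw [hbox, Fintype.mem_piFinset]
    intro j
    rw [Finset.mem_Icc]
    exact abs_le.mp (ha j)
  have h1 := hLN (List.ofFn a) (Finset.mem_image_of_mem _ hab)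
  have h2 := hy' _ (Finset.mem_image_of_mem (fun a : Fin m → ℤ =>
    fun k : Fin (m * L) => ((a (finProdFinEquiv.symm k).1 : ℤ) : ℝ) / L) hab)
  rw [gv4_list] at h2
  have h3 : ∑ k : Fin (m * L), (((a (finProdFinEquiv.symm k).1 : ℤ) : ℝ) / L) • y' k
      = ∑ j, (a j : ℝ) • ∑ i : Fin L, (1 / (L : ℝ)) • y' (finProdFinEquiv (j, i)) := by
    rw [← finProdFinEquiv.sum_comp, Fintype.sum_prod_type]
    refine Finset.sum_congr rfl fun j _ => ?_
    rw [Finset.smul_sum]
    refine Finset.sum_congr rfl fun i _ => ?_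
    rw [Equiv.symm_apply_apply, smul_smul]
    congr 1
    ring
  rw [h3] at h2
  have h4 := abs_sub_le (‖∑ j, (a j : ℝ) • ∑ i : Fin L, (1 / (L : ℝ)) • y' (finProdFinEquiv (j, i))‖)
    (S (blow L (List.ofFn a))) (N (List.ofFn a))
  linarith

end P125F
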