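import Vale.Agent.P125F.Edge
import Vale.Agent.P125F.IND_helper15

/-! # [JC] the concrete labelled chain from near-indiscernible laws -/

namespace P125F
open Finset P125S

section JC22

variable {K r m : ℕ}

/-- marginal law -/
noncomputable def jcnu (μ : (Fin K ↪o Fin m) → ℝ) (α : Fin r ↪o Fin K) (u : Fin r ↪o Fin m) : ℝ :=
  ∑ Φ, if α.trans Φ = u then μ Φ else 0

/-- transition weights for one pair -/
noncomputable def jcJ (μ : (Fin K ↪o Fin m) → ℝ) (α β : Fin r ↪o Fin K) (Φ Ψ : Fin K ↪o Fin m) : ℝ :=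
  if α.trans Φ = β.trans Ψ then
    μ Φ * μ Ψ / max (jcnu μ α (α.trans Φ)) (jcnu μ β (α.trans Φ)) else 0

theorem jcnu_nonneg (μ : (Fin K ↪o Fin m) → ℝ) (h0 : ∀ Φ, 0 ≤ μ Φ) (α : Fin r ↪o Fin K)
    (u : Fin r ↪o Fin m) : 0 ≤ jcnu μ α u :=
  sum_nonneg fun Φ _ => by split_ifs; exacts [h0 Φ, le_rfl]

theorem jcnu_sum (μ : (Fin K ↪o Fin m) → ℝ) (α : Fin r ↪o Fin K) (h : (Fin r ↪o Fin m) → ℝ) :
    ∑ u, jcnu μ α u * h u = ∑ Φ, μ Φ * h (α.trans Φ) := by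
  unfold jcnu
  simp only [sum_mul]
  rw [sum_comm]
  refine sum_congr rfl fun Φ _ => ?_
  rw [sum_eq_single (α.trans Φ)]
  · rw [if_pos rfl]
  · intro u _ hu
    rw [if_neg (Ne.symm hu), zero_mul]
  · intro hu; exact absurd (mem_univ _) hu

theorem jcJ_nonneg (μ : (Fin K ↪o Fin m) → ℝ) (h0 : ∀ Φ, 0 ≤ μ Φ) (α β : Fin r ↪o Fin K)
    (Φ Ψ : Fin K ↪o Fin m) : 0 ≤ jcJ μ α β Φ Ψ := by
  unfold jcJ
  split_ifs
  · exact div_nonneg (mul_nonneg (h0 Φ) (h0 Ψ))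
      (le_max_of_le_left (jcnu_nonneg μ h0 α _))
  · exact le_rfl

theorem jcJ_symm (μ : (Fin K ↪o Fin m) → ℝ) (α β : Fin r ↪o Fin K)
    (Φ Ψ : Fin K ↪o Fin m) : jcJ μ α β Φ Ψ = jcJ μ β α Ψ Φ := by
  unfold jcJ
  by_cases h : α.trans Φ = β.trans Ψ
  · rw [if_pos h, if_pos h.symm, h, mul_comm (μ Φ), max_comm]
  · rw [if_neg h, if_neg fun h' => h h'.symm]

theorem jcJ_row (μ : (Fin K ↪o Fin m) → ℝ) (α β : Fin r ↪o Fin K) (Φ : Fin K ↪o Fin m) :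
    ∑ Ψ, jcJ μ α β Φ Ψ
      = μ Φ * (jcnu μ β (α.trans Φ) / max (jcnu μ α (α.trans Φ)) (jcnu μ β (α.trans Φ))) := by
  have e : ∀ Ψ, jcJ μ α β Φ Ψ
      = μ Φ / max (jcnu μ α (α.trans Φ)) (jcnu μ β (α.trans Φ)) *
        (if β.trans Ψ = α.trans Φ then μ Ψ else 0) := by
    intro Ψ
    unfold jcJ
    by_cases h : α.trans Φ = β.trans Ψ
    · rw [if_pos h, if_pos h.symm]; ring
    · rw [if_neg h, if_neg fun h' => h h'.symm, mul_zero]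
  rw [sum_congr rfl fun Ψ _ => e Ψ, ← mul_sum]
  have e2 : ∑ Ψ, (if β.trans Ψ = α.trans Φ then μ Ψ else 0) = jcnu μ β (α.trans Φ) := rfl
  rw [e2]
  ring

theorem jcJ_row_le (μ : (Fin K ↪o Fin m) → ℝ) (h0 : ∀ Φ, 0 ≤ μ Φ) (α β : Fin r ↪o Fin K)
    (Φ : Fin K ↪o Fin m) : ∑ Ψ, jcJ μ α β Φ Ψ ≤ μ Φ := by
  rw [jcJ_row]
  have h1 : jcnu μ β (α.trans Φ) / max (jcnu μ α (α.trans Φ)) (jcnu μ β (α.trans Φ)) ≤ 1 :=
    div_le_one_of_le₀ (le_max_right _ _) (le_max_of_le_left (jcnu_nonneg μ h0 α _))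
  calc _ ≤ μ Φ * 1 := mul_le_mul_of_nonneg_left h1 (h0 Φ)
    _ = μ Φ := mul_one _

theorem jc_min (a b : ℝ) (ha : 0 ≤ a) (hb : 0 ≤ b) :
    (a + b - |a - b|) / 2 ≤ a * (b / max a b) := by
  rcases le_total a b with h | h
  · rw [max_eq_right h, abs_of_nonpos (by linarith)]
    rcases hb.eq_or_lt with h1 | h1
    · have ha0 : a = 0 := by linarith
      rw [← h1, ha0]; norm_num
    · rw [div_self h1.ne']; linarith
  · rw [max_eq_left h, abs_of_nonneg (by linarith)]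
    rcases ha.eq_or_lt with h1 | h1
    · have hb0 : b = 0 := by linarith
      rw [← h1, hb0]; norm_num
    · rw [mul_div_cancel₀ _ h1.ne']; linarith

theorem jcJ_total (μ : (Fin K ↪o Fin m) → ℝ) (h0 : ∀ Φ, 0 ≤ μ Φ) (h1 : ∑ Φ, μ Φ = 1)
    (α β : Fin r ↪o Fin K) {ε : ℝ} (h : ∑ u, |jcnu μ α u - jcnu μ β u| ≤ ε) :
    1 - ε / 2 ≤ ∑ Φ, ∑ Ψ, jcJ μ α β Φ Ψ := by
  simp only [jcJ_row]
  rw [← jcnu_sum μ α (fun u => jcnu μ β u / max (jcnu μ α u) (jcnu μ β u))]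
  have ha : ∑ u, jcnu μ α u = 1 := by
    have := jcnu_sum μ α (fun _ => (1 : ℝ))
    simp only [mul_one] at this
    rw [this, h1]
  have hb : ∑ u, jcnu μ β u = 1 := by
    have := jcnu_sum μ β (fun _ => (1 : ℝ))
    simp only [mul_one] at this
    rw [this, h1]
  calc 1 - ε / 2 ≤ ∑ u, (jcnu μ α u + jcnu μ β u - |jcnu μ α u - jcnu μ β u|) / 2 := by
        rw [← sum_div, sum_sub_distrib, sum_add_distrib, ha, hb]
        linarith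
    _ ≤ _ := sum_le_sum fun u _ => jc_min _ _ (jcnu_nonneg μ h0 α u) (jcnu_nonneg μ h0 β u)

end JC22

theorem jc_of_ind (d M : ℕ) (hd : 1 ≤ d) {ε : ℝ} (hε : 0 < ε)
    (hind : ∃ (m : ℕ) (μ : (Fin ((M + 1) * (2 * d)) ↪o Fin m) → ℝ), (∀ Φ, 0 ≤ μ Φ) ∧
      ∑ Φ, μ Φ = 1 ∧
      ∀ α β : Fin (2 * M) ↪o Fin ((M + 1) * (2 * d)), ∑ u : Fin (2 * M) ↪o Fin m,
        |(∑ Φ, if α.trans Φ = u then μ Φ else 0) - (∑ Φ, if β.trans Φ = u then μ Φ else 0)| ≤ ε) :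
    ∃ (m : ℕ) (L : LChain (Fin ((M + 1) * (2 * d)) ↪o Fin m) (Mv d)),
      (∀ e, L.inv e = (!e.1, e.2.2, e.2.1)) ∧
      (∀ Φ Ψ e, L.J Φ Ψ e ≠ 0 → Comp d M m Φ Ψ e) ∧
      (1 - ε ≤ ∑ Φ, ∑ Ψ, ∑ e, L.J Φ Ψ e) ∧
      (∀ Φ (j : Fin d), ∑ Ψ, ∑ e, (if e.2.1 = j then L.J Φ Ψ e else 0) ≤ L.w Φ / d) := by
  obtain ⟨m, μ, h0, h1, h2⟩ := hind
  have hd0 : (0 : ℝ) < d := by exact_mod_cast hd
  have hdd : (0 : ℝ) < 2 * (d : ℝ) ^ 2 := by positivity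
  set A : Mv d → (Fin (2 * M) ↪o Fin ((M + 1) * (2 * d))) := fun e => edge d M e.1 e.2.1 with hA
  set A' : Mv d → (Fin (2 * M) ↪o Fin ((M + 1) * (2 * d))) := fun e => edge d M (!e.1) e.2.2 with hA'
  set J : (Fin ((M + 1) * (2 * d)) ↪o Fin m) → (Fin ((M + 1) * (2 * d)) ↪o Fin m) → Mv d → ℝ :=
    fun Φ Ψ e => jcJ μ (A e) (A' e) Φ Ψ / (2 * (d : ℝ) ^ 2) with hJ
  have hrow : ∀ Φ e, ∑ Ψ, J Φ Ψ e ≤ μ Φ / (2 * (d : ℝ) ^ 2) := by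
    intro Φ e
    simp only [hJ]
    rw [← sum_div]
    exact div_le_div_of_nonneg_right (jcJ_row_le μ h0 _ _ Φ) hdd.le
  have hcard : (Fintype.card (Mv d) : ℝ) = 2 * (d : ℝ) ^ 2 := by
    simp only [Fintype.card_prod, Fintype.card_bool, Fintype.card_fin]
    push_cast; ring
  refine ⟨m, ⟨μ, J, fun e => (!e.1, e.2.2, e.2.1), h0, h1, ?_, ?_, ?_, ?_⟩, fun e => rfl, ?_, ?_, ?_⟩
  · intro Φ Ψ e
    exact div_nonneg (jcJ_nonneg μ h0 _ _ _ _) hdd.le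
  · intro Φ
    rw [sum_comm]
    calc _ ≤ ∑ _e : Mv d, μ Φ / (2 * (d : ℝ) ^ 2) := sum_le_sum fun e _ => hrow Φ e
      _ = μ Φ := by
        rw [sum_const, card_univ, nsmul_eq_mul, hcard, mul_div_cancel₀ _ hdd.ne']
  · intro Φ Ψ e
    simp only [hJ, hA, hA', Bool.not_not]
    rw [jcJ_symm]
  · intro e
    simp
  · intro Φ Ψ e hne
    unfold Comp
    by_contra hc
    apply hne
    show J Φ Ψ e = 0
    simp only [hJ, hA, hA']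
    unfold jcJ
    rw [if_neg hc, zero_div]
  · show 1 - ε ≤ ∑ Φ, ∑ Ψ, ∑ e, J Φ Ψ e
    have e1 : ∑ Φ, ∑ Ψ, ∑ e, J Φ Ψ e
        = ∑ e : Mv d, (∑ Φ, ∑ Ψ, jcJ μ (A e) (A' e) Φ Ψ) / (2 * (d : ℝ) ^ 2) := by
      have : ∀ Φ : Fin ((M + 1) * (2 * d)) ↪o Fin m, ∑ Ψ, ∑ e, J Φ Ψ e = ∑ e, ∑ Ψ, J Φ Ψ e :=
        fun Φ => sum_comm
      simp only [this]
      rw [sum_comm]
      refine sum_congr rfl fun e _ => ?_
      rw [sum_div]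
      refine sum_congr rfl fun Φ _ => ?_
      rw [sum_div]
    rw [e1]
    calc 1 - ε ≤ 1 - ε / 2 := by linarith
      _ = ∑ _e : Mv d, (1 - ε / 2) / (2 * (d : ℝ) ^ 2) := by
        rw [sum_const, card_univ, nsmul_eq_mul, hcard, mul_div_cancel₀ _ hdd.ne']
      _ ≤ _ := by
        refine sum_le_sum fun e _ => ?_
        refine div_le_div_of_nonneg_right ?_ hdd.le
        exact jcJ_total μ h0 h1 (A e) (A' e) (h2 (A e) (A' e))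
  · intro Φ j
    show ∑ Ψ, ∑ e : Mv d, (if e.2.1 = j then J Φ Ψ e else 0) ≤ μ Φ / d
    rw [sum_comm]
    have e2 : ∀ e : Mv d, ∑ Ψ, (if e.2.1 = j then J Φ Ψ e else 0)
        ≤ if e.2.1 = j then μ Φ / (2 * (d : ℝ) ^ 2) else 0 := by
      intro e
      split_ifs
      · exact hrow Φ e
      · simp
    refine (sum_le_sum fun e _ => e2 e).trans (le_of_eq ?_)
    refine (Fintype.sum_prod_type _).trans ?_
    have e3 : ∀ b : Bool, ∑ y : Fin d × Fin d,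
        (if ((b, y) : Mv d).2.1 = j then μ Φ / (2 * (d : ℝ) ^ 2) else 0)
        = d * (μ Φ / (2 * (d : ℝ) ^ 2)) := by
      intro b
      refine (Fintype.sum_prod_type _).trans ?_
      rw [sum_comm]
      simp
    rw [sum_congr rfl fun b _ => e3 b, sum_const, card_univ, Fintype.card_bool, nsmul_eq_mul]
    push_cast
    field_simp

/-- [JC] the concrete labelled chain, verbatim -/
theorem jc_helper22 (d M : ℕ) (hd : 1 ≤ d) {ε : ℝ} (hε : 0 < ε) :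
    ∃ (m : ℕ) (L : LChain (Fin ((M + 1) * (2 * d)) ↪o Fin m) (Mv d)),
      (∀ e, L.inv e = (!e.1, e.2.2, e.2.1)) ∧
      (∀ Φ Ψ e, L.J Φ Ψ e ≠ 0 → Comp d M m Φ Ψ e) ∧
      (1 - ε ≤ ∑ Φ, ∑ Ψ, ∑ e, L.J Φ Ψ e) ∧
      (∀ Φ (j : Fin d), ∑ Ψ, ∑ e, (if e.2.1 = j then L.J Φ Ψ e else 0) ≤ L.w Φ / d) :=
  jc_of_ind d M hd hε (ind_helper15 _ _ hε)

end P125F
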