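import Vale.Agent.P125F.Defs

/-! James systems from lower bounds (Hahn-Banach); Markov type of `ℓ_p(X)` -/

namespace P125F
open Finset P125S

theorem jl7_james_of_low {Y : Type} [NormedAddCommGroup Y] [NormedSpace ℝ Y] (θ : ℝ)
    (hθ : 0 < θ) (N : ℕ) (x : Fin N → Y) (hx : ∀ j, ‖x j‖ ≤ 1)
    (hl : ∀ (v : Fin N → ℝ) (i : Fin N),
      θ * |∑ j, (if i ≤ j then v j else 0)| ≤ ‖∑ j, v j • x j‖) : HasJames Y θ N := by
  classical
  have key : ∀ i : Fin N, ∃ f : Y →L[ℝ] ℝ, ‖f‖ ≤ 1 ∧ ∀ j, f (x j) = if i ≤ j then θ else 0 := by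
    intro i
    obtain ⟨T, hT⟩ : ∃ T : (Fin N → ℝ) →ₗ[ℝ] Y, ∀ v, T v = ∑ j, v j • x j :=
      ⟨Fintype.linearCombination ℝ x, fun v => rfl⟩
    obtain ⟨h, hh⟩ : ∃ h : (Fin N → ℝ) →ₗ[ℝ] ℝ, ∀ v, h v = θ * ∑ j, (if i ≤ j then v j else 0) :=
      ⟨{ toFun := fun v => θ * ∑ j, (if i ≤ j then v j else 0)
         map_add' := by
          intro u v
          rw [← mul_add, ← sum_add_distrib]
          congr 1
          apply sum_congr rfl
          intro j _
          split_ifs
          · rfl
          · simp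
         map_smul' := by
          intro c v
          simp only [RingHom.id_apply, smul_eq_mul, Pi.smul_apply]
          rw [mul_left_comm]
          congr 1
          rw [mul_sum]
          apply sum_congr rfl
          intro j _
          split_ifs
          · rfl
          · simp }, fun v => rfl⟩
    have hbd : ∀ v, |h v| ≤ ‖T v‖ := by
      intro v
      rw [hh, hT, abs_mul, abs_of_pos hθ]
      exact hl v i
    have hker : LinearMap.ker T ≤ LinearMap.ker h := by
      intro v hv
      rw [LinearMap.mem_ker] at hv ⊢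
      have := hbd v
      rw [hv, norm_zero] at this
      exact abs_nonpos_iff.1 this
    obtain ⟨g, hg⟩ : ∃ g : LinearMap.range T →ₗ[ℝ] ℝ, ∀ v, g ⟨T v, LinearMap.mem_range_self T v⟩
        = h v := by
      refine ⟨(LinearMap.ker T).liftQ h hker ∘ₗ T.quotKerEquivRange.symm.toLinearMap, ?_⟩
      intro v
      have h1 : T.quotKerEquivRange (Submodule.Quotient.mk v)
          = ⟨T v, LinearMap.mem_range_self T v⟩ := rfl
      rw [LinearMap.comp_apply, ← h1]
      simp
    obtain ⟨F, hF1, hF2⟩ := exists_extension_norm_eq (LinearMap.range T)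
      (g.mkContinuous 1 (by
        rintro ⟨y, v, rfl⟩
        rw [one_mul]
        have h1 := hg v
        rw [h1]
        exact hbd v))
    refine ⟨F, ?_, ?_⟩
    · rw [hF2]
      exact g.mkContinuous_norm_le zero_le_one _
    · intro j
      have h1 : x j = T (Pi.single j 1) := by
        rw [hT, sum_eq_single j]
        · simp
        · intro b _ hb
          rw [Pi.single_eq_of_ne hb, zero_smul]
        · intro h'
          exact absurd (mem_univ j) h'
      have h2 := hF1 ⟨T (Pi.single j 1), LinearMap.mem_range_self T _⟩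
      have h3 : F (x j) = g ⟨T (Pi.single j 1), LinearMap.mem_range_self T _⟩ := by
        rw [h1]
        exact h2
      rw [h3, hg, hh, sum_eq_single j]
      · by_cases hij : i ≤ j
        · rw [if_pos hij, if_pos hij, Pi.single_eq_same, mul_one]
        · rw [if_neg hij, if_neg hij, mul_zero]
      · intro b _ hb
        rw [Pi.single_eq_of_ne hb]
        simp
      · intro h'
        exact absurd (mem_univ j) h'
  choose f hf1 hf2 using key
  exact ⟨x, f, hx, hf1, hf2⟩

theorem jl7_mt_lp {X : Type} [NormedAddCommGroup X] [NormedSpace ℝ X] {p K : ℝ} (hp : 1 < p)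
    [Fact (1 ≤ ENNReal.ofReal p)] (hX : MarkovType X p K) :
    MarkovType (lp (fun _ : ℕ => X) (ENNReal.ofReal p)) p K := by
  intro S _ _ C f t ht
  have hP : (ENNReal.ofReal p).toReal = p := ENNReal.toReal_ofReal (by linarith)
  have hs : ∀ x y, HasSum (fun i : ℕ => ‖(f y : ℕ → X) i - (f x : ℕ → X) i‖ ^ p)
      (‖f y - f x‖ ^ p) := by
    intro x y
    have := lp.hasSum_norm (by rw [hP]; linarith) (f y - f x)
    rw [hP] at this
    exact this
  have h1 : HasSum (fun i : ℕ => ∑ x, ∑ y, C.w x * ((Matrix.of C.P) ^ t) x y *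
      ‖(f y : ℕ → X) i - (f x : ℕ → X) i‖ ^ p)
      (∑ x, ∑ y, C.w x * ((Matrix.of C.P) ^ t) x y * ‖f y - f x‖ ^ p) :=
    hasSum_sum (fun x _ => hasSum_sum (fun y _ => (hs x y).mul_left _))
  have h2 : HasSum (fun i : ℕ => K ^ p * t * ∑ x, ∑ y, C.w x * C.P x y *
      ‖(f y : ℕ → X) i - (f x : ℕ → X) i‖ ^ p)
      (K ^ p * t * ∑ x, ∑ y, C.w x * C.P x y * ‖f y - f x‖ ^ p) :=
    (hasSum_sum (fun x _ => hasSum_sum (fun y _ => (hs x y).mul_left _))).mul_left _
  exact hasSum_le (fun i => hX S C (fun x => (f x : ℕ → X) i) t ht) h1 h2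

end P125F
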