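import Vale.Agent.P125F.Defs
import Vale.Agent.P125S.R8a24

/-! # Markov type for labelled reversible sub-chains -/

noncomputable section

namespace P125F

open Finset P125S Filter Topology

theorem lab8_EE {S : Type} [Fintype S] [DecidableEq S] (C : Chain S) (m : ℕ) (φ : S → S → ℝ) :
    EE C m (fun ω => φ (ω 0) (ω (Fin.last m)))
      = ∑ x, ∑ y, C.w x * ((Matrix.of C.P) ^ m) x y * φ x y := by
  rw [EE_eq]
  refine sum_congr rfl fun x _ => ?_
  have h1 : EX C m x (fun ω => φ (ω 0) (ω (Fin.last m)))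
      = EX C m x (fun ω => φ x (ω (Fin.last m))) := by
    unfold EX
    exact sum_congr rfl fun ω _ => by simp only [Fin.cons_zero]
  rw [h1, r8_EX_last C m (φ x) x, mul_sum]
  exact sum_congr rfl fun y _ => by ring

/-- the box -/
def bx (m R : ℕ) : Finset (Fin m → ℤ) :=
  Fintype.piFinset fun _ => Icc (-(R : ℤ)) R

theorem mem_bx {m R : ℕ} {v : Fin m → ℤ} : v ∈ bx m R ↔ ∀ i, |v i| ≤ R := by
  simp only [bx, Fintype.mem_piFinset, mem_Icc, abs_le]

theorem card_bx (m R : ℕ) : ((bx m R).card : ℝ) = (2 * R + 1) ^ m := by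
  simp only [bx, Fintype.card_piFinset, Int.card_Icc, prod_const, card_univ, Fintype.card_fin]
  have : ((R : ℤ) + 1 - -(R : ℤ)).toNat = 2 * R + 1 := by omega
  rw [this]
  push_cast
  rfl

theorem bx_card_pos (m R : ℕ) : (0 : ℝ) < (bx m R).card := by
  rw [card_bx]; positivity

section
variable {V E : Type} [Fintype V] [Fintype E] [DecidableEq V] [DecidableEq E] (L : LChain V E)
  {m : ℕ} (g : V → V → E → Fin m → ℤ)

/-- flow on the box -/
def fl (R : ℕ) (a b : V × bx m R) : ℝ :=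
  ∑ e, if (b.2 : Fin m → ℤ) = a.2 + g a.1 b.1 e then L.J a.1 b.1 e else 0

theorem fl_nonneg (R : ℕ) (a b : V × bx m R) : 0 ≤ fl L g R a b :=
  sum_nonneg fun e _ => by
    split_ifs
    · exact L.J_nonneg _ _ _
    · exact le_rfl

theorem fl_symm (hg : ∀ x y e j, g y x (L.inv e) j = -g x y e j) (R : ℕ) (a b : V × bx m R) :
    fl L g R a b = fl L g R b a := by
  unfold fl
  rw [← Equiv.sum_comp (Function.Involutive.toPerm L.inv L.inv_inv)
    (fun e => if (a.2 : Fin m → ℤ) = b.2 + g b.1 a.1 e then L.J b.1 a.1 e else 0)]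
  refine sum_congr rfl fun e _ => ?_
  change (if (b.2 : Fin m → ℤ) = a.2 + g a.1 b.1 e then L.J a.1 b.1 e else 0)
    = if (a.2 : Fin m → ℤ) = b.2 + g b.1 a.1 (L.inv e) then L.J b.1 a.1 (L.inv e) else 0
  have h1 : g b.1 a.1 (L.inv e) = -g a.1 b.1 e := funext fun j => hg _ _ _ _
  have h2 : (b.2 : Fin m → ℤ) = a.2 + g a.1 b.1 e ↔
      (a.2 : Fin m → ℤ) = b.2 + g b.1 a.1 (L.inv e) := by
    rw [h1]
    constructor
    · intro h; rw [h]; abel
    · intro h; rw [h]; abel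
  by_cases h : (b.2 : Fin m → ℤ) = a.2 + g a.1 b.1 e
  · rw [if_pos h, if_pos (h2.1 h), L.symm]
  · rw [if_neg h, if_neg (fun h' => h (h2.2 h'))]

/-- summation over the targets in the box -/
theorem sum_tgt (R : ℕ) (a : V × bx m R) (F : V → E → ℝ) :
    ∑ b : V × bx m R, ∑ e, (if (b.2 : Fin m → ℤ) = a.2 + g a.1 b.1 e then F b.1 e else 0)
      = ∑ y, ∑ e, (if (a.2 : Fin m → ℤ) + g a.1 y e ∈ bx m R then F y e else 0) := by
  rw [Fintype.sum_prod_type]
  refine sum_congr rfl fun y _ => ?_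
  rw [sum_comm]
  refine sum_congr rfl fun e _ => ?_
  dsimp only
  split_ifs with h
  · rw [sum_eq_single (⟨_, h⟩ : bx m R)]
    · simp
    · intro b _ hb
      rw [if_neg]
      intro h'
      exact hb (Subtype.ext h')
    · intro h'
      exact absurd (mem_univ _) h'
  · refine sum_eq_zero fun b _ => ?_
    rw [if_neg]
    intro h'
    exact h (h' ▸ b.2)

theorem sum_tgt_le (R : ℕ) (a : V × bx m R) (F : V → E → ℝ) (hF : ∀ y e, 0 ≤ F y e) :
    ∑ b : V × bx m R, ∑ e, (if (b.2 : Fin m → ℤ) = a.2 + g a.1 b.1 e then F b.1 e else 0)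
      ≤ ∑ y, ∑ e, F y e := by
  rw [sum_tgt]
  refine sum_le_sum fun y _ => sum_le_sum fun e _ => ?_
  split_ifs
  · exact le_rfl
  · exact hF _ _

theorem tot_le (R : ℕ) (a : V × bx m R) : ∑ b, fl L g R a b ≤ L.w a.1 :=
  (sum_tgt_le g R a (fun y e => L.J a.1 y e) fun _ _ => L.J_nonneg _ _ _).trans (L.sub a.1)

/-- transition matrix -/
def PP (R : ℕ) (a b : V × bx m R) : ℝ :=
  if L.w a.1 = 0 then (if b = a then 1 else 0) else
    fl L g R a b / L.w a.1 + (if b = a then 1 - (∑ c, fl L g R a c) / L.w a.1 else 0)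

theorem wPP (R : ℕ) (a b : V × bx m R) : L.w a.1 * PP L g R a b
    = fl L g R a b + (if b = a then L.w a.1 - ∑ c, fl L g R a c else 0) := by
  unfold PP
  by_cases h : L.w a.1 = 0
  · rw [if_pos h, h, zero_mul]
    have h1 : ∀ c, fl L g R a c = 0 := by
      intro c
      refine le_antisymm ?_ (fl_nonneg L g R a c)
      have := tot_le L g R a
      rw [h] at this
      exact (single_le_sum (f := fun c => fl L g R a c) (fun c _ => fl_nonneg L g R a c)
        (mem_univ c)).trans this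
    simp [h1]
  · rw [if_neg h, mul_add, mul_div_cancel₀ _ h]
    congr 1
    split_ifs
    · rw [mul_sub, mul_one, mul_div_cancel₀ _ h]
    · rw [mul_zero]

theorem PP_nonneg (R : ℕ) (a b : V × bx m R) : 0 ≤ PP L g R a b := by
  unfold PP
  split_ifs with h h1 h2
  · exact zero_le_one
  · exact le_rfl
  · have hw : 0 < L.w a.1 := lt_of_le_of_ne (L.w_nonneg _) (Ne.symm h)
    have := tot_le L g R a
    refine add_nonneg (div_nonneg (fl_nonneg L g R a b) hw.le) ?_
    rw [sub_nonneg, div_le_one hw]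
    exact this
  · rw [add_zero]
    exact div_nonneg (fl_nonneg L g R a b) (L.w_nonneg _)

theorem PP_sum (R : ℕ) (a : V × bx m R) : ∑ b, PP L g R a b = 1 := by
  unfold PP
  by_cases h : L.w a.1 = 0
  · simp [h]
  · simp only [if_neg h]
    rw [sum_add_distrib, sum_ite_eq' univ a, if_pos (mem_univ _), sum_div]
    ring

/-- the chain on the box -/
def bxc (hg : ∀ x y e j, g y x (L.inv e) j = -g x y e j) (R : ℕ) : Chain (V × bx m R) where
  w a := L.w a.1 / (bx m R).card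
  P := PP L g R
  w_nonneg a := div_nonneg (L.w_nonneg _) (Nat.cast_nonneg _)
  w_sum := by
    rw [Fintype.sum_prod_type]
    simp only [sum_const, card_univ, Fintype.card_coe, nsmul_eq_mul]
    have h := (bx_card_pos m R).ne'
    rw [← L.w_sum]
    exact sum_congr rfl fun x _ => by field_simp
  P_nonneg a b := PP_nonneg L g R a b
  P_sum a := PP_sum L g R a
  rev a b := by
    rw [div_mul_eq_mul_div, div_mul_eq_mul_div, wPP, wPP, fl_symm L g hg R a b]
    by_cases hab : b = a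
    · subst hab; rfl
    · rw [if_neg hab, if_neg (Ne.symm hab)]

theorem le_PP (R : ℕ) (a b : V × bx m R) :
    ∑ e, (if (b.2 : Fin m → ℤ) = a.2 + g a.1 b.1 e then L.J a.1 b.1 e / L.w a.1 else 0)
      ≤ PP L g R a b := by
  have h1 : ∑ e, (if (b.2 : Fin m → ℤ) = a.2 + g a.1 b.1 e then L.J a.1 b.1 e / L.w a.1 else 0)
      = fl L g R a b / L.w a.1 := by
    unfold fl
    rw [sum_div]
    refine sum_congr rfl fun e _ => ?_
    split_ifs
    · rfl
    · rw [zero_div]
  rw [h1]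
  by_cases h : L.w a.1 = 0
  · rw [h, div_zero]
    exact PP_nonneg L g R a b
  · unfold PP
    rw [if_neg h]
    refine le_add_of_nonneg_right ?_
    have hw : 0 < L.w a.1 := lt_of_le_of_ne (L.w_nonneg _) (Ne.symm h)
    split_ifs
    · rw [sub_nonneg, div_le_one hw]
      exact tot_le L g R a
    · exact le_rfl

variable {X : Type} [NormedAddCommGroup X] [NormedSpace ℝ X] (y : Fin m → X)

/-- the function of the state -/
def ff {R : ℕ} (a : V × bx m R) : X := ∑ j, ((a.2 : Fin m → ℤ) j : ℝ) • y j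

theorem ff_step {R : ℕ} (a b : V × bx m R) (c : Fin m → ℤ)
    (h : (b.2 : Fin m → ℤ) = a.2 + c) : ff y b - ff y a = ∑ j, (c j : ℝ) • y j := by
  unfold ff
  rw [← sum_sub_distrib]
  refine sum_congr rfl fun j _ => ?_
  rw [← sub_smul, h, Pi.add_apply]
  push_cast
  rw [add_sub_cancel_left]

/-- one-step energy of a labelled move -/
def eF (p : ℝ) (x x' : V) (e : E) : ℝ := L.J x x' e * ‖∑ j, (g x x' e j : ℝ) • y j‖ ^ p

theorem eF_nonneg (p : ℝ) (x x' : V) (e : E) : 0 ≤ eF L g y p x x' e :=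
  mul_nonneg (L.J_nonneg _ _ _) (Real.rpow_nonneg (norm_nonneg _) _)

theorem energyL (hg : ∀ x y e j, g y x (L.inv e) j = -g x y e j) {p : ℝ} (hp : 0 < p) (R : ℕ) :
    ∑ a, ∑ b, (bxc L g hg R).w a * (bxc L g hg R).P a b * ‖ff y b - ff y a‖ ^ p
      ≤ ∑ x, ∑ x', ∑ e, eF L g y p x x' e := by
  have hpos := bx_card_pos m R
  have h1 : ∀ a : V × bx m R, ∑ b, (bxc L g hg R).w a * (bxc L g hg R).P a b *
      ‖ff y b - ff y a‖ ^ p ≤ (1 / (bx m R).card : ℝ) *
        ∑ x', ∑ e, eF L g y p a.1 x' e := by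
    intro a
    have h2 : ∀ b, (bxc L g hg R).w a * (bxc L g hg R).P a b * ‖ff y b - ff y a‖ ^ p
        = (1 / (bx m R).card : ℝ) * ∑ e, (if (b.2 : Fin m → ℤ) = a.2 + g a.1 b.1 e then
          eF L g y p a.1 b.1 e else 0) := by
      intro b
      change L.w a.1 / (bx m R).card * PP L g R a b * ‖ff y b - ff y a‖ ^ p = _
      rw [div_mul_eq_mul_div, wPP, add_div, add_mul]
      have e2 : (if b = a then L.w a.1 - ∑ c, fl L g R a c else 0) / ((bx m R).card : ℝ) *
          ‖ff y b - ff y a‖ ^ p = 0 := by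
        split_ifs with hb
        · rw [hb, sub_self, norm_zero, Real.zero_rpow hp.ne', mul_zero]
        · rw [zero_div, zero_mul]
      rw [e2, add_zero]
      unfold fl
      rw [div_mul_eq_mul_div, sum_mul, one_div, ← div_eq_inv_mul]
      congr 1
      refine sum_congr rfl fun e _ => ?_
      split_ifs with h
      · rw [ff_step y a b _ h]; rfl
      · rw [zero_mul]
    rw [sum_congr rfl fun b _ => h2 b, ← mul_sum]
    exact mul_le_mul_of_nonneg_left (sum_tgt_le g R a (eF L g y p a.1)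
      fun x' e => eF_nonneg L g y p a.1 x' e) (by positivity)
  refine (sum_le_sum fun a _ => h1 a).trans ?_
  rw [Fintype.sum_prod_type]
  simp only [sum_const, card_univ, Fintype.card_coe, nsmul_eq_mul]
  refine sum_le_sum fun x _ => ?_
  rw [← mul_assoc, mul_one_div_cancel hpos.ne', one_mul]

/-- cumulative increments -/
def cdL {n : ℕ} (ω : Fin (n + 1) → V) (η : Fin n → E) : Fin (n + 1) → (Fin m → ℤ) :=
  Fin.partialSum fun i : Fin n => g (ω i.castSucc) (ω i.succ) (η i)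

theorem cdL_zero {n : ℕ} (ω : Fin (n + 1) → V) (η : Fin n → E) : cdL g ω η 0 = 0 :=
  Fin.partialSum_zero _

theorem cdL_succ {n : ℕ} (ω : Fin (n + 1) → V) (η : Fin n → E) (i : Fin n) :
    cdL g ω η i.succ = cdL g ω η i.castSucc + g (ω i.castSucc) (ω i.succ) (η i) :=
  Fin.partialSum_succ _ _

theorem cdL_abs {n : ℕ} (Q : ℕ) (hQ : ∀ x y e j, |g x y e j| ≤ Q) (ω : Fin (n + 1) → V)
    (η : Fin n → E) (k : Fin (n + 1)) (i : Fin m) : |cdL g ω η k i| ≤ (k : ℕ) * Q := by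
  induction k using Fin.induction with
  | zero => rw [cdL_zero]; simp
  | succ k ih =>
    rw [cdL_succ, Pi.add_apply]
    refine (abs_add_le _ _).trans ?_
    have := hQ (ω k.castSucc) (ω k.succ) (η k) i
    rw [Fin.val_succ]
    push_cast
    simp only [Fin.val_castSucc] at ih
    nlinarith

theorem cdL_last {n : ℕ} (ω : Fin (n + 1) → V) (η : Fin n → E) :
    cdL g ω η (Fin.last n) = ∑ i : Fin n, g (ω i.castSucc) (ω i.succ) (η i) := by
  have tele : ∀ (n : ℕ) (h : Fin (n + 1) → (Fin m → ℤ)),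
      ∑ i : Fin n, (h i.succ - h i.castSucc) = h (Fin.last n) - h 0 := by
    intro n
    induction n with
    | zero => intro h; simp
    | succ n ih =>
      intro h
      rw [Fin.sum_univ_castSucc]
      have h2 : ∑ i : Fin n, (h i.castSucc.succ - h i.castSucc.castSucc)
          = h (Fin.last n).castSucc - h 0 := by
        rw [← Fin.castSucc_zero, ← ih (fun i => h i.castSucc)]
        exact sum_congr rfl fun i _ => by rw [Fin.succ_castSucc]
      rw [h2, Fin.succ_last]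
      abel
  have h1 := tele n (cdL g ω η)
  rw [cdL_zero, sub_zero] at h1
  rw [← h1]
  refine sum_congr rfl fun i _ => ?_
  rw [cdL_succ, add_sub_cancel_left]

theorem cdL_mem {n r : ℕ} (Q : ℕ) (hQ : ∀ x y e j, |g x y e j| ≤ Q) (ω : Fin (n + 1) → V)
    (η : Fin n → E) (v : bx m r) (k : Fin (n + 1)) :
    (v : Fin m → ℤ) + cdL g ω η k ∈ bx m (r + n * Q) := by
  rw [mem_bx]
  intro i
  have h1 := mem_bx.1 v.2 i
  have h2 := cdL_abs g Q hQ ω η k i
  have h3 : ((k : ℕ) : ℤ) ≤ n := by exact_mod_cast Nat.lt_succ_iff.1 k.2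
  have h4 : ((k : ℕ) : ℤ) * Q ≤ n * Q := mul_le_mul_of_nonneg_right h3 (by positivity)
  rw [Pi.add_apply]
  refine (abs_add_le _ _).trans ?_
  push_cast
  linarith

/-- lifted path -/
def liftL {n r : ℕ} (Q : ℕ) (hQ : ∀ x y e j, |g x y e j| ≤ Q)
    (z : ((Fin (n + 1) → V) × (Fin n → E)) × bx m r) :
    (Fin (n + 1) → V × bx m (r + n * Q)) × (Fin n → E) :=
  (fun k => (z.1.1 k, ⟨(z.2 : Fin m → ℤ) + cdL g z.1.1 z.1.2 k, cdL_mem g Q hQ z.1.1 z.1.2 z.2 k⟩),
    z.1.2)

theorem liftL_inj {n r : ℕ} (Q : ℕ) (hQ : ∀ x y e j, |g x y e j| ≤ Q) :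
    Function.Injective (liftL g Q hQ : ((Fin (n + 1) → V) × (Fin n → E)) × bx m r → _) := by
  rintro ⟨⟨ω, η⟩, v⟩ ⟨⟨ω', η'⟩, v'⟩ h
  have h0 : η = η' := congrArg Prod.snd h
  have h1 : ω = ω' := by
    funext k
    exact congrArg Prod.fst (congrFun (congrArg Prod.fst h) k)
  subst h0 h1
  have h2 := congrArg (fun a => ((a.2 : bx m (r + n * Q)) : Fin m → ℤ))
    (congrFun (congrArg Prod.fst h) 0)
  simp only [liftL, cdL_zero, add_zero] at h2
  rw [Subtype.ext h2]

theorem lowerL (hg : ∀ x y e j, g y x (L.inv e) j = -g x y e j) (p : ℝ) (n r Q : ℕ)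
    (hQ : ∀ x y e j, |g x y e j| ≤ Q) :
    ((bx m r).card : ℝ) / ((bx m (r + n * Q)).card : ℝ) *
      ∑ ω : Fin (n + 1) → V, ∑ η : Fin n → E, L.pw ω η *
        ‖∑ j, ((∑ i : Fin n, g (ω i.castSucc) (ω i.succ) (η i) j : ℤ) : ℝ) • y j‖ ^ p
    ≤ EE (bxc L g hg (r + n * Q)) n (fun ω => ‖ff y (ω (Fin.last n)) - ff y (ω 0)‖ ^ p) := by
  set B := r + n * Q with hB
  have hpos := bx_card_pos m B
  let q : (V × bx m B) → (V × bx m B) → E → ℝ := fun a b e =>
    if (b.2 : Fin m → ℤ) = a.2 + g a.1 b.1 e then L.J a.1 b.1 e / L.w a.1 else 0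
  have hq : ∀ a b e, 0 ≤ q a b e := fun a b e => by
    simp only [q]
    split_ifs
    · exact div_nonneg (L.J_nonneg _ _ _) (L.w_nonneg _)
    · exact le_rfl
  let H : (Fin (n + 1) → V × bx m B) × (Fin n → E) → ℝ := fun z =>
    L.w (z.1 0).1 / (bx m B).card * (∏ i : Fin n, q (z.1 i.castSucc) (z.1 i.succ) (z.2 i)) *
      ‖ff y (z.1 (Fin.last n)) - ff y (z.1 0)‖ ^ p
  have hH : ∀ z, 0 ≤ H z := fun z =>
    mul_nonneg (mul_nonneg (div_nonneg (L.w_nonneg _) hpos.le) (prod_nonneg fun i _ => hq _ _ _))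
      (Real.rpow_nonneg (norm_nonneg _) _)
  have hlift : ∀ z : ((Fin (n + 1) → V) × (Fin n → E)) × bx m r, H (liftL g Q hQ z)
      = L.pw z.1.1 z.1.2 / (bx m B).card *
        ‖∑ j, ((∑ i : Fin n, g (z.1.1 i.castSucc) (z.1.1 i.succ) (z.1.2 i) j : ℤ) : ℝ) • y j‖ ^ p := by
    intro z
    have e1 : ∀ i : Fin n, q ((liftL g Q hQ z).1 i.castSucc) ((liftL g Q hQ z).1 i.succ)
        ((liftL g Q hQ z).2 i)
        = L.J (z.1.1 i.castSucc) (z.1.1 i.succ) (z.1.2 i) / L.w (z.1.1 i.castSucc) := by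
      intro i
      simp only [q]
      rw [if_pos]
      · rfl
      · simp only [liftL, cdL_succ]
        rw [add_assoc]
    have e2 : ff y ((liftL g Q hQ z).1 (Fin.last n)) - ff y ((liftL g Q hQ z).1 0)
        = ∑ j, ((∑ i : Fin n, g (z.1.1 i.castSucc) (z.1.1 i.succ) (z.1.2 i) j : ℤ) : ℝ) • y j := by
      rw [ff_step y _ _ (∑ i : Fin n, g (z.1.1 i.castSucc) (z.1.1 i.succ) (z.1.2 i))]
      · refine sum_congr rfl fun j _ => ?_
        rw [Finset.sum_apply]
      · simp only [liftL, cdL_zero, add_zero, cdL_last]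
    simp only [H]
    rw [e2]
    simp only [e1]
    congr 1
    unfold LChain.pw
    change L.w (z.1.1 0) / _ * _ = _
    ring
  calc ((bx m r).card : ℝ) / ((bx m B).card : ℝ) *
      ∑ ω : Fin (n + 1) → V, ∑ η : Fin n → E, L.pw ω η *
        ‖∑ j, ((∑ i : Fin n, g (ω i.castSucc) (ω i.succ) (η i) j : ℤ) : ℝ) • y j‖ ^ p
      = ∑ z : ((Fin (n + 1) → V) × (Fin n → E)) × bx m r, H (liftL g Q hQ z) := by
        simp only [hlift]
        rw [Fintype.sum_prod_type, Fintype.sum_prod_type, mul_sum]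
        refine sum_congr rfl fun ω _ => ?_
        rw [mul_sum]
        refine sum_congr rfl fun η _ => ?_
        simp only [sum_const, card_univ, Fintype.card_coe, nsmul_eq_mul]
        ring
    _ = ∑ z ∈ univ.image (liftL g Q hQ : ((Fin (n + 1) → V) × (Fin n → E)) × bx m r → _), H z := by
        rw [sum_image fun a _ b _ h => liftL_inj g Q hQ h]
    _ ≤ ∑ z, H z := sum_le_univ_sum_of_nonneg hH
    _ = ∑ ω : Fin (n + 1) → V × bx m B, L.w (ω 0).1 / (bx m B).card *
          (∏ i : Fin n, ∑ e, q (ω i.castSucc) (ω i.succ) e) *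
          ‖ff y (ω (Fin.last n)) - ff y (ω 0)‖ ^ p := by
        rw [Fintype.sum_prod_type]
        refine sum_congr rfl fun ω _ => ?_
        rw [prod_univ_sum, Fintype.piFinset_univ, mul_sum, sum_mul]
    _ ≤ EE (bxc L g hg B) n (fun ω => ‖ff y (ω (Fin.last n)) - ff y (ω 0)‖ ^ p) := by
        unfold EE pathW
        refine sum_le_sum fun ω _ => ?_
        refine mul_le_mul_of_nonneg_right ?_ (Real.rpow_nonneg (norm_nonneg _) _)
        refine mul_le_mul_of_nonneg_left ?_ (div_nonneg (L.w_nonneg _) hpos.le)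
        exact prod_le_prod (fun i _ => sum_nonneg fun e _ => hq _ _ _) fun i _ => le_PP L g B _ _

end

theorem lab_ineq_aux8 {X : Type} [NormedAddCommGroup X] [NormedSpace ℝ X] {p K : ℝ} (hp : 0 < p)
    (hX : MarkovType X p K) {V E : Type} [Fintype V] [Fintype E] [DecidableEq V] [DecidableEq E]
    (L : LChain V E) {m : ℕ} (g : V → V → E → Fin m → ℤ)
    (hg : ∀ x y e j, g y x (L.inv e) j = -g x y e j) (y : Fin m → X) (n : ℕ) (hn : 1 ≤ n)
    (hK : 0 ≤ K ^ p) :
    ∑ ω : Fin (n + 1) → V, ∑ η : Fin n → E, L.pw ω η *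
        ‖∑ j, ((∑ i : Fin n, g (ω i.castSucc) (ω i.succ) (η i) j : ℤ) : ℝ) • y j‖ ^ p
      ≤ K ^ p * n * ∑ x, ∑ x', ∑ e, L.J x x' e * ‖∑ j, (g x x' e j : ℝ) • y j‖ ^ p := by
  classical
  obtain ⟨Q, hQ⟩ : ∃ Q : ℕ, ∀ x y e j, |g x y e j| ≤ (Q : ℤ) := by
    refine ⟨∑ x, ∑ y, ∑ e, ∑ j, (g x y e j).natAbs, fun x y e j => ?_⟩
    have h1 : (g x y e j).natAbs ≤ ∑ x, ∑ y, ∑ e, ∑ j, (g x y e j).natAbs := by
      refine (single_le_sum (f := fun j => (g x y e j).natAbs) (fun _ _ => Nat.zero_le _)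
        (mem_univ j)).trans ?_
      refine (single_le_sum (f := fun e => ∑ j, (g x y e j).natAbs) (fun _ _ => Nat.zero_le _)
        (mem_univ e)).trans ?_
      refine (single_le_sum (f := fun y => ∑ e, ∑ j, (g x y e j).natAbs)
        (fun _ _ => Nat.zero_le _) (mem_univ y)).trans ?_
      exact single_le_sum (f := fun x => ∑ y, ∑ e, ∑ j, (g x y e j).natAbs)
        (fun _ _ => Nat.zero_le _) (mem_univ x)
    rw [Int.abs_eq_natAbs]
    exact_mod_cast h1
  set E0 := ∑ ω : Fin (n + 1) → V, ∑ η : Fin n → E, L.pw ω η *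
        ‖∑ j, ((∑ i : Fin n, g (ω i.castSucc) (ω i.succ) (η i) j : ℤ) : ℝ) • y j‖ ^ p with hE
  have hKp : 0 ≤ K ^ p * n := mul_nonneg hK (Nat.cast_nonneg _)
  have key : ∀ r : ℕ, ((bx m r).card : ℝ) / ((bx m (r + n * Q)).card : ℝ) * E0
      ≤ K ^ p * n * ∑ x, ∑ x', ∑ e, L.J x x' e * ‖∑ j, (g x x' e j : ℝ) • y j‖ ^ p := by
    intro r
    refine (lowerL L g y hg p n r Q hQ).trans ?_
    rw [lab8_EE (bxc L g hg (r + n * Q)) n (fun a b => ‖ff y b - ff y a‖ ^ p)]
    refine (hX _ (bxc L g hg (r + n * Q)) (ff y) n hn).trans ?_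
    exact mul_le_mul_of_nonneg_left (energyL L g y hg hp (r + n * Q)) hKp
  have hlim : Tendsto (fun r : ℕ => ((bx m r).card : ℝ) / ((bx m (r + n * Q)).card : ℝ) * E0)
      atTop (𝓝 (1 * E0)) := by
    refine Tendsto.mul_const _ ?_
    have h2 : ∀ r : ℕ, ((bx m r).card : ℝ) / ((bx m (r + n * Q)).card : ℝ)
        = (1 - (2 * n * Q : ℝ) / (2 * r + 2 * n * Q + 1)) ^ m := by
      intro r
      rw [card_bx, card_bx, ← div_pow]
      congr 1
      push_cast
      have h5 : (2 * (r : ℝ) + 2 * n * Q + 1) ≠ 0 := by positivity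
      have h6 : 2 * ((r : ℝ) + n * Q) + 1 = 2 * r + 2 * n * Q + 1 := by ring
      rw [h6, one_sub_div h5]
      congr 1
      ring
    simp only [h2]
    have h3 : Tendsto (fun r : ℕ => (2 * n * Q : ℝ) / (2 * r + 2 * n * Q + 1)) atTop (𝓝 0) := by
      refine Tendsto.div_atTop tendsto_const_nhds ?_
      refine tendsto_atTop_mono (fun r : ℕ => ?_) (tendsto_natCast_atTop_atTop (R := ℝ))
      have h7 : (0 : ℝ) ≤ r := Nat.cast_nonneg r
      have h8 : (0 : ℝ) ≤ 2 * n * Q := by positivity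
      linarith
    have h4 := (tendsto_const_nhds (x := (1 : ℝ)).sub h3).pow m
    simpa using h4
  rw [one_mul] at hlim
  exact le_of_tendsto' hlim key

/-- the fair two-state chain -/
def twoC8 : Chain Bool where
  w _ := 1 / 2
  P _ _ := 1 / 2
  w_nonneg _ := by norm_num
  w_sum := by simp
  P_nonneg _ _ := by norm_num
  P_sum _ := by simp
  rev _ _ := rfl

theorem norm_zero8 {X : Type} [NormedAddCommGroup X] [NormedSpace ℝ X] {p K : ℝ} (hp : 0 < p)
    (hX : MarkovType X p K) (hK : K ^ p < 0) (v : X) : ‖v‖ ^ p = 0 := by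
  have h := hX Bool twoC8 (fun b => if b then v else 0) 1 le_rfl
  have h0 : (0 : ℝ) ^ p = 0 := Real.zero_rpow hp.ne'
  simp only [Fintype.sum_bool, pow_one, Matrix.of_apply, twoC8, if_true, Bool.false_eq_true,
    if_false, sub_self, norm_zero, h0, mul_zero, sub_zero, zero_sub, norm_neg, zero_add, add_zero,
    Nat.cast_one, mul_one] at h
  have h1 : 0 ≤ ‖v‖ ^ p := Real.rpow_nonneg (norm_nonneg _) _
  nlinarith

theorem lab_ineq_helper8 {X : Type} [NormedAddCommGroup X] [NormedSpace ℝ X] {p K : ℝ} (hp : 0 < p)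
    (hX : MarkovType X p K) {V E : Type} [Fintype V] [Fintype E] [DecidableEq V] [DecidableEq E]
    (L : LChain V E) {m : ℕ} (g : V → V → E → Fin m → ℤ)
    (hg : ∀ x y e j, g y x (L.inv e) j = -g x y e j) (y : Fin m → X) (n : ℕ) (hn : 1 ≤ n) :
    ∑ ω : Fin (n + 1) → V, ∑ η : Fin n → E, L.pw ω η *
        ‖∑ j, ((∑ i : Fin n, g (ω i.castSucc) (ω i.succ) (η i) j : ℤ) : ℝ) • y j‖ ^ p
      ≤ K ^ p * n * ∑ x, ∑ x', ∑ e, L.J x x' e * ‖∑ j, (g x x' e j : ℝ) • y j‖ ^ p := by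
  rcases le_or_gt 0 (K ^ p) with hK | hK
  · exact lab_ineq_aux8 hp hX L g hg y n hn hK
  · have h0 := norm_zero8 hp hX hK
    simp only [h0, mul_zero, sum_const_zero, le_refl]

end P125F
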