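import Vale.Agent.P125F.Wire26
import Vale.Agent.P125F.A2_helper19

/-! # The full theorem of stream L, with all pieces plugged in -/

namespace P125F

/-- A normed space with Markov type `p > 1` has no James systems of all lengths. -/
theorem main29 {X : Type} [NormedAddCommGroup X] [NormedSpace ℝ X] {p K : ℝ} (hp : 1 < p)
    (hK : 0 < K) (hX : MarkovType X p K) {θ : ℝ} (hθ : 0 < θ) : ¬ ∀ N, HasJames X θ N :=
  main26 (fun hθ hS => avg_helper19 hθ hS) hp hK hX hθ

end P125F
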