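import Vale.Agent.P125F.MartDef6

/-! From a dyadic martingale with many big jumps to a James seminorm -/

namespace P125F
open Finset

variable {X : Type*} [NormedAddCommGroup X] [NormedSpace ℝ X]

/-! ### expectation -/

theorem Ex_add (n : ℕ) : ∀ (h : List Bool) (φ ψ : List Bool → ℝ),
    Ex n h (fun l => φ l + ψ l) = Ex n h φ + Ex n h ψ := by
  induction n with
  | zero => intro h φ ψ; rfl
  | succ n ih => intro h φ ψ; simp only [Ex, ih]; ring

theorem Ex_mul (n : ℕ) (c : ℝ) : ∀ (h : List Bool) (φ : List Bool → ℝ),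
    Ex n h (fun l => c * φ l) = c * Ex n h φ := by
  induction n with
  | zero => intro h φ; rfl
  | succ n ih => intro h φ; simp only [Ex, ih]; ring

/-- monotonicity, only final histories of the right length matter -/
theorem Ex_mono' (n : ℕ) : ∀ (h : List Bool) (φ ψ : List Bool → ℝ),
    (∀ l, l.length = n + h.length → φ l ≤ ψ l) → Ex n h φ ≤ Ex n h ψ := by
  induction n with
  | zero => intro h φ ψ H; exact H h (by simp)
  | succ n ih =>
    intro h φ ψ H
    simp only [Ex]
    have h1 := ih (true :: h) φ ψ (fun l hl => H l (by simp at hl ⊢; omega))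
    have h2 := ih (false :: h) φ ψ (fun l hl => H l (by simp at hl ⊢; omega))
    linarith

theorem Ex_mono (n : ℕ) (h : List Bool) (φ ψ : List Bool → ℝ) (H : ∀ l, φ l ≤ ψ l) :
    Ex n h φ ≤ Ex n h ψ := Ex_mono' n h φ ψ (fun l _ => H l)

theorem Ex_const (n : ℕ) (c : ℝ) : ∀ h : List Bool, Ex n h (fun _ => c) = c := by
  induction n with
  | zero => intro h; rfl
  | succ n ih => intro h; simp only [Ex, ih]; ring

theorem Ex_nonneg (n : ℕ) (h : List Bool) (φ : List Bool → ℝ) (H : ∀ l, 0 ≤ φ l) :
    0 ≤ Ex n h φ := by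
  have := Ex_mono n h (fun _ => 0) φ H
  rwa [Ex_const] at this

theorem Ex_sum {ι : Type} (n : ℕ) (s : Finset ι) (h : List Bool) (φ : ι → List Bool → ℝ) :
    Ex n h (fun l => ∑ i ∈ s, φ i l) = ∑ i ∈ s, Ex n h (φ i) := by
  classical
  induction s using Finset.induction_on with
  | empty => simp [Ex_const]
  | insert a s ha ih =>
    simp only [Finset.sum_insert ha]
    rw [Ex_add, ih]

theorem Ex_abs_le (n : ℕ) (h : List Bool) (φ : List Bool → ℝ) :
    |Ex n h φ| ≤ Ex n h (fun l => |φ l|) := by
  rw [abs_le]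
  constructor
  · have h1 := Ex_mono n h (fun l => (-1) * |φ l|) φ (fun l => by
      have := neg_abs_le (φ l); linarith)
    rw [Ex_mul] at h1
    linarith
  · exact Ex_mono n h φ _ (fun l => le_abs_self _)

/-! ### stopped martingale -/

/-- the martingale stopped when `cnt` reaches `j` -/
noncomputable def st (e : ℝ) (x : X) (D : List Bool → X) (j : ℕ) : List Bool → X
  | [] => x
  | b :: h => st e x D j h +
      (if cnt e D h < j then (if b = true then D h else - D h) else 0)

theorem cnt_mono (e : ℝ) (D : List Bool → X) (b : Bool) (h : List Bool) :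
    cnt e D h ≤ cnt e D (b :: h) := by
  simp only [cnt]; omega

theorem st_eq (e : ℝ) (x : X) (D : List Bool → X) (j : ℕ) (h : List Bool)
    (hc : cnt e D h < j) : st e x D j h = mg x D h := by
  induction h with
  | nil => rfl
  | cons b h ih =>
    have h1 : cnt e D h < j := lt_of_le_of_lt (cnt_mono e D b h) hc
    simp only [st, mg, if_pos h1, ih h1]

theorem st_norm (e : ℝ) (x : X) (D : List Bool → X) (j n : ℕ)
    (hball : ∀ h : List Bool, h.length ≤ n → ‖mg x D h‖ ≤ 1) (h : List Bool)
    (hh : h.length ≤ n) : ‖st e x D j h‖ ≤ 1 := by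
  induction h with
  | nil => exact hball [] (by simp)
  | cons b h ih =>
    have hl : h.length ≤ n := by simp at hh; omega
    by_cases hc : cnt e D h < j
    · have h1 := st_eq e x D j h hc
      have h2 : st e x D j (b :: h) = mg x D (b :: h) := by
        simp only [st, mg, if_pos hc, h1]
      rw [h2]
      exact hball _ hh
    · have h2 : st e x D j (b :: h) = st e x D j h := by
        simp only [st, if_neg hc, add_zero]
      rw [h2]
      exact ih hl

/-- martingale property of the stopped martingale, tested with a functional -/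
theorem Ex_st (e : ℝ) (x : X) (D : List Bool → X) (j : ℕ) (u : X →L[ℝ] ℝ) (n : ℕ) :
    ∀ h : List Bool, Ex n h (fun l => u (st e x D j l)) = u (st e x D j h) := by
  induction n with
  | zero => intro h; rfl
  | succ n ih =>
    intro h
    simp only [Ex, ih, st]
    simp only [map_add]
    by_cases hc : cnt e D h < j
    · simp [hc]
      ring
    · simp [hc]

/-! ### the functionals -/

open Classical in
/-- the functional attached to the `i`-th big jump -/
noncomputable def Fi (e : ℝ) (D : List Bool → X) (uf : List Bool → (X →L[ℝ] ℝ)) (i : ℕ) :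
    ℕ → List Bool → (List Bool → X) → ℝ
  | 0, _, _ => 0
  | n + 1, h, Z =>
    if cnt e D h = i ∧ e ≤ ‖D h‖ then
      (Ex n (true :: h) (fun l => uf h (Z l)) - Ex n (false :: h) (fun l => uf h (Z l))) / 2
    else (Fi e D uf i n (true :: h) Z + Fi e D uf i n (false :: h) Z) / 2

open Classical in
/-- the value of the functional -/
noncomputable def Wi (e : ℝ) (D : List Bool → X) (i : ℕ) : ℕ → List Bool → ℝ
  | 0, _ => 0
  | n + 1, h =>
    if cnt e D h = i ∧ e ≤ ‖D h‖ then ‖D h‖
    else (Wi e D i n (true :: h) + Wi e D i n (false :: h)) / 2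

theorem Fi_le (e : ℝ) (D : List Bool → X) (uf : List Bool → (X →L[ℝ] ℝ))
    (huf : ∀ h, ‖uf h‖ ≤ 1) (i : ℕ) (Z : List Bool → X) (n : ℕ) :
    ∀ h : List Bool, |Fi e D uf i n h Z| ≤ Ex n h (fun l => ‖Z l‖) := by
  have hu : ∀ h l, |uf h (Z l)| ≤ ‖Z l‖ := by
    intro h l
    have h1 := (uf h).le_opNorm (Z l)
    have h2 := mul_le_mul_of_nonneg_right (huf h) (norm_nonneg (Z l))
    rw [Real.norm_eq_abs] at h1
    linarith
  induction n with
  | zero =>
    intro h
    simp only [Fi, Ex, abs_zero]
    exact norm_nonneg _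
  | succ n ih =>
    intro h
    simp only [Fi, Ex]
    split_ifs with hc
    · have h1 : ∀ b : Bool, |Ex n (b :: h) (fun l => uf h (Z l))| ≤ Ex n (b :: h) (fun l => ‖Z l‖) :=
        fun b => (Ex_abs_le _ _ _).trans (Ex_mono _ _ _ _ (fun l => hu h l))
      have ht := h1 true
      have hf := h1 false
      rw [abs_le] at ht hf ⊢
      constructor <;> linarith [ht.1, ht.2, hf.1, hf.2]
    · have ht := ih (true :: h)
      have hf := ih (false :: h)
      rw [abs_le] at ht hf ⊢
      constructor <;> linarith [ht.1, ht.2, hf.1, hf.2]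

theorem Fi_zero_of_cnt (e : ℝ) (D : List Bool → X) (uf : List Bool → (X →L[ℝ] ℝ)) (i : ℕ)
    (Z : List Bool → X) (n : ℕ) : ∀ h : List Bool, i < cnt e D h → Fi e D uf i n h Z = 0 := by
  induction n with
  | zero => intro h _; rfl
  | succ n ih =>
    intro h hc
    simp only [Fi]
    rw [if_neg (fun hh => by omega)]
    rw [ih (true :: h) (lt_of_lt_of_le hc (cnt_mono e D true h)),
      ih (false :: h) (lt_of_lt_of_le hc (cnt_mono e D false h))]
    simp

/-- the functional on the stopped martingale: stopping time `j + 1`, jump `i` (from `0`) -/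
theorem Fi_st (e : ℝ) (x : X) (D : List Bool → X) (uf : List Bool → (X →L[ℝ] ℝ))
    (huf : ∀ h, uf h (D h) = ‖D h‖) (i j : ℕ) (n : ℕ) :
    ∀ h : List Bool, Fi e D uf i n h (st e x D (j + 1)) = if i ≤ j then Wi e D i n h else 0 := by
  induction n with
  | zero => intro h; simp [Fi, Wi]
  | succ n ih =>
    intro h
    simp only [Fi, Wi]
    by_cases hc : cnt e D h = i ∧ e ≤ ‖D h‖
    · rw [if_pos hc, if_pos hc, Ex_st, Ex_st]
      simp only [st, map_add]
      by_cases hij : i ≤ j
      · have h1 : cnt e D h < j + 1 := by omega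
        simp [h1, hij, huf h]
      · have h1 : ¬ cnt e D h < j + 1 := by omega
        simp [h1, hij]
    · rw [if_neg hc, if_neg hc, ih, ih]
      by_cases hij : i ≤ j
      · simp [hij]
      · simp [hij]

theorem Wi_ge (e : ℝ) (he : 0 < e) (D : List Bool → X) (i n : ℕ) :
    ∀ h : List Bool, cnt e D h ≤ i →
      e * Ex n h (fun l => if i + 1 ≤ cnt e D l then (1 : ℝ) else 0) ≤ Wi e D i n h := by
  induction n with
  | zero =>
    intro h hc
    simp only [Ex, Wi]
    rw [if_neg (by omega)]
    simp
  | succ n ih =>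
    intro h hc
    by_cases hb : cnt e D h = i ∧ e ≤ ‖D h‖
    · simp only [Wi, if_pos hb]
      have h1 : Ex (n + 1) h (fun l => if i + 1 ≤ cnt e D l then (1 : ℝ) else 0) ≤ 1 := by
        have := Ex_mono (n + 1) h (fun l => if i + 1 ≤ cnt e D l then (1 : ℝ) else 0) (fun _ => 1)
          (fun l => by split_ifs <;> norm_num)
        rwa [Ex_const] at this
      have h2 : e * Ex (n + 1) h (fun l => if i + 1 ≤ cnt e D l then (1 : ℝ) else 0) ≤ e * 1 :=
        mul_le_mul_of_nonneg_left h1 he.le
      linarith [hb.2]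
    · simp only [Wi, if_neg hb, Ex]
      have h3 : ∀ b : Bool, cnt e D (b :: h) ≤ i := by
        intro b
        simp only [cnt]
        by_cases hb2 : e ≤ ‖D h‖
        · rw [if_pos hb2]
          have : cnt e D h ≠ i := fun h' => hb ⟨h', hb2⟩
          omega
        · rw [if_neg hb2]; omega
      have h4 := ih (true :: h) (h3 true)
      have h5 := ih (false :: h) (h3 false)
      linarith

end P125F
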