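import Vale.Agent.P125F.Mart6

/-! From a dyadic martingale with many big jumps to a James seminorm: the seminorm -/

namespace P125F
open Finset

variable {X : Type*} [NormedAddCommGroup X] [NormedSpace ℝ X]

/-- the p-mean -/
noncomputable def pm (p : ℝ) (n : ℕ) (h : List Bool) (φ : List Bool → ℝ) : ℝ :=
  (Ex n h (fun l => φ l ^ p)) ^ (1 / p)

theorem pm_nonneg (p : ℝ) (n : ℕ) (h : List Bool) (φ : List Bool → ℝ) (hφ : ∀ l, 0 ≤ φ l) :
    0 ≤ pm p n h φ :=
  Real.rpow_nonneg (Ex_nonneg _ _ _ fun l => Real.rpow_nonneg (hφ l) p) _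

theorem pm_pow {p : ℝ} (hp : 1 ≤ p) (n : ℕ) (h : List Bool) (φ : List Bool → ℝ)
    (hφ : ∀ l, 0 ≤ φ l) : pm p n h φ ^ p = Ex n h (fun l => φ l ^ p) := by
  unfold pm
  rw [← Real.rpow_mul (Ex_nonneg _ _ _ fun l => Real.rpow_nonneg (hφ l) p),
    one_div_mul_cancel (by linarith), Real.rpow_one]

theorem pm_add {p : ℝ} (hp : 1 ≤ p) (n : ℕ) : ∀ (h : List Bool) (φ ψ : List Bool → ℝ),
    (∀ l, 0 ≤ φ l) → (∀ l, 0 ≤ ψ l) →
    pm p n h (fun l => φ l + ψ l) ≤ pm p n h φ + pm p n h ψ := by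
  have hp0 : 0 < p := by linarith
  induction n with
  | zero =>
    intro h φ ψ hφ hψ
    unfold pm
    simp only [Ex]
    rw [← Real.rpow_mul (by have := hφ h; have := hψ h; linarith), ← Real.rpow_mul (hφ h),
      ← Real.rpow_mul (hψ h), mul_one_div_cancel (by linarith), Real.rpow_one, Real.rpow_one,
      Real.rpow_one]
  | succ n ih =>
    intro h φ ψ hφ hψ
    have hs : ∀ l, 0 ≤ φ l + ψ l := fun l => add_nonneg (hφ l) (hψ l)
    -- two point Minkowski
    have hm := Real.Lp_add_le_of_nonneg (univ : Finset Bool)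
      (f := fun b => pm p n (b :: h) φ) (g := fun b => pm p n (b :: h) ψ) hp
      (fun b _ => pm_nonneg p n _ φ hφ) (fun b _ => pm_nonneg p n _ ψ hψ)
    simp only [Fintype.sum_bool] at hm
    have e1 : ∀ (χ : List Bool → ℝ), (∀ l, 0 ≤ χ l) → pm p (n + 1) h χ =
        (1 / 2 : ℝ) ^ (1 / p) * (pm p n (true :: h) χ ^ p + pm p n (false :: h) χ ^ p) ^ (1 / p) := by
      intro χ hχ
      rw [pm_pow hp n _ χ hχ, pm_pow hp n _ χ hχ]
      have h1 := Ex_nonneg n (true :: h) (fun l => χ l ^ p) (fun l => Real.rpow_nonneg (hχ l) p)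
      have h2 := Ex_nonneg n (false :: h) (fun l => χ l ^ p) (fun l => Real.rpow_nonneg (hχ l) p)
      rw [← Real.mul_rpow (by norm_num) (by linarith)]
      unfold pm
      simp only [Ex]
      congr 1
      ring
    rw [e1 _ hs, e1 φ hφ, e1 ψ hψ, ← mul_add]
    apply mul_le_mul_of_nonneg_left _ (by positivity)
    refine le_trans ?_ hm
    have i1 := ih (true :: h) φ ψ hφ hψ
    have i2 := ih (false :: h) φ ψ hφ hψ
    have j1 := pm_nonneg p n (true :: h) _ hs
    have j2 := pm_nonneg p n (false :: h) _ hs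
    apply Real.rpow_le_rpow
    · exact add_nonneg (Real.rpow_nonneg j1 _) (Real.rpow_nonneg j2 _)
    · exact add_le_add (Real.rpow_le_rpow j1 i1 hp0.le) (Real.rpow_le_rpow j2 i2 hp0.le)
    · positivity

theorem pm_mono {p : ℝ} (hp : 1 ≤ p) (n : ℕ) (h : List Bool) (φ ψ : List Bool → ℝ)
    (hφ : ∀ l, 0 ≤ φ l) (H : ∀ l, l.length = n + h.length → φ l ≤ ψ l) :
    pm p n h φ ≤ pm p n h ψ := by
  unfold pm
  apply Real.rpow_le_rpow (Ex_nonneg _ _ _ fun l => Real.rpow_nonneg (hφ l) p)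
  · exact Ex_mono' n h _ _ (fun l hl => Real.rpow_le_rpow (hφ l) (H l hl) (by linarith))
  · positivity

theorem pm_const {p : ℝ} (hp : 1 ≤ p) (n : ℕ) (h : List Bool) (c : ℝ) (hc : 0 ≤ c) :
    pm p n h (fun _ => c) = c := by
  unfold pm
  rw [Ex_const, ← Real.rpow_mul hc, mul_one_div_cancel (by linarith), Real.rpow_one]

theorem pm_mul {p : ℝ} (hp : 1 ≤ p) (n : ℕ) (h : List Bool) (c : ℝ) (hc : 0 ≤ c)
    (φ : List Bool → ℝ) (hφ : ∀ l, 0 ≤ φ l) :
    pm p n h (fun l => c * φ l) = c * pm p n h φ := by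
  unfold pm
  have h1 : (fun l => (c * φ l) ^ p) = fun l => c ^ p * φ l ^ p := by
    funext l
    exact Real.mul_rpow hc (hφ l)
  rw [h1, Ex_mul, Real.mul_rpow (Real.rpow_nonneg hc p)
    (Ex_nonneg _ _ _ fun l => Real.rpow_nonneg (hφ l) p),
    ← Real.rpow_mul hc, mul_one_div_cancel (by linarith), Real.rpow_one]

theorem Ex_le_pm {p : ℝ} (hp : 1 ≤ p) (n : ℕ) (h : List Bool) (φ : List Bool → ℝ)
    (hφ : ∀ l, 0 ≤ φ l) : Ex n h φ ≤ pm p n h φ := by
  have key : ∀ (n : ℕ) (h : List Bool), (Ex n h φ) ^ p ≤ Ex n h (fun l => φ l ^ p) := by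
    intro n
    induction n with
    | zero => intro h; exact le_rfl
    | succ n ih =>
      intro h
      simp only [Ex]
      have h1 := Ex_nonneg n (true :: h) φ hφ
      have h2 := Ex_nonneg n (false :: h) φ hφ
      have h3 := (convexOn_rpow hp).2 (Set.mem_Ici.mpr h1) (Set.mem_Ici.mpr h2)
        (show (0 : ℝ) ≤ 1 / 2 by norm_num) (show (0 : ℝ) ≤ 1 / 2 by norm_num)
        (by norm_num : (1 / 2 : ℝ) + 1 / 2 = 1)
      simp only [smul_eq_mul] at h3
      have h4 := ih (true :: h)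
      have h5 := ih (false :: h)
      have e : (Ex n (true :: h) φ + Ex n (false :: h) φ) / 2 =
          1 / 2 * Ex n (true :: h) φ + 1 / 2 * Ex n (false :: h) φ := by ring
      rw [e]
      linarith
  have h0 := Ex_nonneg n h φ hφ
  have h1 := Real.rpow_le_rpow (Real.rpow_nonneg h0 p) (key n h)
    (show 0 ≤ 1 / p by positivity)
  rwa [← Real.rpow_mul h0, mul_one_div_cancel (by linarith), Real.rpow_one] at h1

/-- the seminorm on finitely supported sequences given by random vectors `Z j` -/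
noncomputable def NS {p : ℝ} (hp : 1 ≤ p) (n : ℕ) (Z : ℕ → List Bool → X) :
    Seminorm ℝ (ℕ →₀ ℝ) :=
  Seminorm.of (fun v => pm p n [] (fun l => ‖Finsupp.linearCombination ℝ (fun j => Z j l) v‖))
    (by
      intro v w
      refine le_trans ?_ (pm_add hp n [] _ _ (fun _ => norm_nonneg _) (fun _ => norm_nonneg _))
      apply pm_mono hp n [] _ _ (fun _ => norm_nonneg _)
      intro l _
      rw [map_add]
      exact norm_add_le _ _)
    (by
      intro c v
      rw [← pm_mul hp n [] ‖c‖ (norm_nonneg _) _ (fun _ => norm_nonneg _)]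
      congr 1
      funext l
      rw [map_smul, norm_smul])

theorem NS_apply {p : ℝ} (hp : 1 ≤ p) (n : ℕ) (Z : ℕ → List Bool → X) (v : ℕ →₀ ℝ) :
    NS hp n Z v = pm p n [] (fun l => ‖Finsupp.linearCombination ℝ (fun j => Z j l) v‖) := rfl

theorem NS_MT {p K : ℝ} (hp : 1 ≤ p) (hMT : MTX X p K) (n : ℕ) (Z : ℕ → List Bool → X) :
    SemiMT (NS hp n Z) p K := by
  intro S _ _ C f t ht
  have e1 : ∀ x y, NS hp n Z (f y - f x) ^ p = Ex n [] (fun l =>
      ‖Finsupp.linearCombination ℝ (fun j => Z j l) (f y) -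
        Finsupp.linearCombination ℝ (fun j => Z j l) (f x)‖ ^ p) := by
    intro x y
    rw [NS_apply, pm_pow hp n [] _ (fun _ => norm_nonneg _)]
    congr 1
    funext l
    rw [map_sub]
  simp only [e1, ← Ex_mul, ← Ex_sum]
  exact Ex_mono _ _ _ _ (fun l => hMT S C
    (fun x => Finsupp.linearCombination ℝ (fun j => Z j l) (f x)) t ht)

theorem Fi_lin (e : ℝ) (D : List Bool → X) (uf : List Bool → (X →L[ℝ] ℝ)) (i : ℕ)
    (s : Finset ℕ) (c : ℕ → ℝ) (Z : ℕ → List Bool → X) (n : ℕ) :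
    ∀ h : List Bool, Fi e D uf i n h (fun l => ∑ j ∈ s, c j • Z j l) =
      ∑ j ∈ s, c j * Fi e D uf i n h (Z j) := by
  induction n with
  | zero => intro h; simp [Fi]
  | succ n ih =>
    intro h
    simp only [Fi]
    by_cases hc : cnt e D h = i ∧ e ≤ ‖D h‖
    · simp only [if_pos hc, map_sum, map_smul, smul_eq_mul, Ex_sum, Ex_mul]
      rw [← Finset.sum_sub_distrib, Finset.sum_div]
      apply sum_congr rfl
      intro j _
      ring
    · simp only [if_neg hc, ih]
      rw [← Finset.sum_add_distrib, Finset.sum_div]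
      apply sum_congr rfl
      intro j _
      ring

theorem mart_james {p K : ℝ} (hp : 1 ≤ p) (hMT : MTX X p K) (e : ℝ) (he : 0 < e) (x : X)
    (D : List Bool → X) (n : ℕ) (hball : ∀ h : List Bool, h.length ≤ n → ‖mg x D h‖ ≤ 1)
    (m : ℕ) (hprob : 1 / 2 < Ex n [] (fun h => if m ≤ cnt e D h then 1 else 0)) :
    ∃ N : Seminorm ℝ (ℕ →₀ ℝ), (∀ j, N (Finsupp.single j 1) ≤ 1) ∧
      (∀ (v : ℕ →₀ ℝ), ∀ i < m, e / 2 * |∑ j ∈ v.support.filter (i ≤ ·), v j| ≤ N v) ∧
      SemiMT N p K := by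
  refine ⟨NS hp n (fun j => st e x D (j + 1)), ?_, ?_, NS_MT hp hMT n _⟩
  · intro j
    rw [NS_apply]
    have h1 : pm p n [] (fun l => ‖Finsupp.linearCombination ℝ
        (fun j => st e x D (j + 1) l) (Finsupp.single j 1)‖) ≤ pm p n [] (fun _ => 1) := by
      apply pm_mono hp n [] _ _ (fun _ => norm_nonneg _)
      intro l hl
      rw [Finsupp.linearCombination_single, one_smul]
      exact st_norm e x D (j + 1) n hball l (by simp at hl; omega)
    rwa [pm_const hp n [] 1 zero_le_one] at h1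
  · intro v i hi
    have hex : ∀ h : List Bool, ∃ g : X →L[ℝ] ℝ, ‖g‖ ≤ 1 ∧ g (D h) = ‖D h‖ := by
      intro h
      obtain ⟨g, hg1, hg2⟩ := exists_dual_vector'' ℝ (D h)
      exact ⟨g, hg1, by simpa using hg2⟩
    choose uf huf1 huf2 using hex
    rw [NS_apply]
    have h1 := Fi_lin e D uf i v.support v (fun j => st e x D (j + 1)) n []
    have h2 : Fi e D uf i n [] (fun l => ∑ j ∈ v.support, v j • st e x D (j + 1) l) =
        Wi e D i n [] * ∑ j ∈ v.support.filter (i ≤ ·), v j := by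
      rw [h1, Finset.mul_sum, Finset.sum_filter]
      apply sum_congr rfl
      intro j _
      rw [Fi_st e x D uf huf2 i j n []]
      split_ifs <;> ring
    have h3 := Fi_le e D uf huf1 i (fun l => ∑ j ∈ v.support, v j • st e x D (j + 1) l) n []
    rw [h2, abs_mul] at h3
    have h4 : e / 2 ≤ Wi e D i n [] := by
      have g1 := Wi_ge e he D i n [] (Nat.zero_le _)
      have g2 : Ex n [] (fun h => if m ≤ cnt e D h then (1 : ℝ) else 0) ≤
          Ex n [] (fun l => if i + 1 ≤ cnt e D l then (1 : ℝ) else 0) := by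
        apply Ex_mono
        intro l
        by_cases hl : m ≤ cnt e D l
        · rw [if_pos hl, if_pos (by omega)]
        · rw [if_neg hl]; split_ifs <;> norm_num
      have g3 : e * (1 / 2) ≤ e * Ex n [] (fun l => if i + 1 ≤ cnt e D l then (1 : ℝ) else 0) :=
        mul_le_mul_of_nonneg_left (by linarith) he.le
      linarith
    have h5 : |Wi e D i n []| = Wi e D i n [] := abs_of_nonneg (by linarith)
    rw [h5] at h3
    have h6 : Ex n [] (fun l => ‖∑ j ∈ v.support, v j • st e x D (j + 1) l‖) ≤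
        pm p n [] (fun l => ‖Finsupp.linearCombination ℝ (fun j => st e x D (j + 1) l) v‖) :=
      Ex_le_pm hp n [] _ (fun _ => norm_nonneg _)
    have h7 := mul_le_mul_of_nonneg_right h4
      (abs_nonneg (∑ j ∈ v.support.filter (i ≤ ·), v j))
    linarith

end P125F
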