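import Vale.Agent.P125F.SemiDef10

/-! Dyadic martingales as difference processes on histories (most recent sign first) -/

namespace P125F

/-- expectation over `n` further fair signs after the history `h` -/
noncomputable def Ex : ℕ → List Bool → (List Bool → ℝ) → ℝ
  | 0, h, φ => φ h
  | n + 1, h, φ => (Ex n (true :: h) φ + Ex n (false :: h) φ) / 2

variable {X : Type*} [NormedAddCommGroup X] [NormedSpace ℝ X]

/-- the dyadic martingale with start `x` and differences `D` -/
def mg (x : X) (D : List Bool → X) : List Bool → X
  | [] => x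
  | b :: h => mg x D h + (if b = true then D h else - D h)

open Classical in
/-- number of jumps of size at least `e` -/
noncomputable def cnt (e : ℝ) (D : List Bool → X) : List Bool → ℕ
  | [] => 0
  | _ :: h => cnt e D h + (if e ≤ ‖D h‖ then 1 else 0)

/-- Markov type `p` with constant `K` of a normed space (matrix power form) -/
def MTX (X : Type*) [NormedAddCommGroup X] [NormedSpace ℝ X] (p K : ℝ) : Prop :=
  ∀ (S : Type) [Fintype S] [DecidableEq S] (C : P125S.Chain S) (f : S → X) (t : ℕ), 1 ≤ t →
    ∑ x, ∑ y, C.w x * ((Matrix.of C.P) ^ t) x y * ‖f y - f x‖ ^ p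
      ≤ K ^ p * t * ∑ x, ∑ y, C.w x * C.P x y * ‖f y - f x‖ ^ p

end P125F
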