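import Vale.Agent.P125F.SemiDef10

/-! From a spreading seminorm to a spreading and merging seminorm -/

namespace P125F

open Finset Filter Topology

/-- average over block `k` of length `L` -/
noncomputable def m10A (L k : ℕ) : ℕ →₀ ℝ :=
  (1 / (L : ℝ)) • ∑ i ∈ range L, Finsupp.single (k * L + i) (1 : ℝ)

/-- block averages at the block positions `B` -/
noncomputable def m10LA (L : ℕ) (B : ℕ → ℕ) : (ℕ →₀ ℝ) →ₗ[ℝ] (ℕ →₀ ℝ) :=
  Finsupp.linearCombination ℝ (fun l => m10A L (B l))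

theorem m10LA_single (L : ℕ) (B : ℕ → ℕ) (l : ℕ) (a : ℝ) :
    m10LA L B (Finsupp.single l a) = a • m10A L (B l) := by
  simp [m10LA]

theorem m10_gmono (L : ℕ) (hL : 1 ≤ L) (B : ℕ → ℕ) (hB : StrictMono B) :
    StrictMono (fun n => B (n / L) * L + n % L) := by
  intro a b hab
  show B (a / L) * L + a % L < B (b / L) * L + b % L
  have h1 : a / L ≤ b / L := Nat.div_le_div_right hab.le
  have ha := Nat.mod_lt a (show L > 0 by omega)
  rcases h1.lt_or_eq with h | h
  · have h2 := hB h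
    have h3 : (B (a / L) + 1) * L ≤ B (b / L) * L := Nat.mul_le_mul_right L h2
    have h4 : (B (a / L) + 1) * L = B (a / L) * L + L := by ring
    omega
  · rw [h]
    have h5 := Nat.div_add_mod a L
    have h6 := Nat.div_add_mod b L
    rw [h] at h5
    omega

theorem m10_map (L : ℕ) (hL : 1 ≤ L) (B : ℕ → ℕ) (v : ℕ →₀ ℝ) :
    Finsupp.mapDomain (fun n => B (n / L) * L + n % L) (m10LA L (fun l => l) v)
      = m10LA L B v := by
  have h : (Finsupp.lmapDomain ℝ ℝ (fun n => B (n / L) * L + n % L)).comp (m10LA L (fun l => l))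
      = m10LA L B := by
    apply Finsupp.lhom_ext
    intro l a
    rw [LinearMap.comp_apply, m10LA_single, m10LA_single, map_smul]
    congr 1
    unfold m10A
    rw [map_smul, map_sum]
    congr 1
    refine sum_congr rfl fun i hi => ?_
    rw [Finsupp.lmapDomain_apply, Finsupp.mapDomain_single]
    have h1 := mem_range.1 hi
    have h2 : (l * L + i) / L = l := by
      rw [Nat.add_comm, Nat.add_mul_div_right _ _ (by omega), Nat.div_eq_of_lt h1, Nat.zero_add]
    have h3 : (l * L + i) % L = i := by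
      rw [Nat.add_comm, Nat.add_mul_mod_self_right, Nat.mod_eq_of_lt h1]
    rw [h2, h3]
  have := LinearMap.congr_fun h v
  simpa using this

theorem m10_sum_mul (L R : ℕ) (F : ℕ → (ℕ →₀ ℝ)) :
    ∑ j ∈ range (L * R), F j = ∑ s ∈ range R, ∑ i ∈ range L, F (s * L + i) := by
  induction R with
  | zero => simp
  | succ R ih =>
    rw [Nat.mul_succ, sum_range_add, ih, sum_range_succ]
    congr 1
    refine sum_congr rfl fun i _ => ?_
    rw [Nat.mul_comm]

theorem m10_A_mul (L R : ℕ) (hL : 1 ≤ L) (hR : 1 ≤ R) (k : ℕ) :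
    m10A (L * R) k = (1 / (R : ℝ)) • ∑ s ∈ range R, m10A L (k * R + s) := by
  unfold m10A
  rw [m10_sum_mul, ← smul_sum, smul_smul]
  have h1 : (1 / (R : ℝ)) * (1 / (L : ℝ)) = 1 / ((L * R : ℕ) : ℝ) := by
    push_cast
    field_simp
  rw [h1]
  congr 1
  refine sum_congr rfl fun s _ => sum_congr rfl fun i _ => ?_
  congr 1
  ring

theorem m10_LA_mul (L R : ℕ) (hL : 1 ≤ L) (hR : 1 ≤ R) (B : ℕ → ℕ) (v : ℕ →₀ ℝ) :
    m10LA (L * R) B v
      = (1 / (R : ℝ)) • ∑ s ∈ range R, m10LA L (fun l => B l * R + s) v := by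
  have h : m10LA (L * R) B
      = (1 / (R : ℝ)) • ∑ s ∈ range R, m10LA L (fun l => B l * R + s) := by
    apply Finsupp.lhom_ext
    intro l a
    rw [m10LA_single, m10_A_mul L R hL hR, LinearMap.smul_apply, LinearMap.sum_apply]
    simp only [m10LA_single]
    rw [← smul_sum, smul_comm]
  rw [h, LinearMap.smul_apply, LinearMap.sum_apply]

theorem m10_LA_mapDomain (L : ℕ) (B g : ℕ → ℕ) (v : ℕ →₀ ℝ) :
    m10LA L B (Finsupp.mapDomain g v) = m10LA L (fun l => B (g l)) v := by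
  unfold m10LA
  rw [Finsupp.linearCombination_mapDomain]
  rfl

section

variable (N1 : Seminorm ℝ (ℕ →₀ ℝ))

theorem m10_sum_le {ι : Type} (s : Finset ι) (F : ι → (ℕ →₀ ℝ)) :
    N1 (∑ i ∈ s, F i) ≤ ∑ i ∈ s, N1 (F i) := by
  classical
  induction s using Finset.induction_on with
  | empty => simp
  | insert a s ha ih =>
    rw [sum_insert ha, sum_insert ha]
    exact le_trans (map_add_le_add N1 _ _) (by linarith)

theorem m10_A_le (h1 : ∀ j, N1 (Finsupp.single j 1) ≤ 1) (L k : ℕ) (hL : 1 ≤ L) :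
    N1 (m10A L k) ≤ 1 := by
  have hL' : (0 : ℝ) < L := by exact_mod_cast hL
  unfold m10A
  rw [map_smul_eq_mul, Real.norm_of_nonneg (by positivity)]
  have : N1 (∑ i ∈ range L, Finsupp.single (k * L + i) (1 : ℝ)) ≤ L := by
    refine le_trans (m10_sum_le N1 _ _) ?_
    calc ∑ i ∈ range L, N1 (Finsupp.single (k * L + i) (1 : ℝ)) ≤ ∑ _i ∈ range L, (1 : ℝ) :=
          sum_le_sum fun i _ => h1 _
      _ = L := by simp
  calc 1 / (L : ℝ) * N1 (∑ i ∈ range L, Finsupp.single (k * L + i) (1 : ℝ))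
      ≤ 1 / (L : ℝ) * L := mul_le_mul_of_nonneg_left this (by positivity)
    _ = 1 := by field_simp

theorem m10_l1 (b : ℕ → (ℕ →₀ ℝ)) (hb : ∀ l, N1 (b l) ≤ 1) (v : ℕ →₀ ℝ) :
    N1 (Finsupp.linearCombination ℝ b v) ≤ ∑ l ∈ v.support, |v l| := by
  rw [Finsupp.linearCombination_apply, Finsupp.sum]
  refine le_trans (m10_sum_le N1 _ _) (sum_le_sum fun l _ => ?_)
  rw [map_smul_eq_mul, Real.norm_eq_abs]
  calc |v l| * N1 (b l) ≤ |v l| * 1 := mul_le_mul_of_nonneg_left (hb l) (abs_nonneg _)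
    _ = |v l| := mul_one _

theorem m10_spr (hs : ∀ g : ℕ → ℕ, StrictMono g → ∀ v, N1 (Finsupp.mapDomain g v) = N1 v)
    (L : ℕ) (hL : 1 ≤ L) (B : ℕ → ℕ) (hB : StrictMono B) (v : ℕ →₀ ℝ) :
    N1 (m10LA L B v) = N1 (m10LA L (fun l => l) v) := by
  rw [← m10_map L hL B v, hs _ (m10_gmono L hL B hB)]

theorem m10_mul_le (hs : ∀ g : ℕ → ℕ, StrictMono g → ∀ v, N1 (Finsupp.mapDomain g v) = N1 v)
    (L R : ℕ) (hL : 1 ≤ L) (hR : 1 ≤ R) (v : ℕ →₀ ℝ) :
    N1 (m10LA (L * R) (fun l => l) v) ≤ N1 (m10LA L (fun l => l) v) := by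
  have hR' : (0 : ℝ) < R := by exact_mod_cast hR
  rw [m10_LA_mul L R hL hR, map_smul_eq_mul, Real.norm_of_nonneg (by positivity)]
  have : N1 (∑ s ∈ range R, m10LA L (fun l => l * R + s) v)
      ≤ R * N1 (m10LA L (fun l => l) v) := by
    refine le_trans (m10_sum_le N1 _ _) (le_of_eq ?_)
    calc ∑ s ∈ range R, N1 (m10LA L (fun l => l * R + s) v)
        = ∑ _s ∈ range R, N1 (m10LA L (fun l => l) v) := by
          refine sum_congr rfl fun s _ => m10_spr N1 hs L hL _ ?_ v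
          intro a b hab
          show a * R + s < b * R + s
          have := Nat.mul_lt_mul_of_pos_right hab (show 0 < R by omega)
          omega
      _ = R * N1 (m10LA L (fun l => l) v) := by simp
  calc 1 / (R : ℝ) * N1 (∑ s ∈ range R, m10LA L (fun l => l * R + s) v)
      ≤ 1 / (R : ℝ) * (R * N1 (m10LA L (fun l => l) v)) :=
        mul_le_mul_of_nonneg_left this (by positivity)
    _ = N1 (m10LA L (fun l => l) v) := by field_simp

theorem m10_l1w (b : ℕ → (ℕ →₀ ℝ)) (c : ℕ → ℝ) (hb : ∀ l, N1 (b l) ≤ c l) (v : ℕ →₀ ℝ) :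
    N1 (Finsupp.linearCombination ℝ b v) ≤ ∑ l ∈ v.support, |v l| * c l := by
  rw [Finsupp.linearCombination_apply, Finsupp.sum]
  refine le_trans (m10_sum_le N1 _ _) (sum_le_sum fun l _ => ?_)
  rw [map_smul_eq_mul, Real.norm_eq_abs]
  exact mul_le_mul_of_nonneg_left (hb l) (abs_nonneg _)

theorem m10_tele (a : ℕ → (ℕ →₀ ℝ)) (R l : ℕ) :
    ∑ s ∈ range R, a s = ∑ s ∈ range R, a (s + l)
      + (∑ s ∈ range l, a s - ∑ s ∈ range l, a (R + s)) := by
  have h1 : ∑ s ∈ range (R + l), a s = ∑ s ∈ range R, a s + ∑ s ∈ range l, a (R + s) :=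
    sum_range_add _ _ _
  have h2 : ∑ s ∈ range (l + R), a s = ∑ s ∈ range l, a s + ∑ s ∈ range R, a (l + s) :=
    sum_range_add _ _ _
  have h3 : ∑ s ∈ range R, a (l + s) = ∑ s ∈ range R, a (s + l) :=
    sum_congr rfl fun s _ => by rw [Nat.add_comm]
  rw [h3, Nat.add_comm l R, h1] at h2
  have h4 : ∑ s ∈ range R, a s = ∑ s ∈ range l, a s + ∑ s ∈ range R, a (s + l)
      - ∑ s ∈ range l, a (R + s) := by
    rw [← h2]
    abel
  rw [h4]
  abel

theorem m10_mono (hs : ∀ g : ℕ → ℕ, StrictMono g → ∀ v, N1 (Finsupp.mapDomain g v) = N1 v)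
    (h1 : ∀ j, N1 (Finsupp.single j 1) ≤ 1) (L R : ℕ) (hL : 1 ≤ L) (hR : 1 ≤ R) (g : ℕ → ℕ)
    (hg : Monotone g) (v : ℕ →₀ ℝ) :
    N1 (m10LA (L * R) (fun l => l) (Finsupp.mapDomain g v))
      ≤ N1 (m10LA L (fun l => l) v) + (∑ l ∈ v.support, |v l| * (2 * (l : ℝ))) / (R : ℝ) := by
  have hR' : (0 : ℝ) < (R : ℝ) := by exact_mod_cast hR
  rw [m10_LA_mapDomain, m10_LA_mul L R hL hR, map_smul_eq_mul,
    Real.norm_of_nonneg (by positivity)]
  set b : ℕ → (ℕ →₀ ℝ) := fun l => ∑ s ∈ range l, m10A L (g l * R + s)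
    - ∑ s ∈ range l, m10A L (g l * R + (R + s)) with hb
  have e : ∑ s ∈ range R, m10LA L (fun l => g l * R + s) v
      = (∑ s ∈ range R, m10LA L (fun l => g l * R + (s + l)) v)
        + Finsupp.linearCombination ℝ b v := by
    have h : ∑ s ∈ range R, m10LA L (fun l => g l * R + s)
      = (∑ s ∈ range R, m10LA L (fun l => g l * R + (s + l)))
        + Finsupp.linearCombination ℝ b := by
      apply Finsupp.lhom_ext
      intro l a
      rw [LinearMap.add_apply, LinearMap.sum_apply, LinearMap.sum_apply,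
        Finsupp.linearCombination_single]
      simp only [m10LA_single]
      rw [← smul_sum, ← smul_sum, ← smul_add]
      congr 1
      exact m10_tele (fun s => m10A L (g l * R + s)) R l
    have := LinearMap.congr_fun h v
    rw [LinearMap.add_apply, LinearMap.sum_apply, LinearMap.sum_apply] at this
    exact this
  rw [e]
  have e1 : N1 (∑ s ∈ range R, m10LA L (fun l => g l * R + (s + l)) v)
      ≤ R * N1 (m10LA L (fun l => l) v) := by
    refine le_trans (m10_sum_le N1 _ _) (le_of_eq ?_)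
    calc ∑ s ∈ range R, N1 (m10LA L (fun l => g l * R + (s + l)) v)
        = ∑ _s ∈ range R, N1 (m10LA L (fun l => l) v) := by
          refine sum_congr rfl fun s _ => m10_spr N1 hs L hL _ ?_ v
          intro x y hxy
          show g x * R + (s + x) < g y * R + (s + y)
          have := Nat.mul_le_mul_right R (hg hxy.le)
          omega
      _ = R * N1 (m10LA L (fun l => l) v) := by simp
  have hA : ∀ (l : ℕ) (F : ℕ → ℕ), N1 (∑ s ∈ range l, m10A L (F s)) ≤ l := by
    intro l F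
    refine le_trans (m10_sum_le N1 _ _) ?_
    calc ∑ s ∈ range l, N1 (m10A L (F s)) ≤ ∑ _s ∈ range l, (1 : ℝ) :=
          sum_le_sum fun s _ => m10_A_le N1 h1 L _ hL
      _ = l := by simp
  have e2 : N1 (Finsupp.linearCombination ℝ b v) ≤ ∑ l ∈ v.support, |v l| * (2 * (l : ℝ)) := by
    refine m10_l1w N1 b _ (fun l => ?_) v
    have h5 := map_sub_le_add N1 (∑ s ∈ range l, m10A L (g l * R + s))
      (∑ s ∈ range l, m10A L (g l * R + (R + s)))
    have h6 := hA l (fun s => g l * R + s)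
    have h7 := hA l (fun s => g l * R + (R + s))
    show N1 (∑ s ∈ range l, m10A L (g l * R + s)
      - ∑ s ∈ range l, m10A L (g l * R + (R + s))) ≤ 2 * (l : ℝ)
    linarith
  have e3 := map_add_le_add N1 (∑ s ∈ range R, m10LA L (fun l => g l * R + (s + l)) v)
    (Finsupp.linearCombination ℝ b v)
  rw [one_div, inv_mul_le_iff₀ hR', mul_add, mul_div_cancel₀ _ hR'.ne']
  linarith

end

/-- tail functional -/
noncomputable def m10tail (i : ℕ) : (ℕ →₀ ℝ) →ₗ[ℝ] ℝ :=
  Finsupp.linearCombination ℝ (fun j => if i ≤ j then (1 : ℝ) else 0)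

theorem m10tail_eq (i : ℕ) (v : ℕ →₀ ℝ) :
    m10tail i v = ∑ j ∈ v.support.filter (i ≤ ·), v j := by
  unfold m10tail
  rw [Finsupp.linearCombination_apply, Finsupp.sum, sum_filter]
  refine sum_congr rfl fun j _ => ?_
  by_cases h : i ≤ j
  · simp [h]
  · simp [h]

theorem m10tail_LA (L : ℕ) (hL : 1 ≤ L) (i : ℕ) (v : ℕ →₀ ℝ) :
    m10tail (i * L) (m10LA L (fun l => l) v) = m10tail i v := by
  have hL' : (L : ℝ) ≠ 0 := by
    have : (0 : ℝ) < L := by exact_mod_cast hL
    exact this.ne'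
  have h : (m10tail (i * L)).comp (m10LA L (fun l => l)) = m10tail i := by
    apply Finsupp.lhom_ext
    intro l a
    rw [LinearMap.comp_apply, m10LA_single, map_smul]
    unfold m10A
    rw [map_smul, map_sum]
    unfold m10tail
    simp only [Finsupp.linearCombination_single, smul_eq_mul, one_mul]
    by_cases hl : i ≤ l
    · have : ∀ x ∈ range L, (if i * L ≤ l * L + x then (1 : ℝ) else 0) = 1 := by
        intro x _
        rw [if_pos]
        have := Nat.mul_le_mul_right L hl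
        omega
      rw [sum_congr rfl this]
      simp [hl, hL']
    · have : ∀ x ∈ range L, (if i * L ≤ l * L + x then (1 : ℝ) else 0) = 0 := by
        intro x hx
        rw [if_neg]
        have hx' := mem_range.1 hx
        have h3 : (l + 1) * L ≤ i * L := Nat.mul_le_mul_right L (by omega)
        have h4 : (l + 1) * L = l * L + L := by ring
        omega
      rw [sum_congr rfl this]
      simp [hl]
  exact LinearMap.congr_fun h v

/-- the final step of the reduction -/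
theorem merge10 (N1 : Seminorm ℝ (ℕ →₀ ℝ))
    (hs : ∀ g : ℕ → ℕ, StrictMono g → ∀ v, N1 (Finsupp.mapDomain g v) = N1 v)
    (h1 : ∀ j, N1 (Finsupp.single j 1) ≤ 1) (θ : ℝ)
    (ht : ∀ (v : ℕ →₀ ℝ) (i : ℕ), θ * |∑ j ∈ v.support.filter (i ≤ ·), v j| ≤ N1 v)
    (p K : ℝ) (hp : 1 ≤ p) (hMT : SemiMT N1 p K) :
    ∃ N : Seminorm ℝ (ℕ →₀ ℝ),
      (∀ g : ℕ → ℕ, StrictMono g → ∀ v, N (Finsupp.mapDomain g v) = N v) ∧
      (∀ j, N (Finsupp.single j 1) ≤ 1) ∧
      (∀ (v : ℕ →₀ ℝ) (i : ℕ), θ * |∑ j ∈ v.support.filter (i ≤ ·), v j| ≤ N v) ∧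
      SemiMT N p K ∧
      (∀ g : ℕ → ℕ, Monotone g → ∀ v, N (Finsupp.mapDomain g v) ≤ N v) := by
  set F : ℕ → (ℕ →₀ ℝ) → ℝ := fun k v => N1 (m10LA (Nat.factorial k) (fun l => l) v) with hF
  have hfac : ∀ k, 1 ≤ Nat.factorial k := fun k => Nat.factorial_pos k
  have hanti : ∀ v, Antitone (fun k => F k v) := by
    intro v
    apply antitone_nat_of_succ_le
    intro k
    show N1 (m10LA (Nat.factorial (k + 1)) (fun l => l) v)
      ≤ N1 (m10LA (Nat.factorial k) (fun l => l) v)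
    rw [Nat.factorial_succ, Nat.mul_comm]
    exact m10_mul_le N1 hs _ _ (hfac k) (by omega) v
  have hbdd : ∀ v, BddBelow (Set.range fun k => F k v) := by
    intro v
    refine ⟨0, ?_⟩
    rintro _ ⟨k, rfl⟩
    exact apply_nonneg N1 _
  set f : (ℕ →₀ ℝ) → ℝ := fun v => ⨅ k, F k v with hf
  have hlim : ∀ v, Tendsto (fun k => F k v) atTop (𝓝 (f v)) := fun v =>
    tendsto_atTop_ciInf (hanti v) (hbdd v)
  have hadd : ∀ x y, f (x + y) ≤ f x + f y := by
    intro x y
    refine le_of_tendsto_of_tendsto' (hlim (x + y)) ((hlim x).add (hlim y)) fun k => ?_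
    show N1 _ ≤ N1 _ + N1 _
    rw [map_add]
    exact map_add_le_add N1 _ _
  have hsmul : ∀ (a : ℝ) (x : ℕ →₀ ℝ), f (a • x) = ‖a‖ * f x := by
    intro a x
    refine tendsto_nhds_unique (hlim (a • x)) ?_
    have h2 := (hlim x).const_mul ‖a‖
    refine h2.congr fun k => ?_
    show ‖a‖ * N1 _ = N1 _
    rw [map_smul, map_smul_eq_mul]
  have hFle : ∀ (L : ℕ), 1 ≤ L → ∀ v, f v ≤ N1 (m10LA L (fun l => l) v) := by
    intro L hL v
    refine le_trans (ciInf_le (hbdd v) L) ?_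
    show N1 (m10LA (Nat.factorial L) (fun l => l) v) ≤ _
    have h3 : Nat.factorial L = L * Nat.factorial (L - 1) := by
      rw [Nat.mul_factorial_pred (by omega)]
    rw [h3]
    exact m10_mul_le N1 hs _ _ hL (hfac _) v
  refine ⟨Seminorm.of f hadd hsmul, ?_, ?_, ?_, ?_, ?_⟩
  · intro g hg v
    show f _ = f v
    refine tendsto_nhds_unique (hlim _) ((hlim v).congr fun k => ?_)
    show N1 _ = N1 _
    rw [m10_LA_mapDomain, m10_spr N1 hs _ (hfac k) _ hg v]
  · intro j
    show f _ ≤ 1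
    refine le_trans (hFle 1 le_rfl _) ?_
    rw [m10LA_single, one_smul]
    exact m10_A_le N1 h1 1 j le_rfl
  · intro v i
    show _ ≤ f v
    refine ge_of_tendsto' (hlim v) fun k => ?_
    show _ ≤ N1 _
    have h4 := ht (m10LA (Nat.factorial k) (fun l => l) v) (i * Nat.factorial k)
    rw [← m10tail_eq, m10tail_LA _ (hfac k), m10tail_eq] at h4
    exact h4
  · intro S _ _ C g t ht1
    show ∑ x, ∑ y, C.w x * ((Matrix.of C.P) ^ t) x y * (f (g y - g x)) ^ p
      ≤ K ^ p * t * ∑ x, ∑ y, C.w x * C.P x y * (f (g y - g x)) ^ p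
    have hpow : ∀ v, Tendsto (fun k => F k v ^ p) atTop (𝓝 (f v ^ p)) := fun v =>
      (hlim v).rpow_const (Or.inr (by linarith))
    refine le_of_tendsto_of_tendsto'
      (f := fun k => ∑ x, ∑ y, C.w x * ((Matrix.of C.P) ^ t) x y * (F k (g y - g x)) ^ p)
      (g := fun k => K ^ p * t * ∑ x, ∑ y, C.w x * C.P x y * (F k (g y - g x)) ^ p)
      (tendsto_finsetSum _ fun x _ => tendsto_finsetSum _ fun y _ =>
        (hpow _).const_mul _)
      ((tendsto_finsetSum _ fun x _ => tendsto_finsetSum _ fun y _ =>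
        (hpow _).const_mul _).const_mul _) fun k => ?_
    have h5 := hMT S C (fun s => m10LA (Nat.factorial k) (fun l => l) (g s)) t ht1
    simp only [← map_sub] at h5
    exact h5
  · intro g hg v
    show f _ ≤ f v
    refine ge_of_tendsto' (hlim v) fun k => ?_
    have hc : Tendsto (fun R : ℕ => N1 (m10LA (Nat.factorial k) (fun l => l) v)
        + (∑ l ∈ v.support, |v l| * (2 * (l : ℝ))) / ((R + 1 : ℕ) : ℝ)) atTop
        (𝓝 (N1 (m10LA (Nat.factorial k) (fun l => l) v) + 0)) := by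
      refine Tendsto.const_add _ ?_
      exact (tendsto_const_div_atTop_nhds_zero_nat
        (∑ l ∈ v.support, |v l| * (2 * (l : ℝ)))).comp (tendsto_add_atTop_nat 1)
    rw [add_zero] at hc
    refine ge_of_tendsto' hc fun R => ?_
    exact le_trans (hFle (Nat.factorial k * (R + 1)) (Nat.mul_pos (hfac k) (by omega)) _)
      (m10_mono N1 hs h1 _ (R + 1) (hfac k) (by omega) g hg v)

end P125F
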