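import Mathlib

/-! Merging: lower bound for the norm of a vector with alternating prefix sums -/

namespace P125F
open Finset

/-- alternating vector `1, -1, 1, -1, …` of length `2 k` -/
noncomputable def altv (k : ℕ) : ℕ →₀ ℝ := ∑ i ∈ range (2 * k), Finsupp.single i ((-1 : ℝ) ^ i)

/-- the end-corrected alternating vector -/
noncomputable def endv (a b : ℝ) (k : ℕ) : ℕ →₀ ℝ :=
  Finsupp.single 0 (-a) + (∑ i ∈ range (2 * k), Finsupp.single (i + 1) ((a + b) * (-1 : ℝ) ^ i))
    + Finsupp.single (2 * k + 1) a

variable (N : Seminorm ℝ (ℕ →₀ ℝ))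

theorem m25_spread (hM : ∀ g : ℕ → ℕ, Monotone g → ∀ v, N (Finsupp.mapDomain g v) ≤ N v)
    (g : ℕ → ℕ) (hg : StrictMono g) (v : ℕ →₀ ℝ) : N (Finsupp.mapDomain g v) = N v := by
  classical
  refine le_antisymm (hM g hg.monotone v) ?_
  set h : ℕ → ℕ := fun m => ((range m).filter (fun i => g i < m)).card with hh
  have hmono : Monotone h := by
    intro m m' hmm
    refine Finset.card_le_card ?_
    intro i hi
    rw [mem_filter, mem_range] at hi ⊢
    omega
  have hleft : ∀ i, h (g i) = i := by
    intro i
    have : (range (g i)).filter (fun j => g j < g i) = range i := by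
      ext j
      rw [mem_filter, mem_range, mem_range]
      constructor
      · rintro ⟨_, h2⟩
        exact hg.lt_iff_lt.1 h2
      · intro h2
        have h3 := hg.le_apply (x := j)
        have h4 := hg.lt_iff_lt.2 h2
        exact ⟨by omega, h4⟩
    simp only [hh]
    rw [this, card_range]
  have h1 := hM h hmono (Finsupp.mapDomain g v)
  rw [← Finsupp.mapDomain_comp] at h1
  have h2 : (h ∘ g) = id := by
    funext i; exact hleft i
  rw [h2, Finsupp.mapDomain_id] at h1
  exact h1

theorem m25_map_altv (g : ℕ → ℕ) (k : ℕ) :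
    Finsupp.mapDomain g (altv k) = ∑ i ∈ range (2 * k), Finsupp.single (g i) ((-1 : ℝ) ^ i) := by
  unfold altv
  rw [Finsupp.mapDomain_finset_sum]
  simp only [Finsupp.mapDomain_single]

theorem altv_succ (k : ℕ) : altv (k + 1) = altv k + Finsupp.single (2 * k) 1
    + Finsupp.single (2 * k + 1) (-1) := by
  unfold altv
  have : 2 * (k + 1) = 2 * k + 1 + 1 := by ring
  rw [this, Finset.sum_range_succ, Finset.sum_range_succ]
  have e1 : (-1 : ℝ) ^ (2 * k) = 1 := by rw [pow_mul]; norm_num
  have e2 : (-1 : ℝ) ^ (2 * k + 1) = -1 := by rw [pow_succ, e1]; norm_num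
  rw [e1, e2]

theorem altv_mono_succ (hM : ∀ g : ℕ → ℕ, Monotone g → ∀ v, N (Finsupp.mapDomain g v) ≤ N v)
    (k : ℕ) : N (altv k) ≤ N (altv (k + 1)) := by
  have h := hM (fun i => min i (2 * k)) (fun i j hij => min_le_min_right _ hij) (altv (k + 1))
  have e : Finsupp.mapDomain (fun i => min i (2 * k)) (altv (k + 1)) = altv k := by
    rw [altv_succ, Finsupp.mapDomain_add, Finsupp.mapDomain_add, Finsupp.mapDomain_single,
      Finsupp.mapDomain_single, m25_map_altv]
    have e1 : min (2 * k) (2 * k) = 2 * k := min_self _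
    have e2 : min (2 * k + 1) (2 * k) = 2 * k := by omega
    rw [e1, e2, add_assoc, ← Finsupp.single_add]
    have e3 : (1 : ℝ) + -1 = 0 := by norm_num
    rw [e3, Finsupp.single_zero, add_zero]
    unfold altv
    refine Finset.sum_congr rfl fun i hi => ?_
    rw [mem_range] at hi
    have : min i (2 * k) = i := by omega
    rw [this]
  rw [e] at h
  exact h

theorem altv_mono (hM : ∀ g : ℕ → ℕ, Monotone g → ∀ v, N (Finsupp.mapDomain g v) ≤ N v)
    {k l : ℕ} (h : k ≤ l) : N (altv k) ≤ N (altv l) :=
  monotone_nat_of_le_succ (f := fun k => N (altv k)) (altv_mono_succ N hM) h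

theorem altv_add (hM : ∀ g : ℕ → ℕ, Monotone g → ∀ v, N (Finsupp.mapDomain g v) ≤ N v)
    (i j : ℕ) : N (altv (i + j)) ≤ N (altv i) + N (altv j) := by
  have e : altv (i + j) = altv i + Finsupp.mapDomain (fun l => l + 2 * i) (altv j) := by
    rw [m25_map_altv]
    unfold altv
    have : 2 * (i + j) = 2 * i + 2 * j := by ring
    rw [this, Finset.sum_range_add]
    congr 1
    refine Finset.sum_congr rfl fun l _ => ?_
    have e1 : (-1 : ℝ) ^ (2 * i + l) = (-1 : ℝ) ^ l := by
      rw [pow_add, pow_mul]; norm_num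
    rw [e1, add_comm (2 * i) l]
  rw [e]
  refine (map_add_le_add N _ _).trans ?_
  have h1 := hM (fun l => l + 2 * i) (fun a b hab => Nat.add_le_add_right hab _) (altv j)
  linarith

theorem altv_half (hM : ∀ g : ℕ → ℕ, Monotone g → ∀ v, N (Finsupp.mapDomain g v) ≤ N v)
    {m M : ℕ} (h : M ≤ 2 * m) : N (altv M) ≤ 2 * N (altv m) := by
  have h1 := altv_mono N hM h
  have h2 := altv_add N hM m m
  have : m + m = 2 * m := by ring
  rw [this] at h2
  linarith

/-- first comparison: `b * N (altv k) ≤ N (endv a b k)` -/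
theorem endv_one (hM : ∀ g : ℕ → ℕ, Monotone g → ∀ v, N (Finsupp.mapDomain g v) ≤ N v)
    (a b : ℝ) (ha : 0 ≤ a) (hb : 0 ≤ b) (k : ℕ) : b * N (altv k) ≤ N (endv a b k) := by
  rcases Nat.eq_zero_or_pos k with hk | hk
  · subst hk
    have : altv 0 = 0 := by unfold altv; simp
    rw [this, map_zero, mul_zero]
    exact apply_nonneg N _
  · -- (a+b) shift altv = endv + a (single 0 - single (2k+1))
    have h1 : (a + b) • Finsupp.mapDomain (fun i => i + 1) (altv k)
        = endv a b k + a • (Finsupp.single 0 1 - Finsupp.single (2 * k + 1) 1) := by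
      rw [m25_map_altv]
      unfold endv
      rw [Finset.smul_sum, smul_sub, Finsupp.smul_single, Finsupp.smul_single]
      simp only [Finsupp.smul_single, smul_eq_mul, mul_one]
      have e : Finsupp.single 0 (-a) = - (Finsupp.single 0 a : ℕ →₀ ℝ) := by
        rw [Finsupp.single_neg]
      rw [e]
      abel
    have h2 : N ((a + b) • Finsupp.mapDomain (fun i => i + 1) (altv k)) = (a + b) * N (altv k) := by
      rw [map_smul_eq_mul, m25_spread N hM (fun i => i + 1) (fun i j h => Nat.succ_lt_succ h),
        Real.norm_eq_abs, abs_of_nonneg (by linarith)]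
    have h3 : N (a • (Finsupp.single 0 1 - Finsupp.single (2 * k + 1) 1)) ≤ a * N (altv k) := by
      rw [map_smul_eq_mul, Real.norm_eq_abs, abs_of_nonneg ha]
      refine mul_le_mul_of_nonneg_left ?_ ha
      have e1 : (Finsupp.single 0 1 - Finsupp.single (2 * k + 1) 1 : ℕ →₀ ℝ)
          = Finsupp.mapDomain (fun i => (2 * k + 1) * i) (altv 1) := by
        rw [m25_map_altv, Finset.sum_range_succ, Finset.sum_range_succ]
        simp [sub_eq_add_neg, Finsupp.single_neg]
      rw [e1]
      exact (hM _ (fun i j h => Nat.mul_le_mul_left _ h) _).trans (altv_mono N hM hk)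
    have h4 := map_add_le_add N (endv a b k)
      (a • (Finsupp.single 0 1 - Finsupp.single (2 * k + 1) 1))
    rw [← h1, h2] at h4
    linarith

/-- merging both ends -/
theorem endv_two (hM : ∀ g : ℕ → ℕ, Monotone g → ∀ v, N (Finsupp.mapDomain g v) ≤ N v)
    (a b : ℝ) (k : ℕ) : N (endv b a k) ≤ N (endv a b (k + 1)) := by
  -- g : 0,1 -> 0 ; i -> i-1 ; 2k+2, 2k+3 -> 2k+1
  have h := hM (fun i => min (i - 1) (2 * k + 1))
    (fun i j hij => min_le_min_right _ (Nat.sub_le_sub_right hij 1)) (endv a b (k + 1))
  have e : Finsupp.mapDomain (fun i => min (i - 1) (2 * k + 1)) (endv a b (k + 1))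
      = - endv b a k := by
    unfold endv
    rw [Finsupp.mapDomain_add, Finsupp.mapDomain_add, Finsupp.mapDomain_single,
      Finsupp.mapDomain_single, Finsupp.mapDomain_finset_sum]
    simp only [Finsupp.mapDomain_single]
    have e0 : min (0 - 1) (2 * k + 1) = 0 := by omega
    have e1 : min (2 * (k + 1) + 1 - 1) (2 * k + 1) = 2 * k + 1 := by omega
    rw [e0, e1]
    have e2 : 2 * (k + 1) = 2 * k + 1 + 1 := by ring
    rw [e2, Finset.sum_range_succ, Finset.sum_range_succ']
    have e3 : min (2 * k + 1 + 1 - 1) (2 * k + 1) = 2 * k + 1 := by omega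
    have e4 : min (0 + 1 - 1) (2 * k + 1) = 0 := by omega
    rw [e3, e4]
    have p1 : (-1 : ℝ) ^ (2 * k + 1) = -1 := by rw [pow_succ, pow_mul]; norm_num
    rw [p1]
    have e5 : ∑ i ∈ range (2 * k), (Finsupp.single (min (i + 1 + 1 - 1) (2 * k + 1))
        ((a + b) * (-1 : ℝ) ^ (i + 1)) : ℕ →₀ ℝ)
        = - ∑ i ∈ range (2 * k), Finsupp.single (i + 1) ((b + a) * (-1 : ℝ) ^ i) := by
      rw [← Finset.sum_neg_distrib]
      refine Finset.sum_congr rfl fun i hi => ?_
      rw [mem_range] at hi
      have : min (i + 1 + 1 - 1) (2 * k + 1) = i + 1 := by omega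
      rw [this, ← Finsupp.single_neg]
      congr 1
      rw [pow_succ]; ring
    rw [e5]
    have s0 : (Finsupp.single 0 (-a) + Finsupp.single 0 ((a + b) * (-1 : ℝ) ^ 0) : ℕ →₀ ℝ)
        = - Finsupp.single 0 (-b) := by
      rw [← Finsupp.single_add, ← Finsupp.single_neg]
      congr 1
      ring
    have s1 : (Finsupp.single (2 * k + 1) ((a + b) * -1) + Finsupp.single (2 * k + 1) a : ℕ →₀ ℝ)
        = - Finsupp.single (2 * k + 1) b := by
      rw [← Finsupp.single_add, ← Finsupp.single_neg]
      congr 1
      ring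
    have : ∀ (A B C D E : ℕ →₀ ℝ), A + (C + B + D) + E = (A + B) + C + (D + E) := by
      intro A B C D E; abel
    rw [this, s0, s1]
    abel
  rw [e, map_neg_eq_map] at h
  exact h

theorem endv_ge (hM : ∀ g : ℕ → ℕ, Monotone g → ∀ v, N (Finsupp.mapDomain g v) ≤ N v)
    (a b : ℝ) (ha : 0 ≤ a) (hb : 0 ≤ b) (k : ℕ) :
    ((a + b) / 2) * N (altv (k - 1)) ≤ N (endv a b k) := by
  rcases Nat.eq_zero_or_pos k with hk | hk
  · subst hk
    have : altv (0 - 1) = 0 := by unfold altv; simp
    rw [this, map_zero, mul_zero]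
    exact apply_nonneg N _
  · obtain ⟨l, rfl⟩ : ∃ l, k = l + 1 := ⟨k - 1, by omega⟩
    have e : l + 1 - 1 = l := by omega
    rw [e]
    have h1 := endv_one N hM a b ha hb (l + 1)
    have h2 := endv_one N hM b a hb ha l
    have h3 := endv_two N hM a b l
    have h4 := altv_mono_succ N hM l
    have h5 : b * N (altv l) ≤ b * N (altv (l + 1)) := mul_le_mul_of_nonneg_left h4 hb
    linarith

/-- prefix sums -/
noncomputable def pre (v : ℕ →₀ ℝ) (z : ℕ) : ℝ := ∑ x ∈ v.support.filter (fun x => x ≤ z), v x

theorem pre_apply_map (v : ℕ →₀ ℝ) (g : ℕ → ℕ) (i : ℕ) :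
    (Finsupp.mapDomain g v) i = ∑ x ∈ v.support.filter (fun x => g x = i), v x := by
  classical
  rw [Finsupp.mapDomain, Finsupp.sum_apply, Finsupp.sum, Finset.sum_filter]
  refine Finset.sum_congr rfl fun x _ => ?_
  rw [Finsupp.single_apply]

/-- the merged vector -/
theorem merge25 (hM : ∀ g : ℕ → ℕ, Monotone g → ∀ v, N (Finsupp.mapDomain g v) ≤ N v)
    (v : ℕ →₀ ℝ) (a b : ℝ) (ha : 0 ≤ a) (hb : 0 ≤ b) (k : ℕ) (z : ℕ → ℕ)
    (hz : ∀ i j, i < j → j ≤ 2 * k → z i < z j)
    (he : ∀ i, 2 * i ≤ 2 * k → pre v (z (2 * i)) = -a)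
    (ho : ∀ i, 2 * i + 1 ≤ 2 * k → pre v (z (2 * i + 1)) = b)
    (h0 : ∑ x ∈ v.support, v x = 0) :
    ((a + b) / 2) * N (altv (k - 1)) ≤ N v := by
  classical
  set g : ℕ → ℕ := fun x => ((range (2 * k + 1)).filter (fun i => z i < x)).card with hg
  have hmono : Monotone g := by
    intro x y hxy
    refine Finset.card_le_card ?_
    intro i hi
    rw [mem_filter] at hi ⊢
    exact ⟨hi.1, lt_of_lt_of_le hi.2 hxy⟩
  have hle : ∀ x, g x ≤ 2 * k + 1 := fun x => by
    refine (Finset.card_filter_le _ _).trans ?_
    rw [card_range]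
  -- `g x ≤ i ↔ x ≤ z i`
  have hiff : ∀ i, i ≤ 2 * k → ∀ x, g x ≤ i ↔ x ≤ z i := by
    intro i hi x
    constructor
    · intro h
      by_contra hx
      push Not at hx
      have : range (i + 1) ⊆ (range (2 * k + 1)).filter (fun i => z i < x) := by
        intro j hj
        rw [mem_range] at hj
        rw [mem_filter, mem_range]
        refine ⟨by omega, ?_⟩
        rcases Nat.lt_or_ge j i with h1 | h1
        · exact (hz j i h1 hi).trans hx
        · have : j = i := by omega
          rw [this]; exact hx
      have := Finset.card_le_card this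
      rw [card_range] at this
      simp only [hg] at h
      omega
    · intro h
      have : (range (2 * k + 1)).filter (fun i => z i < x) ⊆ range i := by
        intro j hj
        rw [mem_filter, mem_range] at hj
        rw [mem_range]
        by_contra hji
        push Not at hji
        rcases Nat.lt_or_ge i j with h1 | h1
        · have := hz i j h1 (by omega)
          omega
        · have : j = i := by omega
          rw [this] at hj
          omega
      have := Finset.card_le_card this
      rw [card_range] at this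
      exact this
  have hpre : ∀ i, i ≤ 2 * k →
      ∑ x ∈ v.support.filter (fun x => g x ≤ i), v x = pre v (z i) := by
    intro i hi
    unfold pre
    refine Finset.sum_congr ?_ fun _ _ => rfl
    refine Finset.filter_congr fun x _ => hiff i hi x
  have hstep : ∀ i, ∑ x ∈ v.support.filter (fun x => g x ≤ i + 1), v x
      = ∑ x ∈ v.support.filter (fun x => g x ≤ i), v x
        + ∑ x ∈ v.support.filter (fun x => g x = i + 1), v x := by
    intro i
    rw [← Finset.sum_union]
    · refine Finset.sum_congr ?_ fun _ _ => rfl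
      ext x
      simp only [mem_filter, mem_union]
      constructor
      · rintro ⟨h1, h2⟩
        rcases Nat.lt_or_ge (g x) (i + 1) with h3 | h3
        · exact Or.inl ⟨h1, by omega⟩
        · exact Or.inr ⟨h1, by omega⟩
      · rintro (⟨h1, h2⟩ | ⟨h1, h2⟩)
        · exact ⟨h1, by omega⟩
        · exact ⟨h1, by omega⟩
    · rw [Finset.disjoint_left]
      intro x h1 h2
      rw [mem_filter] at h1 h2
      omega
  have hfull : ∑ x ∈ v.support.filter (fun x => g x ≤ 2 * k + 1), v x = 0 := by
    rw [Finset.filter_true_of_mem (fun x _ => hle x)]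
    exact h0
  have key : Finsupp.mapDomain g v = endv a b k := by
    ext i
    rw [pre_apply_map]
    unfold endv
    rw [Finsupp.add_apply, Finsupp.add_apply, Finsupp.finset_sum_apply]
    simp only [Finsupp.single_apply]
    rcases Nat.eq_zero_or_pos i with h | h
    · subst h
      have e1 : v.support.filter (fun x => g x = 0) = v.support.filter (fun x => g x ≤ 0) :=
        Finset.filter_congr fun x _ => by omega
      have e2 := he 0 (by omega)
      rw [e1, hpre 0 (by omega), show (0 : ℕ) = 2 * 0 from rfl, e2]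
      simp
    · obtain ⟨j, rfl⟩ : ∃ j, i = j + 1 := ⟨i - 1, by omega⟩
      have e0 : ∑ x ∈ v.support.filter (fun x => g x = j + 1), v x
          = ∑ x ∈ v.support.filter (fun x => g x ≤ j + 1), v x
            - ∑ x ∈ v.support.filter (fun x => g x ≤ j), v x := by
        rw [hstep j]; ring
      have hsum : ∑ x ∈ range (2 * k), (if x + 1 = j + 1 then (a + b) * (-1 : ℝ) ^ x else 0)
          = if j < 2 * k then (a + b) * (-1 : ℝ) ^ j else 0 := by
        simp only [Nat.add_right_cancel_iff]
        rw [Finset.sum_ite_eq' (range (2 * k)) j]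
        simp only [mem_range]
      rw [e0, hsum]
      rcases Nat.lt_trichotomy j (2 * k) with hj | hj | hj
      · rw [hpre (j + 1) (by omega), hpre j (by omega)]
        have c1 : ¬ (0 = j + 1) := by omega
        have c2 : ¬ (2 * k + 1 = j + 1) := by omega
        rw [if_neg c1, if_pos hj, if_neg c2]
        rcases Nat.even_or_odd' j with ⟨l, hl | hl⟩
        · rw [hl, ho l (by omega), he l (by omega), pow_mul]
          norm_num
          ring
        · have e3 : j + 1 = 2 * (l + 1) := by omega
          rw [e3, hl, he (l + 1) (by omega), ho l (by omega), pow_succ, pow_mul]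
          norm_num
          ring
      · subst hj
        rw [hfull, hpre (2 * k) le_rfl, he k le_rfl]
        simp
      · have e4 : v.support.filter (fun x => g x ≤ j + 1) = v.support :=
          Finset.filter_true_of_mem (fun x _ => (hle x).trans (by omega))
        have e5 : v.support.filter (fun x => g x ≤ j) = v.support :=
          Finset.filter_true_of_mem (fun x _ => (hle x).trans (by omega))
        rw [e4, e5]
        have c1 : ¬ (0 = j + 1) := by omega
        have c2 : ¬ (2 * k + 1 = j + 1) := by omega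
        have c3 : ¬ (j < 2 * k) := by omega
        rw [if_neg c1, if_neg c3, if_neg c2]
        ring
  have h1 := hM g hmono v
  rw [key] at h1
  exact (endv_ge N hM a b ha hb k).trans h1

end P125F
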