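import Mathlib

/-! # Paths with labelled moves: lower bound for path expectations -/

namespace P125F

open Finset

section Path
variable {S M V : Type} [Fintype S] [Fintype M] [AddCommGroup V]

/-- path expectation (moves with labels, increments `g`) -/
def EQ20 (q : S → M → S → ℝ) (g : S → M → S → V) : ℕ → (V → ℝ) → S → V → ℝ
  | 0, φ, _, v => φ v
  | t + 1, φ, x, v => ∑ m, ∑ y, q x m y * EQ20 q g t φ y (v + g x m y)

/-- bad mass -/
def BB20 (q : S → M → S → ℝ) (β : S → ℝ) : ℕ → S → ℝ
  | 0, _ => 0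
  | t + 1, x => β x + ∑ m, ∑ y, q x m y * BB20 q β t y

theorem EQ20_nonneg (q : S → M → S → ℝ) (g : S → M → S → V) (hq : ∀ x m y, 0 ≤ q x m y)
    (φ : V → ℝ) (hφ : ∀ v, 0 ≤ φ v) (t : ℕ) : ∀ x v, 0 ≤ EQ20 q g t φ x v := by
  induction t with
  | zero => intro x v; exact hφ v
  | succ t ih =>
    intro x v
    exact sum_nonneg (fun m _ => sum_nonneg (fun y _ => mul_nonneg (hq x m y) (ih _ _)))

theorem BB20_nonneg (q : S → M → S → ℝ) (hq : ∀ x m y, 0 ≤ q x m y) (β : S → ℝ)
    (hβ : ∀ x, 0 ≤ β x) (t : ℕ) : ∀ x, 0 ≤ BB20 q β t x := by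
  induction t with
  | zero => intro x; exact le_refl _
  | succ t ih =>
    intro x
    exact add_nonneg (hβ x)
      (sum_nonneg (fun m _ => sum_nonneg (fun y _ => mul_nonneg (hq x m y) (ih _))))

theorem BB20_avg (q : S → M → S → ℝ) (w : S → ℝ)
    (hst : ∀ y, ∑ x, ∑ m, w x * q x m y = w y) (β : S → ℝ) (b : ℝ)
    (hb : ∑ x, w x * β x ≤ b) (t : ℕ) : ∑ x, w x * BB20 q β t x ≤ t * b := by
  induction t with
  | zero => simp [BB20]
  | succ t ih =>
    have h1 : ∑ x, w x * BB20 q β (t + 1) x
        = ∑ x, w x * β x + ∑ y, (∑ x, ∑ m, w x * q x m y) * BB20 q β t y := by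
      have e1 : ∀ x, w x * BB20 q β (t + 1) x
          = w x * β x + ∑ m, ∑ y, w x * q x m y * BB20 q β t y := by
        intro x
        simp only [BB20, mul_add, mul_sum, mul_assoc]
      simp only [e1, sum_add_distrib]
      congr 1
      have e2 : ∀ x, ∑ m, ∑ y, w x * q x m y * BB20 q β t y
          = ∑ y, ∑ m, w x * q x m y * BB20 q β t y := fun x => sum_comm
      simp only [e2]
      rw [sum_comm]
      refine sum_congr rfl (fun y _ => ?_)
      rw [sum_mul]
      refine sum_congr rfl (fun x _ => ?_)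
      rw [sum_mul]
    rw [h1]
    simp only [hst]
    push_cast
    linarith

theorem path_lower20 (q : S → M → S → ℝ) (g : S → M → S → V) (w : S → ℝ)
    (hw : ∀ x, 0 ≤ w x) (hw1 : ∑ x, w x = 1) (hq : ∀ x m y, 0 ≤ q x m y)
    (hq1 : ∀ x, ∑ m, ∑ y, q x m y = 1) (hst : ∀ y, ∑ x, ∑ m, w x * q x m y = w y)
    (Bad : M → M → Prop) (β : S → ℝ)
    (hβ : ∀ x m, ∑ m', ∑ y, (open Classical in if Bad m m' then q x m' y else 0) ≤ β x)
    (b : ℝ) (hb : ∑ x, w x * β x ≤ b) (φ : V → ℝ) (hφ : ∀ v, 0 ≤ φ v) (c : ℝ) (hc : 0 ≤ c)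
    (Inv : ℕ → S → M → V → Prop) (h0 : ∀ x m v, Inv 0 x m v → c ≤ φ v)
    (hs : ∀ k x m v m' y, Inv (k + 1) x m v → ¬ Bad m m' → 0 < q x m' y →
      Inv k y m' (v + g x m' y)) (n : ℕ) (m0 : M) (hi : ∀ x, 0 < w x → Inv n x m0 0) :
    c * (1 - n * b) ≤ ∑ x, w x * EQ20 q g n φ x 0 := by
  classical
  have hβ0 : ∀ x, 0 ≤ β x := by
    intro x
    refine le_trans ?_ (hβ x m0)
    refine sum_nonneg (fun m' _ => sum_nonneg (fun y _ => ?_))
    split_ifs
    · exact hq x m' y
    · exact le_refl _
  have hB := BB20_nonneg q hq β hβ0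
  have key : ∀ k x m v, Inv k x m v → c * (1 - BB20 q β k x) ≤ EQ20 q g k φ x v := by
    intro k
    induction k with
    | zero =>
      intro x m v h
      have := h0 x m v h
      simpa [BB20, EQ20] using this
    | succ k ih =>
      intro x m v h
      have hterm : ∀ m' y, q x m' y * (c * (1 - BB20 q β k y))
          - c * (if Bad m m' then q x m' y else 0)
          ≤ q x m' y * EQ20 q g k φ y (v + g x m' y) := by
        intro m' y
        rcases eq_or_lt_of_le (hq x m' y) with h' | h'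
        · simp [← h']
        · by_cases hbad : Bad m m'
          · rw [if_pos hbad]
            have e1 := EQ20_nonneg q g hq φ hφ k y (v + g x m' y)
            have e2 := hB k y
            have e3 : 0 ≤ q x m' y * EQ20 q g k φ y (v + g x m' y) := mul_nonneg h'.le e1
            have e4 : 0 ≤ q x m' y * (c * BB20 q β k y) :=
              mul_nonneg h'.le (mul_nonneg hc e2)
            nlinarith
          · rw [if_neg hbad]
            have e1 := ih y m' (v + g x m' y) (hs k x m v m' y h hbad h')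
            have := mul_le_mul_of_nonneg_left e1 h'.le
            linarith
      have hsum : ∑ m', ∑ y, (q x m' y * (c * (1 - BB20 q β k y))
          - c * (if Bad m m' then q x m' y else 0))
          ≤ ∑ m', ∑ y, q x m' y * EQ20 q g k φ y (v + g x m' y) :=
        sum_le_sum (fun m' _ => sum_le_sum (fun y _ => hterm m' y))
      have hleft : ∑ m', ∑ y, (q x m' y * (c * (1 - BB20 q β k y))
          - c * (if Bad m m' then q x m' y else 0))
          = c * (∑ m', ∑ y, q x m' y) - c * (∑ m', ∑ y, q x m' y * BB20 q β k y)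
            - c * (∑ m', ∑ y, (if Bad m m' then q x m' y else 0)) := by
        simp only [mul_sum, ← sum_sub_distrib]
        refine sum_congr rfl (fun m' _ => sum_congr rfl (fun y _ => ?_))
        ring
      rw [hleft, hq1] at hsum
      have hb' := hβ x m
      have hcb := mul_le_mul_of_nonneg_left hb' hc
      have hE : EQ20 q g (k + 1) φ x v
          = ∑ m', ∑ y, q x m' y * EQ20 q g k φ y (v + g x m' y) := rfl
      have hBB : BB20 q β (k + 1) x = β x + ∑ m', ∑ y, q x m' y * BB20 q β k y := rfl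
      rw [hE, hBB]
      nlinarith
  have h1 : ∑ x, w x * (c * (1 - BB20 q β n x)) ≤ ∑ x, w x * EQ20 q g n φ x 0 := by
    refine sum_le_sum (fun x _ => ?_)
    rcases eq_or_lt_of_le (hw x) with h' | h'
    · simp [← h']
    · exact mul_le_mul_of_nonneg_left (key n x m0 0 (hi x h')) h'.le
  have h2 : ∑ x, w x * (c * (1 - BB20 q β n x))
      = c * (∑ x, w x) - c * ∑ x, w x * BB20 q β n x := by
    simp only [mul_sum, ← sum_sub_distrib]
    refine sum_congr rfl (fun x _ => ?_)
    ring
  have h3 := BB20_avg q w hst β b hb n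
  have h4 := mul_le_mul_of_nonneg_left h3 hc
  rw [h2, hw1] at h1
  linarith

end Path

end P125F
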