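import Vale.Agent.P125F.Box3

/-! # lower bound for path expectations from a one-step invariant -/

namespace P125F

open Finset
open scoped Classical

/-- expected number of bad steps -/
noncomputable def lossL29 {S M : Type} [Fintype S] [Fintype M] (q : S → M → S → ℝ) (β : S → ℝ) :
    ℕ → S → ℝ
  | 0 => fun _ => 0
  | k + 1 => fun x => β x + ∑ m, ∑ y, q x m y * lossL29 q β k y

theorem lossL29_nonneg {S M : Type} [Fintype S] [Fintype M] (q : S → M → S → ℝ) (β : S → ℝ)
    (hq : ∀ x m y, 0 ≤ q x m y) (hβ : ∀ x, 0 ≤ β x) (k : ℕ) : ∀ x, 0 ≤ lossL29 q β k x := by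
  induction k with
  | zero => intro x; exact le_rfl
  | succ k ih =>
    intro x
    exact add_nonneg (hβ x) (sum_nonneg fun m _ => sum_nonneg fun y _ => mul_nonneg (hq _ _ _) (ih y))

theorem path_lower29 {S M : Type} [Fintype S] [Fintype M] {D : ℕ}
    (q : S → M → S → ℝ) (g : S → M → S → (Fin D → ℤ)) (w : S → ℝ)
    (hw1 : ∑ x, w x = 1) (hw : ∀ x, 0 ≤ w x)
    (hq : ∀ x m y, 0 ≤ q x m y) (hs : ∀ x, ∑ m, ∑ y, q x m y = 1)
    (hstat : ∀ y, ∑ x, ∑ m, w x * q x m y = w y)
    (Inv : ℕ → S → M → (Fin D → ℤ) → Prop) (Bad : M → M → Prop)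
    (φ : (Fin D → ℤ) → ℝ) (hφ : ∀ v, 0 ≤ φ v) (c : ℝ) (hc : 0 ≤ c) (β : S → ℝ)
    (hβ : ∀ x, 0 ≤ β x) (n : ℕ)
    (hstep : ∀ t, t < n → ∀ x m v, Inv t x m v → ∀ m1 y, q x m1 y ≠ 0 → ¬ Bad m m1 →
      Inv (t + 1) y m1 (v + g x m1 y))
    (hbad : ∀ x m, ∑ m1, ∑ y, (if Bad m m1 then q x m1 y else 0) ≤ β x)
    (hend : ∀ x m v, Inv n x m v → c ≤ φ v)
    (b : ℝ) (hb : ∑ x, w x * β x ≤ b) (m0 : M) (h0 : ∀ x, Inv 0 x m0 0) :
    c * (1 - n * b) ≤ ∑ x, w x * EQ q g n φ x 0 := by
  have key : ∀ k, k ≤ n → ∀ x m v, Inv (n - k) x m v →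
      c * (1 - lossL29 q β k x) ≤ EQ q g k φ x v := by
    intro k
    induction k with
    | zero =>
      intro _ x m v h
      show c * (1 - 0) ≤ φ v
      rw [sub_zero, mul_one]
      exact hend x m v (by simpa using h)
    | succ k ih =>
      intro hk x m v h
      show c * (1 - (β x + ∑ m, ∑ y, q x m y * lossL29 q β k y))
        ≤ ∑ m1, ∑ y, q x m1 y * EQ q g k φ y (v + g x m1 y)
      have h1 : ∀ m1 y, q x m1 y * (c * (1 - lossL29 q β k y))
          - c * (if Bad m m1 then q x m1 y else 0)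
          ≤ q x m1 y * EQ q g k φ y (v + g x m1 y) := by
        intro m1 y
        have hE := EQ_nonneg q g hq φ hφ k y (v + g x m1 y)
        have hL := lossL29_nonneg q β hq hβ k y
        by_cases hqz : q x m1 y = 0
        · rw [hqz]; simp
        · by_cases hB : Bad m m1
          · rw [if_pos hB]
            have h2 : 0 ≤ q x m1 y * EQ q g k φ y (v + g x m1 y) := mul_nonneg (hq _ _ _) hE
            have h3 : q x m1 y * (c * (1 - lossL29 q β k y)) - c * q x m1 y
                = - (q x m1 y * (c * lossL29 q β k y)) := by ring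
            have h4 : 0 ≤ q x m1 y * (c * lossL29 q β k y) :=
              mul_nonneg (hq _ _ _) (mul_nonneg hc hL)
            linarith
          · rw [if_neg hB, mul_zero, sub_zero]
            apply mul_le_mul_of_nonneg_left _ (hq _ _ _)
            apply ih (by omega) y m1
            have h5 := hstep (n - (k + 1)) (by omega) x m v h m1 y hqz hB
            have h6 : n - (k + 1) + 1 = n - k := by omega
            rwa [h6] at h5
      have h2 : ∑ m1, ∑ y, (q x m1 y * (c * (1 - lossL29 q β k y))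
          - c * (if Bad m m1 then q x m1 y else 0))
          ≤ ∑ m1, ∑ y, q x m1 y * EQ q g k φ y (v + g x m1 y) :=
        sum_le_sum fun m1 _ => sum_le_sum fun y _ => h1 m1 y
      refine le_trans ?_ h2
      have h3 : ∑ m1, ∑ y, (q x m1 y * (c * (1 - lossL29 q β k y))
          - c * (if Bad m m1 then q x m1 y else 0))
          = c * (∑ m1, ∑ y, q x m1 y) - c * (∑ m1, ∑ y, q x m1 y * lossL29 q β k y)
            - c * (∑ m1, ∑ y, (if Bad m m1 then q x m1 y else 0)) := by
        simp only [mul_sum, ← sum_sub_distrib]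
        refine sum_congr rfl fun m1 _ => sum_congr rfl fun y _ => ?_
        ring
      rw [h3, hs x]
      have h4 := mul_le_mul_of_nonneg_left (hbad x m) hc
      nlinarith
  have hsum : ∀ k : ℕ, ∑ x, w x * lossL29 q β k x = k * ∑ x, w x * β x := by
    intro k
    induction k with
    | zero =>
      show ∑ x, w x * 0 = _
      simp
    | succ k ih =>
      show ∑ x, w x * (β x + ∑ m, ∑ y, q x m y * lossL29 q β k y) = _
      have h1 : ∑ x, w x * (∑ m, ∑ y, q x m y * lossL29 q β k y)
          = ∑ y, w y * lossL29 q β k y := by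
        have : ∀ y, w y * lossL29 q β k y = ∑ x, ∑ m, w x * q x m y * lossL29 q β k y := by
          intro y
          rw [← hstat y, sum_mul]
          refine sum_congr rfl fun x _ => ?_
          rw [sum_mul]
        simp_rw [this]
        rw [sum_comm]
        refine sum_congr rfl fun x _ => ?_
        rw [sum_comm, mul_sum]
        refine sum_congr rfl fun m _ => ?_
        rw [mul_sum]
        refine sum_congr rfl fun y _ => ?_
        ring
      simp only [mul_add, sum_add_distrib]
      rw [h1, ih]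
      push_cast
      ring
  have h1 : ∑ x, w x * (c * (1 - lossL29 q β n x)) ≤ ∑ x, w x * EQ q g n φ x 0 := by
    refine sum_le_sum fun x _ => mul_le_mul_of_nonneg_left ?_ (hw x)
    exact key n le_rfl x m0 0 (by simpa using h0 x)
  refine le_trans ?_ h1
  have h2 : ∑ x, w x * (c * (1 - lossL29 q β n x))
      = c * (∑ x, w x) - c * ∑ x, w x * lossL29 q β n x := by
    rw [mul_sum, mul_sum, ← sum_sub_distrib]
    refine sum_congr rfl fun x _ => ?_
    ring
  rw [h2, hw1, hsum]
  have h3 : (n : ℝ) * ∑ x, w x * β x ≤ n * b := mul_le_mul_of_nonneg_left hb (Nat.cast_nonneg n)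
  nlinarith

end P125F
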