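import Vale.Agent.P125F.Defs

/-! [R1] Markov type passes to `ℓ_p(X)` -/

namespace P125F
open Finset P125S

theorem r1_key {X : Type} [NormedAddCommGroup X] [NormedSpace ℝ X] {p : ℝ}
    (hp : 1 ≤ p) [Fact (1 ≤ ENNReal.ofReal p)] {S : Type} [Fintype S]
    (f : S → lp (fun _ : ℕ => X) (ENNReal.ofReal p)) (c : S → S → ℝ) :
    HasSum (fun n : ℕ => ∑ x, ∑ y, c x y * ‖f y n - f x n‖ ^ p)
      (∑ x, ∑ y, c x y * ‖f y - f x‖ ^ p) := by
  have hq : (ENNReal.ofReal p).toReal = p := ENNReal.toReal_ofReal (by linarith)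
  have hp' : 0 < (ENNReal.ofReal p).toReal := by rw [hq]; linarith
  refine hasSum_sum fun x _ => hasSum_sum fun y _ => ?_
  have h := (lp.hasSum_norm hp' (f y - f x)).mul_left (c x y)
  rw [hq] at h
  exact h

/-- [R1] -/
theorem r1_11 {X : Type} [NormedAddCommGroup X] [NormedSpace ℝ X] {p K : ℝ}
    (hp : 1 ≤ p) [Fact (1 ≤ ENNReal.ofReal p)] (h : MarkovType X p K) :
    MarkovType (lp (fun _ : ℕ => X) (ENNReal.ofReal p)) p K := by
  intro S _ _ C f t ht
  have h1 := r1_key hp f (fun x y => C.w x * ((Matrix.of C.P) ^ t) x y)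
  have h2 := (r1_key hp f (fun x y => C.w x * C.P x y)).mul_left (K ^ p * t)
  exact hasSum_le (fun n => h S C (fun x => f x n) t ht) h1 h2

end P125F
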