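import Vale.Agent.P125F.Defs

/-! # [REN R1] Markov type passes to the `l_p` sum -/

namespace P125F
open Finset P125S

theorem mt_lp4 {X : Type} [NormedAddCommGroup X] [NormedSpace ℝ X] {p K : ℝ} (hp : 1 ≤ p)
    [Fact (1 ≤ ENNReal.ofReal p)] (hX : MarkovType X p K) :
    MarkovType (lp (fun _ : ℕ => X) (ENNReal.ofReal p)) p K := by
  intro S _ _ C f t ht
  have hp0 : 0 < p := by linarith
  have htr : (ENNReal.ofReal p).toReal = p := ENNReal.toReal_ofReal hp0.le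
  have hn : ∀ v : lp (fun _ : ℕ => X) (ENNReal.ofReal p),
      HasSum (fun i => ‖v i‖ ^ p) (‖v‖ ^ p) := by
    intro v
    have := lp.hasSum_norm (p := ENNReal.ofReal p) (by rw [htr]; exact hp0) v
    rwa [htr] at this
  have h1 : HasSum (fun i => ∑ x, ∑ y, C.w x * ((Matrix.of C.P) ^ t) x y
      * ‖(f y - f x : lp (fun _ : ℕ => X) (ENNReal.ofReal p)) i‖ ^ p)
      (∑ x, ∑ y, C.w x * ((Matrix.of C.P) ^ t) x y * ‖f y - f x‖ ^ p) :=
    hasSum_sum fun x _ => hasSum_sum fun y _ => (hn (f y - f x)).mul_left _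
  have h2 : HasSum (fun i => K ^ p * t * ∑ x, ∑ y, C.w x * C.P x y
      * ‖(f y - f x : lp (fun _ : ℕ => X) (ENNReal.ofReal p)) i‖ ^ p)
      (K ^ p * t * ∑ x, ∑ y, C.w x * C.P x y * ‖f y - f x‖ ^ p) :=
    (hasSum_sum fun x _ => hasSum_sum fun y _ => (hn (f y - f x)).mul_left _).mul_left _
  refine hasSum_le (fun i => ?_) h1 h2
  exact hX S C (fun x => (f x : lp (fun _ : ℕ => X) (ENNReal.ofReal p)) i) t ht

end P125F
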