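import Mathlib

/-! # Ramsey's theorem for `r`-subsets (helper2) -/

open Filter Finset

namespace P125F

section limit

variable {C : Type*} [Finite C]

theorem exists_ulim (U : Ultrafilter ℕ) (h : ℕ → C) : ∃ c, ∀ᶠ n in (U : Filter ℕ), h n = c := by
  classical
  cases nonempty_fintype C
  by_contra hcon
  push Not at hcon
  have h1 : ∀ c, ∀ᶠ n in (U : Filter ℕ), h n ≠ c := hcon
  have h3 : ∀ᶠ n in (U : Filter ℕ), ∀ c, h n ≠ c := eventually_all.2 h1
  obtain ⟨n, hn⟩ := h3.exists
  exact hn (h n) rfl

/-- the limit colour -/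
noncomputable def ulim (U : Ultrafilter ℕ) (h : ℕ → C) : C := (exists_ulim U h).choose

theorem ulim_spec (U : Ultrafilter ℕ) (h : ℕ → C) : ∀ᶠ n in (U : Filter ℕ), h n = ulim U h :=
  (exists_ulim U h).choose_spec

/-- iterated limits: `j` more elements -/
noncomputable def itl (U : Ultrafilter ℕ) (f : Finset ℕ → C) : ℕ → Finset ℕ → C
  | 0 => f
  | j + 1 => fun s => ulim U (fun n => itl U f j (insert n s))

end limit

theorem exists_seq (P : Finset ℕ → ℕ → Prop)
    (hP : ∀ S : Finset ℕ, ∃ n, (∀ x ∈ S, x < n) ∧ P S n) :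
    ∃ g : ℕ → ℕ, StrictMono g ∧ ∀ m, P ((range m).image g) (g m) := by
  classical
  choose pick h1 h2 using hP
  let G : ℕ → Finset ℕ := fun m => Nat.rec ∅ (fun _ S => insert (pick S) S) m
  have hG0 : G 0 = ∅ := rfl
  have hGs : ∀ m, G (m + 1) = insert (pick (G m)) (G m) := fun m => rfl
  let g : ℕ → ℕ := fun m => pick (G m)
  have hGi : ∀ m, G m = (range m).image g := by
    intro m
    induction m with
    | zero => rw [hG0]; simp
    | succ m ih => rw [hGs, range_add_one, image_insert, ← ih]
  refine ⟨g, ?_, ?_⟩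
  · refine strictMono_nat_of_lt_succ fun m => ?_
    refine h1 (G (m + 1)) (g m) ?_
    rw [hGs]
    exact mem_insert_self _ _
  · intro m
    rw [← hGi]
    exact h2 (G m)

/-- Infinite Ramsey theorem. -/
theorem ramsey_inf {C : Type*} [Finite C] (r : ℕ) (f : Finset ℕ → C) :
    ∃ g : ℕ → ℕ, StrictMono g ∧ ∃ c, ∀ s : Finset ℕ, s.card = r → f (s.image g) = c := by
  classical
  let U : Ultrafilter ℕ := hyperfilter ℕ
  have hU : (U : Filter ℕ) ≤ cofinite := hyperfilter_le_cofinite
  obtain ⟨g, hg, hP⟩ := exists_seq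
    (fun S n => ∀ j < r, ∀ s ⊆ S, itl U f j (insert n s) = itl U f (j + 1) s) (by
      intro S
      have h1 : ∀ᶠ n in (U : Filter ℕ), ∀ x ∈ S, x < n := by
        have h3 : ∀ᶠ n in atTop, ∀ x ∈ S, x < n := by
          rw [Filter.eventually_all_finset]
          intro x _
          exact eventually_gt_atTop x
        rw [← Nat.cofinite_eq_atTop] at h3
        exact hU h3
      have h2 : ∀ᶠ n in (U : Filter ℕ), ∀ j ∈ range r, ∀ s ∈ S.powerset,
          itl U f j (insert n s) = itl U f (j + 1) s := by
        rw [Filter.eventually_all_finset]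
        intro j _
        rw [Filter.eventually_all_finset]
        intro s _
        exact ulim_spec U (fun n => itl U f j (insert n s))
      obtain ⟨n, hn1, hn2⟩ := (h1.and h2).exists
      exact ⟨n, hn1, fun j hj s hs => hn2 j (mem_range.2 hj) s (mem_powerset.2 hs)⟩)
  refine ⟨g, hg, itl U f r ∅, ?_⟩
  have key : ∀ k : ℕ, ∀ s : Finset ℕ, s.card = k → ∀ j, j + k ≤ r →
      itl U f j (s.image g) = itl U f (j + k) ∅ := by
    intro k
    induction k with
    | zero =>
      intro s hs j _
      rw [card_eq_zero] at hs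
      subst hs
      simp
    | succ k ih =>
      intro s hs j hj
      have hne : s.Nonempty := by
        rw [← card_pos]
        omega
      obtain ⟨m, hm, hmax⟩ : ∃ m ∈ s, ∀ x ∈ s, x ≤ m := ⟨s.max' hne, s.max'_mem hne,
        fun x hx => s.le_max' x hx⟩
      have hcard : (s.erase m).card = k := by
        rw [card_erase_of_mem hm, hs]
        rfl
      have hsub : (s.erase m).image g ⊆ (range m).image g := by
        refine image_subset_image ?_
        intro x hx
        rw [mem_erase] at hx
        exact mem_range.2 (lt_of_le_of_ne (hmax x hx.2) hx.1)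
      have h1 := hP m j (by omega) _ hsub
      have h2 : s.image g = insert (g m) ((s.erase m).image g) := by
        rw [← image_insert, insert_erase hm]
      rw [h2, h1, ih _ hcard (j + 1) (by omega)]
      congr 1
      omega
  intro s hs
  have := key r s hs 0 (by omega)
  rw [Nat.zero_add] at this
  exact this

/-- Finite Ramsey theorem, `Finset` form. -/
theorem ramsey_fin {C : Type*} [Finite C] (r K : ℕ) :
    ∃ N : ℕ, ∀ f : Finset ℕ → C, ∃ H : Finset ℕ, H ⊆ range N ∧ H.card = K ∧
      ∃ c, ∀ s ⊆ H, s.card = r → f s = c := by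
  classical
  by_contra hcon
  push Not at hcon
  choose f hf using hcon
  let U : Ultrafilter ℕ := hyperfilter ℕ
  have hU : (U : Filter ℕ) ≤ cofinite := hyperfilter_le_cofinite
  obtain ⟨g, hg, c, hc⟩ := ramsey_inf r (fun s => ulim U (fun N => f N s))
  let H : Finset ℕ := (range K).image g
  have hH : H.card = K := by
    rw [card_image_of_injective _ hg.injective, card_range]
  have h1 : ∀ᶠ N in (U : Filter ℕ), ∀ x ∈ H, x < N := by
    have h3 : ∀ᶠ N in atTop, ∀ x ∈ H, x < N := by
      rw [Filter.eventually_all_finset]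
      intro x _
      exact eventually_gt_atTop x
    rw [← Nat.cofinite_eq_atTop] at h3
    exact hU h3
  have h2 : ∀ᶠ N in (U : Filter ℕ), ∀ s ∈ H.powerset, f N s = ulim U (fun N => f N s) := by
    rw [Filter.eventually_all_finset]
    intro s _
    exact ulim_spec U (fun N => f N s)
  obtain ⟨N, hN1, hN2⟩ := (h1.and h2).exists
  obtain ⟨s, hs, hsr, hne⟩ := hf N H (fun x hx => mem_range.2 (hN1 x hx)) hH c
  apply hne
  rw [hN2 s (mem_powerset.2 hs)]
  -- s = image g t
  obtain ⟨t, ht, hts⟩ : ∃ t ⊆ range K, t.image g = s := subset_image_iff.1 hs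
  have htc : t.card = r := by
    rw [← hsr, ← hts, card_image_of_injective _ hg.injective]
  have := hc t htc
  rw [hts] at this
  exact this

/-- Finite Ramsey theorem for increasing maps. -/
theorem ramsey_map {C : Type*} [Finite C] (r K : ℕ) :
    ∃ N : ℕ, ∀ f : (Fin r → ℕ) → C, ∃ g : Fin K → ℕ, StrictMono g ∧ (∀ k, g k < N) ∧
      ∃ c, ∀ α : Fin r → Fin K, StrictMono α → f (fun i => g (α i)) = c := by
  classical
  obtain ⟨N, hN⟩ := ramsey_fin (C := C) r K
  refine ⟨N, fun f => ?_⟩
  obtain ⟨H, hH1, hH2, c, hc⟩ := hN (fun s => if h : s.card = r then f (s.orderEmbOfFin h) else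
    f (fun _ => 0))
  refine ⟨H.orderEmbOfFin hH2, (H.orderEmbOfFin hH2).strictMono, fun k =>
    mem_range.1 (hH1 (H.orderEmbOfFin_mem hH2 k)), c, fun α hα => ?_⟩
  let a : Fin r → ℕ := fun i => H.orderEmbOfFin hH2 (α i)
  have ha : StrictMono a := (H.orderEmbOfFin hH2).strictMono.comp hα
  let s : Finset ℕ := univ.image a
  have hs : s.card = r := by
    rw [card_image_of_injective _ ha.injective, card_univ, Fintype.card_fin]
  have hsub : s ⊆ H := by
    intro x hx
    obtain ⟨i, _, rfl⟩ := mem_image.1 hx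
    exact H.orderEmbOfFin_mem hH2 _
  have h1 := hc s hsub hs
  simp only [dif_pos hs] at h1
  have h2 : a = s.orderEmbOfFin hs := by
    refine orderEmbOfFin_unique hs (fun i => mem_image.2 ⟨i, mem_univ _, rfl⟩) ha
  rw [← h1]
  congr 1

end P125F
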