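import Vale.Agent.P125F.Tree7

/-! Sampled positions along a dyadic tree -/

namespace P125F
open Finset

variable {X : Type} [NormedAddCommGroup X] [NormedSpace ℝ X]

theorem pr_anti (ε : ℝ) : ∀ (τ : Tree X) (N : ℕ), pr ε (N + 1) τ ≤ pr ε N τ
  | τ, 0 => by rw [pr_zero]; exact (pr_bd ε τ _).2
  | Tree.leaf, N + 1 => by rw [pr_leaf, pr_leaf]
  | Tree.node y l r, N + 1 => by
    by_cases h : ε ≤ ‖y‖
    · rw [pr_node_jump ε _ y l r h, pr_node_jump ε _ y l r h]
      have h1 := pr_anti ε l N
      have h2 := pr_anti ε r N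
      linarith
    · rw [pr_node_no ε _ y l r h, pr_node_no ε _ y l r h]
      have h1 := pr_anti ε l (N + 1)
      have h2 := pr_anti ε r (N + 1)
      linarith

theorem pr_anti_le (ε : ℝ) (τ : Tree X) {M N : ℕ} (h : M ≤ N) : pr ε N τ ≤ pr ε M τ :=
  antitone_nat_of_succ_le (f := fun n => pr ε n τ) (fun n => pr_anti ε τ n) h

theorem samp_jensen {ι : Type} [Fintype ι] (wt : ι → ℝ) (hw : ∀ k, 0 ≤ wt k)
    (h1 : ∑ k, wt k = 1) (A : ι → X) (a z : X) (hA : ∑ k, wt k • A k = a) :
    ‖z + a‖ ≤ ∑ k, wt k * ‖z + A k‖ := by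
  have h2 : z + a = ∑ k, wt k • (z + A k) := by
    simp_rw [smul_add]
    rw [sum_add_distrib, ← sum_smul, h1, one_smul, hA]
  rw [h2]
  refine (norm_sum_le _ _).trans (le_of_eq ?_)
  apply sum_congr rfl
  intro k _
  rw [norm_smul, Real.norm_of_nonneg (hw k)]

theorem samp_two (V : ℝ) (x y z : X) :
    |V| * ‖y‖ ≤ (‖z + V • (x + y)‖ + ‖z + V • (x - y)‖) / 2 := by
  have h1 : (2 * V) • y = (z + V • (x + y)) - (z + V • (x - y)) := by
    rw [smul_add, smul_sub, mul_smul, two_smul]
    abel
  have h2 := norm_sub_le (z + V • (x + y)) (z + V • (x - y))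
  rw [← h1, norm_smul, Real.norm_eq_abs, abs_mul, abs_two] at h2
  linarith

theorem samp_c4 {ι : Type} [Fintype ι] (w : ι → ℝ) (hw : ∑ k, w k = 1) (A : ι → X) (a b : ℝ)
    (q : X) (hA : ∑ k, w k • A k = a • q) : ∑ k, w k • (A k + b • q) = (a + b) • q := by
  simp_rw [smul_add]
  rw [sum_add_distrib, hA, ← sum_smul, hw, one_smul, add_smul]

/-- prepend a value -/
def cn (a : X) (s : ℕ → X) : ℕ → X
  | 0 => a
  | j + 1 => s j

theorem cn_sum (a : X) (s : ℕ → X) (v : ℕ → ℝ) (M : ℕ) :
    ∑ j ∈ range (M + 1), v j • cn a s j = ∑ j ∈ range M, v (j + 1) • s j + v 0 • a := by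
  rw [sum_range_succ']
  rfl

/-- sampled positions along a tree -/
theorem tree_samples (ε : ℝ) (hε : 0 < ε) : ∀ (τ : Tree X) (x : X), InB τ x →
    ∃ (ι : Type) (_ : Fintype ι) (wt : ι → ℝ) (s : ι → ℕ → X),
      (∀ k, 0 ≤ wt k) ∧ ∑ k, wt k = 1 ∧ (∀ k j, ‖s k j‖ ≤ 1) ∧
      (∀ (N : ℕ) (v : ℕ → ℝ), ∑ k, wt k • ∑ j ∈ range N, v j • s k j
        = (∑ j ∈ range N, v j) • x) ∧
      (∀ (N : ℕ) (v : ℕ → ℝ) (i : ℕ) (z : X), i < N →
        ε * pr ε (i + 1) τ * |∑ j ∈ Ico i N, v j|
          ≤ ∑ k, wt k * ‖z + ∑ j ∈ range N, v j • s k j‖)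
  | Tree.leaf, x, h => by
    refine ⟨Unit, inferInstance, fun _ => 1, fun _ _ => x, fun _ => zero_le_one, by simp,
      fun _ _ => h, ?_, ?_⟩
    · intro N v
      simp [sum_smul]
    · intro N v i z _
      rw [pr_leaf]
      simp
  | Tree.node y l r, x, h => by
    obtain ⟨ι₁, _, w₁, s₁, a1, a2, a3, a4, a5⟩ := tree_samples ε hε l (x + y) h.1
    obtain ⟨ι₂, _, w₂, s₂, b1, b2, b3, b4, b5⟩ := tree_samples ε hε r (x - y) h.2
    have hx1 := inB_norm l _ h.1
    have hx2 := inB_norm r _ h.2
    have hmid : ∀ V : ℝ, (1 / 2 : ℝ) • (V • (x + y)) + (1 / 2 : ℝ) • (V • (x - y)) = V • x := by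
      intro V
      rw [← smul_add, ← smul_add, add_add_sub_cancel, ← two_smul ℝ x, smul_smul, smul_smul]
      congr 1
      ring
    by_cases hy : ε ≤ ‖y‖
    · -- a jump
      have c4 : ∀ (M : ℕ) (v : ℕ → ℝ), ∑ k, w₁ k • (∑ j ∈ range M, v (j + 1) • s₁ k j
          + v 0 • (x + y)) = (∑ j ∈ range (M + 1), v j) • (x + y) := by
        intro M v
        rw [sum_range_succ' v M]
        exact samp_c4 w₁ a2 _ _ (v 0) (x + y) (a4 M (fun j => v (j + 1)))
      have d4 : ∀ (M : ℕ) (v : ℕ → ℝ), ∑ k, w₂ k • (∑ j ∈ range M, v (j + 1) • s₂ k j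
          + v 0 • (x - y)) = (∑ j ∈ range (M + 1), v j) • (x - y) := by
        intro M v
        rw [sum_range_succ' v M]
        exact samp_c4 w₂ b2 _ _ (v 0) (x - y) (b4 M (fun j => v (j + 1)))
      refine ⟨ι₁ ⊕ ι₂, inferInstance, Sum.elim (fun k => w₁ k / 2) (fun k => w₂ k / 2),
        Sum.elim (fun k => cn (x + y) (s₁ k)) (fun k => cn (x - y) (s₂ k)), ?_, ?_, ?_, ?_, ?_⟩
      · rintro (k | k)
        · exact div_nonneg (a1 k) zero_le_two
        · exact div_nonneg (b1 k) zero_le_two
      · rw [Fintype.sum_sum_type]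
        simp only [Sum.elim_inl, Sum.elim_inr]
        rw [← sum_div, ← sum_div, a2, b2]
        norm_num
      · rintro (k | k) (_ | j)
        · exact hx1
        · exact a3 k j
        · exact hx2
        · exact b3 k j
      · intro N v
        rcases N with _ | M
        · simp
        · rw [Fintype.sum_sum_type]
          simp only [Sum.elim_inl, Sum.elim_inr, cn_sum]
          have e1 : ∀ k, (w₁ k / 2) • (∑ j ∈ range M, v (j + 1) • s₁ k j + v 0 • (x + y))
              = (1 / 2 : ℝ) • (w₁ k • (∑ j ∈ range M, v (j + 1) • s₁ k j + v 0 • (x + y))) := by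
            intro k
            rw [smul_smul]
            congr 1
            ring
          have e2 : ∀ k, (w₂ k / 2) • (∑ j ∈ range M, v (j + 1) • s₂ k j + v 0 • (x - y))
              = (1 / 2 : ℝ) • (w₂ k • (∑ j ∈ range M, v (j + 1) • s₂ k j + v 0 • (x - y))) := by
            intro k
            rw [smul_smul]
            congr 1
            ring
          rw [sum_congr rfl (fun k _ => e1 k), sum_congr rfl (fun k _ => e2 k), ← smul_sum,
            ← smul_sum, c4, d4, hmid]
      · intro N v i z hi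
        rcases N with _ | M
        · omega
        · rw [Fintype.sum_sum_type]
          simp only [Sum.elim_inl, Sum.elim_inr, cn_sum]
          have e1 : ∑ k, w₁ k / 2 * ‖z + (∑ j ∈ range M, v (j + 1) • s₁ k j + v 0 • (x + y))‖
              = (∑ k, w₁ k * ‖z + (∑ j ∈ range M, v (j + 1) • s₁ k j + v 0 • (x + y))‖) / 2 := by
            rw [sum_div]
            exact sum_congr rfl (fun k _ => by ring)
          have e2 : ∑ k, w₂ k / 2 * ‖z + (∑ j ∈ range M, v (j + 1) • s₂ k j + v 0 • (x - y))‖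
              = (∑ k, w₂ k * ‖z + (∑ j ∈ range M, v (j + 1) • s₂ k j + v 0 • (x - y))‖) / 2 := by
            rw [sum_div]
            exact sum_congr rfl (fun k _ => by ring)
          rw [e1, e2]
          rcases i with _ | i
          · have f1 := samp_jensen w₁ a1 a2 _ _ z (c4 M v)
            have f2 := samp_jensen w₂ b1 b2 _ _ z (d4 M v)
            have f3 := samp_two (∑ j ∈ range (M + 1), v j) x y z
            rw [pr_node_jump ε _ y l r hy, pr_zero, pr_zero, ← range_eq_Ico]
            have f4 : ε * ((1 + 1) / 2) * |∑ j ∈ range (M + 1), v j|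
                ≤ |∑ j ∈ range (M + 1), v j| * ‖y‖ := by
              have := abs_nonneg (∑ j ∈ range (M + 1), v j)
              nlinarith
            linarith
          · have g1 := a5 M (fun j => v (j + 1)) i (z + v 0 • (x + y)) (by omega)
            have g2 := b5 M (fun j => v (j + 1)) i (z + v 0 • (x - y)) (by omega)
            have g3 : ∑ j ∈ Ico i M, v (j + 1) = ∑ j ∈ Ico (i + 1) (M + 1), v j :=
              sum_Ico_add' v i M 1
            rw [g3] at g1 g2
            have g4 : ∀ k, z + v 0 • (x + y) + ∑ j ∈ range M, v (j + 1) • s₁ k j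
                = z + (∑ j ∈ range M, v (j + 1) • s₁ k j + v 0 • (x + y)) := fun k => by abel
            have g5 : ∀ k, z + v 0 • (x - y) + ∑ j ∈ range M, v (j + 1) • s₂ k j
                = z + (∑ j ∈ range M, v (j + 1) • s₂ k j + v 0 • (x - y)) := fun k => by abel
            simp only [g4] at g1
            simp only [g5] at g2
            rw [pr_node_jump ε _ y l r hy]
            linarith
    · -- no jump
      refine ⟨ι₁ ⊕ ι₂, inferInstance, Sum.elim (fun k => w₁ k / 2) (fun k => w₂ k / 2),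
        Sum.elim s₁ s₂, ?_, ?_, ?_, ?_, ?_⟩
      · rintro (k | k)
        · exact div_nonneg (a1 k) zero_le_two
        · exact div_nonneg (b1 k) zero_le_two
      · rw [Fintype.sum_sum_type]
        simp only [Sum.elim_inl, Sum.elim_inr]
        rw [← sum_div, ← sum_div, a2, b2]
        norm_num
      · rintro (k | k) j
        · exact a3 k j
        · exact b3 k j
      · intro N v
        rw [Fintype.sum_sum_type]
        simp only [Sum.elim_inl, Sum.elim_inr]
        have e1 : ∀ k, (w₁ k / 2) • (∑ j ∈ range N, v j • s₁ k j)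
            = (1 / 2 : ℝ) • (w₁ k • (∑ j ∈ range N, v j • s₁ k j)) := by
          intro k
          rw [smul_smul]
          congr 1
          ring
        have e2 : ∀ k, (w₂ k / 2) • (∑ j ∈ range N, v j • s₂ k j)
            = (1 / 2 : ℝ) • (w₂ k • (∑ j ∈ range N, v j • s₂ k j)) := by
          intro k
          rw [smul_smul]
          congr 1
          ring
        rw [sum_congr rfl (fun k _ => e1 k), sum_congr rfl (fun k _ => e2 k), ← smul_sum,
          ← smul_sum, a4, b4, hmid]
      · intro N v i z hi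
        rw [Fintype.sum_sum_type]
        simp only [Sum.elim_inl, Sum.elim_inr]
        have e1 : ∑ k, w₁ k / 2 * ‖z + ∑ j ∈ range N, v j • s₁ k j‖
            = (∑ k, w₁ k * ‖z + ∑ j ∈ range N, v j • s₁ k j‖) / 2 := by
          rw [sum_div]
          exact sum_congr rfl (fun k _ => by ring)
        have e2 : ∑ k, w₂ k / 2 * ‖z + ∑ j ∈ range N, v j • s₂ k j‖
            = (∑ k, w₂ k * ‖z + ∑ j ∈ range N, v j • s₂ k j‖) / 2 := by
          rw [sum_div]
          exact sum_congr rfl (fun k _ => by ring)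
        rw [e1, e2]
        have g1 := a5 N v i z hi
        have g2 := b5 N v i z hi
        rw [pr_node_no ε _ y l r hy]
        linarith

end P125F
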