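import Vale.Agent.P125F.Jl7
import Vale.Agent.P125F.Samp7
import Vale.Agent.P125F.Ren24

/-! From `no long James systems` for `ℓ_p(X)` to an equivalent uniformly convex norm on `X` -/

namespace P125F
open Finset P125S

variable {X : Type} [NormedAddCommGroup X] [NormedSpace ℝ X]

theorem ren7_james_tree {p : ℝ} (hp : 1 < p) [Fact (1 ≤ ENNReal.ofReal p)] {ε : ℝ} (hε : 0 < ε)
    (τ : Tree X) (x : X) (h : InB τ x) (N : ℕ) (hpr : 1 / 2 < pr ε N τ) :
    HasJames (lp (fun _ : ℕ => X) (ENNReal.ofReal p)) (ε / 2) N := by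
  classical
  obtain ⟨ι, _, wt, s, hw0, hw1, hs, -, htail⟩ := tree_samples ε hε τ x h
  have hP : (ENNReal.ofReal p).toReal = p := ENNReal.toReal_ofReal (by linarith)
  have hp0 : 0 < p := by linarith
  obtain ⟨e, he⟩ : ∃ e : ι ≃ Fin (Fintype.card ι), e = Fintype.equivFin ι := ⟨_, rfl⟩
  -- the embedding of `ι → X`
  obtain ⟨Φ, hΦ⟩ : ∃ Φ : (ι → X) →ₗ[ℝ] (lp (fun _ : ℕ => X) (ENNReal.ofReal p)),
      ∀ a, Φ a = ∑ k, lp.single (ENNReal.ofReal p) ((e k : Fin (Fintype.card ι)) : ℕ)
        ((wt k) ^ (1 / p) • a k) := by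
    refine ⟨{ toFun := fun a => ∑ k, lp.single (ENNReal.ofReal p)
                ((e k : Fin (Fintype.card ι)) : ℕ) ((wt k) ^ (1 / p) • a k)
              map_add' := ?_
              map_smul' := ?_ }, fun a => rfl⟩
    · intro a b
      rw [← sum_add_distrib]
      apply sum_congr rfl
      intro k _
      rw [Pi.add_apply, smul_add, lp.single_add]
    · intro c a
      rw [RingHom.id_apply, smul_sum]
      apply sum_congr rfl
      intro k _
      rw [Pi.smul_apply, smul_comm, lp.single_smul]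
  have hnorm : ∀ a : ι → X, ‖Φ a‖ ^ p = ∑ k, wt k * ‖a k‖ ^ p := by
    intro a
    obtain ⟨f, hf⟩ : ∃ f : ℕ → X, ∀ k : ι, f ((e k : Fin (Fintype.card ι)) : ℕ)
        = (wt k) ^ (1 / p) • a k := by
      refine ⟨fun n => if hn : n < Fintype.card ι then
        (wt (e.symm ⟨n, hn⟩)) ^ (1 / p) • a (e.symm ⟨n, hn⟩) else 0, fun k => ?_⟩
      simp
    have h1 : Φ a = ∑ n ∈ univ.image (fun k : ι => ((e k : Fin (Fintype.card ι)) : ℕ)),
        lp.single (ENNReal.ofReal p) n (f n) := by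
      rw [hΦ, sum_image (fun k _ k' _ hkk => e.injective (Fin.ext hkk))]
      apply sum_congr rfl
      intro k _
      rw [hf]
    have h2 := lp.norm_sum_single (E := fun _ : ℕ => X) (p := ENNReal.ofReal p)
      (by rw [hP]; exact hp0) f
      (univ.image (fun k : ι => ((e k : Fin (Fintype.card ι)) : ℕ)))
    rw [← h1, hP, sum_image (fun k _ k' _ hkk => e.injective (Fin.ext hkk))] at h2
    rw [h2]
    apply sum_congr rfl
    intro k _
    rw [hf, norm_smul, Real.norm_of_nonneg (Real.rpow_nonneg (hw0 k) _),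
      Real.mul_rpow (Real.rpow_nonneg (hw0 k) _) (norm_nonneg _), ← Real.rpow_mul (hw0 k),
      one_div_mul_cancel hp0.ne', Real.rpow_one]
  apply jl7_james_of_low (ε / 2) (by positivity) N (fun j => Φ (fun k => s k j))
  · intro j
    have h1 : ‖Φ (fun k => s k j)‖ ^ p ≤ 1 := by
      rw [hnorm]
      calc ∑ k, wt k * ‖s k j‖ ^ p ≤ ∑ k, wt k := by
            apply sum_le_sum
            intro k _
            have h2 : ‖s k (j : ℕ)‖ ^ p ≤ 1 :=
              Real.rpow_le_one (norm_nonneg _) (hs k j) hp0.le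
            have := mul_le_mul_of_nonneg_left h2 (hw0 k)
            rwa [mul_one] at this
        _ = 1 := hw1
    by_contra hc
    push Not at hc
    have := Real.one_lt_rpow hc hp0
    linarith
  · intro v i
    obtain ⟨v', hv'⟩ : ∃ v' : ℕ → ℝ, ∀ j : Fin N, v' j = v j :=
      ⟨fun n => if hn : n < N then v ⟨n, hn⟩ else 0, fun j => by simp⟩
    have h1 : ∑ j, v j • Φ (fun k => s k j) = Φ (fun k => ∑ j ∈ range N, v' j • s k j) := by
      have h2 : (fun k => ∑ j ∈ range N, v' j • s k j) = ∑ j : Fin N, v j • (fun k => s k j) := by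
        funext k
        rw [Finset.sum_apply, sum_range]
        apply sum_congr rfl
        intro j _
        rw [hv']
        rfl
      rw [h2, map_sum]
      apply sum_congr rfl
      intro j _
      rw [map_smul]
    rw [h1]
    have h3 := htail N v' i 0 i.2
    have h4 : ∑ j ∈ Ico (i : ℕ) N, v' j = ∑ j : Fin N, (if i ≤ j then v j else 0) := by
      have g1 : ∑ j : Fin N, (if i ≤ j then v j else 0)
          = ∑ n ∈ range N, if (i : ℕ) ≤ n then v' n else 0 := by
        rw [sum_range]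
        apply sum_congr rfl
        intro j _
        rw [hv']
        by_cases hij : i ≤ j
        · rw [if_pos hij, if_pos (Fin.le_def.1 hij)]
        · rw [if_neg hij, if_neg (fun h' => hij (Fin.le_def.2 h'))]
      rw [g1, ← sum_filter]
      congr 1
      ext n
      rw [mem_Ico, mem_filter, mem_range, and_comm]
    rw [h4] at h3
    simp only [zero_add] at h3
    have h5 : 1 / 2 < pr ε ((i : ℕ) + 1) τ := hpr.trans_le (pr_anti_le ε τ i.2)
    have h6 : ε / 2 * |∑ j : Fin N, (if i ≤ j then v j else 0)|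
        ≤ ε * pr ε ((i : ℕ) + 1) τ * |∑ j : Fin N, (if i ≤ j then v j else 0)| := by
      apply mul_le_mul_of_nonneg_right _ (abs_nonneg _)
      nlinarith
    have h7 : ∑ k, wt k * ‖∑ j ∈ range N, v' j • s k j‖
        ≤ (∑ k, wt k * ‖∑ j ∈ range N, v' j • s k j‖ ^ p) ^ (1 / p) :=
      Real.arith_mean_le_rpow_mean univ wt (fun k => ‖∑ j ∈ range N, v' j • s k j‖)
        (fun k _ => hw0 k) hw1 (fun k _ => norm_nonneg _) hp.le
    rw [← hnorm, ← Real.rpow_mul (norm_nonneg _), mul_one_div_cancel hp0.ne', Real.rpow_one] at h7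
    linarith

/-- from the main theorem to an equivalent uniformly convex norm -/
theorem ren7 {p K : ℝ} (hp : 1 < p) (hX : MarkovType X p K)
    (hmain : ∀ (Y : Type) [NormedAddCommGroup Y] [NormedSpace ℝ Y], MarkovType Y p K →
      ∀ θ : ℝ, 0 < θ → ¬ ∀ N, HasJames Y θ N) :
    ∃ nm : Seminorm ℝ X, (∀ x, ‖x‖ ≤ nm x ∧ nm x ≤ 5 * ‖x‖) ∧
      ∀ ε > 0, ∃ δ > 0, ∀ x y, nm x ≤ 1 → nm y ≤ 1 → ε ≤ nm (x - y) →
        nm ((1 / 2 : ℝ) • (x + y)) ≤ 1 - δ := by
  have : Fact (1 ≤ ENNReal.ofReal p) := ⟨by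
    rw [← ENNReal.ofReal_one]
    exact ENNReal.ofReal_le_ofReal hp.le⟩
  obtain ⟨U, g, h1, h2, h3, h4, h5, h6, h7⟩ := exists_U (X := X) (by
    intro ε hε
    have hno := hmain (lp (fun _ : ℕ => X) (ENNReal.ofReal p)) (jl7_mt_lp hp hX) (ε / 2)
      (by positivity)
    push Not at hno
    obtain ⟨N, hN⟩ := hno
    refine ⟨N, fun τ x hx => ?_⟩
    by_contra hc
    push Not at hc
    exact hN (ren7_james_tree hp hε τ x hx N hc))
  exact renorm24 U g (fun x _ => h1 x) (fun x _ => h2 x) h3 h4 h5 (fun t _ => h6 t) h7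

end P125F
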