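import Vale.Agent.P125F.Defs

/-! # P125F: SEP, the separation argument -/

namespace P125F
open Finset

theorem sep_A {K r m : ℕ} {ε : ℝ} (hε : 0 < ε)
    (h : ∀ g : (Fin r ↪o Fin K) → (Fin r ↪o Fin K) → (Fin r ↪o Fin m) → ℝ,
      (∀ α β u, |g α β u| ≤ 1) →
      ∃ Φ : Fin K ↪o Fin m, ∑ α, ∑ β, (g α β (α.trans Φ) - g α β (β.trans Φ)) < ε) :
    ∃ μ : (Fin K ↪o Fin m) → ℝ, (∀ Φ, 0 ≤ μ Φ) ∧ ∑ Φ, μ Φ = 1 ∧
      ∀ α β : Fin r ↪o Fin K, ∑ u : Fin r ↪o Fin m,
        |(∑ Φ, if α.trans Φ = u then μ Φ else 0) - (∑ Φ, if β.trans Φ = u then μ Φ else 0)| ≤ ε := by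
  let v : (Fin K ↪o Fin m) → ((Fin r ↪o Fin K) × (Fin r ↪o Fin K) × (Fin r ↪o Fin m)) → ℝ :=
    fun Φ i => (if i.1.trans Φ = i.2.2 then (1 : ℝ) else 0) - (if i.2.1.trans Φ = i.2.2 then 1 else 0)
  let T : ((Fin K ↪o Fin m) → ℝ) →ₗ[ℝ]
      (((Fin r ↪o Fin K) × (Fin r ↪o Fin K) × (Fin r ↪o Fin m)) → ℝ) :=
    { toFun := fun μ i => ∑ Φ, μ Φ * v Φ i
      map_add' := by
        intro a b
        ext i
        simp only [Pi.add_apply, add_mul, sum_add_distrib]
      map_smul' := by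
        intro c a
        ext i
        simp only [Pi.smul_apply, smul_eq_mul, RingHom.id_apply, mul_sum, mul_assoc] }
  have hTv : ∀ μ α β u, T μ (α, β, u)
      = (∑ Φ, if α.trans Φ = u then μ Φ else 0) - (∑ Φ, if β.trans Φ = u then μ Φ else 0) := by
    intro μ α β u
    show ∑ Φ, μ Φ * v Φ (α, β, u) = _
    rw [← sum_sub_distrib]
    refine sum_congr rfl fun Φ _ => ?_
    simp only [v]
    split_ifs <;> simp
  by_contra hcon
  push Not at hcon
  let C : Set (((Fin r ↪o Fin K) × (Fin r ↪o Fin K) × (Fin r ↪o Fin m)) → ℝ) :=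
    T '' stdSimplex ℝ (Fin K ↪o Fin m)
  let B : Set (((Fin r ↪o Fin K) × (Fin r ↪o Fin K) × (Fin r ↪o Fin m)) → ℝ) :=
    {x | ∑ i, |x i| ≤ ε}
  have hCc : IsCompact C := (isCompact_stdSimplex ℝ _).image T.continuous_of_finiteDimensional
  have hCv : Convex ℝ C := (convex_stdSimplex ℝ _).linear_image T
  have hBc : IsClosed B := isClosed_le (by fun_prop) continuous_const
  have hBv : Convex ℝ B := by
    intro x hx y hy a b ha hb hab
    have hx' : ∑ i, |x i| ≤ ε := hx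
    have hy' : ∑ i, |y i| ≤ ε := hy
    show ∑ i, |(a • x + b • y) i| ≤ ε
    calc ∑ i, |(a • x + b • y) i| ≤ ∑ i, (a * |x i| + b * |y i|) := by
          refine sum_le_sum fun i _ => ?_
          simp only [Pi.add_apply, Pi.smul_apply, smul_eq_mul]
          refine (abs_add_le _ _).trans ?_
          rw [abs_mul, abs_mul, abs_of_nonneg ha, abs_of_nonneg hb]
      _ = a * ∑ i, |x i| + b * ∑ i, |y i| := by rw [sum_add_distrib, mul_sum, mul_sum]
      _ ≤ a * ε + b * ε := add_le_add (mul_le_mul_of_nonneg_left hx' ha)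
          (mul_le_mul_of_nonneg_left hy' hb)
      _ = ε := by rw [← add_mul, hab, one_mul]
  have hdis : Disjoint B C := by
    rw [Set.disjoint_left]
    rintro x hx ⟨μ, hμ, rfl⟩
    obtain ⟨α, β, hab⟩ := hcon μ hμ.1 hμ.2
    have hx' : ∑ i, |T μ i| ≤ ε := hx
    have h1 : ∑ u : Fin r ↪o Fin m, |T μ (α, β, u)| ≤ ∑ i, |T μ i| := by
      rw [Fintype.sum_prod_type]
      refine le_trans ?_ (single_le_sum (f := fun a => ∑ y, |T μ (a, y)|)
        (fun a _ => sum_nonneg fun _ _ => abs_nonneg _) (mem_univ α))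
      rw [Fintype.sum_prod_type]
      exact single_le_sum (f := fun b => ∑ u, |T μ (α, b, u)|)
        (fun a _ => sum_nonneg fun _ _ => abs_nonneg _) (mem_univ β)
    have h9 : ∑ u : Fin r ↪o Fin m, |T μ (α, β, u)| = ∑ u : Fin r ↪o Fin m,
        |(∑ Φ, if α.trans Φ = u then μ Φ else 0) - (∑ Φ, if β.trans Φ = u then μ Φ else 0)| :=
      sum_congr rfl fun u _ => by rw [hTv]
    rw [h9] at h1
    linarith
  obtain ⟨f, u, w, h1, h2, h3⟩ := geometric_hahn_banach_closed_compact hBv hBc hCv hCc hdis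
  have hu : 0 < u := by
    have := h1 0 (by
      show ∑ i, |(0 : ((Fin r ↪o Fin K) × (Fin r ↪o Fin K) × (Fin r ↪o Fin m)) → ℝ) i| ≤ ε
      simp [hε.le])
    simpa using this
  set c : ((Fin r ↪o Fin K) × (Fin r ↪o Fin K) × (Fin r ↪o Fin m)) → ℝ :=
    fun i => f (Pi.single i 1) with hc
  have hf : ∀ x, f x = ∑ i, x i * c i := by
    intro x
    have e : x = ∑ i, x i • (Pi.single i (1 : ℝ) : ((Fin r ↪o Fin K) × (Fin r ↪o Fin K) × (Fin r ↪o Fin m)) → ℝ) := by
      ext j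
      simp [Finset.sum_apply, Pi.single_apply]
    conv_lhs => rw [e]
    rw [map_sum]
    simp only [map_smul, smul_eq_mul, hc]
  have hcb : ∀ i, ε * |c i| < u := by
    intro i
    rcases le_total 0 (c i) with h0 | h0
    · have := h1 (ε • Pi.single i 1) (by
        show ∑ j, |(ε • Pi.single i (1 : ℝ) : ((Fin r ↪o Fin K) × (Fin r ↪o Fin K) × (Fin r ↪o Fin m)) → ℝ) j| ≤ ε
        rw [sum_eq_single i]
        · simp [abs_of_pos hε]
        · intro j _ hj
          simp [hj]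
        · simp)
      rw [map_smul, smul_eq_mul] at this
      rw [abs_of_nonneg h0]
      exact this
    · have := h1 ((-ε) • Pi.single i 1) (by
        show ∑ j, |((-ε) • Pi.single i (1 : ℝ) : ((Fin r ↪o Fin K) × (Fin r ↪o Fin K) × (Fin r ↪o Fin m)) → ℝ) j| ≤ ε
        rw [sum_eq_single i]
        · simp [abs_of_pos hε]
        · intro j _ hj
          simp [hj]
        · simp)
      rw [map_smul, smul_eq_mul] at this
      rw [abs_of_nonpos h0]
      linarith
  obtain ⟨Φ, hΦ⟩ := h (fun α β t => ε / u * c (α, β, t)) (by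
    intro α β t
    rw [abs_mul, abs_of_pos (div_pos hε hu), div_mul_eq_mul_div, div_le_one hu]
    exact (hcb _).le)
  have h4 : w < f (T (Pi.single Φ 1)) := h3 _ ⟨Pi.single Φ 1, single_mem_stdSimplex ℝ Φ, rfl⟩
  have h5 : T (Pi.single Φ 1) = v Φ := by
    ext i
    show ∑ Ψ, (Pi.single Φ (1 : ℝ) : (Fin K ↪o Fin m) → ℝ) Ψ * v Ψ i = v Φ i
    rw [sum_eq_single Φ]
    · simp
    · intro j _ hj
      simp [hj]
    · simp
  have h6 : ∑ α, ∑ β, (ε / u * c (α, β, α.trans Φ) - ε / u * c (α, β, β.trans Φ))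
      = ε / u * f (v Φ) := by
    rw [hf, Fintype.sum_prod_type, mul_sum]
    refine sum_congr rfl fun α _ => ?_
    rw [Fintype.sum_prod_type, mul_sum]
    refine sum_congr rfl fun β _ => ?_
    simp only [v, sub_mul, ite_mul, one_mul, zero_mul, sum_sub_distrib, sum_ite_eq, mem_univ,
      if_true, mul_sub]
  rw [h6] at hΦ
  rw [h5] at h4
  have h7 : ε / u * u < ε / u * f (v Φ) := mul_lt_mul_of_pos_left (h2.trans h4) (div_pos hε hu)
  rw [div_mul_cancel₀ _ hu.ne'] at h7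
  linarith

end P125F
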