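import Vale.Agent.P125F.Defs
import Vale.Agent.P125F.GV_helper4

/-! # Skeleton: every piece gets its own file with the SAME statement -/

namespace P125F
open Finset P125S

/-! ## A: seminorms -/

/-- [A1] iterated ultrafilter limit: `S [a_1..a_r] = lim_{j_1} .. lim_{j_r} lim_N ‖∑ a_l x^N_{j_l}‖`. -/
theorem spread {X : Type} [NormedAddCommGroup X] [NormedSpace ℝ X] {θ : ℝ} (hθ : 0 < θ)
    (hJ : ∀ N, HasJames X θ N) :
    ∃ S : List ℝ → ℝ, Spr S θ ∧ ∀ (m : ℕ) (A : Finset (Fin m → ℝ)) (δ : ℝ), 0 < δ →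
      ∃ y : Fin m → X, ∀ a ∈ A, |‖∑ j, a j • y j‖ - S (List.ofFn a)| ≤ δ := by
  sorry

/-- [A2] `N l = inf over run lengths of S (runs)`; along multiples the value decreases; merging by
averaging over shifts. -/
theorem avg {S : List ℝ → ℝ} {θ : ℝ} (hθ : 0 < θ) (hS : Spr S θ) :
    ∃ N : List ℤ → ℝ, Sem N θ ∧ ∀ (A : Finset (List ℤ)) (δ : ℝ), 0 < δ →
      ∃ L : ℕ, 0 < L ∧ ∀ l ∈ A, |S (blow L l) - N l| ≤ δ := by
  sorry

/-- [GV] from A1 and A2 (`y_j` = average of the `j`-th block of length `L`). -/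
theorem good_vectors {X : Type} [NormedAddCommGroup X] [NormedSpace ℝ X] {θ : ℝ} (hθ : 0 < θ)
    (hJ : ∀ N, HasJames X θ N) :
    ∃ N : List ℤ → ℝ, Sem N θ ∧ ∀ (m R : ℕ) (δ : ℝ), 0 < δ →
      ∃ y : Fin m → X, ∀ a : Fin m → ℤ, (∀ j, |a j| ≤ (R : ℤ)) →
        |‖∑ j, (a j : ℝ) • y j‖ - N (List.ofFn a)| ≤ δ := by
  obtain ⟨S, hS, h1⟩ := spread hθ hJ
  obtain ⟨N, hN, h2⟩ := avg hθ hS
  exact ⟨N, hN, good_vectors_aux h1 h2⟩

/-! ## B: patterns -/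

/-- [B] merging: `N l ≥ N(-nm, n, -n, ..., n, -n, nm) ≥ max(np,nm) N(alt m) ≥ (n/2)(1/2) N(alt M)`. -/
theorem good_low {N : List ℤ → ℝ} {θ : ℝ} (hN : Sem N θ) (n m M : ℕ) (hm : 1 ≤ m)
    (hM : M ≤ 2 * m) (l : List ℤ) (hl : Good n m l) :
    (n : ℝ) / 4 * N (alt M) ≤ N l := by
  sorry

/-- [B0] an increasing tuple with alternating signs has the pattern `alt` (zeros do not matter). -/
theorem alt_pattern {N : List ℤ → ℝ} {θ : ℝ} (hN : Sem N θ) (M m : ℕ) (t : Fin (2 * M) ↪o Fin m) :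
    N (List.ofFn (fun j : Fin m => ∑ l : Fin (2 * M), if t l = j then (-1 : ℤ) ^ (l : ℕ) else 0))
      = N (alt M) := by
  sorry

/-! ## C: the chain -/

/-- [SEP] separation (minimax): if every increasing `Φ` has small tests, there is a law. -/
theorem sep {K r m : ℕ} {ε : ℝ} (hε : 0 < ε)
    (h : ∀ g : (Fin r ↪o Fin K) → (Fin r ↪o Fin K) → (Fin r ↪o Fin m) → ℝ,
      (∀ α β u, |g α β u| ≤ 1) →
      ∃ Φ : Fin K ↪o Fin m, ∑ α, ∑ β, (g α β (α.trans Φ) - g α β (β.trans Φ)) < ε) :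
    ∃ μ : (Fin K ↪o Fin m) → ℝ, (∀ Φ, 0 ≤ μ Φ) ∧ ∑ Φ, μ Φ = 1 ∧
      ∀ α β : Fin r ↪o Fin K, ∑ u : Fin r ↪o Fin m,
        |(∑ Φ, if α.trans Φ = u then μ Φ else 0) - (∑ Φ, if β.trans Φ = u then μ Φ else 0)| ≤ ε := by
  sorry

/-- [IND] near-indiscernible laws (from SEP by ultrafilter limits / Ramsey). -/
theorem ind (K r : ℕ) {ε : ℝ} (hε : 0 < ε) :
    ∃ (m : ℕ) (μ : (Fin K ↪o Fin m) → ℝ), (∀ Φ, 0 ≤ μ Φ) ∧ ∑ Φ, μ Φ = 1 ∧
      ∀ α β : Fin r ↪o Fin K, ∑ u : Fin r ↪o Fin m,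
        |(∑ Φ, if α.trans Φ = u then μ Φ else 0) - (∑ Φ, if β.trans Φ = u then μ Φ else 0)| ≤ ε := by
  sorry

/-- [LAB] Markov type for labelled reversible sub-chains: add a coordinate `v` in a big box
`{-B..B}^m`, `f (x, v) = ∑ v_j y_j`, `B → ∞`. -/
theorem lab_ineq {X : Type} [NormedAddCommGroup X] [NormedSpace ℝ X] {p K : ℝ} (hp : 0 < p)
    (hX : MarkovType X p K) {V E : Type} [Fintype V] [Fintype E] [DecidableEq V] [DecidableEq E]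
    (L : LChain V E) {m : ℕ} (g : V → V → E → Fin m → ℤ)
    (hg : ∀ x y e j, g y x (L.inv e) j = -g x y e j) (y : Fin m → X) (n : ℕ) (hn : 1 ≤ n) :
    ∑ ω : Fin (n + 1) → V, ∑ η : Fin n → E, L.pw ω η *
        ‖∑ j, ((∑ i : Fin n, g (ω i.castSucc) (ω i.succ) (η i) j : ℤ) : ℝ) • y j‖ ^ p
      ≤ K ^ p * n * ∑ x, ∑ x', ∑ e, L.J x x' e * ‖∑ j, (g x x' e j : ℝ) • y j‖ ^ p := by
  sorry

/-- the edge embedding -/
theorem lab_lt (d M : ℕ) (s : Bool) (j : Fin d) : ∃ α : Fin (2 * M) ↪o Fin ((M + 1) * (2 * d)),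
    ∀ l, ((α l : Fin ((M + 1) * (2 * d))) : ℕ) = lab d s j l := by
  sorry

/-- the edge embedding -/
noncomputable def edge (d M : ℕ) (s : Bool) (j : Fin d) : Fin (2 * M) ↪o Fin ((M + 1) * (2 * d)) :=
  (lab_lt d M s j).choose

theorem edge_val (d M : ℕ) (s : Bool) (j : Fin d) (l : Fin (2 * M)) :
    ((edge d M s j l : Fin ((M + 1) * (2 * d))) : ℕ) = lab d s j l :=
  (lab_lt d M s j).choose_spec l

/-- labels of moves: sign, old index, new index -/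
abbrev Mv (d : ℕ) : Type := Bool × Fin d × Fin d

/-- compatibility of a move -/
def Comp (d M m : ℕ) (Φ Ψ : Fin ((M + 1) * (2 * d)) ↪o Fin m) (e : Mv d) : Prop :=
  (edge d M e.1 e.2.1).trans Φ = (edge d M (!e.1) e.2.2).trans Ψ

/-- increments -/
noncomputable def inc (d M m : ℕ) (Φ Ψ : Fin ((M + 1) * (2 * d)) ↪o Fin m) (e : Mv d)
    (k : Fin m) : ℤ := by
  classical
  exact if Comp d M m Φ Ψ e then
    ∑ l : Fin (2 * M), if Φ (edge d M e.1 e.2.1 l) = k then sg e.1 l else 0 else 0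

/-- [JC] the concrete labelled chain:
`J Φ Ψ e = [Comp] μ Φ μ Ψ / (2 d² max(ν_e, ν'_e))`, deficit at most `ε`. -/
theorem jc (d M : ℕ) (hd : 1 ≤ d) {ε : ℝ} (hε : 0 < ε) :
    ∃ (m : ℕ) (L : LChain (Fin ((M + 1) * (2 * d)) ↪o Fin m) (Mv d)),
      (∀ e, L.inv e = (!e.1, e.2.2, e.2.1)) ∧
      (∀ Φ Ψ e, L.J Φ Ψ e ≠ 0 → Comp d M m Φ Ψ e) ∧
      (1 - ε ≤ ∑ Φ, ∑ Ψ, ∑ e, L.J Φ Ψ e) ∧
      (∀ Φ (j : Fin d), ∑ Ψ, ∑ e, (if e.2.1 = j then L.J Φ Ψ e else 0) ≤ L.w Φ / d) := by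
  sorry

/-- [PW] weight of non-backtracking full paths. -/
theorem pw_nb {V : Type} [Fintype V] (d : ℕ) (hd : 1 ≤ d) {ε : ℝ} (hε : 0 ≤ ε)
    (L : LChain V (Mv d)) (h1 : 1 - ε ≤ ∑ x, ∑ y, ∑ e, L.J x y e)
    (h2 : ∀ x (j : Fin d), ∑ y, ∑ e : Mv d, (if e.2.1 = j then L.J x y e else 0) ≤ L.w x / d)
    (n : ℕ) :
    1 - n * ε - n / d ≤ ∑ ω : Fin (n + 1) → V, ∑ η : Fin n → Mv d,
      (if ∀ i j : Fin n, (j : ℕ) = i + 1 → (η j).2.1 ≠ (η i).2.2 then L.pw ω η else 0) := by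
  sorry

/-- [CMB] combinatorics of non-backtracking compatible paths. -/
theorem cmb (d M m n : ℕ) (hn : 1 ≤ n) (hM : 2 * n + 3 ≤ M)
    (ω : Fin (n + 1) → (Fin ((M + 1) * (2 * d)) ↪o Fin m)) (η : Fin n → Mv d)
    (hc : ∀ i, Comp d M m (ω i.castSucc) (ω i.succ) (η i))
    (hb : ∀ i j : Fin n, (j : ℕ) = i + 1 → (η j).2.1 ≠ (η i).2.2) :
    Good n (M - 2 * n - 2) (List.ofFn (fun k : Fin m =>
      ∑ i : Fin n, inc d M m (ω i.castSucc) (ω i.succ) (η i) k)) := by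
  sorry

/-- [CH] chain inequality, from JC, PW, CMB, LAB (`d = 4 n`, `ε = 1/(4 n)`). -/
theorem chain_ineq (n M : ℕ) (hn : 1 ≤ n) (hM : 2 * n + 3 ≤ M) :
    ∃ m : ℕ, ∀ (X : Type) [NormedAddCommGroup X] [NormedSpace ℝ X] (p K : ℝ), 0 < p →
      MarkovType X p K → ∀ (y : Fin m → X) (A B : ℝ), 0 ≤ A → 0 ≤ B →
      (∀ t : Fin (2 * M) ↪o Fin m,
        ‖∑ j, ((∑ l : Fin (2 * M), if t l = j then (-1 : ℤ) ^ (l : ℕ) else 0 : ℤ) : ℝ) • y j‖ ≤ A) →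
      (∀ a : Fin m → ℤ, (∀ j, |a j| ≤ (n : ℤ)) → Good n (M - 2 * n - 2) (List.ofFn a) →
        B ≤ ‖∑ j, (a j : ℝ) • y j‖) →
      B ^ p / 2 ≤ K ^ p * n * A ^ p := by
  sorry

/-- [FIN] main theorem, from GV, B, B0, CH with `M = 8 n`, `n → ∞`. -/
theorem main {X : Type} [NormedAddCommGroup X] [NormedSpace ℝ X] {p K : ℝ} (hp : 1 < p)
    (hK : 0 < K) (hX : MarkovType X p K) {θ : ℝ} (hθ : 0 < θ) : ¬ ∀ N, HasJames X θ N := by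
  sorry

end P125F
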