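import Vale.Agent.P125F.Tree16

/-! Few jumps give the function `U` -/

namespace P125F
open Finset Filter

variable {X : Type*} [NormedAddCommGroup X] [NormedSpace ℝ X]

/-- expected cost -/
noncomputable def Tr.EG (g : ℝ → ℝ) : Tr X → ℝ
  | .leaf _ => 0
  | .node l r => g (‖l.val - r.val‖ / 2) + (l.EG g + r.EG g) / 2

/-- depth -/
def Tr.dep : Tr X → ℕ
  | .leaf _ => 0
  | .node l r => max l.dep r.dep + 1

/-- indicator cost -/
noncomputable def ind (ε : ℝ) (t : ℝ) : ℝ := open Classical in if ε ≤ t then 1 else 0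

theorem ind_nonneg (ε t : ℝ) : 0 ≤ ind ε t := by unfold ind; split_ifs <;> norm_num
theorem ind_le (ε t : ℝ) : ind ε t ≤ 1 := by unfold ind; split_ifs <;> norm_num
theorem ind_mono (ε : ℝ) : Monotone (ind ε) := by
  intro a b h
  by_cases h1 : ε ≤ a
  · have h2 : ε ≤ b := h1.trans h
    unfold ind
    rw [if_pos h1, if_pos h2]
  · have : ind ε a = 0 := by unfold ind; rw [if_neg h1]
    rw [this]
    exact ind_nonneg ε b

theorem EG_nonneg (g : ℝ → ℝ) (hg : ∀ t, 0 ≤ g t) (T : Tr X) : 0 ≤ T.EG g := by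
  induction T with
  | leaf x => simp [Tr.EG]
  | node l r hl hr =>
    unfold Tr.EG
    linarith [hg (‖l.val - r.val‖ / 2)]

theorem EG_dep (ε : ℝ) (T : Tr X) : T.EG (ind ε) ≤ T.dep := by
  induction T with
  | leaf x => simp [Tr.EG, Tr.dep]
  | node l r hl hr =>
    unfold Tr.EG Tr.dep
    push_cast
    have h1 := le_max_left (l.dep : ℝ) (r.dep : ℝ)
    have h2 := le_max_right (l.dep : ℝ) (r.dep : ℝ)
    have h3 := ind_le ε (‖l.val - r.val‖ / 2)
    linarith

theorem EG_step (ε : ℝ) (n : ℕ) (V : ℝ)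
    (hV : ∀ T : Tr X, T.inBall → T.dep ≤ n → T.EG (ind ε) ≤ V) (hV0 : 0 ≤ V) (T : Tr X) :
    T.inBall → T.dep ≤ n → ∀ k : ℕ, T.EG (ind ε) ≤ k + T.PN ε k * V := by
  induction T with
  | leaf x =>
    intro _ _ k
    have := Tr.PN_nonneg ε (Tr.leaf x) k
    have h2 : (0 : ℝ) ≤ k := Nat.cast_nonneg k
    simp only [Tr.EG]
    positivity
  | node l r hl hr =>
    intro hb hd k
    have hdl : l.dep ≤ n := by
      have := le_max_left l.dep r.dep
      simp only [Tr.dep] at hd; omega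
    have hdr : r.dep ≤ n := by
      have := le_max_right l.dep r.dep
      simp only [Tr.dep] at hd; omega
    cases k with
    | zero =>
      rw [Tr.PN_zero]
      have := hV _ hb hd
      simpa using this
    | succ k =>
      by_cases h : ε ≤ ‖l.val - r.val‖ / 2
      · have h1 := hl hb.1 hdl k
        have h2 := hr hb.2 hdr k
        have hP : (Tr.node l r).PN ε (k + 1) = (l.PN ε k + r.PN ε k) / 2 := by
          rw [Tr.PN, if_pos h]
        have hE : (Tr.node l r).EG (ind ε) = 1 + (l.EG (ind ε) + r.EG (ind ε)) / 2 := by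
          rw [Tr.EG]; simp [ind, h]
        rw [hP, hE]
        push_cast
        linarith
      · have h1 := hl hb.1 hdl (k + 1)
        have h2 := hr hb.2 hdr (k + 1)
        have hP : (Tr.node l r).PN ε (k + 1) = (l.PN ε (k + 1) + r.PN ε (k + 1)) / 2 := by
          rw [Tr.PN, if_neg h]
        have hE : (Tr.node l r).EG (ind ε) = (l.EG (ind ε) + r.EG (ind ε)) / 2 := by
          rw [Tr.EG]; simp [ind, h]
        rw [hP, hE]
        linarith

/-- expected number of jumps -/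
theorem EG_bound (ε : ℝ) (N : ℕ) (hN : ∀ T : Tr X, T.inBall → T.PN ε N ≤ 1 / 2) (T : Tr X)
    (hT : T.inBall) : T.EG (ind ε) ≤ 2 * N := by
  set n := T.dep with hn
  have key : ∀ j : ℕ, ∀ T' : Tr X, T'.inBall → T'.dep ≤ n →
      T'.EG (ind ε) ≤ 2 * N + n * (1 / 2) ^ j := by
    intro j
    induction j with
    | zero =>
      intro T' _ hd
      have h1 := EG_dep ε T'
      have h2 : (T'.dep : ℝ) ≤ n := by exact_mod_cast hd
      have h3 : (0 : ℝ) ≤ N := Nat.cast_nonneg N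
      simp only [pow_zero, mul_one]
      linarith
    | succ j ih =>
      intro T' hb hd
      have h0 : (0 : ℝ) ≤ 2 * N + n * (1 / 2) ^ j := by positivity
      have h1 := EG_step ε n _ ih h0 T' hb hd N
      have h2 := mul_le_mul_of_nonneg_right (hN T' hb) h0
      rw [pow_succ]
      linarith
  have hlim : Tendsto (fun j : ℕ => 2 * (N : ℝ) + n * (1 / 2 : ℝ) ^ j) atTop
      (nhds (2 * N + n * 0)) :=
    ((tendsto_pow_atTop_nhds_zero_of_lt_one (by norm_num) (by norm_num)).const_mul _).const_add _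
  have := ge_of_tendsto' hlim fun j => key j T hT le_rfl
  simpa using this

theorem EG_sum (m : ℕ) (c : ℕ → ℝ) (T : Tr X) :
    T.EG (fun t => ∑ k ∈ range m, c k * ind ((1 / 2) ^ k) t)
      = ∑ k ∈ range m, c k * T.EG (ind ((1 / 2) ^ k)) := by
  induction T with
  | leaf x => simp [Tr.EG]
  | node l r hl hr =>
    simp only [Tr.EG]
    rw [hl, hr, ← sum_add_distrib, sum_div, ← sum_add_distrib]
    exact sum_congr rfl fun k _ => by ring

/-- reflected tree -/
def Tr.neg : Tr X → Tr X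
  | .leaf x => .leaf (-x)
  | .node l r => .node l.neg r.neg

theorem neg_val (T : Tr X) : T.neg.val = -T.val := by
  induction T with
  | leaf x => rfl
  | node l r hl hr =>
    simp only [Tr.neg, Tr.val, hl, hr]
    module

theorem neg_ball (T : Tr X) (h : T.inBall) : T.neg.inBall := by
  induction T with
  | leaf x => simpa [Tr.neg, Tr.inBall] using h
  | node l r hl hr => exact ⟨hl h.1, hr h.2⟩

theorem neg_EG (g : ℝ → ℝ) (T : Tr X) : T.neg.EG g = T.EG g := by
  induction T with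
  | leaf x => rfl
  | node l r hl hr =>
    simp only [Tr.neg, Tr.EG, hl, hr, neg_val]
    congr 3
    rw [neg_sub_neg, norm_sub_rev]

/-- the set of costs of the martingales starting at `x` -/
def cs (g : ℝ → ℝ) (x : X) : Set ℝ := {c | ∃ T : Tr X, T.inBall ∧ T.val = x ∧ T.EG g = c}

theorem cs_neg (g : ℝ → ℝ) (x : X) : cs g (-x) = cs g x := by
  have h : ∀ y : X, cs g y ⊆ cs g (-y) := by
    rintro y c ⟨T, h1, h2, h3⟩
    exact ⟨T.neg, neg_ball T h1, by rw [neg_val, h2], by rw [neg_EG, h3]⟩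
  refine Set.Subset.antisymm ?_ (h x)
  have := h (-x)
  rwa [neg_neg] at this

/-- **T2**: few jumps give `U` and `g` -/
theorem tree_U16 (hN : ∀ ε : ℝ, 0 < ε → ∃ N : ℕ, ∀ T : Tr X, T.inBall → T.PN ε N ≤ 1 / 2) :
    ∃ (U : X → ℝ) (g : ℝ → ℝ), (∀ x, ‖x‖ ≤ 1 → 0 ≤ U x) ∧ (∀ x, ‖x‖ ≤ 1 → U x ≤ 1 / 4) ∧
      (∀ x, U (-x) = U x) ∧ (∀ t, 0 < t → 0 < g t) ∧ Monotone g ∧ (∀ t, 0 ≤ g t) ∧
      (∀ a b, ‖a‖ ≤ 1 → ‖b‖ ≤ 1 →
        (U a + U b) / 2 + g (‖a - b‖ / 2) ≤ U ((1 / 2 : ℝ) • (a + b))) := by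
  choose! M hM using hN
  set N : ℕ → ℕ := fun k => M ((1 / 2) ^ k) with hNdef
  have hNk : ∀ k, ∀ T : Tr X, T.inBall → T.PN ((1 / 2) ^ k) (N k) ≤ 1 / 2 :=
    fun k => hM _ (by positivity)
  set c : ℕ → ℝ := fun k => (1 / 2) ^ k * (1 / 16) / ((N k : ℝ) + 1) with hc
  have hc0 : ∀ k, 0 < c k := fun k => by positivity
  have hcle : ∀ k, c k ≤ (1 / 2) ^ k := by
    intro k
    simp only [hc]
    rw [div_le_iff₀ (by positivity)]
    have h1 : (0 : ℝ) < (1 / 2) ^ k := by positivity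
    have h2 : (0 : ℝ) ≤ N k := Nat.cast_nonneg _
    nlinarith
  have hcN : ∀ k, c k * (2 * N k) ≤ (1 / 2) ^ k * (1 / 8) := by
    intro k
    simp only [hc]
    rw [div_mul_eq_mul_div, div_le_iff₀ (by positivity)]
    have h1 : (0 : ℝ) < (1 / 2) ^ k := by positivity
    have h2 : (0 : ℝ) ≤ N k := Nat.cast_nonneg _
    nlinarith
  have hgeo : ∀ m : ℕ, ∑ k ∈ range m, (1 / 2 : ℝ) ^ k ≤ 2 := fun m => sum_geometric_two_le m
  have hsm : ∀ t, Summable fun k => c k * ind ((1 / 2) ^ k) t := by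
    intro t
    refine Summable.of_nonneg_of_le (fun k => mul_nonneg (hc0 k).le (ind_nonneg _ _))
      (fun k => ?_) summable_geometric_two
    exact (mul_le_of_le_one_right (hc0 k).le (ind_le _ _)).trans (hcle k)
  set g : ℝ → ℝ := fun t => ∑' k, c k * ind ((1 / 2) ^ k) t with hg
  have hlim : ∀ t, Tendsto (fun m => ∑ k ∈ range m, c k * ind ((1 / 2) ^ k) t) atTop
      (nhds (g t)) := fun t => (hsm t).hasSum.tendsto_sum_nat
  have hg1 : ∀ t, 0 ≤ g t := fun t => tsum_nonneg fun k => mul_nonneg (hc0 k).le (ind_nonneg _ _)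
  have hgm : Monotone g := by
    intro a b hab
    exact le_of_tendsto_of_tendsto' (hlim a) (hlim b) fun m => sum_le_sum fun k _ =>
      mul_le_mul_of_nonneg_left (ind_mono _ hab) (hc0 k).le
  have hg0 : ∀ t, 0 < t → 0 < g t := by
    intro t ht
    obtain ⟨k, hk⟩ := exists_pow_lt_of_lt_one ht (by norm_num : (1 / 2 : ℝ) < 1)
    have h1 : c k ≤ g t := by
      refine ge_of_tendsto (hlim t) ?_
      filter_upwards [eventually_gt_atTop k] with m hm
      have h2 : c k * ind ((1 / 2) ^ k) t ≤ ∑ k ∈ range m, c k * ind ((1 / 2) ^ k) t :=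
        single_le_sum (f := fun k => c k * ind ((1 / 2) ^ k) t)
          (fun k _ => mul_nonneg (hc0 k).le (ind_nonneg _ _)) (mem_range.2 hm)
      have h3 : ind ((1 / 2) ^ k) t = 1 := by
        unfold ind; rw [if_pos hk.le]
      rwa [h3, mul_one] at h2
    exact lt_of_lt_of_le (hc0 k) h1
  have hEG : ∀ T : Tr X, T.inBall → T.EG g ≤ 1 / 4 := by
    intro T hT
    have hl : ∀ T : Tr X, Tendsto (fun m =>
        T.EG (fun t => ∑ k ∈ range m, c k * ind ((1 / 2) ^ k) t)) atTop (nhds (T.EG g)) := by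
      intro T
      induction T with
      | leaf x => simp only [Tr.EG]; exact tendsto_const_nhds
      | node l r hl hr =>
        simp only [Tr.EG]
        exact (hlim _).add ((hl.add hr).div_const 2)
    refine le_of_tendsto' (hl T) fun m => ?_
    rw [EG_sum]
    calc ∑ k ∈ range m, c k * T.EG (ind ((1 / 2) ^ k))
        ≤ ∑ k ∈ range m, (1 / 2) ^ k * (1 / 8) := by
          refine sum_le_sum fun k _ => le_trans ?_ (hcN k)
          exact mul_le_mul_of_nonneg_left (EG_bound _ (N k) (hNk k) T hT) (hc0 k).le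
      _ = (∑ k ∈ range m, (1 / 2 : ℝ) ^ k) * (1 / 8) := by rw [sum_mul]
      _ ≤ 1 / 4 := by linarith [hgeo m]
  have hbdd : ∀ x : X, BddAbove (cs g x) := by
    intro x
    refine ⟨1 / 4, ?_⟩
    rintro _ ⟨T, h1, _, rfl⟩
    exact hEG T h1
  have hmem : ∀ x : X, ‖x‖ ≤ 1 → (0 : ℝ) ∈ cs g x := fun x hx => ⟨.leaf x, hx, rfl, rfl⟩
  refine ⟨fun x => sSup (cs g x), g, ?_, ?_, ?_, hg0, hgm, hg1, ?_⟩
  · intro x hx
    exact le_csSup (hbdd x) (hmem x hx)
  · intro x hx
    refine csSup_le ⟨0, hmem x hx⟩ ?_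
    rintro _ ⟨T, h1, _, rfl⟩
    exact hEG T h1
  · intro x
    simp only [cs_neg]
  · intro a b ha hb
    have hkey : ∀ Ta : Tr X, Ta.inBall → Ta.val = a → ∀ Tb : Tr X, Tb.inBall → Tb.val = b →
        g (‖a - b‖ / 2) + (Ta.EG g + Tb.EG g) / 2 ≤ sSup (cs g ((1 / 2 : ℝ) • (a + b))) := by
      intro Ta h1 h2 Tb h3 h4
      refine le_csSup (hbdd _) ⟨.node Ta Tb, ⟨h1, h3⟩, ?_, ?_⟩
      · simp only [Tr.val, h2, h4]
      · simp only [Tr.EG, h2, h4]
    set W := sSup (cs g ((1 / 2 : ℝ) • (a + b))) with hW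
    have h5 : ∀ Ta : Tr X, Ta.inBall → Ta.val = a →
        sSup (cs g b) ≤ 2 * W - 2 * g (‖a - b‖ / 2) - Ta.EG g := by
      intro Ta h1 h2
      refine csSup_le ⟨0, hmem b hb⟩ ?_
      rintro _ ⟨Tb, h3, h4, rfl⟩
      have := hkey Ta h1 h2 Tb h3 h4
      linarith
    have h6 : sSup (cs g a) ≤ 2 * W - 2 * g (‖a - b‖ / 2) - sSup (cs g b) := by
      refine csSup_le ⟨0, hmem a ha⟩ ?_
      rintro _ ⟨Ta, h1, h2, rfl⟩
      have := h5 Ta h1 h2
      linarith
    show (sSup (cs g a) + sSup (cs g b)) / 2 + g (‖a - b‖ / 2) ≤ W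
    linarith

end P125F
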