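import Vale.Agent.P125F.Bridge24
import Vale.Agent.P125F.Ren24
import Vale.Agent.P125F.Tree16b
import Vale.Agent.P125F.Tree16c

/-! Top assembly -/

namespace P125F

theorem xmt_abs {X : Type*} [NormedAddCommGroup X] (p K : ℝ) (hp : 0 ≤ p) (hX : XMT X p K) :
    XMT X p (|K| + 1) := by
  intro S _ _ C f t ht
  refine (hX S C f t ht).trans ?_
  have h0 : 0 ≤ ∑ x, ∑ y, C.w x * C.P x y * ‖f y - f x‖ ^ p :=
    Finset.sum_nonneg fun x _ => Finset.sum_nonneg fun y _ =>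
      mul_nonneg (mul_nonneg (C.w_nonneg x) (C.P_nonneg x y)) (Real.rpow_nonneg (norm_nonneg _) _)
  refine mul_le_mul_of_nonneg_right (mul_le_mul_of_nonneg_right ?_ (Nat.cast_nonneg t)) h0
  have h1 : K ^ p ≤ |K| ^ p := (le_abs_self _).trans (Real.abs_rpow_le_abs_rpow K p)
  exact h1.trans (Real.rpow_le_rpow (abs_nonneg K) (by linarith) hp)

theorem top16
    (main : ∀ (X : Type) [NormedAddCommGroup X] [NormedSpace ℝ X] (p K : ℝ), 1 < p → 0 < K →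
      MarkovType X p K → ∀ θ, 0 < θ → ¬ ∀ N, HasJames X θ N)
    {X : Type*} [NormedAddCommGroup X] [NormedSpace ℝ X] (p K : ℝ) (hp : 1 < p) (hK : 0 < K)
    (hX : XMT X p K) :
    ∃ nm : Seminorm ℝ X, (∀ x, ‖x‖ ≤ nm x ∧ nm x ≤ 5 * ‖x‖) ∧ ∀ ε > 0, ∃ δ > 0, ∀ x y,
      nm x ≤ 1 → nm y ≤ 1 → ε ≤ nm (x - y) → nm ((1 / 2 : ℝ) • (x + y)) ≤ 1 - δ := by
  have hN : ∀ ε : ℝ, 0 < ε → ∃ N : ℕ, ∀ T : Tr X, T.inBall → T.PN ε N ≤ 1 / 2 := by
    intro ε hε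
    obtain ⟨N, hN⟩ := bridge24 main p K (ε / 2) hp hK (by positivity)
    refine ⟨N, fun T hT => ?_⟩
    by_contra hc
    exact hN (tree_james16 p K hp.le hX ε hε N T hT (not_le.1 hc))
  obtain ⟨U, g, h1, h2, h3, h4, h5, h6, h7⟩ := tree_U16 hN
  exact renorm24 U g h1 h2 h3 h4 h5 (fun t _ => h6 t) h7

end P125F
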