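import Vale.Agent.P125F.Main26
import Vale.Agent.P125F.FinalU24

/-! # Nontrivial Markov type implies an equivalent uniformly convex norm -/

namespace P125F

theorem top24 {X : Type*} [NormedAddCommGroup X] [NormedSpace ℝ X] (p K : ℝ) (hp : 1 < p)
    (hK : 0 < K) (hX : XMT X p K) :
    ∃ nm : Seminorm ℝ X, (∀ x, ‖x‖ ≤ nm x ∧ nm x ≤ 5 * ‖x‖) ∧
      ∀ ε : ℝ, 0 < ε → ∃ δ : ℝ, 0 < δ ∧ ∀ x y : X, nm x ≤ 1 → nm y ≤ 1 → ε ≤ nm (x - y) →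
        nm ((1 / 2 : ℝ) • (x + y)) ≤ 1 - δ :=
  verb24 p K hp hK (fun _ _ _ _ _ hp hK h _ hθ => mainT hp hK h hθ) hX

end P125F
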