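import Vale.Agent.P125F.MartB6
import Vale.Agent.P125F.Tree7

/-! From trees (helper7) to histories (helper6): the James seminorm of a tree -/

namespace P125F
open Finset

variable {X : Type} [NormedAddCommGroup X] [NormedSpace ℝ X]

/-- children of a tree -/
def ch6 : Bool → Tree X → Tree X
  | _, Tree.leaf => Tree.leaf
  | true, Tree.node _ l _ => l
  | false, Tree.node _ _ r => r

/-- jump at the root -/
def dy6 : Tree X → X
  | Tree.leaf => 0
  | Tree.node y _ _ => y

/-- subtree at a history -/
def sb6 (τ : Tree X) : List Bool → Tree X
  | [] => τ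
  | b :: h => ch6 b (sb6 τ h)

theorem inB_sb6 (τ : Tree X) (x : X) (hτ : InB τ x) (h : List Bool) :
    InB (sb6 τ h) (mg x (fun h => dy6 (sb6 τ h)) h) := by
  induction h with
  | nil => exact hτ
  | cons b h ih =>
    simp only [sb6, mg]
    cases hs : sb6 τ h with
    | leaf =>
      rw [hs] at ih
      have e : (if b = true then dy6 (Tree.leaf : Tree X) else - dy6 (Tree.leaf : Tree X)) = 0 := by
        simp [dy6]
      rw [e, add_zero]
      exact ih
    | node y l r =>
      rw [hs] at ih
      cases b with
      | true =>
        simp only [if_true, dy6, ch6]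
        exact ih.1
      | false =>
        simp only [Bool.false_eq_true, if_false, dy6, ch6]
        rw [← sub_eq_add_neg]
        exact ih.2

theorem pr_le6 (e : ℝ) (he : 0 < e) (τ : Tree X) (n : ℕ) : ∀ (h : List Bool) (k : ℕ),
    dep (sb6 τ h) ≤ n →
    pr e k (sb6 τ h) ≤ Ex n h (fun l =>
      if cnt e (fun h => dy6 (sb6 τ h)) h + k ≤ cnt e (fun h => dy6 (sb6 τ h)) l then 1 else 0) := by
  induction n with
  | zero =>
    intro h k hd
    simp only [Ex]
    cases hs : sb6 τ h with
    | leaf =>
      cases k with
      | zero => simp [pr]
      | succ k =>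
        simp only [pr]
        split_ifs <;> norm_num
    | node y l r =>
      rw [hs] at hd
      simp only [dep] at hd
      omega
  | succ n ih =>
    intro h k hd
    have ht := ih (true :: h)
    have hf := ih (false :: h)
    simp only [Ex]
    simp only [sb6] at ht hf
    cases hs : sb6 τ h with
    | leaf =>
      rw [hs] at ht hf
      simp only [ch6] at ht hf
      have hc : ∀ b : Bool, cnt e (fun h => dy6 (sb6 τ h)) (b :: h) =
          cnt e (fun h => dy6 (sb6 τ h)) h := by
        intro b
        have : ¬ e ≤ ‖dy6 (Tree.leaf : Tree X)‖ := by simp [dy6]; exact he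
        simp only [cnt, hs, if_neg this, add_zero]
      have h1 := ht k (by simp [dep])
      have h2 := hf k (by simp [dep])
      rw [hc true] at h1
      rw [hc false] at h2
      linarith
    | node y l r =>
      rw [hs] at ht hf hd
      simp only [ch6] at ht hf
      simp only [dep] at hd
      have hdl : dep l ≤ n := by
        have := le_max_left (dep l) (dep r); omega
      have hdr : dep r ≤ n := by
        have := le_max_right (dep l) (dep r); omega
      by_cases hy : e ≤ ‖y‖
      · have hc : ∀ b : Bool, cnt e (fun h => dy6 (sb6 τ h)) (b :: h) =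
            cnt e (fun h => dy6 (sb6 τ h)) h + 1 := by
          intro b
          have : e ≤ ‖dy6 (Tree.node y l r)‖ := hy
          simp only [cnt, hs, if_pos this]
        cases k with
        | zero =>
          have h1 := ht 0 hdl
          have h2 := hf 0 hdr
          rw [pr_zero, hc true] at h1
          rw [pr_zero, hc false] at h2
          rw [pr_zero]
          have m1 : ∀ b : Bool, Ex n (b :: h) (fun l =>
              if cnt e (fun h => dy6 (sb6 τ h)) h + 1 + 0 ≤ cnt e (fun h => dy6 (sb6 τ h)) l
                then (1 : ℝ) else 0) ≤ Ex n (b :: h) (fun l =>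
              if cnt e (fun h => dy6 (sb6 τ h)) h + 0 ≤ cnt e (fun h => dy6 (sb6 τ h)) l
                then (1 : ℝ) else 0) := by
            intro b
            apply Ex_mono
            intro l
            by_cases hl : cnt e (fun h => dy6 (sb6 τ h)) h + 1 + 0 ≤
              cnt e (fun h => dy6 (sb6 τ h)) l
            · rw [if_pos hl, if_pos (by omega)]
            · rw [if_neg hl]; split_ifs <;> norm_num
          have g1 := m1 true
          have g2 := m1 false
          linarith
        | succ k =>
          have h1 := ht k hdl
          have h2 := hf k hdr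
          rw [hc true] at h1
          rw [hc false] at h2
          rw [pr_node_jump e k y l r hy]
          have e1 : cnt e (fun h => dy6 (sb6 τ h)) h + (k + 1) =
              cnt e (fun h => dy6 (sb6 τ h)) h + 1 + k := by ring
          rw [e1]
          linarith
      · have hc : ∀ b : Bool, cnt e (fun h => dy6 (sb6 τ h)) (b :: h) =
            cnt e (fun h => dy6 (sb6 τ h)) h := by
          intro b
          have : ¬ e ≤ ‖dy6 (Tree.node y l r)‖ := hy
          simp only [cnt, hs, if_neg this, add_zero]
        have h1 := ht k hdl
        have h2 := hf k hdr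
        rw [hc true] at h1
        rw [hc false] at h2
        have e2 : pr e k (Tree.node y l r) = (pr e k l + pr e k r) / 2 := by
          cases k with
          | zero => rw [pr_zero, pr_zero, pr_zero]; norm_num
          | succ k => exact pr_node_no e k y l r hy
        rw [e2]
        linarith

/-- a tree in the unit ball with many big jumps gives a James seminorm of Markov type -/
theorem tree_james6 {p K : ℝ} (hp : 1 ≤ p) (hMT : MTX X p K) (e : ℝ) (he : 0 < e) (m : ℕ)
    (τ : Tree X) (x : X) (hτ : InB τ x) (hprob : 1 / 2 < pr e m τ) :
    ∃ N : Seminorm ℝ (ℕ →₀ ℝ), (∀ j, N (Finsupp.single j 1) ≤ 1) ∧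
      (∀ (v : ℕ →₀ ℝ), ∀ i < m, e / 2 * |∑ j ∈ v.support.filter (i ≤ ·), v j| ≤ N v) ∧
      SemiMT N p K := by
  refine mart_james hp hMT e he x (fun h => dy6 (sb6 τ h)) (dep τ) ?_ m ?_
  · intro h _
    exact inB_norm _ _ (inB_sb6 τ x hτ h)
  · have h1 := pr_le6 e he τ (dep τ) [] m le_rfl
    simp only [sb6, cnt, zero_add] at h1
    exact lt_of_lt_of_le hprob h1

end P125F
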