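import Mathlib

/-! Dyadic trees in the unit ball, the function `U` (universe polymorphic copy of Tree7) -/

namespace P125F.TU24
open Finset

/-- dyadic martingale trees: `node y l r` has children at `x + y` and `x - y` -/
inductive Tree (X : Type*) where
  | leaf : Tree X
  | node : X → Tree X → Tree X → Tree X

variable {X : Type*} [NormedAddCommGroup X] [NormedSpace ℝ X]

/-- all leaf values lie in the unit ball -/
def InB : Tree X → X → Prop
  | Tree.leaf, x => ‖x‖ ≤ 1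
  | Tree.node y l r, x => InB l (x + y) ∧ InB r (x - y)

/-- probability of at least `N` jumps of size at least `ε` -/
noncomputable def pr (ε : ℝ) : ℕ → Tree X → ℝ
  | 0, _ => 1
  | _ + 1, Tree.leaf => 0
  | N + 1, Tree.node y l r => if ε ≤ ‖y‖ then (pr ε N l + pr ε N r) / 2
      else (pr ε (N + 1) l + pr ε (N + 1) r) / 2

/-- expected sum of `g` of the jumps -/
noncomputable def ex (g : ℝ → ℝ) : Tree X → ℝ
  | Tree.leaf => 0
  | Tree.node y l r => g ‖y‖ + (ex g l + ex g r) / 2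

/-- depth -/
def dep : Tree X → ℕ
  | Tree.leaf => 0
  | Tree.node _ l r => max (dep l) (dep r) + 1

/-- negation -/
def ngt : Tree X → Tree X
  | Tree.leaf => Tree.leaf
  | Tree.node y l r => Tree.node (-y) (ngt l) (ngt r)

theorem inB_norm : ∀ (τ : Tree X) (x : X), InB τ x → ‖x‖ ≤ 1
  | Tree.leaf, x, h => h
  | Tree.node y l r, x, h => by
    have h1 := inB_norm l _ h.1
    have h2 := inB_norm r _ h.2
    have h3 : x = (1 / 2 : ℝ) • ((x + y) + (x - y)) := by
      rw [add_add_sub_cancel, ← two_smul ℝ x, smul_smul]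
      norm_num
    rw [h3, norm_smul]
    have h4 := norm_add_le (x + y) (x - y)
    rw [Real.norm_of_nonneg (by norm_num : (0 : ℝ) ≤ 1 / 2)]
    linarith

theorem inB_neg : ∀ (τ : Tree X) (x : X), InB τ x → InB (ngt τ) (-x)
  | Tree.leaf, x, h => by
    show ‖-x‖ ≤ 1
    rw [norm_neg]
    exact h
  | Tree.node y l r, x, h => by
    have h1 := inB_neg l _ h.1
    have h2 := inB_neg r _ h.2
    refine ⟨?_, ?_⟩
    · rw [show -x + -y = -(x + y) by abel]
      exact h1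
    · rw [show -x - -y = -(x - y) by abel]
      exact h2

theorem ex_neg (g : ℝ → ℝ) : ∀ τ : Tree X, ex g (ngt τ) = ex g τ
  | Tree.leaf => rfl
  | Tree.node y l r => by
    show g ‖-y‖ + (ex g (ngt l) + ex g (ngt r)) / 2 = g ‖y‖ + (ex g l + ex g r) / 2
    rw [norm_neg, ex_neg g l, ex_neg g r]

theorem ex_nonneg (g : ℝ → ℝ) (hg : ∀ t, 0 ≤ g t) : ∀ τ : Tree X, 0 ≤ ex g τ
  | Tree.leaf => le_rfl
  | Tree.node y l r => by
    have h1 := ex_nonneg g hg l
    have h2 := ex_nonneg g hg r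
    have h3 := hg ‖y‖
    show 0 ≤ g ‖y‖ + (ex g l + ex g r) / 2
    linarith

theorem pr_node_jump (ε : ℝ) (N : ℕ) (y : X) (l r : Tree X) (h : ε ≤ ‖y‖) :
    pr ε (N + 1) (Tree.node y l r) = (pr ε N l + pr ε N r) / 2 := by
  rw [pr, if_pos h]

theorem pr_node_no (ε : ℝ) (N : ℕ) (y : X) (l r : Tree X) (h : ¬ ε ≤ ‖y‖) :
    pr ε (N + 1) (Tree.node y l r) = (pr ε (N + 1) l + pr ε (N + 1) r) / 2 := by
  rw [pr, if_neg h]

theorem pr_zero (ε : ℝ) (τ : Tree X) : pr ε 0 τ = 1 := by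
  cases τ <;> rfl

theorem pr_leaf (ε : ℝ) (N : ℕ) : pr ε (N + 1) (Tree.leaf : Tree X) = 0 := rfl

theorem pr_bd (ε : ℝ) : ∀ (τ : Tree X) (N : ℕ), 0 ≤ pr ε N τ ∧ pr ε N τ ≤ 1
  | τ, 0 => by rw [pr_zero]; norm_num
  | Tree.leaf, N + 1 => by rw [pr_leaf]; norm_num
  | Tree.node y l r, N + 1 => by
    by_cases h : ε ≤ ‖y‖
    · rw [pr_node_jump ε N y l r h]
      have h1 := pr_bd ε l N
      have h2 := pr_bd ε r N
      constructor <;> linarith [h1.1, h1.2, h2.1, h2.2]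
    · rw [pr_node_no ε N y l r h]
      have h1 := pr_bd ε l (N + 1)
      have h2 := pr_bd ε r (N + 1)
      constructor <;> linarith [h1.1, h1.2, h2.1, h2.2]

/-- restart -/
theorem pr_restart (ε : ℝ) (N : ℕ) (hN : ∀ (τ : Tree X) x, InB τ x → pr ε N τ ≤ 1 / 2) :
    ∀ (τ : Tree X) (x : X) (m : ℕ), InB τ x → pr ε (m + N) τ ≤ pr ε m τ / 2
  | τ, x, 0, h => by
    rw [pr_zero, Nat.zero_add]
    exact hN τ x h
  | Tree.leaf, x, m + 1, h => by
    rw [show m + 1 + N = (m + N) + 1 by ring, pr_leaf, pr_leaf]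
    norm_num
  | Tree.node y l r, x, m + 1, h => by
    rw [show m + 1 + N = (m + N) + 1 by ring]
    by_cases hy : ε ≤ ‖y‖
    · rw [pr_node_jump ε _ y l r hy, pr_node_jump ε _ y l r hy]
      have h1 := pr_restart ε N hN l _ m h.1
      have h2 := pr_restart ε N hN r _ m h.2
      linarith
    · rw [pr_node_no ε _ y l r hy, pr_node_no ε _ y l r hy]
      have h1 := pr_restart ε N hN l _ (m + 1) h.1
      have h2 := pr_restart ε N hN r _ (m + 1) h.2
      rw [show m + 1 + N = (m + N) + 1 by ring] at h1 h2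
      linarith

/-- the indicator of large jumps -/
noncomputable def ind (ε : ℝ) (t : ℝ) : ℝ := if ε ≤ t then 1 else 0

theorem ex_eq (ε : ℝ) : ∀ (τ : Tree X) (M : ℕ), dep τ ≤ M →
    ex (ind ε) τ = ∑ m ∈ range M, pr ε (m + 1) τ
  | Tree.leaf, M, h => by
    simp only [pr_leaf, sum_const_zero]
    rfl
  | Tree.node y l r, 0, h => by
    exact absurd h (by simp [dep])
  | Tree.node y l r, M + 1, h => by
    have hl : dep l ≤ M := by
      have : max (dep l) (dep r) + 1 ≤ M + 1 := h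
      omega
    have hr : dep r ≤ M := by
      have : max (dep l) (dep r) + 1 ≤ M + 1 := h
      omega
    show ind ε ‖y‖ + (ex (ind ε) l + ex (ind ε) r) / 2 = _
    by_cases hy : ε ≤ ‖y‖
    · rw [sum_range_succ']
      simp only [pr_node_jump ε _ y l r hy]
      rw [pr_zero, pr_zero, ex_eq ε l M hl, ex_eq ε r M hr, ← sum_div, sum_add_distrib, ind,
        if_pos hy]
      ring
    · simp only [pr_node_no ε _ y l r hy]
      rw [ex_eq ε l (M + 1) (by omega), ex_eq ε r (M + 1) (by omega), ← sum_div,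
        sum_add_distrib, ind, if_neg hy]
      ring

theorem ex_ind_le (ε : ℝ) (N : ℕ) (hN : ∀ (τ : Tree X) x, InB τ x → pr ε N τ ≤ 1 / 2)
    (τ : Tree X) (x : X) (h : InB τ x) : ex (ind ε) τ ≤ 2 * N := by
  have hN0 : 1 ≤ N := by
    rcases Nat.eq_zero_or_pos N with h0 | h0
    · have := hN τ x h
      rw [h0, pr_zero] at this
      norm_num at this
    · exact h0
  have key : ∀ k : ℕ, ∑ m ∈ range (k * N), pr ε (m + 1) τ ≤ 2 * N := by
    intro k
    induction k with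
    | zero => simp
    | succ k ih =>
      rw [show (k + 1) * N = N + k * N by ring, sum_range_add]
      have h1 : ∑ m ∈ range N, pr ε (m + 1) τ ≤ N := by
        calc ∑ m ∈ range N, pr ε (m + 1) τ ≤ ∑ m ∈ range N, (1 : ℝ) :=
              sum_le_sum (fun m _ => (pr_bd ε τ _).2)
          _ = N := by simp
      have h2 : ∑ m ∈ range (k * N), pr ε (N + m + 1) τ
          ≤ (∑ m ∈ range (k * N), pr ε (m + 1) τ) / 2 := by
        rw [sum_div]
        apply sum_le_sum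
        intro m _
        rw [show N + m + 1 = (m + 1) + N by ring]
        exact pr_restart ε N hN τ x (m + 1) h
      linarith
  rw [ex_eq ε τ (dep τ * N) (by nlinarith)]
  exact key _

/-- the function `U` and its modulus -/
theorem exists_U (hN : ∀ ε : ℝ, 0 < ε → ∃ N : ℕ, ∀ (τ : Tree X) (x : X), InB τ x →
    pr ε N τ ≤ 1 / 2) :
    ∃ (U : X → ℝ) (g : ℝ → ℝ), (∀ x, 0 ≤ U x) ∧ (∀ x, U x ≤ 1 / 4) ∧
      (∀ x, U (-x) = U x) ∧ (∀ t, 0 < t → 0 < g t) ∧ Monotone g ∧ (∀ t, 0 ≤ g t) ∧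
      (∀ a b : X, ‖a‖ ≤ 1 → ‖b‖ ≤ 1 →
        (U a + U b) / 2 + g (‖a - b‖ / 2) ≤ U ((1 / 2 : ℝ) • (a + b))) := by
  have hN' : ∀ k : ℕ, ∃ N : ℕ, ∀ (τ : Tree X) (x : X), InB τ x →
      pr ((1 / 2 : ℝ) ^ k) N τ ≤ 1 / 2 := fun k => hN _ (by positivity)
  choose Nk hNk using hN'
  obtain ⟨c, hc⟩ : ∃ c : ℕ → ℝ, ∀ k, c k = (1 / 2 : ℝ) ^ k / (16 * (Nk k + 1)) := ⟨_, fun _ => rfl⟩
  have hc0 : ∀ k, 0 < c k := fun k => by rw [hc]; positivity
  have hsum2 : HasSum (fun k : ℕ => (1 / 2 : ℝ) ^ k / 8) (2 / 8) := by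
    have := hasSum_geometric_two
    exact this.div_const 8
  have hcN : ∀ k, c k * (2 * Nk k) ≤ (1 / 2 : ℝ) ^ k / 8 := by
    intro k
    rw [hc, div_mul_eq_mul_div, div_le_div_iff₀ (by positivity) (by norm_num)]
    have : (0 : ℝ) ≤ (1 / 2) ^ k := by positivity
    nlinarith
  have hc1 : ∀ k, c k ≤ (1 / 2 : ℝ) ^ k / 8 := by
    intro k
    rw [hc]
    apply div_le_div_of_nonneg_left (by positivity) (by norm_num)
    have : (0 : ℝ) ≤ Nk k := by positivity
    linarith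
  have hcs : ∀ t : ℝ, Summable (fun k => c k * ind ((1 / 2 : ℝ) ^ k) t) := by
    intro t
    apply Summable.of_nonneg_of_le _ _ hsum2.summable
    · intro k
      unfold ind
      split_ifs
      · rw [mul_one]; exact (hc0 k).le
      · rw [mul_zero]
    · intro k
      unfold ind
      split_ifs
      · rw [mul_one]; exact hc1 k
      · rw [mul_zero]; positivity
  obtain ⟨g, hg⟩ : ∃ g : ℝ → ℝ, ∀ t, g t = ∑' k, c k * ind ((1 / 2 : ℝ) ^ k) t :=
    ⟨_, fun _ => rfl⟩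
  have hind0 : ∀ e t : ℝ, 0 ≤ ind e t := by
    intro e t
    unfold ind
    split_ifs <;> norm_num
  have hg0 : ∀ t, 0 ≤ g t := by
    intro t
    rw [hg]
    exact tsum_nonneg (fun k => mul_nonneg (hc0 k).le (hind0 _ _))
  have hex : ∀ τ : Tree X, HasSum (fun k => c k * ex (ind ((1 / 2 : ℝ) ^ k)) τ) (ex g τ) := by
    intro τ
    induction τ with
    | leaf =>
      have : (fun k => c k * ex (ind ((1 / 2 : ℝ) ^ k)) (Tree.leaf : Tree X)) = fun _ => 0 := by
        funext k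
        show c k * 0 = 0
        ring
      rw [this]
      exact hasSum_zero
    | node y l r ihl ihr =>
      have h1 : HasSum (fun k => c k * ind ((1 / 2 : ℝ) ^ k) ‖y‖) (g ‖y‖) := by
        rw [hg]
        exact (hcs _).hasSum
      have h2 := h1.add ((ihl.add ihr).div_const 2)
      have h3 : (fun k => c k * ex (ind ((1 / 2 : ℝ) ^ k)) (Tree.node y l r)) =
          fun k => c k * ind ((1 / 2 : ℝ) ^ k) ‖y‖ + (c k * ex (ind ((1 / 2 : ℝ) ^ k)) l
            + c k * ex (ind ((1 / 2 : ℝ) ^ k)) r) / 2 := by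
        funext k
        show c k * (ind ((1 / 2 : ℝ) ^ k) ‖y‖ + (ex (ind ((1 / 2 : ℝ) ^ k)) l
          + ex (ind ((1 / 2 : ℝ) ^ k)) r) / 2) = _
        ring
      rw [h3]
      exact h2
  have hbd : ∀ (τ : Tree X) (x : X), InB τ x → ex g τ ≤ 1 / 4 := by
    intro τ x h
    have h1 := hasSum_le (fun k => (mul_le_mul_of_nonneg_left
      (ex_ind_le ((1 / 2 : ℝ) ^ k) (Nk k) (hNk k) τ x h) (hc0 k).le).trans (hcN k)) (hex τ) hsum2
    linarith
  obtain ⟨U, hU⟩ : ∃ U : X → ℝ, ∀ x, U x = sSup {v | ∃ τ, InB τ x ∧ v = ex g τ} :=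
    ⟨_, fun _ => rfl⟩
  have hbdd : ∀ x : X, BddAbove {v | ∃ τ, InB τ x ∧ v = ex g τ} := fun x =>
    ⟨1 / 4, by rintro v ⟨τ, h, rfl⟩; exact hbd τ x h⟩
  refine ⟨U, g, ?_, ?_, ?_, ?_, ?_, hg0, ?_⟩
  · intro x
    rw [hU]
    exact Real.sSup_nonneg (by rintro v ⟨τ, h, rfl⟩; exact ex_nonneg g hg0 τ)
  · intro x
    rw [hU]
    exact Real.sSup_le (by rintro v ⟨τ, h, rfl⟩; exact hbd τ x h) (by norm_num)
  · intro x
    rw [hU, hU]
    congr 1
    ext v
    constructor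
    · rintro ⟨τ, h, rfl⟩
      refine ⟨ngt τ, ?_, (ex_neg g τ).symm⟩
      have := inB_neg τ _ h
      rwa [neg_neg] at this
    · rintro ⟨τ, h, rfl⟩
      exact ⟨ngt τ, inB_neg τ _ h, (ex_neg g τ).symm⟩
  · intro t ht
    rw [hg]
    obtain ⟨k, hk⟩ := exists_pow_lt_of_lt_one ht (by norm_num : (1 / 2 : ℝ) < 1)
    apply (hcs t).tsum_pos (fun k => mul_nonneg (hc0 k).le (hind0 _ _)) k
    unfold ind
    rw [if_pos hk.le, mul_one]
    exact hc0 k
  · intro s t hst
    rw [hg, hg]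
    apply (hcs s).tsum_le_tsum _ (hcs t)
    intro k
    apply mul_le_mul_of_nonneg_left _ (hc0 k).le
    unfold ind
    split_ifs with h1 h2
    · exact le_rfl
    · exact absurd (h1.trans hst) h2
    · norm_num
    · exact le_rfl
  · intro a b ha hb
    have hx1 : (1 / 2 : ℝ) • (a + b) + (1 / 2 : ℝ) • (a - b) = a := by
      rw [← smul_add, add_add_sub_cancel, ← two_smul ℝ a, smul_smul]
      norm_num
    have hx2 : (1 / 2 : ℝ) • (a + b) - (1 / 2 : ℝ) • (a - b) = b := by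
      rw [← smul_sub, add_sub_sub_cancel, ← two_smul ℝ b, smul_smul]
      norm_num
    have hy : ‖(1 / 2 : ℝ) • (a - b)‖ = ‖a - b‖ / 2 := by
      rw [norm_smul, Real.norm_of_nonneg (by norm_num : (0 : ℝ) ≤ 1 / 2)]
      ring
    have key : ∀ l r : Tree X, InB l a → InB r b →
        g (‖a - b‖ / 2) + (ex g l + ex g r) / 2 ≤ U ((1 / 2 : ℝ) • (a + b)) := by
      intro l r hl hr
      rw [hU]
      apply le_csSup (hbdd _)
      refine ⟨Tree.node ((1 / 2 : ℝ) • (a - b)) l r, ⟨?_, ?_⟩, ?_⟩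
      · rw [hx1]; exact hl
      · rw [hx2]; exact hr
      · show _ = g ‖(1 / 2 : ℝ) • (a - b)‖ + (ex g l + ex g r) / 2
        rw [hy]
    have h1 : ∀ r : Tree X, InB r b →
        U a ≤ 2 * (U ((1 / 2 : ℝ) • (a + b)) - g (‖a - b‖ / 2)) - ex g r := by
      intro r hr
      rw [hU a]
      apply csSup_le (⟨ex g Tree.leaf, Tree.leaf, ha, rfl⟩ :
        {v | ∃ τ, InB τ a ∧ v = ex g τ}.Nonempty)
      rintro v ⟨l, hl, rfl⟩
      have := key l r hl hr
      linarith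
    have h2 : U b ≤ 2 * (U ((1 / 2 : ℝ) • (a + b)) - g (‖a - b‖ / 2)) - U a := by
      rw [hU b]
      apply csSup_le (⟨ex g Tree.leaf, Tree.leaf, hb, rfl⟩ :
        {v | ∃ τ, InB τ b ∧ v = ex g τ}.Nonempty)
      rintro v ⟨r, hr, rfl⟩
      have := h1 r hr
      linarith
    linarith

end P125F.TU24
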