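import Vale.Agent.P125F.Defs

/-! # Transfer of James systems to a space in the lowest universe -/

namespace P125F
open Finset P125S

theorem transfer2 {X : Type*} [NormedAddCommGroup X] [NormedSpace ℝ X] {θ : ℝ}
    (x : ∀ N, Fin N → X) (f : ∀ N, Fin N → (X →L[ℝ] ℝ)) (hx : ∀ N j, ‖x N j‖ ≤ 1)
    (hf : ∀ N i, ‖f N i‖ ≤ 1) (hxf : ∀ N i j, f N i (x N j) = if i ≤ j then θ else 0) :
    ∃ (Y : Type) (_ : NormedAddCommGroup Y) (_ : NormedSpace ℝ Y) (_ : Y →ₗᵢ[ℝ] X),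
      ∀ N, HasJames Y θ N := by
  classical
  let ι : Type := Σ N : ℕ, Fin N
  let T : (ι →₀ ℝ) →ₗ[ℝ] X := Finsupp.linearCombination ℝ (fun i : ι => x i.1 i.2)
  let Y : Type := (ι →₀ ℝ) ⧸ LinearMap.ker T
  let j : Y →ₗ[ℝ] X := (LinearMap.ker T).liftQ T le_rfl
  have hj : Function.Injective j :=
    LinearMap.ker_eq_bot.mp (Submodule.ker_liftQ_eq_bot _ _ _ le_rfl)
  letI i1 : NormedAddCommGroup Y := NormedAddCommGroup.induced Y X j hj
  letI i2 : NormedSpace ℝ Y := NormedSpace.induced ℝ Y X j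
  let J : Y →ₗᵢ[ℝ] X := ⟨j, fun y => rfl⟩
  refine ⟨Y, i1, i2, J, fun N => ?_⟩
  have hmk : ∀ k : Fin N, J (Submodule.Quotient.mk (Finsupp.single (⟨N, k⟩ : ι) 1)) = x N k := by
    intro k
    change T (Finsupp.single (⟨N, k⟩ : ι) 1) = _
    rw [Finsupp.linearCombination_single, one_smul]
  refine ⟨fun k => Submodule.Quotient.mk (Finsupp.single (⟨N, k⟩ : ι) 1),
    fun i => (f N i).comp J.toContinuousLinearMap, ?_, ?_, ?_⟩
  · intro k
    rw [← J.norm_map, hmk]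
    exact hx N k
  · intro i
    refine (ContinuousLinearMap.opNorm_comp_le _ _).trans ?_
    calc ‖f N i‖ * ‖J.toContinuousLinearMap‖ ≤ 1 * 1 :=
          mul_le_mul (hf N i) J.norm_toContinuousLinearMap_le (norm_nonneg _) zero_le_one
      _ = 1 := one_mul 1
  · intro i k
    rw [ContinuousLinearMap.comp_apply]
    change f N i (J _) = _
    rw [hmk]
    exact hxf N i k

end P125F
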