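import Vale.Agent.P125F.Comb9
import Vale.Agent.P125F.Merge25

/-! # the increment vectors: prefix sums and norms -/

namespace P125F

open Finset Comb9
open scoped Classical

/-- position of the `l`-th kept label -/
def posn (d : ℕ) (s : Bool) (j l : ℕ) : ℕ :=
  if s = true then (if l % 2 = 0 then Pp d (l / 2 + 1) j else Qp d (l / 2 + 1) j)
  else (if l % 2 = 0 then Qp d (l / 2) j else Pp d (l / 2 + 1) j)

theorem posn_strict {d : ℕ} (hd : 1 ≤ d) (s : Bool) (j : ℕ) : StrictMono (posn d s j) := by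
  apply strictMono_nat_of_lt_succ
  intro l
  rcases Nat.even_or_odd' l with ⟨i, rfl | rfl⟩
  · have e1 : 2 * i % 2 = 0 := by omega
    have e2 : ¬ (2 * i + 1) % 2 = 0 := by omega
    have e3 : 2 * i / 2 = i := by omega
    have e4 : (2 * i + 1) / 2 = i := by omega
    have h1 : (i + 1) * (2 * d) = i * (2 * d) + 2 * d := by ring
    unfold posn
    cases s <;> simp only [e1, e2, e3, e4, if_true, if_false, Pp, Qp, reduceCtorEq] <;> omega
  · have e1 : ¬ (2 * i + 1) % 2 = 0 := by omega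
    have e2 : (2 * i + 1 + 1) % 2 = 0 := by omega
    have e3 : (2 * i + 1) / 2 = i := by omega
    have e4 : (2 * i + 1 + 1) / 2 = i + 1 := by omega
    have h1 : (i + 1) * (2 * d) = i * (2 * d) + 2 * d := by ring
    have h2 : (i + 1 + 1) * (2 * d) = i * (2 * d) + 2 * d + 2 * d := by ring
    unfold posn
    cases s <;> simp only [e1, e2, e3, e4, if_true, if_false, Pp, Qp, reduceCtorEq] <;> omega

theorem posn_lt {d M : ℕ} (s : Bool) {j : ℕ} (hj : j < d) {l : ℕ} (hl : l < 2 * M) :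
    posn d s j l < (M + 1) * (2 * d) := by
  have h1 : l / 2 + 1 ≤ M := by omega
  have h2 : l / 2 ≤ M := by omega
  unfold posn
  split_ifs
  · exact ltP h1 hj
  · exact ltQ h1 hj
  · exact ltQ h2 hj
  · exact ltP h1 hj

/-- the sign of a move -/
def sgn29 (s : Bool) : ℤ := if s = true then 1 else -1

/-- the increment vector with the labels `lab` -/
noncomputable def gv (D M : ℕ) (s : Bool) (lab : ℕ → ℕ) : Fin D → ℤ :=
  fun c => ∑ l ∈ range (2 * M), if lab l = (c : ℕ) then sgn29 s * (-1) ^ l else 0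

/-- prefix sums -/
noncomputable def PP {D : ℕ} (v : Fin D → ℤ) (z : ℕ) : ℤ :=
  ∑ c : Fin D, if (c : ℕ) ≤ z then v c else 0

theorem PP_add {D : ℕ} (v w : Fin D → ℤ) (z : ℕ) : PP (v + w) z = PP v z + PP w z := by
  unfold PP
  rw [← sum_add_distrib]
  refine sum_congr rfl fun c _ => ?_
  split_ifs <;> simp

theorem sum_fin_ite {D : ℕ} (n : ℕ) (hn : n < D) (f : ℕ → ℤ) :
    ∑ c : Fin D, (if n = (c : ℕ) then f c else 0) = f n := by
  rw [Finset.sum_eq_single (⟨n, hn⟩ : Fin D)]
  · simp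
  · intro b _ hb
    rw [if_neg]
    intro h
    exact hb (Fin.ext h.symm)
  · simp

theorem PP_gv {D M : ℕ} (s : Bool) (lab : ℕ → ℕ) (hlab : ∀ l < 2 * M, lab l < D) (z : ℕ) :
    PP (gv D M s lab) z = sgn29 s * ∑ l ∈ range (2 * M), (if lab l ≤ z then (-1 : ℤ) ^ l else 0) := by
  unfold PP gv
  have h1 : ∀ c : Fin D, (if (c : ℕ) ≤ z then
      (∑ l ∈ range (2 * M), if lab l = (c : ℕ) then sgn29 s * (-1) ^ l else 0) else 0)
      = ∑ l ∈ range (2 * M), (if lab l = (c : ℕ) then
          (if (c : ℕ) ≤ z then sgn29 s * (-1) ^ l else 0) else 0) := by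
    intro c
    split_ifs with h
    · refine sum_congr rfl fun l _ => ?_
      split_ifs <;> rfl
    · symm
      apply sum_eq_zero
      intro l _
      split_ifs <;> rfl
  simp_rw [h1]
  rw [sum_comm, mul_sum]
  refine sum_congr rfl fun l hl => ?_
  rw [sum_fin_ite (lab l) (hlab l (mem_range.1 hl)) (fun c => if c ≤ z then sgn29 s * (-1) ^ l else 0)]
  split_ifs <;> simp

theorem sum_gv {D M : ℕ} (s : Bool) (lab : ℕ → ℕ) (hlab : ∀ l < 2 * M, lab l < D) :
    ∑ c, gv D M s lab c = 0 := by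
  unfold gv
  rw [sum_comm]
  have h1 : ∀ l ∈ range (2 * M), ∑ c : Fin D, (if lab l = (c : ℕ) then sgn29 s * (-1) ^ l else 0)
      = sgn29 s * (-1) ^ l := by
    intro l hl
    exact sum_fin_ite (lab l) (hlab l (mem_range.1 hl)) (fun _ => sgn29 s * (-1) ^ l)
  rw [sum_congr rfl h1, ← mul_sum]
  have h2 : ∀ M : ℕ, ∑ l ∈ range (2 * M), (-1 : ℤ) ^ l = 0 := by
    intro M
    induction M with
    | zero => simp
    | succ M ih =>
      have : 2 * (M + 1) = 2 * M + 1 + 1 := by ring
      rw [this, sum_range_succ, sum_range_succ, ih, pow_succ]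
      ring
  rw [h2, mul_zero]

theorem arcs29 (lab : ℕ → ℕ) (M : ℕ) (h : ∀ a b, a < b → b < 2 * M → lab a < lab b) (z : ℕ) :
    ∑ l ∈ range (2 * M), (if lab l ≤ z then (-1 : ℤ) ^ l else 0)
      = if ∃ i, i < M ∧ lab (2 * i) ≤ z ∧ z < lab (2 * i + 1) then 1 else 0 := by
  induction M with
  | zero => simp
  | succ M ih =>
    have ih' := ih (fun a b hab hb => h a b hab (by omega))
    have e : 2 * (M + 1) = 2 * M + 1 + 1 := by ring
    rw [e, sum_range_succ, sum_range_succ, ih']
    have e1 : (-1 : ℤ) ^ (2 * M) = 1 := by rw [pow_mul]; norm_num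
    have e2 : (-1 : ℤ) ^ (2 * M + 1) = -1 := by rw [pow_succ, e1]; norm_num
    rw [e1, e2]
    have h0 : lab (2 * M) < lab (2 * M + 1) := h _ _ (by omega) (by omega)
    by_cases hz : lab (2 * M) ≤ z
    · have h1 : ¬ ∃ i, i < M ∧ lab (2 * i) ≤ z ∧ z < lab (2 * i + 1) := by
        rintro ⟨i, hi, _, hi2⟩
        have := h (2 * i + 1) (2 * M) (by omega) (by omega)
        omega
      rw [if_neg h1, if_pos hz]
      by_cases hz2 : lab (2 * M + 1) ≤ z
      · have h3 : ¬ ∃ i, i < M + 1 ∧ lab (2 * i) ≤ z ∧ z < lab (2 * i + 1) := by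
          rintro ⟨i, hi, hi1, hi2⟩
          rcases Nat.lt_or_ge i M with h4 | h4
          · exact h1 ⟨i, h4, hi1, hi2⟩
          · have : i = M := by omega
            subst this
            omega
        rw [if_pos hz2, if_neg h3]
        norm_num
      · have h3 : ∃ i, i < M + 1 ∧ lab (2 * i) ≤ z ∧ z < lab (2 * i + 1) :=
          ⟨M, by omega, hz, by omega⟩
        rw [if_neg hz2, if_pos h3]
        norm_num
    · have hz2 : ¬ lab (2 * M + 1) ≤ z := by omega
      rw [if_neg hz, if_neg hz2]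
      have h3 : (∃ i, i < M + 1 ∧ lab (2 * i) ≤ z ∧ z < lab (2 * i + 1))
          ↔ ∃ i, i < M ∧ lab (2 * i) ≤ z ∧ z < lab (2 * i + 1) := by
        constructor
        · rintro ⟨i, hi, hi1, hi2⟩
          rcases Nat.lt_or_ge i M with h4 | h4
          · exact ⟨i, h4, hi1, hi2⟩
          · have : i = M := by omega
            subst this
            omega
        · rintro ⟨i, hi, hi1, hi2⟩
          exact ⟨i, by omega, hi1, hi2⟩
      simp only [h3, add_zero]

theorem PP_gfun {D d M : ℕ} (Ψ : ℕ → ℕ) (hΨ : Incr d M Ψ) (s : Bool) {j : ℕ} (hj : j < d)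
    (hlab : ∀ l < 2 * M, Ψ (posn d s j l) < D) (z : ℕ) :
    PP (gv D M s (fun l => Ψ (posn d s j l))) z = gfun d M Ψ s j z := by
  rw [PP_gv s _ hlab, arcs29 _ M]
  · unfold gfun sgn29
    have e1 : ∀ i, 2 * i % 2 = 0 := fun i => by omega
    have e2 : ∀ i, ¬ (2 * i + 1) % 2 = 0 := fun i => by omega
    have e3 : ∀ i, 2 * i / 2 = i := fun i => by omega
    have e4 : ∀ i, (2 * i + 1) / 2 = i := fun i => by omega
    cases s
    · have h1 : (∃ i, i < M ∧ Ψ (posn d false j (2 * i)) ≤ z ∧ z < Ψ (posn d false j (2 * i + 1)))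
          ↔ ∃ i, 1 ≤ i ∧ i ≤ M ∧ Ψ (Qp d (i - 1) j) ≤ z ∧ z < Ψ (Pp d i j) := by
        constructor
        · rintro ⟨i, hi, h1, h2⟩
          refine ⟨i + 1, by omega, by omega, ?_, ?_⟩
          · simpa [posn, e1, e3] using h1
          · simpa [posn, e2, e4] using h2
        · rintro ⟨i, hi0, hi, h1, h2⟩
          obtain ⟨k, rfl⟩ : ∃ k, i = k + 1 := ⟨i - 1, by omega⟩
          refine ⟨k, by omega, ?_, ?_⟩
          · simpa [posn, e1, e3] using h1
          · simpa [posn, e2, e4] using h2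
      simp only [h1]
      simp
    · have h1 : (∃ i, i < M ∧ Ψ (posn d true j (2 * i)) ≤ z ∧ z < Ψ (posn d true j (2 * i + 1)))
          ↔ ∃ i, 1 ≤ i ∧ i ≤ M ∧ Ψ (Pp d i j) ≤ z ∧ z < Ψ (Qp d i j) := by
        constructor
        · rintro ⟨i, hi, h1, h2⟩
          refine ⟨i + 1, by omega, by omega, ?_, ?_⟩
          · simpa [posn, e1, e3] using h1
          · simpa [posn, e2, e4] using h2
        · rintro ⟨i, hi0, hi, h1, h2⟩
          obtain ⟨k, rfl⟩ : ∃ k, i = k + 1 := ⟨i - 1, by omega⟩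
          refine ⟨k, by omega, ?_, ?_⟩
          · simpa [posn, e1, e3] using h1
          · simpa [posn, e2, e4] using h2
      simp only [h1]
      simp
  · intro a b hab hb
    exact hΨ _ _ (posn_strict (by omega) s j hab) (posn_lt s hj hb)

/-- the finitely supported function of an integer vector -/
noncomputable def toF {D : ℕ} (v : Fin D → ℤ) : ℕ →₀ ℝ :=
  ∑ i : Fin D, Finsupp.single (i : ℕ) ((v i : ℤ) : ℝ)

theorem toF_add {D : ℕ} (v w : Fin D → ℤ) : toF (v + w) = toF v + toF w := by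
  unfold toF
  rw [← sum_add_distrib]
  refine sum_congr rfl fun i _ => ?_
  rw [← Finsupp.single_add]
  simp

theorem toF_sub {D : ℕ} (v w : Fin D → ℤ) : toF (v - w) = toF v - toF w := by
  unfold toF
  rw [← sum_sub_distrib]
  refine sum_congr rfl fun i _ => ?_
  rw [← Finsupp.single_sub]
  simp

theorem toF_zero {D : ℕ} : toF (0 : Fin D → ℤ) = 0 := by
  simp [toF]

theorem toF_apply {D : ℕ} (v : Fin D → ℤ) (c : Fin D) : toF v (c : ℕ) = v c := by
  unfold toF
  rw [Finsupp.finset_sum_apply, Finset.sum_eq_single c]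
  · simp
  · intro b _ hb
    rw [Finsupp.single_apply, if_neg]
    intro h
    exact hb (Fin.ext h)
  · simp

theorem toF_apply_ge {D : ℕ} (v : Fin D → ℤ) (k : ℕ) (hk : D ≤ k) : toF v k = 0 := by
  unfold toF
  rw [Finsupp.finset_sum_apply]
  apply sum_eq_zero
  intro i _
  rw [Finsupp.single_apply, if_neg]
  have := i.2
  omega

theorem pre_toF {D : ℕ} (v : Fin D → ℤ) (z : ℕ) : pre (toF v) z = ((PP v z : ℤ) : ℝ) := by
  unfold pre PP
  have h1 : ∑ x ∈ (toF v).support.filter (fun x => x ≤ z), toF v x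
      = ∑ x ∈ (range D).filter (fun x => x ≤ z), toF v x := by
    apply sum_subset
    · intro x hx
      rw [mem_filter] at hx ⊢
      refine ⟨?_, hx.2⟩
      rw [mem_range]
      by_contra h
      exact (Finsupp.mem_support_iff.1 hx.1) (toF_apply_ge v x (by omega))
    · intro x hx hx2
      rw [mem_filter] at hx hx2
      by_contra h
      exact hx2 ⟨Finsupp.mem_support_iff.2 h, hx.2⟩
  rw [h1, sum_filter, Finset.sum_range]
  push_cast
  refine sum_congr rfl fun c _ => ?_
  rw [toF_apply]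

theorem total_toF {D : ℕ} (v : Fin D → ℤ) :
    ∑ x ∈ (toF v).support, toF v x = ((∑ c, v c : ℤ) : ℝ) := by
  have h1 : ∑ x ∈ (toF v).support, toF v x = ∑ x ∈ range D, toF v x := by
    apply sum_subset
    · intro x hx
      rw [mem_range]
      by_contra h
      exact (Finsupp.mem_support_iff.1 hx) (toF_apply_ge v x (by omega))
    · intro x _ hx2
      by_contra h
      exact hx2 (Finsupp.mem_support_iff.2 h)
  rw [h1, Finset.sum_range]
  push_cast
  refine sum_congr rfl fun c _ => ?_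
  rw [toF_apply]

theorem toF_gv {D M : ℕ} (s : Bool) (lab : ℕ → ℕ) (hlab : ∀ l < 2 * M, lab l < D) :
    toF (gv D M s lab) = ((sgn29 s : ℤ) : ℝ) •
      ∑ l ∈ range (2 * M), Finsupp.single (lab l) ((-1 : ℝ) ^ l) := by
  ext k
  rw [Finsupp.smul_apply, Finsupp.finset_sum_apply]
  rcases Nat.lt_or_ge k D with hk | hk
  · have := toF_apply (gv D M s lab) ⟨k, hk⟩
    simp only at this
    rw [this, gv]
    push_cast
    rw [smul_eq_mul, mul_sum]
    refine sum_congr rfl fun l _ => ?_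
    rw [Finsupp.single_apply]
    split_ifs <;> simp
  · rw [toF_apply_ge _ _ hk]
    symm
    rw [sum_eq_zero]
    · simp
    · intro l hl
      rw [Finsupp.single_apply, if_neg]
      have := hlab l (mem_range.1 hl)
      omega

theorem N_gv (N : Seminorm ℝ (ℕ →₀ ℝ))
    (hM : ∀ g : ℕ → ℕ, Monotone g → ∀ v, N (Finsupp.mapDomain g v) ≤ N v)
    {D M : ℕ} (s : Bool) (lab : ℕ → ℕ) (hlab : ∀ l < 2 * M, lab l < D)
    (hinc : ∀ a b, a < b → b < 2 * M → lab a < lab b) :
    N (toF (gv D M s lab)) ≤ N (altv M) := by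
  rw [toF_gv s lab hlab, map_smul_eq_mul]
  have h1 : ‖((sgn29 s : ℤ) : ℝ)‖ = 1 := by
    unfold sgn29
    split_ifs <;> simp
  rw [h1, one_mul]
  rcases Nat.eq_zero_or_pos M with h0 | h0
  · subst h0
    simp
  have h2 : ∑ l ∈ range (2 * M), Finsupp.single (lab l) ((-1 : ℝ) ^ l)
      = Finsupp.mapDomain (fun l => lab (min l (2 * M - 1))) (altv M) := by
    rw [m25_map_altv]
    refine sum_congr rfl fun l hl => ?_
    have := mem_range.1 hl
    have e : min l (2 * M - 1) = l := by omega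
    rw [e]
  rw [h2]
  apply hM
  intro a b hab
  show lab (min a (2 * M - 1)) ≤ lab (min b (2 * M - 1))
  rcases Nat.lt_or_ge (min a (2 * M - 1)) (min b (2 * M - 1)) with h3 | h3
  · exact (hinc _ _ h3 (by omega)).le
  · have : min a (2 * M - 1) = min b (2 * M - 1) := by omega
    rw [this]

end P125F
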