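import Vale.Agent.P125F.A1_helper5
import Vale.Agent.P125F.GV_helper14
import Vale.Agent.P125F.B_helper25
import Vale.Agent.P125F.B0_helper18
import Vale.Agent.P125F.LAB_helper3
import Vale.Agent.P125F.FIN_helper18
import Vale.Agent.P125F.JC_helper22
import Vale.Agent.P125F.PW_helper23
import Vale.Agent.P125F.Cmb28
import Vale.Agent.P125F.CH_helper26

/-! # Assembly of `main` with A2 as the only hypothesis -/

namespace P125F
open Finset P125S

theorem main26
    (hA2 : ∀ {S : List ℝ → ℝ} {θ : ℝ} (_ : 0 < θ) (_ : Spr S θ),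
      ∃ N : List ℤ → ℝ, Sem N θ ∧ ∀ (A : Finset (List ℤ)) (δ : ℝ), 0 < δ →
        ∃ L : ℕ, 0 < L ∧ ∀ l ∈ A, |S (blow L l) - N l| ≤ δ)
    {X : Type} [NormedAddCommGroup X] [NormedSpace ℝ X] {p K : ℝ} (hp : 1 < p)
    (hK : 0 < K) (hX : MarkovType X p K) {θ : ℝ} (hθ : 0 < θ) : ¬ ∀ N, HasJames X θ N := by
  intro hJ
  refine fin18 hp hK hθ
    (good_vectors14 (spread5 hθ hJ) (fun S hS => hA2 hθ hS))
    (fun N hN n m M hm hM l hl => good_low_helper25 hN n m M hm hM l hl)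
    (fun N hN M m t => alt_pattern18 hN M m t) ?_
  intro n M hn hM
  obtain ⟨m, hm⟩ := chain_ineq_of
    (fun d M hd {ε} hε => jc_helper22 d M hd hε)
    (fun {V} _ d hd {ε} hε L h1 h2 n => pw_nb d hd hε L h1 h2 n)
    (fun d M m n hn hM ω η hc hb => cmb28 d M m n hn hM ω η hc hb)
    (fun {X} _ _ {p K} hp _ hX {V E} _ _ _ _ L {m} g hg y n hn =>
      lab_ineq_helper3 hp hX L g hg y n hn) n M hn hM
  exact ⟨m, fun y A B hA hB h1 h2 => hm X p K (by linarith) hK hX y A B hA hB h1 h2⟩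

end P125F
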